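import Mathlib

/-!
`ell x = log (1 + x) / x` (with `ell 0 = 1`): smoothness on `(-1, ∞)` and the primitive identity
`d/dr [r * ell (τ r)] = 1 / (1 + τ r)`.  (helper35, auxiliary file for S0316.)
-/

set_option autoImplicit false

namespace Crest.Agent.S0316Aux

open Set Filter Topology

/-- `ell x = log (1 + x) / x`, `ell 0 = 1`. -/
noncomputable def ell : ℝ → ℝ := dslope (fun x : ℝ => Real.log (1 + x)) 0

lemma hasDerivAt_log_one_add {x : ℝ} (hx : -1 < x) :
    HasDerivAt (fun x : ℝ => Real.log (1 + x)) (1 / (1 + x)) x := by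
  have h1 : HasDerivAt (fun x : ℝ => 1 + x) 1 x := by
    simpa using (hasDerivAt_id x).const_add 1
  have := h1.log (by linarith : (1 + x) ≠ 0)
  simpa using this

lemma ell_zero : ell 0 = 1 := by
  unfold ell
  rw [dslope_same]
  have := (hasDerivAt_log_one_add (x := 0) (by norm_num)).deriv
  simpa using this

lemma ell_of_ne {x : ℝ} (hx : x ≠ 0) : ell x = Real.log (1 + x) / x := by
  unfold ell
  rw [dslope_of_ne _ hx, slope_def_field]
  simp

lemma analyticAt_log_one_add {x : ℝ} (hx : -1 < x) :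
    AnalyticAt ℝ (fun x : ℝ => Real.log (1 + x)) x := by
  have h1 : AnalyticAt ℝ (fun x : ℝ => 1 + x) x := analyticAt_const.add analyticAt_id
  exact h1.log (by linarith)

lemma analyticAt_ell {x : ℝ} (hx : -1 < x) : AnalyticAt ℝ ell x := by
  by_cases h0 : x = 0
  · subst h0
    obtain ⟨p, hp⟩ := analyticAt_log_one_add (x := 0) (by norm_num)
    exact ⟨_, hp.has_fpower_series_dslope_fslope⟩
  · have h1 : AnalyticAt ℝ (fun x : ℝ => Real.log (1 + x) / x) x :=
      (analyticAt_log_one_add hx).div analyticAt_id h0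
    refine h1.congr ?_
    filter_upwards [isOpen_ne.mem_nhds h0] with y hy
    exact (ell_of_ne hy).symm

lemma contDiffAt_ell {n : WithTop ℕ∞} {x : ℝ} (hx : -1 < x) : ContDiffAt ℝ n ell x :=
  (analyticAt_ell hx).contDiffAt

lemma ell_contDiffOn {n : WithTop ℕ∞} : ContDiffOn ℝ n ell (Ioi (-1)) :=
  fun _ hx => (contDiffAt_ell hx).contDiffWithinAt

/-- Composition with a smooth function with values `> -1`. -/
lemma contDiff_ell_comp' {E : Type*} [NormedAddCommGroup E] [NormedSpace ℝ E] {n : WithTop ℕ∞}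
    {s : E → ℝ} (hs : ContDiff ℝ n s) (h0 : ∀ x, -1 < s x) :
    ContDiff ℝ n (fun x => ell (s x)) := by
  rw [contDiff_iff_contDiffAt]
  intro x
  exact (contDiffAt_ell (h0 x)).comp x hs.contDiffAt

/-- Composition with a smooth nonnegative function. -/
lemma contDiff_ell_comp {E : Type*} [NormedAddCommGroup E] [NormedSpace ℝ E] {n : WithTop ℕ∞}
    {s : E → ℝ} (hs : ContDiff ℝ n s) (h0 : ∀ x, 0 ≤ s x) :
    ContDiff ℝ n (fun x => ell (s x)) :=
  contDiff_ell_comp' hs (fun x => by linarith [h0 x])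

lemma mul_ell {τ r : ℝ} (hτ : τ ≠ 0) : r * ell (τ * r) = Real.log (1 + τ * r) / τ := by
  by_cases hr : r = 0
  · subst hr; simp
  · rw [ell_of_ne (mul_ne_zero hτ hr)]
    field_simp

/-- `d/dr [r * ell (τ r)] = 1 / (1 + τ r)`. -/
lemma hasDerivAt_mul_ell' {τ r : ℝ} (h : -1 < τ * r) :
    HasDerivAt (fun r : ℝ => r * ell (τ * r)) (1 / (1 + τ * r)) r := by
  by_cases hτ : τ = 0
  · subst hτ
    simp only [zero_mul, ell_zero, mul_one, add_zero, div_one]
    exact hasDerivAt_id r
  · have h1 : (fun r : ℝ => r * ell (τ * r)) = fun r : ℝ => Real.log (1 + τ * r) / τ := by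
      funext r; exact mul_ell hτ
    rw [h1]
    have h2 : HasDerivAt (fun r : ℝ => τ * r) τ r := by
      simpa using (hasDerivAt_id r).const_mul τ
    have h3 := (hasDerivAt_log_one_add h).comp r h2
    have h4 := h3.div_const τ
    have e : 1 / (1 + τ * r) * τ / τ = 1 / (1 + τ * r) := by field_simp
    rw [e] at h4
    exact h4

lemma hasDerivAt_mul_ell {τ r : ℝ} (hτ : 0 ≤ τ) (hr : 0 ≤ r) :
    HasDerivAt (fun r : ℝ => r * ell (τ * r)) (1 / (1 + τ * r)) r :=
  hasDerivAt_mul_ell' (by have := mul_nonneg hτ hr; linarith)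

end Crest.Agent.S0316Aux
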