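import Mathlib
import Crest.Prelude.Def_QuadricHamiltonian
import Crest.Agent.S0316Aux.H35_Ell

/-!
helper82: the Cayley–Casimir twist of `so(E)`, `E = range P` for an arbitrary real orthogonal
projector `P` of `ℂ⁵`, as a `HamiltonianConeLift` (closed form, no matrices).
-/

set_option autoImplicit false

open Crest.GeometryTopology.Quadric

namespace Crest.Agent.S0316Aux.H82

noncomputable section

open Complex

/-- bilinear dot product -/
def dot (a b : Fin 5 → ℂ) : ℂ := ∑ j, a j * b j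

/-- coordinatewise conjugate -/
def cj (a : Fin 5 → ℂ) : Fin 5 → ℂ := fun j => starRingEnd ℂ (a j)

lemma herm_eq_dot (a b : Fin 5 → ℂ) : herm a b = dot (cj a) b := rfl

lemma dot_comm (a b : Fin 5 → ℂ) : dot a b = dot b a := by
  unfold dot; exact Finset.sum_congr rfl (fun j _ => mul_comm _ _)

lemma dot_add_left (a b c : Fin 5 → ℂ) : dot (a + b) c = dot a c + dot b c := by
  unfold dot; rw [← Finset.sum_add_distrib]
  exact Finset.sum_congr rfl (fun j _ => by simp [add_mul])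

lemma dot_add_right (a b c : Fin 5 → ℂ) : dot a (b + c) = dot a b + dot a c := by
  rw [dot_comm, dot_add_left, dot_comm b, dot_comm c]

lemma dot_smul_left (k : ℂ) (a b : Fin 5 → ℂ) : dot (k • a) b = k * dot a b := by
  unfold dot; rw [Finset.mul_sum]
  exact Finset.sum_congr rfl (fun j _ => by simp [mul_assoc])

lemma dot_smul_right (k : ℂ) (a b : Fin 5 → ℂ) : dot a (k • b) = k * dot a b := by
  rw [dot_comm, dot_smul_left, dot_comm]

lemma cj_add (a b : Fin 5 → ℂ) : cj (a + b) = cj a + cj b := by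
  funext j; simp [cj]

lemma cj_smul (k : ℂ) (a : Fin 5 → ℂ) : cj (k • a) = starRingEnd ℂ k • cj a := by
  funext j; simp [cj]

lemma cj_cj (a : Fin 5 → ℂ) : cj (cj a) = a := by
  funext j; simp [cj]

lemma dot_cj_cj (a b : Fin 5 → ℂ) : dot (cj a) (cj b) = starRingEnd ℂ (dot a b) := by
  unfold dot cj; simp [map_sum]

/-- a real orthogonal projector of `ℂ⁵`. -/
structure IsRealProj (P : (Fin 5 → ℂ) →ₗ[ℂ] (Fin 5 → ℂ)) : Prop where
  idem : ∀ a, P (P a) = P a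
  symm : ∀ a b, dot (P a) b = dot a (P b)
  real : ∀ a, P (cj a) = cj (P a)

variable (P : (Fin 5 → ℂ) →ₗ[ℂ] (Fin 5 → ℂ))

/-- `N = |P z|²`. -/
def NN (z : Fin 5 → ℂ) : ℝ := (dot (cj (P z)) (P z)).re
/-- `Q = P z · P z`. -/
def QQ (z : Fin 5 → ℂ) : ℂ := dot (P z) (P z)
/-- `w = N² - |Q|² = 4 |x ∧ y|²`. -/
def ww (z : Fin 5 → ℂ) : ℝ := NN P z ^ 2 - Complex.normSq (QQ P z)

lemma dot_cj_self (a : Fin 5 → ℂ) : dot (cj a) a = (((dot (cj a) a).re : ℝ) : ℂ) := by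
  apply Complex.ext
  · simp
  · simp only [dot, cj, Complex.im_sum, Complex.ofReal_im]
    apply Finset.sum_eq_zero
    intro j _
    simp [Complex.mul_im]; ring

lemma dot_cj_self_re (a : Fin 5 → ℂ) : (dot (cj a) a).re = ∑ j, ‖a j‖ ^ 2 := by
  simp only [dot, cj, Complex.re_sum]
  apply Finset.sum_congr rfl
  intro j _
  rw [← Complex.normSq_eq_norm_sq, Complex.normSq_apply]
  simp [Complex.mul_re]

lemma NN_cast (z : Fin 5 → ℂ) : dot (cj (P z)) (P z) = (NN P z : ℂ) := dot_cj_self _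

lemma NN_nonneg (z : Fin 5 → ℂ) : 0 ≤ NN P z := by
  unfold NN; rw [dot_cj_self_re]; positivity

lemma norm_QQ_le (z : Fin 5 → ℂ) : ‖QQ P z‖ ≤ NN P z := by
  unfold NN QQ; rw [dot_cj_self_re]
  unfold dot
  refine (norm_sum_le _ _).trans (le_of_eq ?_)
  apply Finset.sum_congr rfl
  intro j _
  rw [norm_mul, sq]

lemma ww_nonneg (z : Fin 5 → ℂ) : 0 ≤ ww P z := by
  unfold ww
  rw [Complex.normSq_eq_norm_sq]
  have h1 := norm_QQ_le P z
  have h2 := norm_nonneg (QQ P z)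
  nlinarith

lemma QQ_mul_conj (z : Fin 5 → ℂ) :
    QQ P z * starRingEnd ℂ (QQ P z) = (NN P z : ℂ) ^ 2 - (ww P z : ℂ) := by
  rw [Complex.mul_conj]; unfold ww; push_cast; ring


/-! ### scalar identities -/

/-- coefficient of `ζ` -/
def ca (τ N w : ℝ) : ℂ := (-2 * τ ^ 2 * w + 2 * I * τ * N) / (1 + τ ^ 2 * w)
/-- coefficient of `conj ζ` -/
def cb (τ w : ℝ) (Q : ℂ) : ℂ := (-2 * I * τ * Q) / (1 + τ ^ 2 * w)

lemma conj_ca (τ N w : ℝ) :
    starRingEnd ℂ (ca τ N w) = (-2 * τ ^ 2 * w - 2 * I * τ * N) / (1 + τ ^ 2 * w) := by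
  unfold ca
  simp only [map_div₀, map_add, map_mul, map_neg, map_pow, map_one, Complex.conj_ofReal,
    Complex.conj_I, map_ofNat]
  ring

lemma conj_cb (τ w : ℝ) (Q : ℂ) :
    starRingEnd ℂ (cb τ w Q) = (2 * I * τ * starRingEnd ℂ Q) / (1 + τ ^ 2 * w) := by
  unfold cb
  simp only [map_div₀, map_add, map_mul, map_neg, map_pow, map_one, Complex.conj_ofReal,
    Complex.conj_I, map_ofNat]
  ring

lemma DD_ne (τ w : ℝ) (hw : 0 ≤ w) : (1 + (τ : ℂ) ^ 2 * w) ≠ 0 := by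
  have h : (0 : ℝ) < 1 + τ ^ 2 * w := by positivity
  have : (1 + (τ : ℂ) ^ 2 * w) = ((1 + τ ^ 2 * w : ℝ) : ℂ) := by push_cast; ring
  rw [this]
  exact_mod_cast h.ne'

lemma id_herm (τ N w : ℝ) (Q Qb : ℂ) (h : Q * Qb = (N : ℂ) ^ 2 - w) (hw : 0 ≤ w) :
    ca τ N w * N + cb τ w Q * Qb + starRingEnd ℂ (ca τ N w) * N
      + (2 * I * τ * Qb) / (1 + τ ^ 2 * w) * Q
      + starRingEnd ℂ (ca τ N w) * ca τ N w * N + starRingEnd ℂ (ca τ N w) * cb τ w Q * Qb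
      + (2 * I * τ * Qb) / (1 + τ ^ 2 * w) * ca τ N w * Q
      + (2 * I * τ * Qb) / (1 + τ ^ 2 * w) * cb τ w Q * N = 0 := by
  rw [conj_ca]
  unfold ca cb
  have hD := DD_ne τ w hw
  field_simp
  linear_combination (-4 * (τ : ℂ) ^ 2 * N) * h + (4 * (τ : ℂ) ^ 2 * N * (Q * Qb - N ^ 2)) * Complex.I_sq

lemma id_dot (τ N w : ℝ) (Q Qb : ℂ) (h : Q * Qb = (N : ℂ) ^ 2 - w) (hw : 0 ≤ w) :
    2 * ca τ N w * Q + 2 * cb τ w Q * N + ca τ N w ^ 2 * Q + 2 * ca τ N w * cb τ w Q * N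
      + cb τ w Q ^ 2 * Qb = 0 := by
  unfold ca cb
  have hD := DD_ne τ w hw
  field_simp
  linear_combination (-4 * (τ : ℂ) ^ 2 * Q) * h + (4 * (τ : ℂ) ^ 2 * Q * (Q * Qb - N ^ 2)) * Complex.I_sq


/-! ### the twist -/

/-- the Cayley–Casimir twist with parameter `τ`. -/
def cay (τ : ℝ) (z : Fin 5 → ℂ) : Fin 5 → ℂ :=
  z + ca τ (NN P z) (ww P z) • P z + cb τ (ww P z) (QQ P z) • cj (P z)

lemma key_dot (z ζ : Fin 5 → ℂ) (a b N Q Qb : ℂ) (h1 : dot z ζ = Q) (h2 : dot z (cj ζ) = N)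
    (h3 : dot ζ ζ = Q) (h4 : dot ζ (cj ζ) = N) (h5 : dot (cj ζ) (cj ζ) = Qb) :
    dot (z + a • ζ + b • cj ζ) (z + a • ζ + b • cj ζ)
      = dot z z + (2 * a * Q + 2 * b * N + a ^ 2 * Q + 2 * a * b * N + b ^ 2 * Qb) := by
  have h1' : dot ζ z = Q := by rw [dot_comm]; exact h1
  have h2' : dot (cj ζ) z = N := by rw [dot_comm]; exact h2
  have h4' : dot (cj ζ) ζ = N := by rw [dot_comm]; exact h4
  simp only [dot_add_left, dot_add_right, dot_smul_left, dot_smul_right, h1, h2, h3, h4, h5,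
    h1', h2', h4']
  ring

lemma key_herm (z ζ : Fin 5 → ℂ) (a b N Q Qb : ℂ) (h1 : dot (cj z) ζ = N)
    (h2 : dot (cj z) (cj ζ) = Qb) (h3 : dot (cj ζ) z = N) (h4 : dot ζ z = Q)
    (h5 : dot (cj ζ) ζ = N) (h6 : dot (cj ζ) (cj ζ) = Qb) (h7 : dot ζ ζ = Q) :
    dot (cj (z + a • ζ + b • cj ζ)) (z + a • ζ + b • cj ζ)
      = dot (cj z) z + (a * N + b * Qb + starRingEnd ℂ a * N + starRingEnd ℂ b * Q
        + starRingEnd ℂ a * a * N + starRingEnd ℂ a * b * Qb + starRingEnd ℂ b * a * Q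
        + starRingEnd ℂ b * b * N) := by
  have h5' : dot ζ (cj ζ) = N := by rw [dot_comm]; exact h5
  simp only [cj_add, cj_smul, cj_cj, dot_add_left, dot_add_right, dot_smul_left, dot_smul_right,
    h1, h2, h3, h4, h5, h6, h7, h5']
  ring

variable {P}

section proj
variable (hP : IsRealProj P)
include hP

lemma dot_z_Pz (z : Fin 5 → ℂ) : dot z (P z) = QQ P z := by
  unfold QQ; rw [hP.symm, hP.idem]

lemma dot_z_cjPz (z : Fin 5 → ℂ) : dot z (cj (P z)) = NN P z := by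
  rw [← NN_cast, dot_comm (cj (P z)) (P z), hP.symm z, hP.real, hP.idem]

lemma dot_cjz_Pz (z : Fin 5 → ℂ) : dot (cj z) (P z) = NN P z := by
  rw [← NN_cast, ← hP.real, hP.symm, hP.idem]

lemma dot_cjz_cjPz (z : Fin 5 → ℂ) : dot (cj z) (cj (P z)) = starRingEnd ℂ (QQ P z) := by
  rw [dot_cj_cj, dot_z_Pz hP]

lemma P_cay (τ : ℝ) (z : Fin 5 → ℂ) :
    P (cay P τ z) = P z + ca τ (NN P z) (ww P z) • P z + cb τ (ww P z) (QQ P z) • cj (P z) := by
  unfold cay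
  rw [map_add, map_add, map_smul, map_smul, hP.real, hP.idem]

lemma dot_cay (τ : ℝ) (z : Fin 5 → ℂ) : dot (cay P τ z) (cay P τ z) = dot z z := by
  unfold cay
  rw [key_dot z (P z) _ _ (NN P z) (QQ P z) (starRingEnd ℂ (QQ P z)) (dot_z_Pz hP z)
    (dot_z_cjPz hP z) rfl (by rw [dot_comm]; exact NN_cast P z) (dot_cj_cj _ _),
    id_dot _ _ _ _ _ (QQ_mul_conj P z) (ww_nonneg P z), add_zero]

lemma herm_cay (τ : ℝ) (z : Fin 5 → ℂ) : herm (cay P τ z) (cay P τ z) = herm z z := by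
  rw [herm_eq_dot, herm_eq_dot]
  unfold cay
  rw [key_herm z (P z) _ _ (NN P z) (QQ P z) (starRingEnd ℂ (QQ P z)) (dot_cjz_Pz hP z)
    (dot_cjz_cjPz hP z) (by rw [dot_comm]; exact dot_z_cjPz hP z)
    (by rw [dot_comm]; exact dot_z_Pz hP z) (NN_cast P z) (dot_cj_cj _ _) rfl, conj_cb,
    id_herm _ _ _ _ _ (QQ_mul_conj P z) (ww_nonneg P z), add_zero]

lemma QQ_cay (τ : ℝ) (z : Fin 5 → ℂ) : QQ P (cay P τ z) = QQ P z := by
  unfold QQ
  rw [P_cay hP]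
  rw [key_dot (P z) (P z) _ _ (NN P z) (QQ P z) (starRingEnd ℂ (QQ P z)) rfl
    (by rw [dot_comm]; exact NN_cast P z) rfl (by rw [dot_comm]; exact NN_cast P z)
    (dot_cj_cj _ _),
    id_dot _ _ _ _ _ (QQ_mul_conj P z) (ww_nonneg P z), add_zero]

lemma NN_cay (τ : ℝ) (z : Fin 5 → ℂ) : NN P (cay P τ z) = NN P z := by
  unfold NN
  rw [P_cay hP]
  rw [key_herm (P z) (P z) _ _ (NN P z) (QQ P z) (starRingEnd ℂ (QQ P z)) (NN_cast P z)
    (dot_cj_cj _ _) (NN_cast P z) rfl (NN_cast P z) (dot_cj_cj _ _) rfl, conj_cb,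
    id_herm _ _ _ _ _ (QQ_mul_conj P z) (ww_nonneg P z), add_zero]

lemma ww_cay (τ : ℝ) (z : Fin 5 → ℂ) : ww P (cay P τ z) = ww P z := by
  unfold ww; rw [NN_cay hP, QQ_cay hP]

lemma cay_mem_unitCone (τ : ℝ) {z : Fin 5 → ℂ} (hz : z ∈ unitCone) : cay P τ z ∈ unitCone := by
  obtain ⟨h1, h2⟩ := hz
  refine ⟨by rw [herm_cay hP]; exact h1, ?_⟩
  have : ∀ y : Fin 5 → ℂ, ∑ j, y j ^ 2 = dot y y := by
    intro y; unfold dot; exact Finset.sum_congr rfl (fun j _ => sq _)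
  rw [this, dot_cay hP, ← this]; exact h2

end proj

lemma cay_zero (z : Fin 5 → ℂ) : cay P 0 z = z := by
  unfold cay ca cb; simp

lemma NN_smul (c : ℂ) (hc : ‖c‖ = 1) (z : Fin 5 → ℂ) : NN P (c • z) = NN P z := by
  unfold NN
  rw [map_smul, cj_smul, dot_smul_left, dot_smul_right, ← mul_assoc, Complex.conj_mul', hc]
  simp

lemma QQ_smul (c : ℂ) (z : Fin 5 → ℂ) : QQ P (c • z) = c ^ 2 * QQ P z := by
  unfold QQ
  rw [map_smul, dot_smul_left, dot_smul_right]; ring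

lemma ww_smul (c : ℂ) (hc : ‖c‖ = 1) (z : Fin 5 → ℂ) : ww P (c • z) = ww P z := by
  unfold ww
  rw [NN_smul c hc, QQ_smul, map_mul, map_pow, Complex.normSq_eq_norm_sq, hc]
  simp

lemma cay_smul (τ : ℝ) (c : ℂ) (hc : ‖c‖ = 1) (z : Fin 5 → ℂ) :
    cay P τ (c • z) = c • cay P τ z := by
  have h1 : starRingEnd ℂ c * c = 1 := by rw [Complex.conj_mul', hc]; simp
  unfold cay
  rw [NN_smul c hc, ww_smul c hc, QQ_smul, map_smul, cj_smul, smul_add, smul_add, smul_smul,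
    smul_smul, smul_smul, smul_smul]
  congr 1
  · rw [mul_comm]
  · congr 1
    unfold cb
    linear_combination (-2 * I * τ * c * QQ P z / (1 + τ ^ 2 * ww P z)) * h1


/-! ### time derivative -/

lemma hasDerivAt_tau (c t : ℝ) : HasDerivAt (fun s : ℝ => ((c * s : ℝ) : ℂ)) (c : ℂ) t := by
  have h := ((hasDerivAt_id t).const_mul c).ofReal_comp
  simpa using h

lemma hasDerivAt_ca (c t N w : ℝ) (hw : 0 ≤ w) :
    HasDerivAt (fun s : ℝ => ca (c * s) N w)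
      (((-2 * (2 * ((c * t : ℝ) : ℂ) * c) * w + 2 * I * c * N) * (1 + ((c * t : ℝ) : ℂ) ^ 2 * w)
        - (-2 * ((c * t : ℝ) : ℂ) ^ 2 * w + 2 * I * ((c * t : ℝ) : ℂ) * N)
          * (2 * ((c * t : ℝ) : ℂ) * c * w)) / (1 + ((c * t : ℝ) : ℂ) ^ 2 * w) ^ 2) t := by
  have hτ := hasDerivAt_tau c t
  have h2 : HasDerivAt (fun s : ℝ => ((c * s : ℝ) : ℂ) ^ 2) (2 * ((c * t : ℝ) : ℂ) * c) t := by
    have := hτ.fun_pow 2
    simpa using this
  have hnum : HasDerivAt (fun s : ℝ => -2 * ((c * s : ℝ) : ℂ) ^ 2 * w + 2 * I * ((c * s : ℝ) : ℂ) * N)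
      (-2 * (2 * ((c * t : ℝ) : ℂ) * c) * w + 2 * I * c * N) t :=
    ((h2.const_mul (-2)).mul_const (w : ℂ)).add ((hτ.const_mul (2 * I)).mul_const (N : ℂ))
  have hden : HasDerivAt (fun s : ℝ => 1 + ((c * s : ℝ) : ℂ) ^ 2 * w)
      (2 * ((c * t : ℝ) : ℂ) * c * w) t := (h2.mul_const (w : ℂ)).const_add 1
  exact hnum.div hden (DD_ne _ _ hw)

lemma hasDerivAt_cb (c t w : ℝ) (Q : ℂ) (hw : 0 ≤ w) :
    HasDerivAt (fun s : ℝ => cb (c * s) w Q)
      (((-2 * I * c * Q) * (1 + ((c * t : ℝ) : ℂ) ^ 2 * w)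
        - (-2 * I * ((c * t : ℝ) : ℂ) * Q)
          * (2 * ((c * t : ℝ) : ℂ) * c * w)) / (1 + ((c * t : ℝ) : ℂ) ^ 2 * w) ^ 2) t := by
  have hτ := hasDerivAt_tau c t
  have h2 : HasDerivAt (fun s : ℝ => ((c * s : ℝ) : ℂ) ^ 2) (2 * ((c * t : ℝ) : ℂ) * c) t := by
    have := hτ.fun_pow 2
    simpa using this
  have hnum : HasDerivAt (fun s : ℝ => -2 * I * ((c * s : ℝ) : ℂ) * Q) (-2 * I * c * Q) t :=
    (hτ.const_mul (-2 * I)).mul_const Q
  have hden : HasDerivAt (fun s : ℝ => 1 + ((c * s : ℝ) : ℂ) ^ 2 * w)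
      (2 * ((c * t : ℝ) : ℂ) * c * w) t := (h2.mul_const (w : ℂ)).const_add 1
  exact hnum.div hden (DD_ne _ _ hw)

lemma id_da (c τ N w : ℝ) (Q Qb : ℂ) (h : Q * Qb = (N : ℂ) ^ 2 - w) (hw : 0 ≤ w) :
    ((-2 * (2 * (τ : ℂ) * c) * w + 2 * I * c * N) * (1 + (τ : ℂ) ^ 2 * w)
        - (-2 * (τ : ℂ) ^ 2 * w + 2 * I * (τ : ℂ) * N)
          * (2 * (τ : ℂ) * c * w)) / (1 + (τ : ℂ) ^ 2 * w) ^ 2
      = (c * (2 * I) / (1 + (τ : ℂ) ^ 2 * w))
        * (N * (1 + ca τ N w) - Q * ((2 * I * τ * Qb) / (1 + τ ^ 2 * w))) := by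
  unfold ca
  have hD := DD_ne τ w hw
  field_simp
  linear_combination (c * (-2 * (τ : ℂ))) * h + (c * 2 * (τ : ℂ) * (Q * Qb - N ^ 2)) * Complex.I_sq

lemma id_db (c τ N w : ℝ) (Q : ℂ) (hw : 0 ≤ w) :
    ((-2 * I * c * Q) * (1 + (τ : ℂ) ^ 2 * w)
        - (-2 * I * (τ : ℂ) * Q) * (2 * (τ : ℂ) * c * w)) / (1 + (τ : ℂ) ^ 2 * w) ^ 2
      = (c * (2 * I) / (1 + (τ : ℂ) ^ 2 * w))
        * (N * cb τ w Q - Q * (1 + (-2 * τ ^ 2 * w - 2 * I * τ * N) / (1 + τ ^ 2 * w))) := by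
  unfold cb
  have hD := DD_ne τ w hw
  field_simp
  ring

/-- the vector `Y(x) = N ζ - Q conj ζ` (so that `M ζ = (i/2) Y`). -/
def YY (P : (Fin 5 → ℂ) →ₗ[ℂ] (Fin 5 → ℂ)) (x : Fin 5 → ℂ) : Fin 5 → ℂ :=
  (NN P x : ℂ) • P x - QQ P x • cj (P x)

lemma hasDerivAt_cay (hP : IsRealProj P) (c t : ℝ) (z : Fin 5 → ℂ) :
    HasDerivAt (fun s : ℝ => cay P (c * s) z)
      (((c : ℂ) * (2 * I) / (1 + ((c * t : ℝ) : ℂ) ^ 2 * ww P z)) • YY P (cay P (c * t) z)) t := by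
  have hw := ww_nonneg P z
  have h1 := (hasDerivAt_ca c t (NN P z) (ww P z) hw).smul_const (P z)
  have h2 := (hasDerivAt_cb c t (ww P z) (QQ P z) hw).smul_const (cj (P z))
  have h3 := (h1.const_add z).fun_add h2
  unfold cay
  refine h3.congr_deriv ?_
  unfold YY
  rw [← cay, NN_cay hP, QQ_cay hP, P_cay hP, id_da c (c * t) (NN P z) (ww P z) (QQ P z) _
    (QQ_mul_conj P z) hw, id_db c (c * t) (NN P z) (ww P z) (QQ P z) hw]
  simp only [cj_add, cj_smul, cj_cj, conj_ca, conj_cb]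
  module


/-! ### smoothness -/

section smooth
variable {E : Type*} [NormedAddCommGroup E] [NormedSpace ℝ E] {n : WithTop ℕ∞}

lemma contDiff_dot {f g : E → Fin 5 → ℂ} (hf : ContDiff ℝ n f) (hg : ContDiff ℝ n g) :
    ContDiff ℝ n (fun e => dot (f e) (g e)) := by
  unfold dot
  refine ContDiff.sum (fun j _ => ?_)
  exact (contDiff_pi.1 hf j).mul (contDiff_pi.1 hg j)

lemma contDiff_cj {f : E → Fin 5 → ℂ} (hf : ContDiff ℝ n f) :
    ContDiff ℝ n (fun e => cj (f e)) := by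
  refine contDiff_pi.2 (fun j => ?_)
  exact Complex.conjCLE.contDiff.comp (contDiff_pi.1 hf j)

lemma contDiff_P (P : (Fin 5 → ℂ) →ₗ[ℂ] (Fin 5 → ℂ)) {f : E → Fin 5 → ℂ} (hf : ContDiff ℝ n f) :
    ContDiff ℝ n (fun e => P (f e)) :=
  ((LinearMap.toContinuousLinearMap P).restrictScalars ℝ).contDiff.comp hf

lemma contDiff_NN (P : (Fin 5 → ℂ) →ₗ[ℂ] (Fin 5 → ℂ)) {f : E → Fin 5 → ℂ} (hf : ContDiff ℝ n f) :
    ContDiff ℝ n (fun e => NN P (f e)) :=
  Complex.reCLM.contDiff.comp (contDiff_dot (contDiff_cj (contDiff_P P hf)) (contDiff_P P hf))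

lemma contDiff_QQ (P : (Fin 5 → ℂ) →ₗ[ℂ] (Fin 5 → ℂ)) {f : E → Fin 5 → ℂ} (hf : ContDiff ℝ n f) :
    ContDiff ℝ n (fun e => QQ P (f e)) :=
  contDiff_dot (contDiff_P P hf) (contDiff_P P hf)

lemma contDiff_ww (P : (Fin 5 → ℂ) →ₗ[ℂ] (Fin 5 → ℂ)) {f : E → Fin 5 → ℂ} (hf : ContDiff ℝ n f) :
    ContDiff ℝ n (fun e => ww P (f e)) := by
  unfold ww
  refine ((contDiff_NN P hf).pow 2).sub ?_
  have h1 : ContDiff ℝ n (fun e => (QQ P (f e)).re) := Complex.reCLM.contDiff.comp (contDiff_QQ P hf)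
  have h2 : ContDiff ℝ n (fun e => (QQ P (f e)).im) := Complex.imCLM.contDiff.comp (contDiff_QQ P hf)
  simp only [Complex.normSq_apply]
  exact (h1.mul h1).add (h2.mul h2)

lemma contDiff_ofReal {f : E → ℝ} (hf : ContDiff ℝ n f) : ContDiff ℝ n (fun e => ((f e : ℝ) : ℂ)) :=
  Complex.ofRealCLM.contDiff.comp hf

lemma contDiff_cay (P : (Fin 5 → ℂ) →ₗ[ℂ] (Fin 5 → ℂ)) {τ : E → ℝ} {f : E → Fin 5 → ℂ}
    (hτ : ContDiff ℝ n τ) (hf : ContDiff ℝ n f) :
    ContDiff ℝ n (fun e => cay P (τ e) (f e)) := by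
  have hτ' := contDiff_ofReal hτ
  have hN := contDiff_ofReal (contDiff_NN P hf)
  have hw := contDiff_ofReal (contDiff_ww P hf)
  have hQ := contDiff_QQ P hf
  have hD : ContDiff ℝ n (fun e => (1 : ℂ) + ((τ e : ℝ) : ℂ) ^ 2 * ((ww P (f e) : ℝ) : ℂ)) :=
    contDiff_const.add ((hτ'.pow 2).mul hw)
  have hD0 : ∀ e, (1 : ℂ) + ((τ e : ℝ) : ℂ) ^ 2 * ((ww P (f e) : ℝ) : ℂ) ≠ 0 :=
    fun e => DD_ne _ _ (ww_nonneg P _)
  have ha : ContDiff ℝ n (fun e => ca (τ e) (NN P (f e)) (ww P (f e))) := by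
    unfold ca
    simp only [div_eq_mul_inv]
    exact (((contDiff_const.mul (hτ'.pow 2)).mul hw).add ((contDiff_const.mul hτ').mul hN)).mul
      (hD.inv hD0)
  have hb : ContDiff ℝ n (fun e => cb (τ e) (ww P (f e)) (QQ P (f e))) := by
    unfold cb
    simp only [div_eq_mul_inv]
    exact ((contDiff_const.mul hτ').mul hQ).mul (hD.inv hD0)
  refine contDiff_pi.2 (fun j => ?_)
  have h1 := contDiff_pi.1 hf j
  have h2 := contDiff_pi.1 (contDiff_P P hf) j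
  have h3 := contDiff_pi.1 (contDiff_cj (contDiff_P P hf)) j
  exact (h1.add (ha.mul h2)).add (hb.mul h3)

end smooth


/-! ### the differential of `w` -/

lemma hasDerivAt_quad (c0 c1 c2 : ℝ) :
    HasDerivAt (fun s : ℝ => c0 + 2 * s * c1 + s ^ 2 * c2) (2 * c1) 0 := by
  have h1 : HasDerivAt (fun s : ℝ => 2 * s * c1) (2 * c1) 0 := by
    simpa using ((hasDerivAt_id (0 : ℝ)).const_mul 2).mul_const c1
  have h2 : HasDerivAt (fun s : ℝ => s ^ 2 * c2) 0 0 := by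
    simpa using (hasDerivAt_pow 2 (0 : ℝ)).mul_const c2
  simpa using (h1.const_add c0).fun_add h2

lemma hasDerivAt_wpoly (N0 n1 n2 a0 a1 a2 b0 b1 b2 : ℝ) :
    HasDerivAt (fun s : ℝ => (N0 + 2 * s * n1 + s ^ 2 * n2) ^ 2
      - ((a0 + 2 * s * a1 + s ^ 2 * a2) * (a0 + 2 * s * a1 + s ^ 2 * a2)
        + (b0 + 2 * s * b1 + s ^ 2 * b2) * (b0 + 2 * s * b1 + s ^ 2 * b2)))
      (4 * (N0 * n1 - (a0 * a1 + b0 * b1))) 0 := by
  have hN := hasDerivAt_quad N0 n1 n2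
  have ha := hasDerivAt_quad a0 a1 a2
  have hb := hasDerivAt_quad b0 b1 b2
  have h := (hN.fun_pow 2).fun_sub ((ha.fun_mul ha).fun_add (hb.fun_mul hb))
  refine h.congr_deriv ?_
  simp
  ring

lemma P_line (x ω : Fin 5 → ℂ) (s : ℝ) : P (x + s • ω) = P x + (s : ℂ) • P ω := by
  rw [map_add, ← Complex.coe_smul, map_smul]

lemma ww_line (x ω : Fin 5 → ℂ) (s : ℝ) :
    ww P (x + s • ω) = (NN P x + 2 * s * (dot (cj (P x)) (P ω)).re + s ^ 2 * NN P ω) ^ 2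
      - (((QQ P x).re + 2 * s * (dot (P x) (P ω)).re + s ^ 2 * (QQ P ω).re)
          * ((QQ P x).re + 2 * s * (dot (P x) (P ω)).re + s ^ 2 * (QQ P ω).re)
        + ((QQ P x).im + 2 * s * (dot (P x) (P ω)).im + s ^ 2 * (QQ P ω).im)
          * ((QQ P x).im + 2 * s * (dot (P x) (P ω)).im + s ^ 2 * (QQ P ω).im)) := by
  have hQ : QQ P (x + s • ω) = QQ P x + 2 * s * dot (P x) (P ω) + (s : ℂ) ^ 2 * QQ P ω := by
    unfold QQ
    rw [P_line]
    simp only [dot_add_left, dot_add_right, dot_smul_left, dot_smul_right]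
    rw [dot_comm (P ω) (P x)]
    ring
  have hN : NN P (x + s • ω)
      = NN P x + 2 * s * (dot (cj (P x)) (P ω)).re + s ^ 2 * NN P ω := by
    have h1 : dot (cj (P ω)) (P x) = starRingEnd ℂ (dot (cj (P x)) (P ω)) := by
      rw [← dot_cj_cj, cj_cj, dot_comm]
    unfold NN
    rw [P_line]
    simp only [cj_add, cj_smul, dot_add_left, dot_add_right, dot_smul_left, dot_smul_right,
      Complex.conj_ofReal, h1]
    simp only [Complex.add_re, Complex.mul_re, Complex.ofReal_re, Complex.ofReal_im,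
      Complex.conj_re, Complex.conj_im]
    ring
  unfold ww
  rw [hN, hQ, Complex.normSq_apply]
  simp only [Complex.add_re, Complex.mul_re, Complex.ofReal_re, Complex.ofReal_im, Complex.add_im,
    Complex.mul_im, sq, Complex.re_ofNat, Complex.im_ofNat]
  ring

lemma herm_YY (hP : IsRealProj P) (x ω : Fin 5 → ℂ) :
    (herm (YY P x) ω).re = NN P x * (dot (cj (P x)) (P ω)).re
      - ((QQ P x).re * (dot (P x) (P ω)).re + (QQ P x).im * (dot (P x) (P ω)).im) := by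
  have h1 : dot (cj (P x)) (P ω) = dot (cj (P x)) ω := by
    rw [← hP.symm, hP.real, hP.idem]
  have h2 : dot (P x) (P ω) = dot (P x) ω := by
    rw [← hP.symm, hP.idem]
  rw [h1, h2, herm_eq_dot]
  unfold YY
  rw [sub_eq_add_neg, ← neg_smul, cj_add, cj_smul, cj_smul, cj_cj, dot_add_left, dot_smul_left,
    dot_smul_left]
  simp only [Complex.add_re, Complex.mul_re, Complex.conj_ofReal, Complex.ofReal_re,
    Complex.ofReal_im, map_neg, Complex.neg_re, Complex.neg_im, Complex.conj_re, Complex.conj_im]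
  ring

lemma fderiv_ww (hP : IsRealProj P) (x ω : Fin 5 → ℂ) :
    fderiv ℝ (ww P) x ω = 4 * (herm (YY P x) ω).re := by
  have hdiff : DifferentiableAt ℝ (ww P) x :=
    ((contDiff_ww (n := 1) P contDiff_id).differentiable (by norm_num)) x
  have hl : HasDerivAt (fun s : ℝ => x + s • ω) ω 0 := by
    simpa using ((hasDerivAt_id (0 : ℝ)).smul_const ω).const_add x
  have hf : HasFDerivAt (ww P) (fderiv ℝ (ww P) x) (x + (0 : ℝ) • ω) := by
    simpa using hdiff.hasFDerivAt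
  have h1 := hf.comp_hasDerivAt (0 : ℝ) hl
  have h2 : HasDerivAt (ww P ∘ fun s : ℝ => x + s • ω)
      (4 * (NN P x * (dot (cj (P x)) (P ω)).re
      - ((QQ P x).re * (dot (P x) (P ω)).re + (QQ P x).im * (dot (P x) (P ω)).im))) 0 := by
    have := hasDerivAt_wpoly (NN P x) (dot (cj (P x)) (P ω)).re (NN P ω) (QQ P x).re
      (dot (P x) (P ω)).re (QQ P ω).re (QQ P x).im (dot (P x) (P ω)).im (QQ P ω).im
    refine this.congr_of_eventuallyEq (Filter.Eventually.of_forall (fun s => ?_))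
    exact ww_line x ω s
  rw [h1.unique h2, herm_YY hP]


/-! ### the lift -/

/-- the Hamiltonian of the Cayley path. -/
def cayH (P : (Fin 5 → ℂ) →ₗ[ℂ] (Fin 5 → ℂ)) (c : ℝ) (p : ℝ × (Fin 5 → ℂ)) : ℝ :=
  -c * (ww P p.2 * ell ((c * p.1) ^ 2 * ww P p.2))

lemma contDiff_cayH (c : ℝ) {n : WithTop ℕ∞} : ContDiff ℝ n (cayH P c) := by
  unfold cayH
  have hw : ContDiff ℝ n (fun p : ℝ × (Fin 5 → ℂ) => ww P p.2) := contDiff_ww P contDiff_snd
  have hk : ContDiff ℝ n (fun p : ℝ × (Fin 5 → ℂ) => (c * p.1) ^ 2 * ww P p.2) :=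
    ((contDiff_const.mul contDiff_fst).pow 2).mul hw
  exact contDiff_const.mul (hw.mul (contDiff_ell_comp hk
    (fun p => mul_nonneg (sq_nonneg _) (ww_nonneg P _))))

lemma fderiv_cayH (hP : IsRealProj P) (c t : ℝ) (x ω : Fin 5 → ℂ) :
    fderiv ℝ (fun y : Fin 5 → ℂ => cayH P c (t, y)) x ω
      = -c * (1 / (1 + (c * t) ^ 2 * ww P x)) * (4 * (herm (YY P x) ω).re) := by
  have hdiff : DifferentiableAt ℝ (ww P) x :=
    ((contDiff_ww (n := 1) P contDiff_id).differentiable (by norm_num)) x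
  have hg : HasDerivAt (fun r : ℝ => -c * (r * ell ((c * t) ^ 2 * r)))
      (-c * (1 / (1 + (c * t) ^ 2 * ww P x))) (ww P x) :=
    (hasDerivAt_mul_ell (sq_nonneg _) (ww_nonneg P x)).const_mul (-c)
  have h := hg.comp_hasFDerivAt x hdiff.hasFDerivAt
  have h2 : (fun y : Fin 5 → ℂ => cayH P c (t, y))
      = (fun r : ℝ => -c * (r * ell ((c * t) ^ 2 * r))) ∘ ww P := rfl
  rw [h2, h.fderiv]
  simp only [ContinuousLinearMap.smul_apply, smul_eq_mul, fderiv_ww hP]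

lemma herm_smul_left' (k : ℂ) (u w : Fin 5 → ℂ) :
    herm (k • u) w = starRingEnd ℂ k * herm u w := by
  rw [herm_eq_dot, cj_smul, dot_smul_left, herm_eq_dot]

/-- **The Cayley–Casimir twist as a Hamiltonian cone lift.** -/
def cayleyLift (hP : IsRealProj P) (c : ℝ) : HamiltonianConeLift where
  Ψ p := cay P (c * p.1) p.2
  H := cayH P c
  smooth_Ψ := contDiff_cay P (contDiff_const.mul contDiff_fst) contDiff_snd
  smooth_H := contDiff_cayH c
  mapsTo_cone _ _ hz := cay_mem_unitCone hP _ hz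
  compatible _ _ _ c' hc := ⟨c', cay_smul _ _ hc _⟩
  start z _ := ⟨1, by simp [cay_zero]⟩
  invariant t z _ c' hc := by simp only [cayH, ww_smul c' hc]
  hamilton t _ z _ ω _ := by
    have hD : (0 : ℝ) < 1 + (c * t) ^ 2 * ww P z := by
      have := ww_nonneg P z; positivity
    rw [(hasDerivAt_cay hP c t z).deriv, fderiv_cayH hP, ww_cay hP, herm_smul_left']
    have hk : starRingEnd ℂ ((c : ℂ) * (2 * I) / (1 + ((c * t : ℝ) : ℂ) ^ 2 * ww P z))
        = ((-(2 * c / (1 + (c * t) ^ 2 * ww P z)) : ℝ) : ℂ) * I := by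
      simp only [map_div₀, map_add, map_mul, map_pow, map_one, Complex.conj_ofReal,
        Complex.conj_I, map_ofNat]
      push_cast
      ring
    rw [hk]
    simp only [Complex.mul_im, Complex.mul_re, Complex.ofReal_re, Complex.ofReal_im, Complex.I_re,
      Complex.I_im]
    field_simp
    ring

@[simp] lemma cayleyLift_Ψ (hP : IsRealProj P) (c t : ℝ) (z : Fin 5 → ℂ) :
    (cayleyLift hP c).Ψ (t, z) = cay P (c * t) z := rfl

lemma cayleyLift_start (hP : IsRealProj P) (c : ℝ) (z : Fin 5 → ℂ) :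
    (cayleyLift hP c).Ψ (0, z) = z := by simp [cay_zero]

lemma cayleyLift_one (hP : IsRealProj P) (c : ℝ) (z : Fin 5 → ℂ) :
    (cayleyLift hP c).Ψ (1, z) = cay P c z := by simp

end

end Crest.Agent.S0316Aux.H82
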