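import Crest.Agent.S0316Aux.Defs
import Crest.Agent.S0316Aux.H82_Cayley

/-!
helper42: the canonical projector `zeta` as a real projector in the sense of helper82's file;
`H82.cay zetaL τ z = Btw τ z`; hence the interface CAYLIFT.
-/

set_option autoImplicit false

noncomputable section

namespace Crest.Agent.S0316Aux

open Crest.GeometryTopology.Quadric

/-- `zeta` as a `ℂ`-linear map. -/
def zetaL : (Fin 5 → ℂ) →ₗ[ℂ] (Fin 5 → ℂ) where
  toFun := zeta
  map_add' a b := by
    funext j
    fin_cases j <;> simp [zeta] <;> ring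
  map_smul' c a := by
    funext j
    fin_cases j <;> simp [zeta] <;> ring

lemma conj_two : (starRingEnd ℂ) (2 : ℂ) = 2 := map_ofNat _ 2

@[simp] lemma zetaL_apply (z : Fin 5 → ℂ) : zetaL z = zeta z := rfl

lemma zetaL_isRealProj : H82.IsRealProj zetaL where
  idem a := by
    funext j
    fin_cases j <;> simp [zeta]
  symm a b := by
    simp only [H82.dot, zetaL_apply, Fin.sum_univ_five, zeta]
    simp
    ring
  real a := by
    funext j
    fin_cases j <;> simp [zeta, H82.cj, conj_two]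

lemma NN_zetaL (z : Fin 5 → ℂ) : H82.NN zetaL z = NN z := by
  simp only [H82.NN, H82.dot, H82.cj, zetaL_apply, Fin.sum_univ_five, zeta, NN]
  simp [Complex.normSq_apply, conj_two]
  ring

lemma QQ_zetaL (z : Fin 5 → ℂ) : H82.QQ zetaL z = QQ z := by
  simp only [H82.QQ, H82.dot, zetaL_apply, Fin.sum_univ_five, zeta, QQ]
  simp
  ring

lemma ww_zetaL (z : Fin 5 → ℂ) : H82.ww zetaL z = ww z := by
  simp only [H82.ww, ww, NN_zetaL, QQ_zetaL]

lemma cay_zetaL (τ : ℝ) (z : Fin 5 → ℂ) : H82.cay zetaL τ z = Btw τ z := by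
  funext j
  simp only [H82.cay, Btw, NN_zetaL, QQ_zetaL, ww_zetaL, H82.ca, H82.cb, H82.cj, zetaL_apply,
    Pi.add_apply, Pi.smul_apply, smul_eq_mul]
  push_cast
  ring

/-- Interface CAYLIFT. -/
theorem exists_lift_Btw :
    ∃ LB : HamiltonianConeLift, ∀ z, LB.Ψ (1, z) = Btw (65 / 72) z :=
  ⟨H82.cayleyLift zetaL_isRealProj (65 / 72), fun z => by
    rw [H82.cayleyLift_one, cay_zetaL]⟩

end Crest.Agent.S0316Aux
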