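import Crest.Prelude.Def_QuadricHamiltonian

/-!
# S0316: canonical definitions (coordinator file, helper42)

The explicit time-one map `Phi = G ∘ B` on `ℂ⁵`:
* `B` = Cayley–Casimir twist of `so(E)`, `E = span(e₁, e₃, (e₂+e₄)/√2)`, parameter `c = 65/72`;
* `G = diag(1, -Rot₁₂(α), -1, -1)`, `cos α = 119/169`, `sin α = 120/169`.
-/

set_option autoImplicit false

noncomputable section

namespace Crest.Agent.S0316Aux

open Crest.GeometryTopology.Quadric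

/-- Orthogonal projection to `E ⊗ ℂ`, `E = span(e₁, e₃, (e₂+e₄)/√2)`. -/
def zeta (z : Fin 5 → ℂ) : Fin 5 → ℂ :=
  ![0, z 1, (z 2 + z 4) / 2, z 3, (z 2 + z 4) / 2]

/-- `N = herm ζ ζ` (a real number). -/
def NN (z : Fin 5 → ℂ) : ℝ :=
  Complex.normSq (z 1) + Complex.normSq (z 3) + Complex.normSq (z 2 + z 4) / 2

/-- `Q = ∑ ζ_j ^ 2`. -/
def QQ (z : Fin 5 → ℂ) : ℂ := z 1 ^ 2 + z 3 ^ 2 + (z 2 + z 4) ^ 2 / 2

/-- `w = N ^ 2 - |Q| ^ 2 ≥ 0`, the Casimir. -/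
def ww (z : Fin 5 → ℂ) : ℝ := NN z ^ 2 - Complex.normSq (QQ z)

/-- The Cayley–Casimir twist with parameter `τ`. -/
def Btw (τ : ℝ) (z : Fin 5 → ℂ) : Fin 5 → ℂ := fun j =>
  z j + (((-2 * τ ^ 2 * ww z : ℝ) : ℂ) + 2 * Complex.I * (τ : ℂ) * (NN z : ℂ))
        / ((1 + τ ^ 2 * ww z : ℝ) : ℂ) * zeta z j
      + (-2 * Complex.I * (τ : ℂ) * QQ z) / ((1 + τ ^ 2 * ww z : ℝ) : ℂ)
        * (starRingEnd ℂ) (zeta z j)

/-- The linear part `G = diag(1, -Rot₁₂(α), -1, -1)`, `cos α = 119/169`, `sin α = 120/169`. -/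
def Glin (b : Fin 5 → ℂ) : Fin 5 → ℂ :=
  ![b 0, -((119 / 169 : ℂ) * b 1 - (120 / 169 : ℂ) * b 2),
    -((120 / 169 : ℂ) * b 1 + (119 / 169 : ℂ) * b 2), -b 3, -b 4]

/-- The time-one map. -/
def Phi (z : Fin 5 → ℂ) : Fin 5 → ℂ := Glin (Btw (65 / 72) z)

end Crest.Agent.S0316Aux
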