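import Mathlib
import Crest.Agent.S0316Aux.Defs

/-!
helper89, auxiliary file for S0316: exclusion of fixed lines with `z 0 ≠ 0` for the canonical `Phi` of `Defs.lean`.
-/

set_option autoImplicit false

namespace Crest.Agent.S0316Aux.H89

open Crest.GeometryTopology.Quadric Crest.Agent.S0316Aux

noncomputable section

def DD (z : Fin 5 → ℂ) : ℝ := 1 + (65 / 72 : ℝ) ^ 2 * ww z

def al (z : Fin 5 → ℂ) : ℂ :=
  (((-2 * (65 / 72 : ℝ) ^ 2 * ww z : ℝ) : ℂ) + 2 * Complex.I * ((65 / 72 : ℝ) : ℂ) * (NN z : ℂ)) /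
    (DD z : ℂ)

def be (z : Fin 5 → ℂ) : ℂ := (-2 * Complex.I * ((65 / 72 : ℝ) : ℂ) * QQ z) / (DD z : ℂ)

/-- the Cayley–Casimir twist at `τ = 65/72`. -/
def BB (z : Fin 5 → ℂ) : Fin 5 → ℂ := Btw (65 / 72) z

lemma BB_apply (z : Fin 5 → ℂ) (j : Fin 5) :
    BB z j = z j + al z * zeta z j + be z * starRingEnd ℂ (zeta z j) := rfl

lemma Phi_eq (z : Fin 5 → ℂ) : Phi z =
  ![BB z 0, -((119 / 169 : ℂ) * BB z 1 - (120 / 169 : ℂ) * BB z 2),
    -((120 / 169 : ℂ) * BB z 1 + (119 / 169 : ℂ) * BB z 2), -BB z 3, -BB z 4] := rfl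

lemma NN_nonneg (z : Fin 5 → ℂ) : 0 ≤ NN z := by
  unfold NN
  have := Complex.normSq_nonneg (z 1)
  have := Complex.normSq_nonneg (z 3)
  have := Complex.normSq_nonneg (z 2 + z 4)
  positivity

lemma normSq_QQ_le (z : Fin 5 → ℂ) : Complex.normSq (QQ z) ≤ NN z ^ 2 := by
  have h1 : ‖QQ z‖ ≤ NN z := by
    unfold QQ NN
    calc ‖z 1 ^ 2 + z 3 ^ 2 + (z 2 + z 4) ^ 2 / 2‖
        ≤ ‖z 1 ^ 2‖ + ‖z 3 ^ 2‖ + ‖(z 2 + z 4) ^ 2 / 2‖ := norm_add₃_le
      _ = Complex.normSq (z 1) + Complex.normSq (z 3) + Complex.normSq (z 2 + z 4) / 2 := by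
          simp [Complex.normSq_eq_norm_sq]
  rw [Complex.normSq_eq_norm_sq]
  exact pow_le_pow_left₀ (norm_nonneg _) h1 2

lemma ww_nonneg (z : Fin 5 → ℂ) : 0 ≤ ww z := by
  unfold ww; linarith [normSq_QQ_le z]

lemma ww_le (z : Fin 5 → ℂ) : ww z ≤ NN z ^ 2 := by
  unfold ww; linarith [Complex.normSq_nonneg (QQ z)]

lemma DD_pos (z : Fin 5 → ℂ) : 0 < DD z := by
  unfold DD; have := ww_nonneg z; positivity

/-- squared norm of the last four coordinates. -/
def mm (z : Fin 5 → ℂ) : ℝ :=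
  Complex.normSq (z 1) + Complex.normSq (z 2) + Complex.normSq (z 3) + Complex.normSq (z 4)

lemma NN_le_mm (z : Fin 5 → ℂ) : NN z ≤ mm z := by
  unfold NN mm
  have : Complex.normSq (z 2 + z 4) + Complex.normSq (z 2 - z 4) =
      2 * (Complex.normSq (z 2) + Complex.normSq (z 4)) := by
    simp [Complex.normSq_apply]; ring
  have := Complex.normSq_nonneg (z 2 - z 4)
  linarith

lemma herm_self (z : Fin 5 → ℂ) :
    herm z z = ((Complex.normSq (z 0) + mm z : ℝ) : ℂ) := by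
  simp only [herm, Fin.sum_univ_five, mm]
  push_cast
  simp only [Complex.normSq_eq_conj_mul_self]
  ring

lemma mm_of_cone {z : Fin 5 → ℂ} (hz : z ∈ unitCone) : Complex.normSq (z 0) + mm z = 1 := by
  have h := hz.1
  rw [herm_self] at h
  exact_mod_cast h

/-- on the cone the last four coordinates carry at least half of the norm. -/
lemma mm_ge_half {z : Fin 5 → ℂ} (hz : z ∈ unitCone) : 1 / 2 ≤ mm z := by
  have h1 := mm_of_cone hz
  have h2 : z 0 ^ 2 = -(z 1 ^ 2 + z 2 ^ 2 + z 3 ^ 2 + z 4 ^ 2) := by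
    have := hz.2
    simp only [Fin.sum_univ_five] at this
    linear_combination this
  have h3 : Complex.normSq (z 0) ≤ mm z := by
    have : ‖z 0 ^ 2‖ ≤ mm z := by
      rw [h2, norm_neg]
      calc ‖z 1 ^ 2 + z 2 ^ 2 + z 3 ^ 2 + z 4 ^ 2‖
          ≤ ‖z 1 ^ 2‖ + ‖z 2 ^ 2‖ + ‖z 3 ^ 2‖ + ‖z 4 ^ 2‖ := by
            refine (norm_add_le _ _).trans ?_
            gcongr
            exact norm_add₃_le
        _ = mm z := by simp [mm, Complex.normSq_eq_norm_sq]
    simpa [Complex.normSq_eq_norm_sq] using this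
  linarith

/-- `∑_{j ≥ 1} conj (z j) * BB z j`. -/
lemma sum_conj_BB (z : Fin 5 → ℂ) :
    starRingEnd ℂ (z 1) * BB z 1 + starRingEnd ℂ (z 2) * BB z 2 + starRingEnd ℂ (z 3) * BB z 3 +
      starRingEnd ℂ (z 4) * BB z 4 =
    (mm z : ℂ) + al z * (NN z : ℂ) + be z * starRingEnd ℂ (QQ z) := by
  simp only [BB_apply, zeta, mm, NN, QQ]
  push_cast
  simp only [Complex.normSq_eq_conj_mul_self, map_add, map_pow, map_div₀, map_ofNat]
  ring

lemma re_sum_conj_BB (z : Fin 5 → ℂ) :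
    (starRingEnd ℂ (z 1) * BB z 1 + starRingEnd ℂ (z 2) * BB z 2 + starRingEnd ℂ (z 3) * BB z 3 +
      starRingEnd ℂ (z 4) * BB z 4).re =
    mm z - 2 * (65 / 72 : ℝ) ^ 2 * ww z * NN z / DD z := by
  rw [sum_conj_BB]
  have hD : (DD z : ℂ) ≠ 0 := by exact_mod_cast (DD_pos z).ne'
  have hQ : QQ z * starRingEnd ℂ (QQ z) = ((NN z ^ 2 - ww z : ℝ) : ℂ) := by
    rw [Complex.mul_conj]; unfold ww; push_cast; ring
  have key : (mm z : ℂ) + al z * (NN z : ℂ) + be z * starRingEnd ℂ (QQ z) =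
      ((mm z - 2 * (65 / 72 : ℝ) ^ 2 * ww z * NN z / DD z : ℝ) : ℂ) +
        ((2 * (65 / 72 : ℝ) * ww z / DD z : ℝ) : ℂ) * Complex.I := by
    unfold al be
    have : (-2 * Complex.I * ((65 / 72 : ℝ) : ℂ) * QQ z) / (DD z : ℂ) * starRingEnd ℂ (QQ z) =
        (-2 * Complex.I * ((65 / 72 : ℝ) : ℂ) * ((NN z ^ 2 - ww z : ℝ) : ℂ)) / (DD z : ℂ) := by
      rw [← hQ]; ring
    rw [this]
    push_cast
    field_simp
    ring
  rw [key]
  rw [Complex.add_re, Complex.re_ofReal_mul, Complex.ofReal_re, Complex.I_re, mul_zero, add_zero]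

/-- `Phi` has no honest fixed vector on the cone. -/
theorem Phi_ne_self {z : Fin 5 → ℂ} (hz : z ∈ unitCone) : Phi z ≠ z := by
  intro h
  have h1 : -((119 / 169 : ℂ) * BB z 1 - (120 / 169 : ℂ) * BB z 2) = z 1 := by
    have := congrFun h 1; simpa [Phi_eq] using this
  have h2 : -((120 / 169 : ℂ) * BB z 1 + (119 / 169 : ℂ) * BB z 2) = z 2 := by
    have := congrFun h 2; simpa [Phi_eq] using this
  have h3 : -BB z 3 = z 3 := by
    have := congrFun h 3; simpa [Phi_eq] using this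
  have h4 : -BB z 4 = z 4 := by
    have := congrFun h 4; simpa [Phi_eq] using this
  have b1 : BB z 1 = -((119 / 169 : ℂ) * z 1 + (120 / 169 : ℂ) * z 2) := by
    linear_combination (-(119 / 169 : ℂ)) * h1 - (120 / 169 : ℂ) * h2
  have b2 : BB z 2 = -(-(120 / 169 : ℂ) * z 1 + (119 / 169 : ℂ) * z 2) := by
    linear_combination ((120 / 169 : ℂ)) * h1 - (119 / 169 : ℂ) * h2
  have b3 : BB z 3 = -z 3 := by linear_combination -h3
  have b4 : BB z 4 = -z 4 := by linear_combination -h4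
  have hre := re_sum_conj_BB z
  rw [b1, b2, b3, b4] at hre
  have hl : (starRingEnd ℂ (z 1) * -((119 / 169 : ℂ) * z 1 + (120 / 169 : ℂ) * z 2) +
      starRingEnd ℂ (z 2) * -(-(120 / 169 : ℂ) * z 1 + (119 / 169 : ℂ) * z 2) +
      starRingEnd ℂ (z 3) * -z 3 + starRingEnd ℂ (z 4) * -z 4).re =
      -(119 / 169 : ℝ) * (Complex.normSq (z 1) + Complex.normSq (z 2)) - Complex.normSq (z 3) -
        Complex.normSq (z 4) := by
    simp [Complex.normSq_apply]
    ring
  rw [hl] at hre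
  have hm := mm_ge_half hz
  have hm1 : mm z ≤ 1 := by
    have := mm_of_cone hz; have := Complex.normSq_nonneg (z 0); linarith
  have hN := NN_le_mm z
  have hN0 := NN_nonneg z
  have hw0 := ww_nonneg z
  have hw1 : ww z ≤ 1 := by
    have := ww_le z
    nlinarith
  have hD := DD_pos z
  have hlhs : -(119 / 169 : ℝ) * (Complex.normSq (z 1) + Complex.normSq (z 2)) -
      Complex.normSq (z 3) - Complex.normSq (z 4) ≤ 0 := by
    have := Complex.normSq_nonneg (z 1)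
    have := Complex.normSq_nonneg (z 2)
    have := Complex.normSq_nonneg (z 3)
    have := Complex.normSq_nonneg (z 4)
    nlinarith
  have hrhs : 0 < mm z - 2 * (65 / 72 : ℝ) ^ 2 * ww z * NN z / DD z := by
    have : 2 * (65 / 72 : ℝ) ^ 2 * ww z * NN z / DD z < mm z := by
      rw [div_lt_iff₀ hD]
      unfold DD
      nlinarith [mul_nonneg hw0 hN0, mul_nonneg hw0 (sub_nonneg.2 hN)]
    linarith
  linarith

/-- **z₀-exclusion.** -/
theorem z0_eq_zero {z : Fin 5 → ℂ} (hz : z ∈ unitCone) {l : ℂ} (h : Phi z = l • z) : z 0 = 0 := by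
  by_contra h0
  have h00 : z 0 = l * z 0 := by
    have := congrFun h 0
    simpa [Phi_eq, BB_apply, zeta] using this
  have hl : l = 1 := by
    have : (l - 1) * z 0 = 0 := by linear_combination -h00
    rcases mul_eq_zero.1 this with h' | h'
    · linear_combination h'
    · exact absurd h' h0
  rw [hl, one_smul] at h
  exact Phi_ne_self hz h

end

end Crest.Agent.S0316Aux.H89
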