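import Mathlib
import Crest.Prelude.Def_QuadricHamiltonian

/-!
Plücker coordinates `plu z i j = 2 Im (conj (z i) * z j)` of a point of the unit isotropic cone:
they determine the complex line through the point.  Counting lemma for `fixedLines`.
(helper35, auxiliary file for S0316.)
-/

set_option autoImplicit false

namespace Crest.Agent.S0316Aux

open Crest.GeometryTopology.Quadric

/-- Plücker coordinate `2 Im (conj (z i) * z j)`. -/
noncomputable def plu (z : Fin 5 → ℂ) (i j : Fin 5) : ℝ := 2 * (starRingEnd ℂ (z i) * z j).im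

lemma plu_cast (z : Fin 5 → ℂ) (i j : Fin 5) :
    (plu z i j : ℂ) = -Complex.I * (starRingEnd ℂ (z i) * z j - z i * starRingEnd ℂ (z j)) := by
  apply Complex.ext <;> simp [plu] <;> ring_nf

lemma plu_antisymm (z : Fin 5 → ℂ) (i j : Fin 5) : plu z j i = - plu z i j := by
  simp [plu]; ring

lemma plu_self (z : Fin 5 → ℂ) (i : Fin 5) : plu z i i = 0 := by
  simp [plu]; ring

lemma plu_mulVec (z w : Fin 5 → ℂ) (i : Fin 5) :
    ∑ j, (plu z i j : ℂ) * w j =
      -Complex.I * (starRingEnd ℂ (z i) * ∑ j, z j * w j - z i * herm z w) := by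
  simp only [plu_cast, herm, Finset.mul_sum, mul_sub]
  rw [← Finset.sum_sub_distrib]
  refine Finset.sum_congr rfl fun j _ => ?_
  ring

lemma plu_smul (c : ℂ) (z : Fin 5 → ℂ) (i j : Fin 5) :
    plu (c • z) i j = ‖c‖ ^ 2 * plu z i j := by
  have h : starRingEnd ℂ (c * z i) * (c * z j) =
      ((‖c‖ ^ 2 : ℝ) : ℂ) * (starRingEnd ℂ (z i) * z j) := by
    have : starRingEnd ℂ c * c = ((‖c‖ ^ 2 : ℝ) : ℂ) := by
      rw [Complex.conj_mul']; push_cast; ring
    rw [map_mul, ← this]; ring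
  simp only [plu, Pi.smul_apply, smul_eq_mul, h, Complex.im_ofReal_mul]
  ring

lemma herm_smul_right (c : ℂ) (u w : Fin 5 → ℂ) : herm u (c • w) = c * herm u w := by
  simp only [herm, Pi.smul_apply, smul_eq_mul, Finset.mul_sum]
  refine Finset.sum_congr rfl fun j _ => ?_
  ring

lemma herm_smul_left (c : ℂ) (u w : Fin 5 → ℂ) :
    herm (c • u) w = starRingEnd ℂ c * herm u w := by
  simp only [herm, Pi.smul_apply, smul_eq_mul, Finset.mul_sum, map_mul]
  refine Finset.sum_congr rfl fun j _ => ?_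
  ring

lemma ne_zero_of_mem_unitCone {z : Fin 5 → ℂ} (hz : z ∈ unitCone) : z ≠ 0 := by
  rintro rfl
  have := hz.1
  simp [herm] at this

/-- On the cone a proportionality factor has modulus one. -/
lemma norm_eq_one_of_smul_mem {c : ℂ} {z : Fin 5 → ℂ} (hz : z ∈ unitCone)
    (hcz : c • z ∈ unitCone) : ‖c‖ = 1 := by
  have h1 := hcz.1
  rw [herm_smul_left, herm_smul_right, hz.1, mul_one, Complex.conj_mul'] at h1
  have h2 : (‖c‖ : ℝ) ^ 2 = 1 := by exact_mod_cast h1
  have h3 : (0 : ℝ) ≤ ‖c‖ := norm_nonneg c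
  nlinarith

/-- Equal Plücker coordinates force proportionality. -/
theorem plucker_inj {z z' : Fin 5 → ℂ} (hz : z ∈ unitCone) (hz' : z' ∈ unitCone)
    (h : ∀ i j, plu z i j = plu z' i j) : z' = herm z z' • z := by
  set B : ℂ := ∑ j, z j * z' j with hB
  have key : ∀ i, z' i = z i * herm z z' - starRingEnd ℂ (z i) * B := by
    intro i
    have e1 := plu_mulVec z' z' i
    have e2 := plu_mulVec z z' i
    have e3 : ∑ j, (plu z' i j : ℂ) * z' j = ∑ j, (plu z i j : ℂ) * z' j := by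
      refine Finset.sum_congr rfl fun j _ => ?_
      rw [h i j]
    have hq : ∑ j, z' j * z' j = 0 := by
      have := hz'.2
      simpa [sq] using this
    rw [e1, e2, hq, hz'.1, ← hB] at e3
    have hI : Complex.I ≠ 0 := Complex.I_ne_zero
    have e4 : (starRingEnd ℂ (z' i) * 0 - z' i * 1) =
        (starRingEnd ℂ (z i) * B - z i * herm z z') :=
      mul_left_cancel₀ (neg_ne_zero.mpr hI) e3
    linear_combination -e4
  have hB0 : B = 0 := by
    have e : B = ∑ j, z j * (z j * herm z z' - starRingEnd ℂ (z j) * B) := by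
      rw [hB]
      refine Finset.sum_congr rfl fun j _ => ?_
      rw [← hB, ← key j]
    have e' : ∑ j, z j * (z j * herm z z' - starRingEnd ℂ (z j) * B) =
        (∑ j, z j ^ 2) * herm z z' - herm z z * B := by
      simp only [herm, Finset.sum_mul, ← Finset.sum_sub_distrib]
      refine Finset.sum_congr rfl fun j _ => ?_
      ring
    rw [e', hz.2, hz.1] at e
    linear_combination e / 2
  funext i
  rw [key i, hB0]
  simp [mul_comm]

theorem span_eq_of_plu_eq {z z' : Fin 5 → ℂ} (hz : z ∈ unitCone) (hz' : z' ∈ unitCone)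
    (h : ∀ i j, plu z i j = plu z' i j) :
    Submodule.span ℂ {z} = Submodule.span ℂ {z'} := by
  have e := plucker_inj hz hz' h
  have hne : herm z z' ≠ 0 := by
    intro h0
    rw [h0, zero_smul] at e
    exact ne_zero_of_mem_unitCone hz' e
  rw [e]
  exact (Submodule.span_singleton_smul_eq (IsUnit.mk0 _ hne) z).symm

theorem plu_eq_of_span_eq {z z' : Fin 5 → ℂ} (hz : z ∈ unitCone) (hz' : z' ∈ unitCone)
    (h : Submodule.span ℂ {z} = Submodule.span ℂ {z'}) (i j : Fin 5) :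
    plu z i j = plu z' i j := by
  have hm : z' ∈ Submodule.span ℂ {z} := by
    rw [h]; exact Submodule.mem_span_singleton_self z'
  obtain ⟨c, rfl⟩ := Submodule.mem_span_singleton.mp hm
  rw [plu_smul, norm_eq_one_of_smul_mem hz hz']
  ring

theorem span_eq_iff_plu_eq {z z' : Fin 5 → ℂ} (hz : z ∈ unitCone) (hz' : z' ∈ unitCone) :
    Submodule.span ℂ {z} = Submodule.span ℂ {z'} ↔ ∀ i j, plu z i j = plu z' i j :=
  ⟨fun h i j => plu_eq_of_span_eq hz hz' h i j, span_eq_of_plu_eq hz hz'⟩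

/-- Membership in `fixedLines` in terms of proportionality. -/
lemma mem_fixedLines_iff (L : HamiltonianConeLift) (ℓ : Submodule ℂ (Fin 5 → ℂ)) :
    ℓ ∈ fixedLines L ↔
      ∃ z ∈ unitCone, ℓ = Submodule.span ℂ {z} ∧ ∃ c : ℂ, L.Ψ (1, z) = c • z := by
  constructor
  · rintro ⟨z, hz, rfl, hm⟩
    obtain ⟨c, hc⟩ := Submodule.mem_span_singleton.mp hm
    exact ⟨z, hz, rfl, c, hc.symm⟩
  · rintro ⟨z, hz, rfl, c, hc⟩
    exact ⟨z, hz, rfl, Submodule.mem_span_singleton.mpr ⟨c, hc.symm⟩⟩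

/-- Counting lemma: three pairwise distinct fixed lines which exhaust all fixed lines
(everything expressed through Plücker coordinates). -/
theorem ncard_fixedLines_eq_three (L : HamiltonianConeLift) (z₁ z₂ z₃ : Fin 5 → ℂ)
    (h₁ : z₁ ∈ unitCone) (h₂ : z₂ ∈ unitCone) (h₃ : z₃ ∈ unitCone)
    (f₁ : ∃ c : ℂ, L.Ψ (1, z₁) = c • z₁) (f₂ : ∃ c : ℂ, L.Ψ (1, z₂) = c • z₂)
    (f₃ : ∃ c : ℂ, L.Ψ (1, z₃) = c • z₃)
    (d₁₂ : ∃ i j, plu z₁ i j ≠ plu z₂ i j) (d₁₃ : ∃ i j, plu z₁ i j ≠ plu z₃ i j)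
    (d₂₃ : ∃ i j, plu z₂ i j ≠ plu z₃ i j)
    (hall : ∀ z ∈ unitCone, (∃ c : ℂ, L.Ψ (1, z) = c • z) →
      (∀ i j, plu z i j = plu z₁ i j) ∨ (∀ i j, plu z i j = plu z₂ i j) ∨
        (∀ i j, plu z i j = plu z₃ i j)) :
    (fixedLines L).ncard = 3 := by
  have hset : fixedLines L =
      {Submodule.span ℂ {z₁}, Submodule.span ℂ {z₂}, Submodule.span ℂ {z₃}} := by
    ext ℓ
    rw [mem_fixedLines_iff]
    constructor
    · rintro ⟨z, hz, rfl, hc⟩
      rcases hall z hz hc with h | h | h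
      · left; exact span_eq_of_plu_eq hz h₁ h
      · right; left; exact span_eq_of_plu_eq hz h₂ h
      · right; right; exact span_eq_of_plu_eq hz h₃ h
    · rintro (rfl | rfl | rfl)
      · exact ⟨z₁, h₁, rfl, f₁⟩
      · exact ⟨z₂, h₂, rfl, f₂⟩
      · exact ⟨z₃, h₃, rfl, f₃⟩
  have n₁₂ : Submodule.span ℂ {z₁} ≠ Submodule.span ℂ {z₂} := by
    obtain ⟨i, j, hij⟩ := d₁₂
    exact fun h => hij (plu_eq_of_span_eq h₁ h₂ h i j)
  have n₁₃ : Submodule.span ℂ {z₁} ≠ Submodule.span ℂ {z₃} := by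
    obtain ⟨i, j, hij⟩ := d₁₃
    exact fun h => hij (plu_eq_of_span_eq h₁ h₃ h i j)
  have n₂₃ : Submodule.span ℂ {z₂} ≠ Submodule.span ℂ {z₃} := by
    obtain ⟨i, j, hij⟩ := d₂₃
    exact fun h => hij (plu_eq_of_span_eq h₂ h₃ h i j)
  rw [hset]
  exact Set.ncard_eq_three.mpr ⟨_, _, _, n₁₂, n₁₃, n₂₃, rfl⟩

end Crest.Agent.S0316Aux
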