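import Mathlib
import Crest.Agent.S0316Aux.Defs
import Crest.Agent.S0316Aux.H35_Plucker

/-!
# S0316 (helper97): Plücker-only classification of the fixed lines of the canonical `Phi`
-/

set_option autoImplicit false

noncomputable section

namespace Crest.Agent.S0316Aux.H97

open Crest.GeometryTopology.Quadric Crest.Agent.S0316Aux

local notation "conj" => starRingEnd ℂ

/-- coefficient of `ζ` (plus one) in the twist -/
def cA (τ : ℝ) (z : Fin 5 → ℂ) : ℂ :=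
  ⟨(1 - τ ^ 2 * ww z) / (1 + τ ^ 2 * ww z), 2 * τ * NN z / (1 + τ ^ 2 * ww z)⟩

/-- coefficient of `conj ζ` in the twist -/
def cB (τ : ℝ) (z : Fin 5 → ℂ) : ℂ :=
  ⟨2 * τ * (QQ z).im / (1 + τ ^ 2 * ww z), -2 * τ * (QQ z).re / (1 + τ ^ 2 * ww z)⟩

lemma normSq_QQ_le (z : Fin 5 → ℂ) : Complex.normSq (QQ z) ≤ NN z ^ 2 := by
  have h1 : ‖QQ z‖ ≤ NN z := by
    unfold QQ NN
    calc ‖z 1 ^ 2 + z 3 ^ 2 + (z 2 + z 4) ^ 2 / 2‖
        ≤ ‖z 1 ^ 2‖ + ‖z 3 ^ 2‖ + ‖(z 2 + z 4) ^ 2 / 2‖ := norm_add₃_le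
      _ = _ := by
        simp only [norm_pow, norm_div, Complex.normSq_eq_norm_sq]
        norm_num
  rw [Complex.normSq_eq_norm_sq]
  exact pow_le_pow_left₀ (norm_nonneg _) h1 2

lemma ww_nonneg (z : Fin 5 → ℂ) : 0 ≤ ww z := by
  unfold ww
  linarith [normSq_QQ_le z]

lemma D_pos (τ : ℝ) (z : Fin 5 → ℂ) : 0 < 1 + τ ^ 2 * ww z := by
  have := ww_nonneg z
  positivity

lemma cA_cB (τ : ℝ) (z : Fin 5 → ℂ) :
    Complex.normSq (cA τ z) - Complex.normSq (cB τ z) = 1 := by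
  have hD := (D_pos τ z).ne'
  have hw : Complex.normSq (QQ z) = NN z ^ 2 - ww z := by unfold ww; ring
  rw [Complex.normSq_apply] at hw
  simp only [Complex.normSq_apply, cA, cB]
  field_simp
  linear_combination (-4 * τ ^ 2) * hw

lemma aux_div1 (τ D m n : ℝ) (hD : D ≠ 0) :
    ((m : ℂ) + 2 * Complex.I * (τ : ℂ) * (n : ℂ)) / (D : ℂ) = ⟨m / D, 2 * τ * n / D⟩ := by
  have hDc : (D : ℂ) ≠ 0 := by exact_mod_cast hD
  rw [div_eq_iff hDc]
  apply Complex.ext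
  · simp; field_simp
  · simp; field_simp

lemma aux_div2 (τ D : ℝ) (q : ℂ) (hD : D ≠ 0) :
    (-2 * Complex.I * (τ : ℂ) * q) / (D : ℂ) = ⟨2 * τ * q.im / D, -2 * τ * q.re / D⟩ := by
  have hDc : (D : ℂ) ≠ 0 := by exact_mod_cast hD
  rw [div_eq_iff hDc]
  apply Complex.ext
  · simp; field_simp
  · simp; field_simp

lemma Btw_eq (τ : ℝ) (z : Fin 5 → ℂ) (j : Fin 5) :
    Btw τ z j = z j + (cA τ z - 1) * zeta z j + cB τ z * conj (zeta z j) := by
  have hD := (D_pos τ z).ne'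
  have e1 : (((-2 * τ ^ 2 * ww z : ℝ) : ℂ) + 2 * Complex.I * (τ : ℂ) * (NN z : ℂ))
        / ((1 + τ ^ 2 * ww z : ℝ) : ℂ) = cA τ z - 1 := by
    rw [aux_div1 _ _ _ _ hD]
    apply Complex.ext
    · simp only [cA, Complex.sub_re, Complex.one_re]; field_simp; ring
    · simp only [cA, Complex.sub_im, Complex.one_im]; ring
  have e2 : (-2 * Complex.I * (τ : ℂ) * QQ z) / ((1 + τ ^ 2 * ww z : ℝ) : ℂ) = cB τ z := by
    rw [aux_div2 _ _ _ hD]; rfl
  unfold Btw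
  rw [e1, e2]

lemma Btw_0 (τ : ℝ) (z : Fin 5 → ℂ) : Btw τ z 0 = z 0 := by
  rw [Btw_eq]; simp [zeta]

lemma Btw_1 (τ : ℝ) (z : Fin 5 → ℂ) : Btw τ z 1 = cA τ z * z 1 + cB τ z * conj (z 1) := by
  rw [Btw_eq]; simp [zeta]; ring

lemma Btw_3 (τ : ℝ) (z : Fin 5 → ℂ) : Btw τ z 3 = cA τ z * z 3 + cB τ z * conj (z 3) := by
  rw [Btw_eq]; simp [zeta]; ring

lemma Btw_2 (τ : ℝ) (z : Fin 5 → ℂ) :
    Btw τ z 2 = ((cA τ z * (z 2 + z 4) + cB τ z * conj (z 2 + z 4)) + (z 2 - z 4)) / 2 := by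
  rw [Btw_eq]; simp [zeta, map_ofNat]; ring

lemma Btw_4 (τ : ℝ) (z : Fin 5 → ℂ) :
    Btw τ z 4 = ((cA τ z * (z 2 + z 4) + cB τ z * conj (z 2 + z 4)) - (z 2 - z 4)) / 2 := by
  rw [Btw_eq]; simp [zeta, map_ofNat]; ring

/-- the basic invariance -/
lemma im_twist (A B u v : ℂ) (h : Complex.normSq A - Complex.normSq B = 1) :
    (conj (A * u + B * conj u) * (A * v + B * conj v)).im = (conj u * v).im := by
  have : (conj (A * u + B * conj u) * (A * v + B * conj v)).im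
      = (Complex.normSq A - Complex.normSq B) * (conj u * v).im := by
    simp [Complex.normSq_apply]; ring
  rw [this, h, one_mul]

/-- (I1) -/
lemma plu_Btw_13 (τ : ℝ) (z : Fin 5 → ℂ) : plu (Btw τ z) 1 3 = plu z 1 3 := by
  unfold plu
  rw [Btw_1, Btw_3, im_twist _ _ _ _ (cA_cB τ z)]

/-- (I2) -/
lemma plu_Btw_34_23 (τ : ℝ) (z : Fin 5 → ℂ) :
    plu (Btw τ z) 3 4 - plu (Btw τ z) 2 3 = plu z 3 4 - plu z 2 3 := by
  have h := im_twist _ _ (z 3) (z 2 + z 4) (cA_cB τ z)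
  have e1 : plu (Btw τ z) 3 4 - plu (Btw τ z) 2 3
      = 2 * (conj (Btw τ z 3) * (Btw τ z 2 + Btw τ z 4)).im := by
    simp [plu]; ring
  have e2 : plu z 3 4 - plu z 2 3 = 2 * (conj (z 3) * (z 2 + z 4)).im := by
    simp [plu]; ring
  have e3 : Btw τ z 2 + Btw τ z 4 = cA τ z * (z 2 + z 4) + cB τ z * conj (z 2 + z 4) := by
    rw [Btw_2, Btw_4]; ring
  rw [e1, e2, e3, Btw_3, h]

/-- (I3) -/
lemma plu_Btw_12_14 (τ : ℝ) (z : Fin 5 → ℂ) :
    plu (Btw τ z) 1 2 + plu (Btw τ z) 1 4 = plu z 1 2 + plu z 1 4 := by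
  have h := im_twist _ _ (z 1) (z 2 + z 4) (cA_cB τ z)
  have e1 : plu (Btw τ z) 1 2 + plu (Btw τ z) 1 4
      = 2 * (conj (Btw τ z 1) * (Btw τ z 2 + Btw τ z 4)).im := by
    simp [plu]; ring
  have e2 : plu z 1 2 + plu z 1 4 = 2 * (conj (z 1) * (z 2 + z 4)).im := by
    simp [plu]; ring
  have e3 : Btw τ z 2 + Btw τ z 4 = cA τ z * (z 2 + z 4) + cB τ z * conj (z 2 + z 4) := by
    rw [Btw_2, Btw_4]; ring
  rw [e1, e2, e3, Btw_1, h]

/-- (I4) -/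
lemma plu_Btw_24 (τ : ℝ) (z : Fin 5 → ℂ) :
    (1 + τ ^ 2 * ww z) * plu (Btw τ z) 2 4 = (1 - τ ^ 2 * ww z) * plu z 2 4
      - τ * (plu z 3 4 ^ 2 - plu z 2 3 ^ 2 + plu z 1 4 ^ 2 - plu z 1 2 ^ 2) := by
  have hD := (D_pos τ z).ne'
  have e1 : plu (Btw τ z) 2 4
      = (conj (z 2 - z 4) * (cA τ z * (z 2 + z 4) + cB τ z * conj (z 2 + z 4))).im := by
    unfold plu
    rw [Btw_2, Btw_4]
    generalize cA τ z * (z 2 + z 4) + cB τ z * conj (z 2 + z 4) = a'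
    generalize z 2 - z 4 = d
    simp [map_ofNat]; ring
  rw [e1]
  have hAr : (cA τ z).re = (1 - τ ^ 2 * ww z) / (1 + τ ^ 2 * ww z) := rfl
  have hAi : (cA τ z).im = 2 * τ * NN z / (1 + τ ^ 2 * ww z) := rfl
  have hBr : (cB τ z).re = 2 * τ * (QQ z).im / (1 + τ ^ 2 * ww z) := rfl
  have hBi : (cB τ z).im = -2 * τ * (QQ z).re / (1 + τ ^ 2 * ww z) := rfl
  have hQr : (QQ z).re = (z 1).re ^ 2 - (z 1).im ^ 2 + (z 3).re ^ 2 - (z 3).im ^ 2
      + (((z 2).re + (z 4).re) ^ 2 - ((z 2).im + (z 4).im) ^ 2) / 2 := by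
    simp [QQ, sq]; ring
  have hQi : (QQ z).im = 2 * (z 1).re * (z 1).im + 2 * (z 3).re * (z 3).im
      + ((z 2).re + (z 4).re) * ((z 2).im + (z 4).im) := by
    simp [QQ, sq]; ring
  have hN : NN z = (z 1).re ^ 2 + (z 1).im ^ 2 + (z 3).re ^ 2 + (z 3).im ^ 2
      + (((z 2).re + (z 4).re) ^ 2 + ((z 2).im + (z 4).im) ^ 2) / 2 := by
    simp [NN, Complex.normSq_apply]; ring
  simp only [plu, Complex.mul_im, Complex.mul_re, Complex.add_re, Complex.add_im, Complex.sub_re,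
    Complex.sub_im, Complex.conj_re, Complex.conj_im, map_add, map_sub, hAr, hAi, hBr, hBi]
  rw [hQr, hQi, hN]
  generalize ww z = w at *
  field_simp
  ring

/-- Plücker relation (coordinates 1..4). -/
lemma plu_rel (z : Fin 5 → ℂ) :
    plu z 1 2 * plu z 3 4 - plu z 1 3 * plu z 2 4 + plu z 1 4 * plu z 2 3 = 0 := by
  simp [plu]; ring

/-- normalisation on the cone when `z 0 = 0`. -/
lemma plu_norm {z : Fin 5 → ℂ} (hz : z ∈ unitCone) (h0 : z 0 = 0) :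
    plu z 1 2 ^ 2 + plu z 1 3 ^ 2 + plu z 1 4 ^ 2 + plu z 2 3 ^ 2 + plu z 2 4 ^ 2
      + plu z 3 4 ^ 2 = 1 := by
  obtain ⟨h1, h2⟩ := hz
  have a1 := congrArg Complex.re h1
  have a2 := congrArg Complex.re h2
  have a3 := congrArg Complex.im h2
  simp [herm, Fin.sum_univ_five, h0, sq] at a1 a2 a3
  simp only [plu, Complex.mul_im, Complex.conj_re, Complex.conj_im]
  have key : ∀ x1 x2 x3 x4 y1 y2 y3 y4 : ℝ,
      (2 * (x1 * y2 + -y1 * x2)) ^ 2 + (2 * (x1 * y3 + -y1 * x3)) ^ 2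
        + (2 * (x1 * y4 + -y1 * x4)) ^ 2 + (2 * (x2 * y3 + -y2 * x3)) ^ 2
        + (2 * (x2 * y4 + -y2 * x4)) ^ 2 + (2 * (x3 * y4 + -y3 * x4)) ^ 2
      = (x1 * x1 + y1 * y1 + (x2 * x2 + y2 * y2) + (x3 * x3 + y3 * y3) + (x4 * x4 + y4 * y4)) ^ 2
        - (x1 * x1 - y1 * y1 + (x2 * x2 - y2 * y2) + (x3 * x3 - y3 * y3) + (x4 * x4 - y4 * y4)) ^ 2
        - (x1 * y1 + y1 * x1 + (x2 * y2 + y2 * x2) + (x3 * y3 + y3 * x3)
            + (x4 * y4 + y4 * x4)) ^ 2 := by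
    intros; ring
  rw [key, a1, a2, a3]; norm_num

lemma im_unit (l X Y : ℂ) (hl : ‖l‖ = 1) :
    (conj (-l * X) * (-l * Y)).im = (conj X * Y).im := by
  have h : conj l * l = 1 := by
    rw [Complex.conj_mul', hl]; norm_num
  have : conj (-l * X) * (-l * Y) = (conj l * l) * (conj X * Y) := by
    simp only [map_mul, map_neg]; ring
  rw [this, h, one_mul]

/-- pure real algebra -/
lemma real_core (p12 p13 p14 p23 p24 p34 w : ℝ) (hw : 0 ≤ w)
    (E1 : 119 / 169 * p13 + 120 / 169 * p23 = p13)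
    (E2 : p34 - (-(120 / 169) * p13 + 119 / 169 * p23) = p34 - p23)
    (E3 : p12 + (119 / 169 * p14 + 120 / 169 * p24) = p12 + p14)
    (E4 : (1 + (65 / 72) ^ 2 * w) * (-(120 / 169) * p14 + 119 / 169 * p24)
      = (1 - (65 / 72) ^ 2 * w) * p24 - 65 / 72 * (p34 ^ 2 - p23 ^ 2 + p14 ^ 2 - p12 ^ 2))
    (E5 : p12 * p34 - p13 * p24 + p14 * p23 = 0)
    (E6 : p12 ^ 2 + p13 ^ 2 + p14 ^ 2 + p23 ^ 2 + p24 ^ 2 + p34 ^ 2 = 1) :
    p13 = 0 ∧ p23 = 0 ∧ p34 = 0 ∧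
      ((p14 = 12 / 13 ∧ p24 = 5 / 13 ∧ p12 = 0) ∨
       (p14 = -156 / 313 ∧ p24 = -65 / 313 ∧ p12 ^ 2 = 69408 / 97969)) := by
  have h13 : p13 = 0 := by linarith
  have h23 : p23 = 0 := by linarith
  have h24 : p24 = 5 / 12 * p14 := by linarith
  subst h13 h23 h24
  have F4 : p14 = 13 / 12 * (p34 ^ 2 + p14 ^ 2 - p12 ^ 2) := by
    linear_combination (-6 / 5) * E4
  have F5 : p12 * p34 = 0 := by linear_combination E5
  have F6 : p12 ^ 2 + 169 / 144 * p14 ^ 2 + p34 ^ 2 = 1 := by linear_combination E6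
  refine ⟨rfl, rfl, ?_⟩
  rcases mul_eq_zero.mp F5 with h | h
  · -- p12 = 0
    subst h
    have G : (13 / 12 * p14 - 1) * (25 / 144 * p14 + 13 / 12) = 0 := by
      linear_combination (1 : ℝ) * F4 + (13 / 12) * F6
    rcases mul_eq_zero.mp G with g | g
    · have h14 : p14 = 12 / 13 := by linarith
      subst h14
      have : p34 ^ 2 = 0 := by linear_combination F6
      have h34 : p34 = 0 := by simpa using this
      exact ⟨h34, Or.inl ⟨rfl, by norm_num, rfl⟩⟩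
    · exfalso
      have h14 : p14 = -156 / 25 := by linarith
      subst h14
      nlinarith [sq_nonneg p34]
  · subst h
    refine ⟨rfl, ?_⟩
    have G : (13 / 12 * p14 - 1) * (313 / 144 * p14 + 13 / 12) = 0 := by
      linear_combination (-1 : ℝ) * F4 + (13 / 12) * F6
    rcases mul_eq_zero.mp G with g | g
    · have h14 : p14 = 12 / 13 := by linarith
      subst h14
      have : p12 ^ 2 = 0 := by linear_combination F6
      have h12 : p12 = 0 := by simpa using this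
      exact Or.inl ⟨rfl, by norm_num, h12⟩
    · have h14 : p14 = -156 / 313 := by linarith
      subst h14
      exact Or.inr ⟨rfl, by norm_num, by linear_combination F6⟩

/-- **Classification** of the fixed lines in `{z 0 = 0}` through Plücker coordinates. -/
theorem classify {z : Fin 5 → ℂ} (hz : z ∈ unitCone) (h0 : z 0 = 0) {l : ℂ} (hl : ‖l‖ = 1)
    (hfix : Phi z = l • z) :
    plu z 1 3 = 0 ∧ plu z 2 3 = 0 ∧ plu z 3 4 = 0 ∧
      ((plu z 1 4 = 12 / 13 ∧ plu z 2 4 = 5 / 13 ∧ plu z 1 2 = 0) ∨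
       (plu z 1 4 = -156 / 313 ∧ plu z 2 4 = -65 / 313 ∧ plu z 1 2 ^ 2 = 69408 / 97969)) := by
  set b := Btw (65 / 72) z with hb
  have f1 := congrFun hfix 1
  have f2 := congrFun hfix 2
  have f3 := congrFun hfix 3
  have f4 := congrFun hfix 4
  simp only [Phi, Glin, ← hb, Pi.smul_apply, smul_eq_mul] at f1 f2 f3 f4
  simp at f1 f2 f3 f4
  have b1 : b 1 = -l * (((119 / 169 : ℝ) : ℂ) * z 1 + ((120 / 169 : ℝ) : ℂ) * z 2) := by
    push_cast
    linear_combination (-119 / 169 : ℂ) * f1 - (120 / 169 : ℂ) * f2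
  have b2 : b 2 = -l * (((-(120 / 169) : ℝ) : ℂ) * z 1 + ((119 / 169 : ℝ) : ℂ) * z 2) := by
    push_cast
    linear_combination (120 / 169 : ℂ) * f1 - (119 / 169 : ℂ) * f2
  have b3 : b 3 = -l * z 3 := by linear_combination (-1 : ℂ) * f3
  have b4 : b 4 = -l * z 4 := by linear_combination (-1 : ℂ) * f4
  have q12 : plu b 1 2 = plu z 1 2 := by
    unfold plu; rw [b1, b2, im_unit _ _ _ hl]; simp [-Complex.ofReal_div, -Complex.ofReal_neg]; ring
  have q13 : plu b 1 3 = 119 / 169 * plu z 1 3 + 120 / 169 * plu z 2 3 := by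
    unfold plu; rw [b1, b3, im_unit _ _ _ hl]; simp [-Complex.ofReal_div, -Complex.ofReal_neg]; ring
  have q14 : plu b 1 4 = 119 / 169 * plu z 1 4 + 120 / 169 * plu z 2 4 := by
    unfold plu; rw [b1, b4, im_unit _ _ _ hl]; simp [-Complex.ofReal_div, -Complex.ofReal_neg]; ring
  have q23 : plu b 2 3 = -(120 / 169) * plu z 1 3 + 119 / 169 * plu z 2 3 := by
    unfold plu; rw [b2, b3, im_unit _ _ _ hl]; simp [-Complex.ofReal_div, -Complex.ofReal_neg]; ring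
  have q24 : plu b 2 4 = -(120 / 169) * plu z 1 4 + 119 / 169 * plu z 2 4 := by
    unfold plu; rw [b2, b4, im_unit _ _ _ hl]; simp [-Complex.ofReal_div, -Complex.ofReal_neg]; ring
  have q34 : plu b 3 4 = plu z 3 4 := by
    unfold plu; rw [b3, b4, im_unit _ _ _ hl]
  have I1 := plu_Btw_13 (65 / 72) z
  have I2 := plu_Btw_34_23 (65 / 72) z
  have I3 := plu_Btw_12_14 (65 / 72) z
  have I4 := plu_Btw_24 (65 / 72) z
  rw [← hb] at I1 I2 I3 I4
  rw [q13] at I1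
  rw [q34, q23] at I2
  rw [q12, q14] at I3
  rw [q24] at I4
  exact real_core _ _ _ _ _ _ _ (ww_nonneg z) I1 I2 I3 I4 (plu_rel z) (plu_norm hz h0)

end Crest.Agent.S0316Aux.H97
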