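import Crest.Agent.S0316Aux.H42_Final
import Crest.Agent.S0316Aux.H42_Lift
import Crest.Agent.S0316Aux.H89_Phi
import Crest.Agent.S0316Aux.H97_PluCount

/-!
helper42: S0316 modulo the two interfaces POINTS and DEGEN.
-/

set_option autoImplicit false

noncomputable section

namespace Crest.Agent.S0316Aux

open Crest.GeometryTopology.Quadric

/-- `Phi` preserves the cone (through the lift). -/
theorem Phi_mem_unitCone {z : Fin 5 → ℂ} (hz : z ∈ unitCone) : Phi z ∈ unitCone := by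
  obtain ⟨LB, hLB⟩ := exists_lift_Btw
  obtain ⟨L, hL⟩ := exists_lift_Phi LB hLB
  have := L.mapsTo_cone 1 z hz
  rwa [hL] at this

/-- Interface OFFQ2 + CLASS. -/
theorem class_all : ∀ z ∈ unitCone, ∀ l : ℂ, Phi z = l • z →
      HasPlu z 0 (12 / 13) (5 / 13) ∨
        ∃ q : ℝ, q ^ 2 = 69408 / 97969 ∧ HasPlu z q (-156 / 313) (-65 / 313) := by
  intro z hz l hl
  have h0 : z 0 = 0 := H89.z0_eq_zero hz hl
  have hn : ‖l‖ = 1 := by
    have h1 := Phi_mem_unitCone hz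
    rw [hl] at h1
    exact norm_eq_one_of_smul_mem hz h1
  obtain ⟨h13, h23, h34, h⟩ := H97.classify hz h0 hn hl
  rcases h with ⟨h14, h24, h12⟩ | ⟨h14, h24, h12⟩
  · exact Or.inl ⟨h0, h12, h13, h14, h23, h24, h34⟩
  · exact Or.inr ⟨plu z 1 2, h12, h0, rfl, h13, h14, h23, h24, h34⟩

/-- S0316 modulo POINTS and DEGEN. -/
theorem main_of_points_degen
    (ρ : ℝ) (hρ0 : 0 < ρ) (hρ : ρ ^ 2 = 69408 / 97969)
    (Z0 Z1 Z2 : Fin 5 → ℂ)
    (c0 : Z0 ∈ unitCone) (c1 : Z1 ∈ unitCone) (c2 : Z2 ∈ unitCone)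
    (f0 : ∃ l : ℂ, Phi Z0 = l • Z0) (f1 : ∃ l : ℂ, Phi Z1 = l • Z1)
    (f2 : ∃ l : ℂ, Phi Z2 = l • Z2)
    (p0 : HasPlu Z0 0 (12 / 13) (5 / 13)) (p1 : HasPlu Z1 ρ (-156 / 313) (-65 / 313))
    (p2 : HasPlu Z2 (-ρ) (-156 / 313) (-65 / 313))
    (hDegen : ∀ L : HamiltonianConeLift, (∀ z, L.Ψ (1, z) = Phi z) →
      HasDegenerateFixedPoint L) :
    ∃ L : HamiltonianConeLift, (fixedLines L).ncard = 3 ∧ HasDegenerateFixedPoint L :=
  final_of_interfaces exists_lift_Btw class_all ρ hρ0 hρ Z0 Z1 Z2 c0 c1 c2 f0 f1 f2 p0 p1 p2 hDegen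

end Crest.Agent.S0316Aux
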