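import Mathlib
import Crest.Agent.S0316Aux.Defs
import Crest.Agent.S0316Aux.H35_Plucker

/-!
# S0316: the three explicit fixed lines of `Phi` (helper74, board task POINTS)

All three fixed lines lie on the conic `z 0 = z 3 = 0`.  We use the family
`Zpt p q = ((1+i)/2) * (0, 12/13 - 5 i q/13, 5/13 + 12 i q/13, 0, -13 i p)`,
which lies on the unit cone iff `169 p^2 + q^2 = 1`.
-/

set_option autoImplicit false

noncomputable section

namespace Crest.Agent.S0316Aux.H74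

open Crest.GeometryTopology.Quadric Crest.Agent.S0316Aux

/-- The family of points on the conic `z 0 = z 3 = 0`. -/
def Zpt (p q : ℝ) : Fin 5 → ℂ :=
  ![0, ⟨6 / 13 + 5 * q / 26, 6 / 13 - 5 * q / 26⟩, ⟨5 / 26 - 6 * q / 13, 5 / 26 + 6 * q / 13⟩, 0,
    ⟨13 * p / 2, -(13 * p / 2)⟩]

@[simp] lemma Zpt_0 (p q : ℝ) : Zpt p q 0 = 0 := rfl
@[simp] lemma Zpt_1 (p q : ℝ) : Zpt p q 1 = ⟨6 / 13 + 5 * q / 26, 6 / 13 - 5 * q / 26⟩ := rfl
@[simp] lemma Zpt_2 (p q : ℝ) : Zpt p q 2 = ⟨5 / 26 - 6 * q / 13, 5 / 26 + 6 * q / 13⟩ := rfl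
@[simp] lemma Zpt_3 (p q : ℝ) : Zpt p q 3 = 0 := rfl
@[simp] lemma Zpt_4 (p q : ℝ) : Zpt p q 4 = ⟨13 * p / 2, -(13 * p / 2)⟩ := rfl

lemma Zpt_mem_unitCone {p q : ℝ} (h : 169 * p ^ 2 + q ^ 2 = 1) : Zpt p q ∈ unitCone := by
  constructor
  · simp only [herm, Fin.sum_univ_five, Zpt_0, Zpt_1, Zpt_2, Zpt_3, Zpt_4]
    apply Complex.ext
    · simp
      linear_combination (1 / 2) * h
    · simp
      ring
  · simp only [Fin.sum_univ_five, Zpt_0, Zpt_1, Zpt_2, Zpt_3, Zpt_4]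
    apply Complex.ext
    · simp [pow_two]
      ring
    · simp [pow_two]
      linear_combination (-1 / 2) * h

/-- The Plücker matrix of `Zpt p q`. -/
def Pmat (p q : ℝ) : Fin 5 → Fin 5 → ℝ :=
  ![![0, 0, 0, 0, 0], ![0, 0, q, 0, -12 * p], ![0, -q, 0, 0, -5 * p], ![0, 0, 0, 0, 0],
    ![0, 12 * p, 5 * p, 0, 0]]

lemma plu_Zpt (p q : ℝ) (i j : Fin 5) : plu (Zpt p q) i j = Pmat p q i j := by
  fin_cases i <;> fin_cases j <;> simp [plu, Pmat] <;> ring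

lemma plu_Zpt_12 (p q : ℝ) : plu (Zpt p q) 1 2 = q := by
  rw [plu_Zpt]; rfl

/-- Criterion: the ten values `plu z i j`, `i < j`, identify the Plücker matrix of `Zpt p q`. -/
lemma plu_eq_Zpt_of {z : Fin 5 → ℂ} {p q : ℝ}
    (h01 : plu z 0 1 = 0) (h02 : plu z 0 2 = 0) (h03 : plu z 0 3 = 0) (h04 : plu z 0 4 = 0)
    (h12 : plu z 1 2 = q) (h13 : plu z 1 3 = 0) (h14 : plu z 1 4 = -12 * p)
    (h23 : plu z 2 3 = 0) (h24 : plu z 2 4 = -5 * p) (h34 : plu z 3 4 = 0) (i j : Fin 5) :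
    plu z i j = plu (Zpt p q) i j := by
  rw [plu_Zpt]
  have a10 := plu_antisymm z 0 1
  have a20 := plu_antisymm z 0 2
  have a30 := plu_antisymm z 0 3
  have a40 := plu_antisymm z 0 4
  have a21 := plu_antisymm z 1 2
  have a31 := plu_antisymm z 1 3
  have a41 := plu_antisymm z 1 4
  have a32 := plu_antisymm z 2 3
  have a42 := plu_antisymm z 2 4
  have a43 := plu_antisymm z 3 4
  fin_cases i <;> fin_cases j <;> simp [Pmat, plu_self, *]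

/-! ### The invariants `NN`, `QQ`, `ww` on the family -/

lemma NN_Zpt (p q : ℝ) :
    NN (Zpt p q) = 72 / 169 + 25 * q ^ 2 / 338 + 25 / 676 + (6 * q / 13 - 13 * p / 2) ^ 2 := by
  simp [NN, Complex.normSq_apply]
  ring

lemma QQ_Zpt (p q : ℝ) :
    QQ (Zpt p q) = ⟨60 * q / 169 - 5 / 13 * (6 * q / 13 - 13 * p / 2),
      72 / 169 - 25 * q ^ 2 / 338 + 25 / 676 - (6 * q / 13 - 13 * p / 2) ^ 2⟩ := by
  apply Complex.ext
  · simp [QQ, pow_two]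
    ring
  · simp [QQ, pow_two]
    ring

/-- The first fixed point (the degenerate one): `((1+i)/26) (0,12,5,0,13 i)`. -/
def Z0 : Fin 5 → ℂ := Zpt (-1 / 13) 0

/-- Its multiplier. -/
def l0 : ℂ := ⟨-72 / 97, -65 / 97⟩

lemma Z0_mem : Z0 ∈ unitCone := Zpt_mem_unitCone (by norm_num)

lemma NN_Z0 : NN Z0 = 241 / 338 := by
  rw [Z0, NN_Zpt]; norm_num

lemma QQ_Z0 : QQ Z0 = ⟨-5 / 26, 36 / 169⟩ := by
  rw [Z0, QQ_Zpt]; norm_num

lemma ww_Z0 : ww Z0 = 72 / 169 := by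
  rw [ww, NN_Z0, QQ_Z0]; norm_num [Complex.normSq_apply]

/-- `Btw` in terms of the two coefficients. -/
lemma Btw_eq (τ : ℝ) (z : Fin 5 → ℂ) (al be : ℂ) (hD : (1 + τ ^ 2 * ww z) ≠ 0)
    (hal : ((-2 * τ ^ 2 * ww z : ℝ) : ℂ) + 2 * Complex.I * (τ : ℂ) * (NN z : ℂ)
      = al * ((1 + τ ^ 2 * ww z : ℝ) : ℂ))
    (hbe : -2 * Complex.I * (τ : ℂ) * QQ z = be * ((1 + τ ^ 2 * ww z : ℝ) : ℂ)) (j : Fin 5) :
    Btw τ z j = z j + al * zeta z j + be * (starRingEnd ℂ) (zeta z j) := by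
  have hD' : ((1 + τ ^ 2 * ww z : ℝ) : ℂ) ≠ 0 := by exact_mod_cast hD
  rw [Btw, hal, hbe, mul_div_assoc, mul_div_assoc, div_self hD', mul_one, mul_one]

/-- `(z 2 + z 4) / 2` on the family. -/
def ah (p q : ℝ) : ℂ := ⟨(5 / 26 - 6 * q / 13 + 13 * p / 2) / 2, (5 / 26 + 6 * q / 13 - 13 * p / 2) / 2⟩

lemma zeta_Zpt (p q : ℝ) : zeta (Zpt p q) = ![0, Zpt p q 1, ah p q, 0, ah p q] := by
  have h : (Zpt p q 2 + Zpt p q 4) / 2 = ah p q := by
    rw [div_eq_iff (by norm_num)]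
    apply Complex.ext <;> simp [ah] <;> ring
  simp only [zeta, h, Zpt_3]

/-- Reduction of the fixed point equation on the family to three complex equations. -/
lemma Phi_Zpt_of (p q : ℝ) (al be l : ℂ) (hD : (1 + (65 / 72 : ℝ) ^ 2 * ww (Zpt p q)) ≠ 0)
    (hal : ((-2 * (65 / 72 : ℝ) ^ 2 * ww (Zpt p q) : ℝ) : ℂ)
        + 2 * Complex.I * ((65 / 72 : ℝ) : ℂ) * (NN (Zpt p q) : ℂ)
      = al * ((1 + (65 / 72 : ℝ) ^ 2 * ww (Zpt p q) : ℝ) : ℂ))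
    (hbe : -2 * Complex.I * ((65 / 72 : ℝ) : ℂ) * QQ (Zpt p q)
      = be * ((1 + (65 / 72 : ℝ) ^ 2 * ww (Zpt p q) : ℝ) : ℂ))
    (h1 : -((119 / 169 : ℂ) * (Zpt p q 1 + al * Zpt p q 1 + be * (starRingEnd ℂ) (Zpt p q 1))
        - (120 / 169 : ℂ) * (Zpt p q 2 + al * ah p q + be * (starRingEnd ℂ) (ah p q)))
      = l * Zpt p q 1)
    (h2 : -((120 / 169 : ℂ) * (Zpt p q 1 + al * Zpt p q 1 + be * (starRingEnd ℂ) (Zpt p q 1))
        + (119 / 169 : ℂ) * (Zpt p q 2 + al * ah p q + be * (starRingEnd ℂ) (ah p q)))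
      = l * Zpt p q 2)
    (h4 : -(Zpt p q 4 + al * ah p q + be * (starRingEnd ℂ) (ah p q)) = l * Zpt p q 4) :
    Phi (Zpt p q) = l • Zpt p q := by
  have hB := Btw_eq (65 / 72) (Zpt p q) al be hD hal hbe
  funext j
  simp only [Phi, Glin, hB, zeta_Zpt]
  fin_cases j
  · simp
  · simpa using h1
  · simpa using h2
  · simp
  · simpa using h4

theorem Phi_Z0 : Phi Z0 = l0 • Z0 := by
  apply Phi_Zpt_of (-1 / 13) 0 ⟨-50 / 97, 1205 / 1261⟩ ⟨360 / 1261, 25 / 97⟩ l0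
  · change 1 + (65 / 72 : ℝ) ^ 2 * ww Z0 ≠ 0
    rw [ww_Z0]; norm_num
  · change ((-2 * (65 / 72 : ℝ) ^ 2 * ww Z0 : ℝ) : ℂ)
        + 2 * Complex.I * ((65 / 72 : ℝ) : ℂ) * (NN Z0 : ℂ) = _ * ((1 + (65 / 72 : ℝ) ^ 2 * ww Z0 : ℝ) : ℂ)
    rw [ww_Z0, NN_Z0]
    apply Complex.ext <;> simp <;> norm_num
  · change -2 * Complex.I * ((65 / 72 : ℝ) : ℂ) * QQ Z0 = _ * ((1 + (65 / 72 : ℝ) ^ 2 * ww Z0 : ℝ) : ℂ)
    rw [ww_Z0, QQ_Z0]
    apply Complex.ext <;> simp <;> norm_num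
  · apply Complex.ext <;> simp [ah, l0] <;> norm_num
  · apply Complex.ext <;> simp [ah, l0] <;> norm_num
  · apply Complex.ext <;> simp [ah, l0] <;> norm_num

/-- The other two fixed points, `ρ = ± √482`. -/
def Zr (ρ : ℝ) : Fin 5 → ℂ := Zpt (13 / 313) (12 * ρ / 313)

/-- Their multipliers. -/
def lr (ρ : ℝ) : ℂ :=
  ⟨-312696 / 1590121 - 3600 * ρ / 122317, -21715 / 122317 + 51840 * ρ / 1590121⟩

lemma Zr_mem {ρ : ℝ} (h : ρ ^ 2 = 482) : Zr ρ ∈ unitCone :=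
  Zpt_mem_unitCone (by linear_combination (144 / 97969) * h)

lemma NN_Zr {ρ : ℝ} (h : ρ ^ 2 = 482) : NN (Zr ρ) = 144841 / 195938 - 936 * ρ / 97969 := by
  rw [Zr, NN_Zpt]; ring_nf; rw [h]; ring

lemma QQ_Zr {ρ : ℝ} (h : ρ ^ 2 = 482) :
    QQ (Zr ρ) = ⟨65 / 626 + 360 * ρ / 52897, 3093084 / 16556761 + 936 * ρ / 97969⟩ := by
  rw [Zr, QQ_Zpt]
  apply Complex.ext
  · simp only; ring
  · simp only; ring_nf; rw [h]; ring

lemma ww_Zr {ρ : ℝ} (h : ρ ^ 2 = 482) : ww (Zr ρ) = 46872 / 97969 - 1872 * ρ / 97969 := by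
  rw [ww, NN_Zr h, QQ_Zr h, Complex.normSq_apply]; ring_nf; rw [h]; ring

lemma abs_rho_lt {ρ : ℝ} (h : ρ ^ 2 = 482) : |ρ| < 22 := by
  apply abs_lt_of_sq_lt_sq' _ (by norm_num) |> fun h => abs_lt.mpr h
  rw [h]; norm_num

theorem Phi_Zr {ρ : ℝ} (h : ρ ^ 2 = 482) : Phi (Zr ρ) = lr ρ • Zr ρ := by
  have hlt := abs_lt.mp (abs_rho_lt h)
  apply Phi_Zpt_of (13 / 313) (12 * ρ / 313)
    ⟨-431769650 / 921790321 + 15818400 / 921790321 * ρ,
      876409755 / 921790321 - 1620710 / 921790321 * ρ⟩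
    ⟨3950313480 / 11983274173 + 14844960 / 921790321 * ρ,
      -179186475 / 921790321 - 132040850 / 11983274173 * ρ⟩ (lr ρ)
  · change 1 + (65 / 72 : ℝ) ^ 2 * ww (Zr ρ) ≠ 0
    rw [ww_Zr h]
    have : 0 < 1 + (65 / 72 : ℝ) ^ 2 * (46872 / 97969 - 1872 * ρ / 97969) := by
      nlinarith [hlt.1, hlt.2]
    exact this.ne'
  · change ((-2 * (65 / 72 : ℝ) ^ 2 * ww (Zr ρ) : ℝ) : ℂ)
        + 2 * Complex.I * ((65 / 72 : ℝ) : ℂ) * (NN (Zr ρ) : ℂ)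
        = _ * ((1 + (65 / 72 : ℝ) ^ 2 * ww (Zr ρ) : ℝ) : ℂ)
    rw [ww_Zr h, NN_Zr h]
    apply Complex.ext
    · simp only [Complex.add_re, Complex.mul_re, Complex.ofReal_re, Complex.ofReal_im,
        Complex.I_re, Complex.I_im, Complex.re_ofNat, Complex.im_ofNat, Complex.mul_im]
      ring_nf; rw [h]; ring
    · simp only [Complex.add_im, Complex.mul_re, Complex.ofReal_re, Complex.ofReal_im,
        Complex.I_re, Complex.I_im, Complex.re_ofNat, Complex.im_ofNat, Complex.mul_im]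
      ring_nf; rw [h]; ring
  · change -2 * Complex.I * ((65 / 72 : ℝ) : ℂ) * QQ (Zr ρ)
        = _ * ((1 + (65 / 72 : ℝ) ^ 2 * ww (Zr ρ) : ℝ) : ℂ)
    rw [ww_Zr h, QQ_Zr h]
    apply Complex.ext
    · simp only [Complex.neg_re, Complex.neg_im, Complex.mul_re, Complex.ofReal_re,
        Complex.ofReal_im, Complex.I_re, Complex.I_im, Complex.re_ofNat, Complex.im_ofNat,
        Complex.mul_im]
      ring_nf; rw [h]; ring
    · simp only [Complex.neg_re, Complex.neg_im, Complex.mul_re, Complex.ofReal_re,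
        Complex.ofReal_im, Complex.I_re, Complex.I_im, Complex.re_ofNat, Complex.im_ofNat,
        Complex.mul_im]
      ring_nf; rw [h]; ring
  · apply Complex.ext
    · simp [ah, lr]; ring_nf; rw [h]; ring
    · simp [ah, lr]; ring_nf; rw [h]; ring
  · apply Complex.ext
    · simp [ah, lr]; ring_nf; rw [h]; ring
    · simp [ah, lr]; ring_nf; rw [h]; ring
  · apply Complex.ext
    · simp [ah, lr]; ring_nf; rw [h]; ring
    · simp [ah, lr]; ring_nf; rw [h]; ring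

/-! ### Packaging -/

lemma sqrt482_sq : (Real.sqrt 482) ^ 2 = 482 := Real.sq_sqrt (by norm_num)

lemma neg_sqrt482_sq : (-Real.sqrt 482) ^ 2 = 482 := by rw [neg_sq, sqrt482_sq]

lemma sqrt482_pos : 0 < Real.sqrt 482 := Real.sqrt_pos.mpr (by norm_num)

/-- The second fixed point. -/
def Zp : Fin 5 → ℂ := Zr (Real.sqrt 482)

/-- The third fixed point. -/
def Zm : Fin 5 → ℂ := Zr (-Real.sqrt 482)

lemma Zp_mem : Zp ∈ unitCone := Zr_mem sqrt482_sq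
lemma Zm_mem : Zm ∈ unitCone := Zr_mem neg_sqrt482_sq
theorem Phi_Zp : Phi Zp = lr (Real.sqrt 482) • Zp := Phi_Zr sqrt482_sq
theorem Phi_Zm : Phi Zm = lr (-Real.sqrt 482) • Zm := Phi_Zr neg_sqrt482_sq

lemma plu_Z0_12 : plu Z0 1 2 = 0 := plu_Zpt_12 _ _
lemma plu_Zp_12 : plu Zp 1 2 = 12 * Real.sqrt 482 / 313 := plu_Zpt_12 _ _
lemma plu_Zm_12 : plu Zm 1 2 = 12 * (-Real.sqrt 482) / 313 := plu_Zpt_12 _ _

lemma Z0_ne_Zp : ∃ i j, plu Z0 i j ≠ plu Zp i j :=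
  ⟨1, 2, by rw [plu_Z0_12, plu_Zp_12]; have := sqrt482_pos; positivity⟩

lemma Z0_ne_Zm : ∃ i j, plu Z0 i j ≠ plu Zm i j :=
  ⟨1, 2, by
    rw [plu_Z0_12, plu_Zm_12]
    have := sqrt482_pos
    intro h
    nlinarith⟩

lemma Zp_ne_Zm : ∃ i j, plu Zp i j ≠ plu Zm i j :=
  ⟨1, 2, by
    rw [plu_Zp_12, plu_Zm_12]
    have := sqrt482_pos
    intro h
    nlinarith⟩

/-- The count, from a classification of the fixed lines by their Plücker coordinates. -/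
theorem ncard_fixedLines_of_plu (L : HamiltonianConeLift)
    (hL : ∀ z ∈ unitCone, L.Ψ (1, z) = Phi z)
    (hall : ∀ z ∈ unitCone, (∃ c : ℂ, Phi z = c • z) →
      (∀ i j, plu z i j = plu Z0 i j) ∨ (∀ i j, plu z i j = plu Zp i j) ∨
        (∀ i j, plu z i j = plu Zm i j)) :
    (fixedLines L).ncard = 3 := by
  refine ncard_fixedLines_eq_three L Z0 Zp Zm Z0_mem Zp_mem Zm_mem
    ⟨_, (hL _ Z0_mem).trans Phi_Z0⟩ ⟨_, (hL _ Zp_mem).trans Phi_Zp⟩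
    ⟨_, (hL _ Zm_mem).trans Phi_Zm⟩ Z0_ne_Zp Z0_ne_Zm Zp_ne_Zm ?_
  intro z hz hc
  rw [hL z hz] at hc
  exact hall z hz hc

/-- The count, from the ten numerical Plücker values (the form produced by the real-algebra
core: either the degenerate point, or `(plu z 1 2)^2 = 69408/97969`). -/
theorem ncard_fixedLines_of_values (L : HamiltonianConeLift)
    (hL : ∀ z ∈ unitCone, L.Ψ (1, z) = Phi z)
    (hall : ∀ z ∈ unitCone, (∃ c : ℂ, Phi z = c • z) →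
      (plu z 0 1 = 0 ∧ plu z 0 2 = 0 ∧ plu z 0 3 = 0 ∧ plu z 0 4 = 0 ∧ plu z 1 3 = 0 ∧
        plu z 2 3 = 0 ∧ plu z 3 4 = 0) ∧
      ((plu z 1 2 = 0 ∧ plu z 1 4 = 12 / 13 ∧ plu z 2 4 = 5 / 13) ∨
        ((plu z 1 2) ^ 2 = 69408 / 97969 ∧ plu z 1 4 = -156 / 313 ∧ plu z 2 4 = -65 / 313))) :
    (fixedLines L).ncard = 3 := by
  refine ncard_fixedLines_of_plu L hL ?_
  intro z hz hc
  obtain ⟨⟨h01, h02, h03, h04, h13, h23, h34⟩, h⟩ := hall z hz hc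
  rcases h with ⟨h12, h14, h24⟩ | ⟨h12, h14, h24⟩
  · left
    exact plu_eq_Zpt_of h01 h02 h03 h04 h12 h13 (by rw [h14]; norm_num) h23
      (by rw [h24]; norm_num) h34
  · have hsq : (plu z 1 2 - 12 * Real.sqrt 482 / 313) * (plu z 1 2 - 12 * (-Real.sqrt 482) / 313)
        = 0 := by
      have := sqrt482_sq
      ring_nf
      rw [h12, this]
      norm_num
    rcases mul_eq_zero.mp hsq with h' | h'
    · right; left
      exact plu_eq_Zpt_of h01 h02 h03 h04 (sub_eq_zero.mp h') h13 (by rw [h14]; norm_num) h23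
        (by rw [h24]; norm_num) h34
    · right; right
      exact plu_eq_Zpt_of h01 h02 h03 h04 (sub_eq_zero.mp h') h13 (by rw [h14]; norm_num) h23
        (by rw [h24]; norm_num) h34

end Crest.Agent.S0316Aux.H74
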