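import Mathlib
import Crest.Agent.S0316Aux.Defs
import Crest.Agent.S0316Aux.H89_Phi

/-!
helper89, auxiliary file for S0316: the degenerate fixed point of the canonical `Phi`.
`Z0 = ((1+i)/26) (0,12,5,0,13 i)`, `Phi Z0 = l0 • Z0`, `l0 = -(72+65 i)/97`,
tangent vector `w0 = (1+i) e₃`, `D Phi (Z0) w0 = l0 • w0`.
-/

set_option autoImplicit false

namespace Crest.Agent.S0316Aux.H89

open Crest.GeometryTopology.Quadric Crest.Agent.S0316Aux

noncomputable section

def lam : ℂ := (1 + Complex.I) / 26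

def Z0 : Fin 5 → ℂ := ![0, 12 * lam, 5 * lam, 0, 13 * Complex.I * lam]

def w0 : Fin 5 → ℂ := ![0, 0, 0, 1 + Complex.I, 0]

def l0 : ℂ := -(72 + 65 * Complex.I) / 97

/-- the line through `Z0` in direction `w0`. -/
def zs (s : ℝ) : Fin 5 → ℂ := ![0, 12 * lam, 5 * lam, (s : ℂ) * (1 + Complex.I), 13 * Complex.I * lam]

lemma zs_eq (s : ℝ) : Z0 + s • w0 = zs s := by
  funext j
  fin_cases j <;> simp [Z0, w0, zs, mul_add]

lemma zs_zero : zs 0 = Z0 := by
  funext j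
  fin_cases j <;> simp [Z0, zs]

lemma NN_zs (s : ℝ) : NN (zs s) = 241 / 338 + 2 * s ^ 2 := by
  simp [NN, zs, lam, Complex.normSq_apply]
  ring

lemma QQ_zs (s : ℝ) : QQ (zs s) = (-65 + 72 * Complex.I) / 338 + 2 * Complex.I * (s : ℂ) ^ 2 := by
  simp only [QQ, zs, lam]
  apply Complex.ext <;> simp [pow_two] <;> ring

lemma ww_zs (s : ℝ) : ww (zs s) = 72 / 169 + 2 * s ^ 2 := by
  rw [ww, NN_zs, QQ_zs]
  simp [Complex.normSq_apply, pow_two]
  ring

lemma DD_zs (s : ℝ) : DD (zs s) = 97 / 72 + 4225 / 2592 * s ^ 2 := by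
  rw [DD, ww_zs]; ring

lemma al_zs (s : ℝ) : al (zs s) =
    ((-25 / 36 + 15665 / 12168 * Complex.I) + (-4225 / 1296 + 65 / 18 * Complex.I) * (s : ℂ) ^ 2) /
      ((97 / 72 + 4225 / 2592 * s ^ 2 : ℝ) : ℂ) := by
  rw [al, DD_zs, ww_zs, NN_zs]
  congr 1
  push_cast
  ring

lemma be_zs (s : ℝ) : be (zs s) =
    ((5 / 13 + 4225 / 12168 * Complex.I) + (65 / 18 : ℂ) * (s : ℂ) ^ 2) /
      ((97 / 72 + 4225 / 2592 * s ^ 2 : ℝ) : ℂ) := by
  rw [be, DD_zs, QQ_zs]
  congr 1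
  push_cast
  apply Complex.ext <;> simp [pow_two] <;> ring

lemma hasDerivAt_even_quot (A0 A1 : ℂ) (D0 D1 : ℝ) (hD0 : D0 ≠ 0) :
    HasDerivAt (fun s : ℝ => (A0 + A1 * (s : ℂ) ^ 2) / ((D0 + D1 * s ^ 2 : ℝ) : ℂ)) 0 0 := by
  have h1 : HasDerivAt (fun s : ℝ => (s : ℂ)) 1 0 := Complex.ofRealCLM.hasDerivAt
  have hn : HasDerivAt (fun s : ℝ => A0 + A1 * (s : ℂ) ^ 2) 0 0 := by
    have := ((h1.pow 2).const_mul A1).const_add A0
    simpa using this
  have hd : HasDerivAt (fun s : ℝ => ((D0 + D1 * s ^ 2 : ℝ) : ℂ)) 0 0 := by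
    have := ((h1.pow 2).const_mul (D1 : ℂ)).const_add (D0 : ℂ)
    simpa using this
  have h := hn.div hd (by simpa using hD0)
  have e : (0 * ((D0 + D1 * (0:ℝ) ^ 2 : ℝ) : ℂ) - (A0 + A1 * ((0:ℝ) : ℂ) ^ 2) * 0) /
      ((D0 + D1 * (0:ℝ) ^ 2 : ℝ) : ℂ) ^ 2 = 0 := by simp
  rw [e] at h
  exact h

lemma hasDerivAt_al : HasDerivAt (fun s : ℝ => al (zs s)) 0 0 := by
  simp only [al_zs]
  exact hasDerivAt_even_quot _ _ _ _ (by norm_num)

lemma hasDerivAt_be : HasDerivAt (fun s : ℝ => be (zs s)) 0 0 := by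
  simp only [be_zs]
  exact hasDerivAt_even_quot _ _ _ _ (by norm_num)

lemma al_Z0 : al (zs 0) = -50 / 97 + 1205 / 1261 * Complex.I := by
  rw [al_zs]
  push_cast
  apply Complex.ext <;> simp [Complex.div_re, Complex.div_im] <;> norm_num

lemma be_Z0 : be (zs 0) = 360 / 1261 + 25 / 97 * Complex.I := by
  rw [be_zs]
  push_cast
  apply Complex.ext <;> simp [Complex.div_re, Complex.div_im] <;> norm_num

lemma hasDerivAt_const_comb (p q r : ℂ) :
    HasDerivAt (fun s : ℝ => p + al (zs s) * q + be (zs s) * r) 0 0 := by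
  have h := ((hasDerivAt_al.mul_const q).const_add p).add (hasDerivAt_be.mul_const r)
  exact h.congr_deriv (by simp)

lemma BB_zs_0 (s : ℝ) : BB (zs s) 0 = 0 + al (zs s) * 0 + be (zs s) * 0 := by
  rw [BB_apply]; simp [zs, zeta]

lemma BB_zs_1 (s : ℝ) : BB (zs s) 1 =
    12 * lam + al (zs s) * (12 * lam) + be (zs s) * (starRingEnd ℂ (12 * lam)) := by
  rw [BB_apply]; simp [zs, zeta]

lemma BB_zs_2 (s : ℝ) : BB (zs s) 2 =
    5 * lam + al (zs s) * ((5 * lam + 13 * Complex.I * lam) / 2) +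
      be (zs s) * (starRingEnd ℂ ((5 * lam + 13 * Complex.I * lam) / 2)) := by
  rw [BB_apply]; simp [zs, zeta]

lemma BB_zs_4 (s : ℝ) : BB (zs s) 4 =
    13 * Complex.I * lam + al (zs s) * ((5 * lam + 13 * Complex.I * lam) / 2) +
      be (zs s) * (starRingEnd ℂ ((5 * lam + 13 * Complex.I * lam) / 2)) := by
  rw [BB_apply]; simp [zs, zeta]

lemma BB_zs_3 (s : ℝ) : BB (zs s) 3 =
    (s : ℂ) * (1 + Complex.I) + al (zs s) * ((s : ℂ) * (1 + Complex.I)) +
      be (zs s) * ((s : ℂ) * (1 - Complex.I)) := by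
  rw [BB_apply]; simp [zs, zeta, sub_eq_add_neg]

lemma hasDerivAt_BB0 : HasDerivAt (fun s : ℝ => BB (zs s) 0) 0 0 := by
  simp only [BB_zs_0]; exact hasDerivAt_const_comb _ _ _
lemma hasDerivAt_BB1 : HasDerivAt (fun s : ℝ => BB (zs s) 1) 0 0 := by
  simp only [BB_zs_1]; exact hasDerivAt_const_comb _ _ _
lemma hasDerivAt_BB2 : HasDerivAt (fun s : ℝ => BB (zs s) 2) 0 0 := by
  simp only [BB_zs_2]; exact hasDerivAt_const_comb _ _ _
lemma hasDerivAt_BB4 : HasDerivAt (fun s : ℝ => BB (zs s) 4) 0 0 := by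
  simp only [BB_zs_4]; exact hasDerivAt_const_comb _ _ _

lemma hasDerivAt_BB3 : HasDerivAt (fun s : ℝ => BB (zs s) 3) (-(l0 * (1 + Complex.I))) 0 := by
  simp only [BB_zs_3]
  have h1 : HasDerivAt (fun s : ℝ => (s : ℂ)) 1 0 := Complex.ofRealCLM.hasDerivAt
  have ha := hasDerivAt_al.mul (h1.mul_const (1 + Complex.I))
  have hb := hasDerivAt_be.mul (h1.mul_const (1 - Complex.I))
  have h := ((h1.mul_const (1 + Complex.I)).add ha).add hb
  have e : 1 * (1 + Complex.I) + (0 * (((0:ℝ) : ℂ) * (1 + Complex.I)) +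
      al (zs 0) * (1 * (1 + Complex.I))) + (0 * (((0:ℝ) : ℂ) * (1 - Complex.I)) +
      be (zs 0) * (1 * (1 - Complex.I))) = -(l0 * (1 + Complex.I)) := by
    rw [al_Z0, be_Z0, l0]
    apply Complex.ext <;> simp <;> norm_num
  rw [e] at h
  exact h

theorem hasDerivAt_Phi_line : HasDerivAt (fun s : ℝ => Phi (zs s)) (l0 • w0) 0 := by
  rw [hasDerivAt_pi]
  intro i
  fin_cases i
  · exact hasDerivAt_BB0.congr_deriv (by simp [w0])
  · have h := ((hasDerivAt_BB1.const_mul (119 / 169 : ℂ)).sub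
      (hasDerivAt_BB2.const_mul (120 / 169 : ℂ))).neg
    exact h.congr_deriv (by simp [w0])
  · have h := ((hasDerivAt_BB1.const_mul (120 / 169 : ℂ)).add
      (hasDerivAt_BB2.const_mul (119 / 169 : ℂ))).neg
    exact h.congr_deriv (by simp [w0])
  · have h := hasDerivAt_BB3.neg
    exact h.congr_deriv (by simp [w0])
  · have h := hasDerivAt_BB4.neg
    exact h.congr_deriv (by simp [w0])

lemma lam_re : lam.re = 1 / 26 := by
  simp [lam]

lemma lam_im : lam.im = 1 / 26 := by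
  simp [lam]

lemma Z0_mem : Z0 ∈ unitCone := by
  constructor
  · simp only [herm, Fin.sum_univ_five, Z0]
    apply Complex.ext <;> simp [lam_re, lam_im] <;> norm_num
  · simp only [Fin.sum_univ_five, Z0]
    apply Complex.ext <;> simp [pow_two, lam_re, lam_im] <;> norm_num

lemma BB0_0 : BB (zs 0) 0 = 0 := by
  rw [BB_zs_0]; simp

lemma BB0_3 : BB (zs 0) 3 = 0 := by
  rw [BB_zs_3]; simp

lemma BB0_1 : BB (zs 0) 1 = 42 / 1261 + 822 / 1261 * Complex.I := by
  rw [BB_zs_1, al_Z0, be_Z0]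
  apply Complex.ext <;> simp [lam_re, lam_im] <;> norm_num

lemma half_re : ((5 * lam + 13 * Complex.I * lam) / 2).re = -2 / 13 := by
  simp [lam_re, lam_im]; norm_num

lemma half_im : ((5 * lam + 13 * Complex.I * lam) / 2).im = 9 / 26 := by
  simp [lam_re, lam_im]; norm_num

lemma BB0_2 : BB (zs 0) 2 = -35 / 2522 + -685 / 2522 * Complex.I := by
  rw [BB_zs_2, al_Z0, be_Z0]
  apply Complex.ext <;>
    simp only [Complex.add_re, Complex.add_im, Complex.mul_re, Complex.mul_im, Complex.conj_re,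
      Complex.conj_im, half_re, half_im] <;> simp [lam_re, lam_im] <;> norm_num

lemma BB0_4 : BB (zs 0) 4 = -137 / 194 + 7 / 194 * Complex.I := by
  rw [BB_zs_4, al_Z0, be_Z0]
  apply Complex.ext <;>
    simp only [Complex.add_re, Complex.add_im, Complex.mul_re, Complex.mul_im, Complex.conj_re,
      Complex.conj_im, half_re, half_im] <;> simp [lam_re, lam_im] <;> norm_num

lemma Phi_Z0 : Phi Z0 = l0 • Z0 := by
  rw [← zs_zero, Phi_eq, BB0_0, BB0_1, BB0_2, BB0_3, BB0_4]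
  funext j
  fin_cases j
  · simp [zs]
  · apply Complex.ext <;> simp [zs, l0, lam_re, lam_im] <;> norm_num
  · apply Complex.ext <;> simp [zs, l0, lam_re, lam_im] <;> norm_num
  · simp [zs]
  · apply Complex.ext <;> simp [zs, l0, lam_re, lam_im] <;> norm_num

lemma w0_tangent : w0 ∈ coneTangent Z0 := by
  constructor
  · simp [herm, Fin.sum_univ_five, Z0, w0]
  · simp [Fin.sum_univ_five, Z0, w0]

lemma w0_ne (r : ℝ) : w0 ≠ ((r : ℂ) * Complex.I) • Z0 := by
  intro h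
  have h3 := congrFun h 3
  simp [w0, Z0] at h3
  have := congrArg Complex.re h3
  simp at this

/-- **DEGEN**: any lift whose time-one map is the canonical `Phi` has a degenerate fixed point. -/
theorem hasDegenerateFixedPoint (L : HamiltonianConeLift) (hL : ∀ z, L.Ψ (1, z) = Phi z) :
    HasDegenerateFixedPoint L := by
  refine ⟨Z0, Z0_mem, l0, by rw [hL, Phi_Z0], w0, w0_tangent, w0_ne, 0, ?_⟩
  have hfun : (fun x : Fin 5 → ℂ => L.Ψ (1, x)) = Phi := funext hL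
  have hdiff : DifferentiableAt ℝ Phi Z0 := by
    rw [← hfun]
    have h1 : ContDiff ℝ (⊤ : ℕ∞) (fun x : Fin 5 → ℂ => L.Ψ ((1 : ℝ), x)) :=
      L.smooth_Ψ.comp (contDiff_const.prodMk contDiff_id)
    exact (h1.differentiable (by simp)) Z0
  rw [hfun]
  have hline : fderiv ℝ Phi Z0 w0 = deriv (fun s : ℝ => Phi (Z0 + s • w0)) 0 :=
    (hdiff.lineDeriv_eq_fderiv (v := w0)).symm
  rw [hline]
  simp only [zs_eq]
  rw [hasDerivAt_Phi_line.deriv]
  simp

end

end Crest.Agent.S0316Aux.H89
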