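import Crest.Agent.S0316Aux.H96_PlaneTwist

/-!
helper21 (Track A, task A5): the degenerate fixed point of a product of four plane twists.

`tw j k g x = rot j k (g (mu j k x)) x` is the time-one map of `H96.planeTwist j k _ f g ..`.
Generic step lemma: if `d mu_{jk}(z) w = 0` then `D (tw j k g)(z) w = rot j k (g (mu j k z)) w`.
Final statement: any lift `L` whose time-one map is `tw 3 2 g4 ∘ tw 1 4 g3 ∘ tw 3 4 g2 ∘ tw 1 2 g1`
with `g1 (-1/2) = π`, `g2 (1/2) = π`, `g3 (-1/2) = 0`, `g4 (1/2) = 0` has a degenerate fixed point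
(at `Z0 = (0, 1/2, -i/2, -1/2, -i/2)`, direction `W0 = (0, i/2, 1/2, i/2, -1/2)`, `c = -1`, `r = 0`).
-/

set_option autoImplicit false

open Crest.GeometryTopology.Quadric Crest.Agent.S0316Aux.H96

namespace Crest.Agent.S0316Aux.A21

noncomputable section

/-- time-one map of a plane twist. -/
def tw (j k : Fin 5) (g : ℝ → ℝ) (x : Fin 5 → ℂ) : Fin 5 → ℂ := rot j k (g (mu j k x)) x

/-- half of the differential of `mu j k` at `z` in the direction `w`. -/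
def dmu (j k : Fin 5) (z w : Fin 5 → ℂ) : ℝ :=
  ((z j).re * (w k).im + (z k).im * (w j).re) - ((z j).im * (w k).re + (z k).re * (w j).im)

variable {j k : Fin 5}

lemma contDiff_tw {g : ℝ → ℝ} (hg : ContDiff ℝ (⊤ : ℕ∞) g) : ContDiff ℝ (⊤ : ℕ∞) (tw j k g) :=
  contDiff_rot_comp (hg.comp contDiff_mu) contDiff_id

lemma differentiableAt_tw {g : ℝ → ℝ} (hg : ContDiff ℝ (⊤ : ℕ∞) g) (z : Fin 5 → ℂ) :
    DifferentiableAt ℝ (tw j k g) z :=
  (contDiff_tw hg).differentiable (by simp) z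

lemma hasDerivAt_line (z w : Fin 5 → ℂ) : HasDerivAt (fun s : ℝ => z + s • w) w 0 := by
  simpa using ((hasDerivAt_id (0 : ℝ)).smul_const w).const_add z

lemma hasDerivAt_rot_line (hjk : j ≠ k) {ϑ : ℝ → ℝ} (hϑ : HasDerivAt ϑ 0 0) (z w : Fin 5 → ℂ) :
    HasDerivAt (fun s : ℝ => rot j k (ϑ s) (z + s • w)) (rot j k (ϑ 0) w) 0 := by
  rw [hasDerivAt_pi]
  intro i
  have hc : HasDerivAt (fun s : ℝ => ((Real.cos (ϑ s) : ℝ) : ℂ)) 0 0 := by
    have := ((Real.hasDerivAt_cos (ϑ 0)).comp 0 hϑ).ofReal_comp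
    simpa using this
  have hs : HasDerivAt (fun s : ℝ => ((Real.sin (ϑ s) : ℝ) : ℂ)) 0 0 := by
    have := ((Real.hasDerivAt_sin (ϑ 0)).comp 0 hϑ).ofReal_comp
    simpa using this
  have hl : ∀ l : Fin 5, HasDerivAt (fun s : ℝ => (z + s • w) l) (w l) 0 := fun l =>
    (hasDerivAt_pi.mp (hasDerivAt_line z w)) l
  by_cases hi : i = j
  · subst hi
    have h := (hc.mul (hl i)).sub (hs.mul (hl k))
    have e1 : (fun s : ℝ => rot i k (ϑ s) (z + s • w) i)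
        = fun s : ℝ => ((Real.cos (ϑ s) : ℝ) : ℂ) * (z + s • w) i
            - ((Real.sin (ϑ s) : ℝ) : ℂ) * (z + s • w) k := by
      funext s; rw [rot_apply_j]
    rw [e1, rot_apply_j]
    refine h.congr_deriv ?_
    simp
  · by_cases hi2 : i = k
    · subst hi2
      have h := (hs.mul (hl j)).add (hc.mul (hl i))
      have e1 : (fun s : ℝ => rot j i (ϑ s) (z + s • w) i)
          = fun s : ℝ => ((Real.sin (ϑ s) : ℝ) : ℂ) * (z + s • w) j
              + ((Real.cos (ϑ s) : ℝ) : ℂ) * (z + s • w) i := by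
        funext s; rw [rot_apply_k hjk]
      rw [e1, rot_apply_k hjk]
      refine h.congr_deriv ?_
      simp
    · have e1 : (fun s : ℝ => rot j k (ϑ s) (z + s • w) i) = fun s : ℝ => (z + s • w) i := by
        funext s; rw [rot_apply_of_ne hi hi2]
      rw [e1, rot_apply_of_ne hi hi2]
      exact hl i

lemma hasDerivAt_mu_line (z w : Fin 5 → ℂ) :
    HasDerivAt (fun s : ℝ => mu j k (z + s • w)) (2 * dmu j k z w) 0 := by
  have h0 : z + (0 : ℝ) • w = z := by simp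
  have h1 : HasFDerivAt (mu j k)
      ((2 : ℝ) • (((z j).re • imC k + (z k).im • reC j) - ((z j).im • reC k + (z k).re • imC j)))
      (z + (0 : ℝ) • w) := by rw [h0]; exact hasFDerivAt_mu z
  have h2 := h1.comp_hasDerivAt (0 : ℝ) (hasDerivAt_line z w)
  refine h2.congr_deriv ?_
  simp [dmu]

/-- the generic step. -/
lemma fderiv_tw (hjk : j ≠ k) {g : ℝ → ℝ} (hg : ContDiff ℝ (⊤ : ℕ∞) g) (z w : Fin 5 → ℂ)
    (hd : dmu j k z w = 0) :
    fderiv ℝ (tw j k g) z w = rot j k (g (mu j k z)) w := by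
  have hgd : HasDerivAt g (deriv g (mu j k z)) (mu j k (z + (0 : ℝ) • w)) := by
    simpa using (hg.differentiable (by simp) (mu j k z)).hasDerivAt
  have hϑ : HasDerivAt (fun s : ℝ => g (mu j k (z + s • w))) 0 0 := by
    have := hgd.comp (0 : ℝ) (hasDerivAt_mu_line (j := j) (k := k) z w)
    refine this.congr_deriv ?_
    rw [hd]; simp
  have h := hasDerivAt_rot_line hjk hϑ z w
  have h2 := ((differentiableAt_tw (j := j) (k := k) hg z).lineDeriv_eq_fderiv (v := w)).symm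
  rw [h2]
  have h3 : lineDeriv ℝ (tw j k g) z w = deriv (fun s : ℝ => tw j k g (z + s • w)) 0 := rfl
  rw [h3]
  have h4 : (fun s : ℝ => tw j k g (z + s • w))
      = fun s : ℝ => rot j k (g (mu j k (z + s • w))) (z + s • w) := rfl
  rw [h4, h.deriv]
  simp

/-- step lemma in the form used for chains. -/
lemma fderiv_comp_tw (hjk : j ≠ k) {g : ℝ → ℝ} (hg : ContDiff ℝ (⊤ : ℕ∞) g)
    {F : (Fin 5 → ℂ) → (Fin 5 → ℂ)} {z w z' w' : Fin 5 → ℂ}
    (hF : DifferentiableAt ℝ F z) (hz : F z = z') (hw : fderiv ℝ F z w = w')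
    (hd : dmu j k z' w' = 0) :
    fderiv ℝ (fun x => tw j k g (F x)) z w = rot j k (g (mu j k z')) w' := by
  have h1 : fderiv ℝ (fun x => tw j k g (F x)) z
      = (fderiv ℝ (tw j k g) (F z)).comp (fderiv ℝ F z) :=
    fderiv_comp z (differentiableAt_tw hg (F z)) hF
  rw [h1, ContinuousLinearMap.comp_apply, hw, hz, fderiv_tw hjk hg z' w' hd]

/-- the degenerate fixed point. -/
def Z0 : Fin 5 → ℂ := ![0, 1 / 2, -Complex.I / 2, -1 / 2, -Complex.I / 2]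
/-- the fixed tangent direction. -/
def W0 : Fin 5 → ℂ := ![0, Complex.I / 2, 1 / 2, Complex.I / 2, -1 / 2]
/-- `Z0` after the first twist. -/
def Z1 : Fin 5 → ℂ := ![0, -1 / 2, Complex.I / 2, -1 / 2, -Complex.I / 2]
/-- `W0` after the first twist. -/
def W1 : Fin 5 → ℂ := ![0, -Complex.I / 2, -1 / 2, Complex.I / 2, -1 / 2]

lemma conj_two : (starRingEnd ℂ) (2 : ℂ) = 2 := map_ofNat _ 2

lemma Z0_mem : Z0 ∈ unitCone := by
  constructor
  · simp [herm, Z0, Fin.sum_univ_succ, conj_two]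
    ring_nf
    simp
    norm_num
  · simp [Z0, Fin.sum_univ_succ]
    ring_nf
    simp

lemma W0_mem : W0 ∈ coneTangent Z0 := by
  constructor
  · simp [herm, Z0, W0, Fin.sum_univ_succ, conj_two]
  · simp [Z0, W0, Fin.sum_univ_succ]
    ring

lemma rot12_pi (z : Fin 5 → ℂ) : rot 1 2 Real.pi z = ![z 0, - z 1, - z 2, z 3, z 4] := by
  funext i
  fin_cases i <;> simp [rot]

lemma rot34_pi (z : Fin 5 → ℂ) : rot 3 4 Real.pi z = ![z 0, z 1, z 2, - z 3, - z 4] := by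
  funext i
  fin_cases i <;> simp [rot]

lemma mu12_Z0 : mu 1 2 Z0 = -1 / 2 := by
  simp [mu, Z0, conj_two]
lemma mu34_Z1 : mu 3 4 Z1 = 1 / 2 := by
  simp [mu, Z1, conj_two]; norm_num
lemma mu14_nZ0 : mu 1 4 (-Z0) = -1 / 2 := by
  simp [mu, Z0, conj_two]
lemma mu32_nZ0 : mu 3 2 (-Z0) = 1 / 2 := by
  simp [mu, Z0, conj_two]; norm_num

lemma dmu12 : dmu 1 2 Z0 W0 = 0 := by simp [dmu, Z0, W0]
lemma dmu34 : dmu 3 4 Z1 W1 = 0 := by simp [dmu, Z1, W1]
lemma dmu14 : dmu 1 4 (-Z0) (-W0) = 0 := by simp [dmu, Z0, W0]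
lemma dmu32 : dmu 3 2 (-Z0) (-W0) = 0 := by simp [dmu, Z0, W0]

lemma rotZ0 : rot 1 2 Real.pi Z0 = Z1 := by
  rw [rot12_pi]; funext i; fin_cases i <;> simp [Z0, Z1] <;> ring
lemma rotW0 : rot 1 2 Real.pi W0 = W1 := by
  rw [rot12_pi]; funext i; fin_cases i <;> simp [W0, W1] <;> ring
lemma rotZ1 : rot 3 4 Real.pi Z1 = -Z0 := by
  rw [rot34_pi]; funext i; fin_cases i <;> simp [Z0, Z1] <;> ring
lemma rotW1 : rot 3 4 Real.pi W1 = -W0 := by
  rw [rot34_pi]; funext i; fin_cases i <;> simp [W0, W1] <;> ring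

/-- **Task A5.**  Degenerate fixed point of the product of the four plane twists. -/
theorem hasDegenerateFixedPoint (L : HamiltonianConeLift) (g1 g2 g3 g4 : ℝ → ℝ)
    (hg1 : ContDiff ℝ (⊤ : ℕ∞) g1) (hg2 : ContDiff ℝ (⊤ : ℕ∞) g2)
    (hg3 : ContDiff ℝ (⊤ : ℕ∞) g3) (hg4 : ContDiff ℝ (⊤ : ℕ∞) g4)
    (hL : ∀ x, L.Ψ (1, x) = tw 3 2 g4 (tw 1 4 g3 (tw 3 4 g2 (tw 1 2 g1 x))))
    (h1 : g1 (-1 / 2) = Real.pi) (h2 : g2 (1 / 2) = Real.pi)
    (h3 : g3 (-1 / 2) = 0) (h4 : g4 (1 / 2) = 0) :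
    HasDegenerateFixedPoint L := by
  -- values
  have a1 : tw 1 2 g1 Z0 = Z1 := by rw [tw, mu12_Z0, h1, rotZ0]
  have a2 : tw 3 4 g2 (tw 1 2 g1 Z0) = -Z0 := by rw [a1, tw, mu34_Z1, h2, rotZ1]
  have a3 : tw 1 4 g3 (tw 3 4 g2 (tw 1 2 g1 Z0)) = -Z0 := by
    rw [a2, tw, mu14_nZ0, h3, rot_zero]
  have a4 : tw 3 2 g4 (tw 1 4 g3 (tw 3 4 g2 (tw 1 2 g1 Z0))) = -Z0 := by
    rw [a3, tw, mu32_nZ0, h4, rot_zero]
  -- differentiability
  have d1 : DifferentiableAt ℝ (fun x => tw 1 2 g1 x) Z0 := differentiableAt_tw hg1 Z0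
  have d2 : DifferentiableAt ℝ (fun x => tw 3 4 g2 (tw 1 2 g1 x)) Z0 :=
    ((contDiff_tw hg2).comp (contDiff_tw hg1)).differentiable (by simp) Z0
  have d3 : DifferentiableAt ℝ (fun x => tw 1 4 g3 (tw 3 4 g2 (tw 1 2 g1 x))) Z0 :=
    ((contDiff_tw hg3).comp ((contDiff_tw hg2).comp (contDiff_tw hg1))).differentiable (by simp) Z0
  -- derivatives
  have b1 : fderiv ℝ (fun x => tw 1 2 g1 x) Z0 W0 = W1 := by
    have := fderiv_tw (j := 1) (k := 2) (by decide) hg1 Z0 W0 dmu12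
    rw [mu12_Z0, h1, rotW0] at this
    exact this
  have b2 : fderiv ℝ (fun x => tw 3 4 g2 (tw 1 2 g1 x)) Z0 W0 = -W0 := by
    have := fderiv_comp_tw (j := 3) (k := 4) (by decide) hg2 d1 a1 b1 dmu34
    rw [mu34_Z1, h2, rotW1] at this
    exact this
  have b3 : fderiv ℝ (fun x => tw 1 4 g3 (tw 3 4 g2 (tw 1 2 g1 x))) Z0 W0 = -W0 := by
    have := fderiv_comp_tw (j := 1) (k := 4) (by decide) hg3 d2 a2 b2 dmu14
    rw [mu14_nZ0, h3, rot_zero] at this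
    exact this
  have b4 : fderiv ℝ (fun x => tw 3 2 g4 (tw 1 4 g3 (tw 3 4 g2 (tw 1 2 g1 x)))) Z0 W0 = -W0 := by
    have := fderiv_comp_tw (j := 3) (k := 2) (by decide) hg4 d3 a3 b3 dmu32
    rw [mu32_nZ0, h4, rot_zero] at this
    exact this
  have hfun : (fun x : Fin 5 → ℂ => L.Ψ (1, x))
      = fun x => tw 3 2 g4 (tw 1 4 g3 (tw 3 4 g2 (tw 1 2 g1 x))) := funext hL
  refine ⟨Z0, Z0_mem, -1, by rw [hL, a4]; simp, W0, W0_mem, ?_, 0, ?_⟩
  · intro r hr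
    have e1 := congrFun hr 1
    have e3 := congrFun hr 3
    simp [W0, Z0] at e1 e3
    have f1 := congrArg Complex.im e1
    have f3 := congrArg Complex.im e3
    simp at f1 f3
    linarith
  · rw [hfun, b4]
    simp

end

end Crest.Agent.S0316Aux.A21
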