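import Crest.Agent.S0316Aux.A84_Defs
import Crest.Agent.S0316Aux.A21_Degen

/-!
helper21 (Track A, task A5): `HasDegenerateFixedPoint LA` for helper84's canonical `LA`
(`A84_Defs.lean`).  Unconditional (the rational time-one formula is not needed).
Point `(0,1/2,-i/2,-1/2,-i/2)`, direction `(0,i/2,1/2,i/2,-1/2)`, `c = -1`, `r = 0`.
-/

set_option autoImplicit false

open Crest.GeometryTopology.Quadric Crest.Agent.S0316Aux.H96

namespace Crest.Agent.S0316Aux.A21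

noncomputable section

lemma mu23_nZ0 : mu 2 3 (-Z0) = -1 / 2 := by
  simp [mu, Z0, conj_two]

lemma dmu23 : dmu 2 3 (-Z0) (-W0) = 0 := by simp [dmu, Z0, W0]

/-- variant of `hasDegenerateFixedPoint` with the last twist in the plane `(2,3)`. -/
theorem hasDegenerateFixedPoint' (L : HamiltonianConeLift) (g1 g2 g3 g4 : ℝ → ℝ)
    (hg1 : ContDiff ℝ (⊤ : ℕ∞) g1) (hg2 : ContDiff ℝ (⊤ : ℕ∞) g2)
    (hg3 : ContDiff ℝ (⊤ : ℕ∞) g3) (hg4 : ContDiff ℝ (⊤ : ℕ∞) g4)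
    (hL : ∀ x, L.Ψ (1, x) = tw 2 3 g4 (tw 1 4 g3 (tw 3 4 g2 (tw 1 2 g1 x))))
    (h1 : g1 (-1 / 2) = Real.pi) (h2 : g2 (1 / 2) = Real.pi)
    (h3 : g3 (-1 / 2) = 0) (h4 : g4 (-1 / 2) = 0) :
    HasDegenerateFixedPoint L := by
  have a1 : tw 1 2 g1 Z0 = Z1 := by rw [tw, mu12_Z0, h1, rotZ0]
  have a2 : tw 3 4 g2 (tw 1 2 g1 Z0) = -Z0 := by rw [a1, tw, mu34_Z1, h2, rotZ1]
  have a3 : tw 1 4 g3 (tw 3 4 g2 (tw 1 2 g1 Z0)) = -Z0 := by
    rw [a2, tw, mu14_nZ0, h3, rot_zero]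
  have a4 : tw 2 3 g4 (tw 1 4 g3 (tw 3 4 g2 (tw 1 2 g1 Z0))) = -Z0 := by
    rw [a3, tw, mu23_nZ0, h4, rot_zero]
  have d1 : DifferentiableAt ℝ (fun x => tw 1 2 g1 x) Z0 := differentiableAt_tw hg1 Z0
  have d2 : DifferentiableAt ℝ (fun x => tw 3 4 g2 (tw 1 2 g1 x)) Z0 :=
    ((contDiff_tw hg2).comp (contDiff_tw hg1)).differentiable (by simp) Z0
  have d3 : DifferentiableAt ℝ (fun x => tw 1 4 g3 (tw 3 4 g2 (tw 1 2 g1 x))) Z0 :=
    ((contDiff_tw hg3).comp ((contDiff_tw hg2).comp (contDiff_tw hg1))).differentiable (by simp) Z0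
  have b1 : fderiv ℝ (fun x => tw 1 2 g1 x) Z0 W0 = W1 := by
    have := fderiv_tw (j := 1) (k := 2) (by decide) hg1 Z0 W0 dmu12
    rw [mu12_Z0, h1, rotW0] at this
    exact this
  have b2 : fderiv ℝ (fun x => tw 3 4 g2 (tw 1 2 g1 x)) Z0 W0 = -W0 := by
    have := fderiv_comp_tw (j := 3) (k := 4) (by decide) hg2 d1 a1 b1 dmu34
    rw [mu34_Z1, h2, rotW1] at this
    exact this
  have b3 : fderiv ℝ (fun x => tw 1 4 g3 (tw 3 4 g2 (tw 1 2 g1 x))) Z0 W0 = -W0 := by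
    have := fderiv_comp_tw (j := 1) (k := 4) (by decide) hg3 d2 a2 b2 dmu14
    rw [mu14_nZ0, h3, rot_zero] at this
    exact this
  have b4 : fderiv ℝ (fun x => tw 2 3 g4 (tw 1 4 g3 (tw 3 4 g2 (tw 1 2 g1 x)))) Z0 W0 = -W0 := by
    have := fderiv_comp_tw (j := 2) (k := 3) (by decide) hg4 d3 a3 b3 dmu23
    rw [mu23_nZ0, h4, rot_zero] at this
    exact this
  have hfun : (fun x : Fin 5 → ℂ => L.Ψ (1, x))
      = fun x => tw 2 3 g4 (tw 1 4 g3 (tw 3 4 g2 (tw 1 2 g1 x))) := funext hL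
  refine ⟨Z0, Z0_mem, -1, by rw [hL, a4]; simp, W0, W0_mem, ?_, 0, ?_⟩
  · intro r hr
    have e1 := congrFun hr 1
    have e3 := congrFun hr 3
    simp [W0, Z0] at e1 e3
    have f1 := congrArg Complex.im e1
    have f3 := congrArg Complex.im e3
    simp at f1 f3
    linarith
  · rw [hfun, b4]
    simp

end

end Crest.Agent.S0316Aux.A21

namespace Crest.Agent.S0316Aux.A

open Crest.Agent.S0316Aux.A21

/-- time-one map of `LA` as a product of four `tw`'s. -/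
lemma LA_Ψ_one_tw (x : Fin 5 → ℂ) :
    LA.Ψ (1, x) = tw 2 3 (Gat 0 (-(17/62)) (-(17/31))) (tw 1 4 (Gat 0 (17/62) (17/31))
      (tw 3 4 (Gat Real.pi (17/62) (-(17/31))) (tw 1 2 (Gat Real.pi (17/62) (17/31)) x))) := by
  have e3 : LA.Ψ (1, x) = T23.Ψ (1, T14.Ψ (1, T34.Ψ (1, T12.Ψ (1, x)))) := by
    refine (concat_Ψ_one _ _ _ x).trans ?_
    refine congrArg (fun y => T23.Ψ (1, y)) ?_
    refine (concat_Ψ_one _ _ _ x).trans ?_
    refine congrArg (fun y => T14.Ψ (1, y)) ?_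
    exact concat_Ψ_one _ _ _ x
  rw [e3]
  have t12 : ∀ y, T12.Ψ (1, y) = tw 1 2 (Gat Real.pi (17/62) (17/31)) y :=
    fun y => planeTwist_Ψ_one _ _ _ _ _ _ _ _ y
  have t34 : ∀ y, T34.Ψ (1, y) = tw 3 4 (Gat Real.pi (17/62) (-(17/31))) y :=
    fun y => planeTwist_Ψ_one _ _ _ _ _ _ _ _ y
  have t14 : ∀ y, T14.Ψ (1, y) = tw 1 4 (Gat 0 (17/62) (17/31)) y :=
    fun y => planeTwist_Ψ_one _ _ _ _ _ _ _ _ y
  have t23 : ∀ y, T23.Ψ (1, y) = tw 2 3 (Gat 0 (-(17/62)) (-(17/31))) y :=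
    fun y => planeTwist_Ψ_one _ _ _ _ _ _ _ _ y
  rw [t12, t34, t14, t23]

/-- **Task A5** (unconditional). -/
theorem degen' : HasDegenerateFixedPoint LA := by
  refine hasDegenerateFixedPoint' LA _ _ _ _ (contDiff_Gat _ _ _) (contDiff_Gat _ _ _)
    (contDiff_Gat _ _ _) (contDiff_Gat _ _ _) LA_Ψ_one_tw ?_ ?_ ?_ ?_ <;>
  · unfold Gat
    norm_num

/-- **Task A5** in the form requested in note 789 (the hypothesis is not needed). -/
theorem degen (_h : ∀ z, LA.Ψ (1, z) = PhiA z) : HasDegenerateFixedPoint LA := degen'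

end Crest.Agent.S0316Aux.A
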