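import Mathlib

/-!
# S0316 auxiliary: the polynomial system of the two-block-twist design has exactly 3 solutions
(helper84).  Real variables only.  `E = 17/31`.
-/

namespace Crest.Agent.S0316Aux.Poly84

/-- symmetric case `q = σ p` after `s = r`, `U = V`. -/
theorem sym_case (p U s σ : ℝ) (hσ : σ = 1 ∨ σ = -1)
    (h1 : p^2 + U^2 + s^2 = 1)
    (e1 : U * (1 - (17/31:ℝ)^2/4 * ((1+s)^2 - p^2)) = (17/31:ℝ) * s * (1+s))
    (e2 : U * (1 + (17/31:ℝ)^2/4 * ((1+s)^2 - p^2)) = (17/31:ℝ) * σ * p^2) :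
    (s = -1 ∧ p = 0 ∧ U = 0) ∨ (σ = 1 ∧ s = 7/17 ∧ U = 6/17 ∧ p^2 = 12/17) := by
  have hσ2 : σ^2 = 1 := by rcases hσ with h | h <;> rw [h] <;> norm_num
  -- 2U = E (sA + σ P)
  have hU : 2 * U = (17/31:ℝ) * (s*(1+s) + σ * p^2) := by linear_combination e1 + e2
  -- U E (A^2-P) = 2 (σ P - s A)
  have hU2 : U * (17/31:ℝ) * ((1+s)^2 - p^2) = 2 * (σ * p^2 - s*(1+s)) := by
    have : (17/31:ℝ) * (U * (17/31:ℝ) * ((1+s)^2 - p^2)) = (17/31:ℝ) * (2 * (σ * p^2 - s*(1+s))) := by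
      linear_combination 2 * e2 - 2 * e1
    exact mul_left_cancel₀ (by norm_num) this
  -- U^2 (A^2-P) = P^2 - s^2 A^2
  have hkey : U^2 * ((1+s)^2 - p^2) = (p^2)^2 - s^2*(1+s)^2 := by
    have : (17/31:ℝ) * (2 * (U^2 * ((1+s)^2 - p^2))) = (17/31:ℝ) * (2 * ((p^2)^2 - s^2*(1+s)^2)) := by
      have h3 : (2 * U) * (U * (17/31:ℝ) * ((1+s)^2 - p^2))
          = ((17/31:ℝ) * (s*(1+s) + σ * p^2)) * (2 * (σ * p^2 - s*(1+s))) := by
        rw [hU, hU2]
      have h4 : ((17/31:ℝ) * (s*(1+s) + σ * p^2)) * (2 * (σ * p^2 - s*(1+s)))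
          = (17/31:ℝ) * (2 * (σ^2 * (p^2)^2 - s^2*(1+s)^2)) := by ring
      rw [h4, hσ2] at h3
      linear_combination h3
    have h5 := mul_left_cancel₀ (by norm_num : (17/31:ℝ) ≠ 0) this
    linarith
  have hA : (1+s) * ((1+s) - 2 * p^2) = 0 := by
    have hUsq : U^2 = 1 - s^2 - p^2 := by linarith
    rw [hUsq] at hkey
    linear_combination hkey
  rcases mul_eq_zero.mp hA with hA0 | hP
  · left
    have hs : s = -1 := by linarith
    subst hs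
    have : p^2 + U^2 = 0 := by linarith
    have hp : p^2 = 0 := by nlinarith [sq_nonneg p, sq_nonneg U]
    have hUz : U^2 = 0 := by nlinarith [sq_nonneg p, sq_nonneg U]
    exact ⟨rfl, by simpa using hp, by simpa using hUz⟩
  · have hP' : p^2 = (1+s)/2 := by linarith
    by_cases hA0 : 1 + s = 0
    · left
      have hs : s = -1 := by linarith
      subst hs
      have hp : p^2 = 0 := by rw [hP']; norm_num
      have hUz : U^2 = 0 := by nlinarith [sq_nonneg p, sq_nonneg U]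
      exact ⟨rfl, by simpa using hp, by simpa using hUz⟩
    · right
      rw [hP'] at hU hU2
      -- U E (s+1/2) = σ - 2 s   (divide by A)
      have hU3 : U * (17/31:ℝ) * (s + 1/2) = σ - 2 * s := by
        have : (1+s) * (U * (17/31:ℝ) * (s + 1/2)) = (1+s) * (σ - 2 * s) := by
          linear_combination hU2
        exact mul_left_cancel₀ hA0 this
      rcases hσ with h | h
      · subst h
        -- E^2 A (s+1/2)^2 = 2 (1-2s)
        have hcub : (17/31:ℝ)^2 * (1+s) * (s+1/2)^2 = 2 * (1 - 2*s) := by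
          have : 2 * (U * (17/31:ℝ) * (s + 1/2)) = 2 * (1 - 2 * s) := by rw [hU3]
          have h6 : 2 * (U * (17/31:ℝ) * (s + 1/2)) = (2 * U) * ((17/31:ℝ) * (s+1/2)) := by ring
          rw [h6, hU] at this
          linear_combination this
        have hfac : (s - 7/17) * ((17/31:ℝ)^2 * (s^2 + (2 + 7/17) * s + (5/4 + (2+7/17)*(7/17))) + 4) = 0 := by
          linear_combination hcub
        have hQ : (17/31:ℝ)^2 * (s^2 + (2 + 7/17) * s + (5/4 + (2+7/17)*(7/17))) + 4 > 0 := by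
          nlinarith [sq_nonneg (s + (2+7/17)/2)]
        have hs : s = 7/17 := by
          rcases mul_eq_zero.mp hfac with h | h
          · linarith
          · exact absurd h (ne_of_gt hQ)
        subst hs
        refine ⟨rfl, rfl, ?_, ?_⟩
        · linarith
        · rw [hP']; norm_num
      · subst h
        exfalso
        -- (s+1/2)(U E + 2) = 0
        have h7 : (s + 1/2) * (U * (17/31:ℝ) + 2) = 0 := by linear_combination hU3
        have hUle : U^2 ≤ 1 := by nlinarith [sq_nonneg p, sq_nonneg s]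
        rcases mul_eq_zero.mp h7 with h8 | h8
        · have hs : s = -1/2 := by linarith
          subst hs
          have hUv : U = -(17/31:ℝ)/4 := by linarith
          rw [hUv, hP'] at h1
          norm_num at h1
        · have : U = -2 * (31/17:ℝ) := by linarith
          rw [this] at hUle
          norm_num at hUle



theorem Kpos (η1 η2 X : ℝ) (hη1_lo : -((17/31:ℝ)^2/4) ≤ η1) (hη1_hi : η1 ≤ (17/31:ℝ)^2)
    (hη2_lo : -((17/31:ℝ)^2/4) ≤ η2) (hη2_hi : η2 ≤ (17/31:ℝ)^2) (hX2 : X^2 ≤ (17/31:ℝ)^2) :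
    (1+η1)^2 * (1+η2)^2 - (17/31:ℝ)/2 * ((1+η1) * (1+η2)) * (X * (η1+η2))
      - (17/31:ℝ)^2/4 * (X^2 * ((1+η1) + (1+η2))) > 0 := by
  have c1 : ((17/31:ℝ)^2/4) ≤ 2/25 := by norm_num
  have c2 : ((17/31:ℝ)^2) ≤ 31/100 := by norm_num
  have hXabs : |X| ≤ 17/31 := abs_le.mpr (abs_le_of_sq_le_sq' hX2 (by norm_num))
  have ha1 : (23/25:ℝ) ≤ 1 + η1 := by linarith
  have ha2 : (23/25:ℝ) ≤ 1 + η2 := by linarith
  have ha1' : 1 + η1 ≤ 131/100 := by linarith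
  have ha2' : 1 + η2 ≤ 131/100 := by linarith
  obtain ⟨a, hadef⟩ : ∃ a, a = 1 + η1 := ⟨_, rfl⟩
  obtain ⟨b, hbdef⟩ : ∃ b, b = 1 + η2 := ⟨_, rfl⟩
  have hsum : |η1 + η2| ≤ 62/100 := by
    rw [abs_le]; constructor <;> linarith
  have hT : X * (η1 + η2) ≤ 34/100 := by
    calc X * (η1+η2) ≤ |X * (η1+η2)| := le_abs_self _
      _ = |X| * |η1+η2| := abs_mul _ _
      _ ≤ (17/31) * (62/100) := mul_le_mul hXabs hsum (abs_nonneg _) (by norm_num)
      _ ≤ 34/100 := by norm_num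
  obtain ⟨T, hTdef⟩ : ∃ T, T = X * (η1 + η2) := ⟨_, rfl⟩
  obtain ⟨Y, hYdef⟩ : ∃ Y, Y = X^2 := ⟨_, rfl⟩
  have hY0 : 0 ≤ Y := by rw [hYdef]; positivity
  have hY1 : Y ≤ 31/100 := by rw [hYdef]; linarith
  rw [← hadef, ← hbdef, ← hTdef, ← hYdef]
  rw [← hadef] at ha1 ha1'
  rw [← hbdef] at ha2 ha2'
  rw [← hTdef] at hT
  have hm : (529/625:ℝ) ≤ a * b := by nlinarith
  have hW : Y * (a + b) ≤ 31/100 * (262/100) :=
    mul_le_mul hY1 (by linarith) (by linarith) (by norm_num)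
  have hmT : (a * b) * T ≤ (a * b) * (34/100) :=
    mul_le_mul_of_nonneg_left hT (by linarith)
  have hsq : a^2 * b^2 = (a * b)^2 := by ring
  rw [hsq]
  obtain ⟨m, hmdef⟩ : ∃ m, m = a * b := ⟨_, rfl⟩
  rw [← hmdef] at hm hmT ⊢
  have e17 : (17/31:ℝ)/2 ≤ 28/100 := by norm_num
  have e17' : (0:ℝ) ≤ (17/31:ℝ)/2 := by norm_num
  have h5 : (17/31:ℝ)/2 * m * T ≤ 28/100 * (m * (34/100)) := by
    have : (17/31:ℝ)/2 * m * T = (17/31:ℝ)/2 * (m * T) := by ring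
    rw [this]
    calc (17/31:ℝ)/2 * (m * T) ≤ (17/31:ℝ)/2 * (m * (34/100)) := mul_le_mul_of_nonneg_left hmT e17'
      _ ≤ 28/100 * (m * (34/100)) := mul_le_mul_of_nonneg_right e17 (by nlinarith)
  have h6 : (17/31:ℝ)^2/4 * (Y * (a+b)) ≤ 2/25 * (31/100 * (262/100)) := by
    calc (17/31:ℝ)^2/4 * (Y * (a+b)) ≤ (17/31:ℝ)^2/4 * (31/100 * (262/100)) :=
          mul_le_mul_of_nonneg_left hW (by norm_num)
      _ ≤ 2/25 * (31/100 * (262/100)) := mul_le_mul_of_nonneg_right c1 (by norm_num)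
  nlinarith

/-- The full system: exactly three solutions. -/
theorem main (p U s q V r : ℝ)
    (h1 : p^2 + U^2 + s^2 = 1) (h2 : q^2 + V^2 + r^2 = 1)
    (e1 : U * (1 - (17/31:ℝ)^2/4 * ((1+r)^2 - p^2)) = (17/31:ℝ) * s * (1+r))
    (e2 : U * (1 + (17/31:ℝ)^2/4 * ((1+s)^2 - q^2)) = (17/31:ℝ) * p * q)
    (e3 : V * (1 + (17/31:ℝ)^2/4 * ((1+r)^2 - p^2)) = (17/31:ℝ) * p * q)
    (e4 : V * (1 - (17/31:ℝ)^2/4 * ((1+s)^2 - q^2)) = (17/31:ℝ) * r * (1+s)) :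
    (s = -1 ∧ r = -1 ∧ p = 0 ∧ q = 0 ∧ U = 0 ∧ V = 0) ∨
    (s = 7/17 ∧ r = 7/17 ∧ U = 6/17 ∧ V = 6/17 ∧ q = p ∧ p^2 = 12/17) := by
  obtain ⟨η1, hη1⟩ : ∃ η1, η1 = (17/31:ℝ)^2/4 * ((1+r)^2 - p^2) := ⟨_, rfl⟩
  obtain ⟨η2, hη2⟩ : ∃ η2, η2 = (17/31:ℝ)^2/4 * ((1+s)^2 - q^2) := ⟨_, rfl⟩
  rw [← hη1] at e1 e3
  rw [← hη2] at e2 e4
  have hp2 : p^2 ≤ 1 := by nlinarith [sq_nonneg U, sq_nonneg s]
  have hq2 : q^2 ≤ 1 := by nlinarith [sq_nonneg V, sq_nonneg r]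
  have hs2 : s^2 ≤ 1 := by nlinarith [sq_nonneg U, sq_nonneg p]
  have hr2 : r^2 ≤ 1 := by nlinarith [sq_nonneg V, sq_nonneg q]
  have hs_lo : -1 ≤ s := by nlinarith
  have hs_hi : s ≤ 1 := by nlinarith
  have hr_lo : -1 ≤ r := by nlinarith
  have hr_hi : r ≤ 1 := by nlinarith
  have hη1_lo : -((17/31:ℝ)^2/4) ≤ η1 := by rw [hη1]; nlinarith [sq_nonneg (1+r)]
  have hη1_hi : η1 ≤ (17/31:ℝ)^2 := by rw [hη1]; nlinarith [sq_nonneg p]
  have hη2_lo : -((17/31:ℝ)^2/4) ≤ η2 := by rw [hη2]; nlinarith [sq_nonneg (1+s)]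
  have hη2_hi : η2 ≤ (17/31:ℝ)^2 := by rw [hη2]; nlinarith [sq_nonneg q]
  obtain ⟨X, hX⟩ : ∃ X, X = (17/31:ℝ) * p * q := ⟨_, rfl⟩
  rw [← hX] at e2 e3
  have hpq : (p*q)^2 ≤ 1 := by
    have : (p*q)^2 = p^2 * q^2 := by ring
    rw [this]; nlinarith [sq_nonneg p, sq_nonneg q]
  have hX2 : X^2 ≤ (17/31:ℝ)^2 := by
    have : X^2 = (17/31:ℝ)^2 * (p*q)^2 := by rw [hX]; ring
    rw [this]; nlinarith
  -- (i)
  have hi : (17/31:ℝ) * (s - r) * (1+η1) * (1+η2) = X * (η2 - η1) * (η1 + η2) := by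
    linear_combination (1+η1) * (-(1+η2) * e1 + (1-η1) * e2) - (1+η2) * (-(1+η1) * e4 + (1-η2) * e3)
  -- (ii)
  have hii : (V^2 - U^2) * (1+η1)^2 * (1+η2)^2 = X^2 * (η2 - η1) * ((1+η1) + (1+η2)) := by
    linear_combination (1+η2)^2 * (V * (1+η1) + X) * e3 - (1+η1)^2 * (U * (1+η2) + X) * e2
  -- (iii)
  have hiii : η2 - η1 = (17/31:ℝ)^2/4 * (2 * (s - r) + V^2 - U^2) := by
    rw [hη1, hη2]; linear_combination (17/31:ℝ)^2/4 * (h1 - h2)
  have hDK : (η2 - η1) * ((1+η1)^2 * (1+η2)^2 - (17/31:ℝ)/2 * ((1+η1) * (1+η2)) * (X * (η1+η2))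
      - (17/31:ℝ)^2/4 * (X^2 * ((1+η1) + (1+η2)))) = 0 := by
    linear_combination (1+η1)^2 * (1+η2)^2 * hiii + (17/31:ℝ)/2 * (1+η1) * (1+η2) * hi
      + (17/31:ℝ)^2/4 * hii
  have hK := Kpos η1 η2 X hη1_lo hη1_hi hη2_lo hη2_hi hX2
  have hD : η2 - η1 = 0 := by
    rcases mul_eq_zero.mp hDK with h | h
    · exact h
    · exact absurd h (ne_of_gt hK)
  have c1 : ((17/31:ℝ)^2/4) ≤ 2/25 := by norm_num
  have ha1pos : 0 < 1 + η1 := by linarith
  have ha2pos : 0 < 1 + η2 := by linarith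
  have hd : s - r = 0 := by
    rw [hD] at hi
    have : (17/31:ℝ) * (s - r) * (1+η1) * (1+η2) = 0 := by rw [hi]; ring
    have h3 : (s - r) * ((17/31:ℝ) * (1+η1) * (1+η2)) = 0 := by linear_combination this
    rcases mul_eq_zero.mp h3 with h | h
    · exact h
    · exfalso; have : 0 < (17/31:ℝ) * (1+η1) * (1+η2) := by positivity
      linarith
  have hsr : r = s := by linarith
  subst hsr
  have hηeq : η2 = η1 := by linarith
  have hpq2 : q^2 = p^2 := by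
    rw [hη1, hη2] at hηeq
    have : (17/31:ℝ)^2/4 * (q^2 - p^2) = 0 := by linear_combination -hηeq
    have h4 : q^2 - p^2 = 0 := by
      rcases mul_eq_zero.mp this with h | h
      · norm_num at h
      · exact h
    linarith
  have hUV : V = U := by
    rw [hηeq] at e2
    have : (1+η1) * V = (1+η1) * U := by linear_combination e3 - e2
    exact mul_left_cancel₀ (ne_of_gt ha1pos) this
  subst hUV
  have hq : q = p ∨ q = -p := by
    have : (q - p) * (q + p) = 0 := by linear_combination hpq2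
    rcases mul_eq_zero.mp this with h | h
    · left; linarith
    · right; linarith
  rcases hq with hq | hq
  · subst hq
    have := sym_case q V r 1 (Or.inl rfl) h1 (by rw [← hη1]; exact e1)
      (by rw [← hη1]; rw [e3, hX]; ring)
    rcases this with ⟨a, b, c⟩ | ⟨_, a, b, c⟩
    · left; exact ⟨a, a, b, b, c, c⟩
    · right; exact ⟨a, a, b, b, rfl, c⟩
  · have := sym_case p V r (-1) (Or.inr rfl) h1 (by rw [← hη1]; exact e1)
      (by rw [← hη1]; rw [e3, hX, hq]; ring)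
    rcases this with ⟨a, b, c⟩ | ⟨a, _⟩
    · left; exact ⟨a, a, b, by rw [hq, b]; simp, c, c⟩
    · norm_num at a

end Crest.Agent.S0316Aux.Poly84
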