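import Crest.Agent.S0316Aux.A39_Block
import Crest.Agent.S0316Aux.Poly84

/-!
# S0316, TRACK A, task A3b (helper39): a fixed line of `PhiA` inside `z 0 = 0` is one of the three
points `P0`, `P+`, `P-` (in terms of the (anti-)self-dual Plücker coordinates).
-/

set_option autoImplicit false

open Crest.GeometryTopology.Quadric Crest.Agent.S0316Aux.H96

namespace Crest.Agent.S0316Aux.A

namespace Classify

open Block

lemma cR_sq_add_sR_sq (a : ℝ) : cR a ^ 2 + sR a ^ 2 = 1 := by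
  have h : (1 + a ^ 2) ≠ 0 := by positivity
  unfold cR sR
  field_simp
  ring

lemma neg_cR_sq_add (a : ℝ) : (-cR a) ^ 2 + (-sR a) ^ 2 = 1 := by
  have := cR_sq_add_sR_sq a
  linarith [this]

/-- Cayley relations for the sum of the two angles. -/
lemma cay_plus1 (a b x y : ℝ) :
    (1 - a * b) * (((cR a * cR b - sR a * sR b) * x - (sR a * cR b + cR a * sR b) * y) - x) =
      -(a + b) * (((sR a * cR b + cR a * sR b) * x + (cR a * cR b - sR a * sR b) * y) + y) := by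
  have h : (1 + a ^ 2) ≠ 0 := by positivity
  have h' : (1 + b ^ 2) ≠ 0 := by positivity
  unfold cR sR
  field_simp
  ring

lemma cay_plus2 (a b x y : ℝ) :
    (1 - a * b) * (((sR a * cR b + cR a * sR b) * x + (cR a * cR b - sR a * sR b) * y) - y) =
      (a + b) * (((cR a * cR b - sR a * sR b) * x - (sR a * cR b + cR a * sR b) * y) + x) := by
  have h : (1 + a ^ 2) ≠ 0 := by positivity
  have h' : (1 + b ^ 2) ≠ 0 := by positivity
  unfold cR sR
  field_simp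
  ring

/-- Cayley relations for the difference of the two angles. -/
lemma cay_minus1 (a b x y : ℝ) :
    (1 + a * b) * (((cR a * cR b + sR a * sR b) * x - (sR b * cR a - cR b * sR a) * y) - x) =
      -(b - a) * (((sR b * cR a - cR b * sR a) * x + (cR a * cR b + sR a * sR b) * y) + y) := by
  have h : (1 + a ^ 2) ≠ 0 := by positivity
  have h' : (1 + b ^ 2) ≠ 0 := by positivity
  unfold cR sR
  field_simp
  ring

lemma cay_minus2 (a b x y : ℝ) :
    (1 + a * b) * (((sR b * cR a - cR b * sR a) * x + (cR a * cR b + sR a * sR b) * y) - y) =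
      (b - a) * (((cR a * cR b + sR a * sR b) * x - (sR b * cR a - cR b * sR a) * y) + x) := by
  have h : (1 + a ^ 2) ≠ 0 := by positivity
  have h' : (1 + b ^ 2) ≠ 0 := by positivity
  unfold cR sR
  field_simp
  ring

/-- real form of the cone equations. -/
lemma cone_real {z : Fin 5 → ℂ} (hz : z ∈ unitCone) (h0 : z 0 = 0) :
    (z 1).re ^ 2 + (z 2).re ^ 2 + (z 3).re ^ 2 + (z 4).re ^ 2 = 1 / 2 ∧
    (z 1).im ^ 2 + (z 2).im ^ 2 + (z 3).im ^ 2 + (z 4).im ^ 2 = 1 / 2 ∧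
    (z 1).re * (z 1).im + (z 2).re * (z 2).im + (z 3).re * (z 3).im + (z 4).re * (z 4).im = 0 := by
  obtain ⟨h1, h2⟩ := hz
  have e1 := congrArg Complex.re h1
  have e2 := congrArg Complex.re h2
  have e3 := congrArg Complex.im h2
  simp only [herm, Fin.sum_univ_five, h0, sq, Complex.add_re, Complex.add_im, Complex.mul_re,
    Complex.mul_im, Complex.conj_re, Complex.conj_im, Complex.zero_re, Complex.zero_im,
    Complex.one_re, map_zero] at e1 e2 e3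
  refine ⟨by nlinarith, by nlinarith, by nlinarith⟩

lemma sphere_u {z : Fin 5 → ℂ} (hz : z ∈ unitCone) (h0 : z 0 = 0) :
    u1 z ^ 2 + u2 z ^ 2 + u3 z ^ 2 = 1 := by
  obtain ⟨hX, hY, hXY⟩ := cone_real hz h0
  simp only [u1, u2, u3, plu_eq]
  linear_combination 4 * ((z 1).im ^ 2 + (z 2).im ^ 2 + (z 3).im ^ 2 + (z 4).im ^ 2) * hX + 2 * hY
    - 4 * ((z 1).re * (z 1).im + (z 2).re * (z 2).im + (z 3).re * (z 3).im
      + (z 4).re * (z 4).im) * hXY

lemma sphere_v {z : Fin 5 → ℂ} (hz : z ∈ unitCone) (h0 : z 0 = 0) :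
    v1 z ^ 2 + v2 z ^ 2 + v3 z ^ 2 = 1 := by
  obtain ⟨hX, hY, hXY⟩ := cone_real hz h0
  simp only [v1, v2, v3, plu_eq]
  linear_combination 4 * ((z 1).im ^ 2 + (z 2).im ^ 2 + (z 3).im ^ 2 + (z 4).im ^ 2) * hX + 2 * hY
    - 4 * ((z 1).re * (z 1).im + (z 2).re * (z 2).im + (z 3).re * (z 3).im
      + (z 4).re * (z 4).im) * hXY

lemma b1_herm (c1 s1 c2 s2 : ℝ) (z : Fin 5 → ℂ) (h1 : c1 ^ 2 + s1 ^ 2 = 1)
    (h2 : c2 ^ 2 + s2 ^ 2 = 1) :
    herm (rcs 3 4 c2 s2 (rcs 1 2 c1 s1 z)) (rcs 3 4 c2 s2 (rcs 1 2 c1 s1 z)) = herm z z := by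
  have h1' : (c1 : ℂ) ^ 2 + (s1 : ℂ) ^ 2 = 1 := by exact_mod_cast h1
  have h2' : (c2 : ℂ) ^ 2 + (s2 : ℂ) ^ 2 = 1 := by exact_mod_cast h2
  simp only [herm, Fin.sum_univ_five, b1_0, b1_1, b1_2, b1_3, b1_4, map_sub, map_add, map_mul,
    Complex.conj_ofReal]
  linear_combination (starRingEnd ℂ (z 1) * z 1 + starRingEnd ℂ (z 2) * z 2) * h1'
    + (starRingEnd ℂ (z 3) * z 3 + starRingEnd ℂ (z 4) * z 4) * h2'

lemma b2_herm (c1 s1 c2 s2 : ℝ) (z : Fin 5 → ℂ) (h1 : c1 ^ 2 + s1 ^ 2 = 1)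
    (h2 : c2 ^ 2 + s2 ^ 2 = 1) :
    herm (rcs 2 3 c2 s2 (rcs 1 4 c1 s1 z)) (rcs 2 3 c2 s2 (rcs 1 4 c1 s1 z)) = herm z z := by
  have h1' : (c1 : ℂ) ^ 2 + (s1 : ℂ) ^ 2 = 1 := by exact_mod_cast h1
  have h2' : (c2 : ℂ) ^ 2 + (s2 : ℂ) ^ 2 = 1 := by exact_mod_cast h2
  simp only [herm, Fin.sum_univ_five, b2_0, b2_1, b2_2, b2_3, b2_4, map_sub, map_add, map_mul,
    Complex.conj_ofReal]
  linear_combination (starRingEnd ℂ (z 1) * z 1 + starRingEnd ℂ (z 4) * z 4) * h1'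
    + (starRingEnd ℂ (z 2) * z 2 + starRingEnd ℂ (z 3) * z 3) * h2'

lemma b1_quad (c1 s1 c2 s2 : ℝ) (z : Fin 5 → ℂ) (h1 : c1 ^ 2 + s1 ^ 2 = 1)
    (h2 : c2 ^ 2 + s2 ^ 2 = 1) :
    ∑ j, (rcs 3 4 c2 s2 (rcs 1 2 c1 s1 z)) j ^ 2 = ∑ j, z j ^ 2 := by
  have h1' : (c1 : ℂ) ^ 2 + (s1 : ℂ) ^ 2 = 1 := by exact_mod_cast h1
  have h2' : (c2 : ℂ) ^ 2 + (s2 : ℂ) ^ 2 = 1 := by exact_mod_cast h2
  simp only [Fin.sum_univ_five, b1_0, b1_1, b1_2, b1_3, b1_4]
  linear_combination (z 1 ^ 2 + z 2 ^ 2) * h1' + (z 3 ^ 2 + z 4 ^ 2) * h2'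

lemma b2_quad (c1 s1 c2 s2 : ℝ) (z : Fin 5 → ℂ) (h1 : c1 ^ 2 + s1 ^ 2 = 1)
    (h2 : c2 ^ 2 + s2 ^ 2 = 1) :
    ∑ j, (rcs 2 3 c2 s2 (rcs 1 4 c1 s1 z)) j ^ 2 = ∑ j, z j ^ 2 := by
  have h1' : (c1 : ℂ) ^ 2 + (s1 : ℂ) ^ 2 = 1 := by exact_mod_cast h1
  have h2' : (c2 : ℂ) ^ 2 + (s2 : ℂ) ^ 2 = 1 := by exact_mod_cast h2
  simp only [Fin.sum_univ_five, b2_0, b2_1, b2_2, b2_3, b2_4]
  linear_combination (z 1 ^ 2 + z 4 ^ 2) * h1' + (z 2 ^ 2 + z 3 ^ 2) * h2'

lemma PhiA1_mem {z : Fin 5 → ℂ} (hz : z ∈ unitCone) : PhiA1 z ∈ unitCone := by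
  refine ⟨?_, ?_⟩
  · unfold PhiA1
    rw [b1_herm _ _ _ _ _ (neg_cR_sq_add _) (neg_cR_sq_add _)]; exact hz.1
  · unfold PhiA1
    rw [b1_quad _ _ _ _ _ (neg_cR_sq_add _) (neg_cR_sq_add _)]; exact hz.2

lemma PhiA2_mem {z : Fin 5 → ℂ} (hz : z ∈ unitCone) : PhiA2 z ∈ unitCone := by
  refine ⟨?_, ?_⟩
  · unfold PhiA2
    rw [b2_herm _ _ _ _ _ (cR_sq_add_sR_sq _) (cR_sq_add_sR_sq _)]; exact hz.1
  · unfold PhiA2
    rw [b2_quad _ _ _ _ _ (cR_sq_add_sR_sq _) (cR_sq_add_sR_sq _)]; exact hz.2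

/-- `PhiA` preserves the unit cone. -/
lemma PhiA_mem {z : Fin 5 → ℂ} (hz : z ∈ unitCone) : PhiA z ∈ unitCone :=
  PhiA2_mem (PhiA1_mem hz)

/-- a fixed line: all Plücker coordinates are preserved. -/
lemma plu_PhiA_of_fixed {z : Fin 5 → ℂ} (hz : z ∈ unitCone) {c : ℂ} (hc : PhiA z = c • z)
    (i j : Fin 5) : plu (PhiA z) i j = plu z i j := by
  have hm : c • z ∈ unitCone := hc ▸ PhiA_mem hz
  rw [hc, plu_smul, norm_eq_one_of_smul_mem hz hm]
  ring

lemma sq_add_sq_zero {x y : ℝ} (h : x ^ 2 + y ^ 2 = 0) : x = 0 ∧ y = 0 := by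
  have hx : x ^ 2 = 0 := le_antisymm (by linarith [sq_nonneg y]) (sq_nonneg x)
  have hy : y ^ 2 = 0 := le_antisymm (by linarith [sq_nonneg x]) (sq_nonneg y)
  exact ⟨pow_eq_zero_iff (two_ne_zero) |>.mp hx, pow_eq_zero_iff (two_ne_zero) |>.mp hy⟩

/-- the purely real core of the classification. -/
lemma core (p U s q W r U' W' a b a' b' : ℝ)
    (ha : a = 17/62 + 17/31 * ((p + r) / 2)) (hb : b = 17/62 - 17/31 * ((p - r) / 2))
    (ha' : a' = 17/62 + 17/31 * ((s + q) / 2)) (hb' : b' = -(17/62) - 17/31 * ((s - q) / 2))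
    (su : p ^ 2 + U ^ 2 + s ^ 2 = 1) (sv : r ^ 2 + W ^ 2 + q ^ 2 = 1)
    (nU : U' ^ 2 = U ^ 2) (nW : W' ^ 2 = W ^ 2)
    (k1 : (1 - a * b) * (U' - U) = -(a + b) * (s + s))
    (k2 : (1 - a * b) * (s - s) = (a + b) * (U' + U))
    (k3 : (1 - a' * b') * (p - p) = -(a' + b') * (U + U'))
    (k4 : (1 - a' * b') * (U - U') = (a' + b') * (p + p))
    (m1 : (1 + a * b) * (W' - W) = -(b - a) * (q + q))
    (m2 : (1 + a * b) * (q - q) = (b - a) * (W' + W))
    (m3 : (1 + a' * b') * (r - r) = -(b' - a') * (W + W'))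
    (m4 : (1 + a' * b') * (W - W') = (b' - a') * (r + r)) :
    (p = 0 ∧ U = 0 ∧ s = -1 ∧ r = -1 ∧ W = 0 ∧ q = 0) ∨
    (s = 7/17 ∧ r = 7/17 ∧ U = 6/17 ∧ W = -(6/17) ∧ q = p ∧ p ^ 2 = 12/17) := by
  have hab : a + b = 17/31 * (1 + r) := by rw [ha, hb]; ring
  have hba : b - a = -(17/31) * p := by rw [ha, hb]; ring
  have hab' : a' + b' = 17/31 * q := by rw [ha', hb']; ring
  have hba' : b' - a' = -(17/31) * (1 + s) := by rw [ha', hb']; ring
  have hprod : a * b = (17/31:ℝ)^2/4 * ((1+r)^2 - p^2) := by rw [ha, hb]; ring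
  have hprod' : a' * b' = -((17/31:ℝ)^2/4 * ((1+s)^2 - q^2)) := by rw [ha', hb']; ring
  rw [hab, hprod] at k1 k2
  rw [hab', hprod'] at k3 k4
  rw [hba, hprod] at m1 m2
  rw [hba', hprod'] at m3 m4
  by_cases hU : U' = -U
  · by_cases hW : W' = -W
    · subst hU hW
      have := Poly84.main p U s q (-W) r su (by linear_combination sv)
        (by linear_combination (-1/2) * k1) (by linear_combination (1/2) * k4)
        (by linear_combination (1/2) * m1) (by linear_combination (-1/2) * m4)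
      rcases this with ⟨h1, h2, h3, h4, h5, h6⟩ | ⟨h1, h2, h3, h4, h5, h6⟩
      · left; exact ⟨h3, h5, h1, h2, by linear_combination -h6, h4⟩
      · right; exact ⟨h1, h2, h3, by linear_combination -h4, h5, h6⟩
    · -- `W' + W ≠ 0`: `p = 0`, `s = -1`
      left
      have hne : W' + W ≠ 0 := fun h => hW (by linear_combination h)
      have hp : p = 0 := by
        have : p * (W' + W) = 0 := by linear_combination (31/17) * m2
        exact (mul_eq_zero.mp this).resolve_right hne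
      have hs : s = -1 := by
        have : (1 + s) * (W' + W) = 0 := by linear_combination (-31/17) * m3
        have := (mul_eq_zero.mp this).resolve_right hne
        linear_combination this
      have hU0 : U = 0 := by
        have : U ^ 2 = 0 := by rw [hp, hs] at su; linear_combination su
        exact pow_eq_zero_iff (two_ne_zero) |>.mp this
      have hr : r = -1 := by
        rw [hU, hU0, hs] at k1
        linear_combination (-31/34) * k1
      have hWq : W ^ 2 + q ^ 2 = 0 := by rw [hr] at sv; linear_combination sv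
      have hW0 : W = 0 := (sq_add_sq_zero hWq).1
      have hq0 : q = 0 := (sq_add_sq_zero hWq).2
      exact ⟨hp, hU0, hs, hr, hW0, hq0⟩
  · -- `U' + U ≠ 0`: `r = -1`, `q = 0`
    left
    have hne : U' + U ≠ 0 := fun h => hU (by linear_combination h)
    have hr : r = -1 := by
      have : (1 + r) * (U' + U) = 0 := by linear_combination (-31/17) * k2
      have := (mul_eq_zero.mp this).resolve_right hne
      linear_combination this
    have hq : q = 0 := by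
      have : q * (U' + U) = 0 := by linear_combination (31/17) * k3
      exact (mul_eq_zero.mp this).resolve_right hne
    have hW0 : W = 0 := by
      have : W ^ 2 = 0 := by rw [hr, hq] at sv; linear_combination sv
      exact pow_eq_zero_iff (two_ne_zero) |>.mp this
    have hW'0 : W' = 0 := by
      have : W' ^ 2 = 0 := by rw [nW, hW0]; ring
      exact pow_eq_zero_iff (two_ne_zero) |>.mp this
    have hs : s = -1 := by
      rw [hW0, hW'0, hr] at m4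
      linear_combination (-31/34) * m4
    have hpU : p ^ 2 + U ^ 2 = 0 := by rw [hs] at su; linear_combination su
    have hp0 : p = 0 := (sq_add_sq_zero hpU).1
    have hU0 : U = 0 := (sq_add_sq_zero hpU).2
    exact ⟨hp0, hU0, hs, hr, hW0, hq⟩

end Classify

open Classify Block in
/-- **A3b**: a fixed line of `PhiA` in the hyperplane section `z 0 = 0` is `P0`, `P+` or `P-`. -/
theorem classify (z : Fin 5 → ℂ) (hz : z ∈ unitCone) (h0 : z 0 = 0) (c : ℂ)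
    (hc : PhiA z = c • z) :
    (u1 z = 0 ∧ u2 z = 0 ∧ u3 z = -1 ∧ v1 z = -1 ∧ v2 z = 0 ∧ v3 z = 0) ∨
    (u3 z = 7/17 ∧ v1 z = 7/17 ∧ u2 z = 6/17 ∧ v2 z = -(6/17) ∧ v3 z = u1 z ∧
      (u1 z) ^ 2 = 12/17) := by
  obtain ⟨w, hw⟩ : ∃ w, w = PhiA1 z := ⟨_, rfl⟩
  have hwm : w ∈ unitCone := hw ▸ PhiA1_mem hz
  have hw0 : w 0 = 0 := by rw [hw]; unfold PhiA1; rw [b1_0, h0]
  have hP : PhiA z = PhiA2 w := by rw [hw]; rfl
  have hfix := plu_PhiA_of_fixed hz hc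
  rw [hP] at hfix
  -- block 1
  have A1 : u1 w = u1 z := by
    rw [hw]; unfold PhiA1; exact b1_u1 _ _ _ _ _ (neg_cR_sq_add _) (neg_cR_sq_add _)
  have A2 : u2 w = (cR (a12 z) * cR (a34 z) - sR (a12 z) * sR (a34 z)) * u2 z
      - (sR (a12 z) * cR (a34 z) + cR (a12 z) * sR (a34 z)) * u3 z := by
    rw [hw]; unfold PhiA1; rw [b1_u2]; ring
  have A3 : u3 w = (sR (a12 z) * cR (a34 z) + cR (a12 z) * sR (a34 z)) * u2 z
      + (cR (a12 z) * cR (a34 z) - sR (a12 z) * sR (a34 z)) * u3 z := by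
    rw [hw]; unfold PhiA1; rw [b1_u3]; ring
  have B1 : v1 w = v1 z := by
    rw [hw]; unfold PhiA1; exact b1_v1 _ _ _ _ _ (neg_cR_sq_add _) (neg_cR_sq_add _)
  have B2 : v2 w = (cR (a12 z) * cR (a34 z) + sR (a12 z) * sR (a34 z)) * v2 z
      - (sR (a34 z) * cR (a12 z) - cR (a34 z) * sR (a12 z)) * v3 z := by
    rw [hw]; unfold PhiA1; rw [b1_v2]; ring
  have B3 : v3 w = (sR (a34 z) * cR (a12 z) - cR (a34 z) * sR (a12 z)) * v2 z
      + (cR (a12 z) * cR (a34 z) + sR (a12 z) * sR (a34 z)) * v3 z := by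
    rw [hw]; unfold PhiA1; rw [b1_v3]; ring
  -- block 2 (the image has the Plücker coordinates of `z`)
  have fu1 : u1 (PhiA2 w) = u1 z := by simp only [u1, hfix]
  have fu2 : u2 (PhiA2 w) = u2 z := by simp only [u2, hfix]
  have fu3 : u3 (PhiA2 w) = u3 z := by simp only [u3, hfix]
  have fv1 : v1 (PhiA2 w) = v1 z := by simp only [v1, hfix]
  have fv2 : v2 (PhiA2 w) = v2 z := by simp only [v2, hfix]
  have fv3 : v3 (PhiA2 w) = v3 z := by simp only [v3, hfix]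
  have C3 : u3 z = u3 w := by
    rw [← fu3]; unfold PhiA2; exact b2_u3 _ _ _ _ _ (cR_sq_add_sR_sq _) (cR_sq_add_sR_sq _)
  have C1 : u1 z = (cR (a14 w) * cR (a23 w) - sR (a14 w) * sR (a23 w)) * u1 w
      - (sR (a14 w) * cR (a23 w) + cR (a14 w) * sR (a23 w)) * u2 w := by
    rw [← fu1]; unfold PhiA2; rw [b2_u1]
  have C2 : u2 z = (sR (a14 w) * cR (a23 w) + cR (a14 w) * sR (a23 w)) * u1 w
      + (cR (a14 w) * cR (a23 w) - sR (a14 w) * sR (a23 w)) * u2 w := by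
    rw [← fu2]; unfold PhiA2; rw [b2_u2]
  have D3 : v3 z = v3 w := by
    rw [← fv3]; unfold PhiA2; exact b2_v3 _ _ _ _ _ (cR_sq_add_sR_sq _) (cR_sq_add_sR_sq _)
  have D1 : v1 z = (cR (a14 w) * cR (a23 w) + sR (a14 w) * sR (a23 w)) * v1 w
      - (sR (a23 w) * cR (a14 w) - cR (a23 w) * sR (a14 w)) * v2 w := by
    rw [← fv1]; unfold PhiA2; rw [b2_v1]
  have D2 : v2 z = (sR (a23 w) * cR (a14 w) - cR (a23 w) * sR (a14 w)) * v1 w
      + (cR (a14 w) * cR (a23 w) + sR (a14 w) * sR (a23 w)) * v2 w := by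
    rw [← fv2]; unfold PhiA2; rw [b2_v2]
  -- Cayley relations
  have k1 := cay_plus1 (a12 z) (a34 z) (u2 z) (u3 z)
  have k2 := cay_plus2 (a12 z) (a34 z) (u2 z) (u3 z)
  rw [← A2, ← A3, ← C3] at k1 k2
  have k3 := cay_plus1 (a14 w) (a23 w) (u1 w) (u2 w)
  have k4 := cay_plus2 (a14 w) (a23 w) (u1 w) (u2 w)
  rw [← C1, ← C2, A1] at k3 k4
  have m1 := cay_minus1 (a12 z) (a34 z) (v2 z) (v3 z)
  have m2 := cay_minus2 (a12 z) (a34 z) (v2 z) (v3 z)
  rw [← B2, ← B3, ← D3] at m1 m2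
  have m3 := cay_minus1 (a14 w) (a23 w) (v1 w) (v2 w)
  have m4 := cay_minus2 (a14 w) (a23 w) (v1 w) (v2 w)
  rw [← D1, ← D2, B1] at m3 m4
  have su := sphere_u hz h0
  have sv := sphere_v hz h0
  have suw := sphere_u hwm hw0
  have svw := sphere_v hwm hw0
  rw [A1, ← C3] at suw
  rw [B1, ← D3] at svw
  exact core (u1 z) (u2 z) (u3 z) (v3 z) (v2 z) (v1 z) (u2 w) (v2 w)
    (a12 z) (a34 z) (a14 w) (a23 w)
    (by simp only [a12, u1, v1]; ring) (by simp only [a34, u1, v1]; ring)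
    (by rw [C3, D3]; simp only [a14, u3, v3]; ring)
    (by rw [C3, D3]; simp only [a23, u3, v3]; ring)
    su sv (by linear_combination suw - su) (by linear_combination svw - sv)
    k1 k2 k3 k4 m1 m2 m3 m4


end Crest.Agent.S0316Aux.A
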