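import Crest.Agent.S0316Aux.H96_PlaneTwist
import Crest.Agent.S0316Aux.H35_Plucker

/-!
helper39, Track A (two-block plane twists) of S0316: canonical definitions, the lift `LA`
and its time-one map `PhiA`.
Order of the stages: plane (1,4), plane (2,3), plane (1,2) [+π], plane (3,4) [+π].
Half-angle tangents (notation of notes 728/741), `eps = 17/31`:
`t14 = eps/2 (1+2 mu14)`, `t23 = -eps/2 (1+2 mu23)`, `t12 = eps/2 (1+2 mu12)`,
`t34 = eps/2 (1-2 mu34)`.
-/

set_option autoImplicit false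

open Crest.GeometryTopology.Quadric

namespace Crest.Agent.S0316Aux.A39

open Crest.Agent.S0316Aux.H96

noncomputable section

/-- primitive of `arctan`. -/
def G (y : ℝ) : ℝ := y * Real.arctan y - Real.log (1 + y ^ 2) / 2

lemma one_add_sq_pos (y : ℝ) : 0 < 1 + y ^ 2 := by positivity

lemma contDiff_G : ContDiff ℝ (⊤ : ℕ∞) G := by
  unfold G
  refine ContDiff.sub (contDiff_id.mul Real.contDiff_arctan) (ContDiff.div_const ?_ _)
  exact ContDiff.log (contDiff_const.add (contDiff_id.pow 2)) (fun y => (one_add_sq_pos y).ne')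

lemma hasDerivAt_G (y : ℝ) : HasDerivAt G (Real.arctan y) y := by
  unfold G
  have h1 : HasDerivAt (fun y : ℝ => y * Real.arctan y)
      (1 * Real.arctan y + y * (1 / (1 + y ^ 2))) y :=
    (hasDerivAt_id y).mul (Real.hasDerivAt_arctan y)
  have h2 : HasDerivAt (fun y : ℝ => 1 + y ^ 2) (2 * y) y := by
    simpa using ((hasDerivAt_id y).pow 2).const_add 1
  have h3 : HasDerivAt (fun y : ℝ => Real.log (1 + y ^ 2) / 2) ((2 * y) / (1 + y ^ 2) / 2) y :=
    (h2.log (one_add_sq_pos y).ne').div_const 2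
  have e : Real.arctan y = 1 * Real.arctan y + y * (1 / (1 + y ^ 2)) - (2 * y) / (1 + y ^ 2) / 2 := by
    have := (one_add_sq_pos y).ne'
    field_simp
    ring
  rw [e]
  exact h1.sub h3

/-- Hamiltonian profile with derivative `c + 2 arctan (a + b x)`, `b ≠ 0`. -/
def prof (c a b : ℝ) (x : ℝ) : ℝ := c * x + 2 / b * G (a + b * x)

/-- angle profile. -/
def ang (c a b : ℝ) (x : ℝ) : ℝ := c + 2 * Real.arctan (a + b * x)

lemma contDiff_prof (c a b : ℝ) : ContDiff ℝ (⊤ : ℕ∞) (prof c a b) := by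
  unfold prof
  exact (contDiff_const.mul contDiff_id).add
    (contDiff_const.mul (contDiff_G.comp (contDiff_const.add (contDiff_const.mul contDiff_id))))

lemma contDiff_ang (c a b : ℝ) : ContDiff ℝ (⊤ : ℕ∞) (ang c a b) := by
  unfold ang
  exact contDiff_const.add
    (contDiff_const.mul (Real.contDiff_arctan.comp (contDiff_const.add (contDiff_const.mul contDiff_id))))

lemma hasDerivAt_prof (c a b : ℝ) (hb : b ≠ 0) (x : ℝ) :
    HasDerivAt (prof c a b) (ang c a b x) x := by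
  unfold prof ang
  have h1 : HasDerivAt (fun x : ℝ => a + b * x) b x := by
    simpa using ((hasDerivAt_id x).const_mul b).const_add a
  have h2 : HasDerivAt (fun x : ℝ => G (a + b * x)) (Real.arctan (a + b * x) * b) x :=
    HasDerivAt.comp (h₂ := G) x (hasDerivAt_G (a + b * x)) h1
  have h3 : HasDerivAt (fun x : ℝ => c * x) c x := by
    simpa using (hasDerivAt_id x).const_mul c
  have e : c + 2 * Real.arctan (a + b * x) = c + 2 / b * (Real.arctan (a + b * x) * b) := by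
    field_simp
  rw [e]
  exact h3.add (h2.const_mul (2 / b))

/-- the step size. -/
def eps : ℝ := 17 / 31

/-- one twist stage. -/
def tw (j k : Fin 5) (hjk : j ≠ k) (c a b : ℝ) (hb : b ≠ 0) : HamiltonianConeLift :=
  planeTwist j k hjk (prof c a b) (ang c a b) (contDiff_prof c a b) (contDiff_ang c a b)
    (hasDerivAt_prof c a b hb)

lemma tw_zero (j k : Fin 5) (hjk : j ≠ k) (c a b : ℝ) (hb : b ≠ 0) (y : Fin 5 → ℂ) :
    (tw j k hjk c a b hb).Ψ (0, y) = y := planeTwist_Ψ_zero _ _ _ _ _ _ _ _ _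

lemma tw_one (j k : Fin 5) (hjk : j ≠ k) (c a b : ℝ) (hb : b ≠ 0) (y : Fin 5 → ℂ) :
    (tw j k hjk c a b hb).Ψ (1, y) = rot j k (ang c a b (mu j k y)) y :=
  planeTwist_Ψ_one _ _ _ _ _ _ _ _ _

lemma eps_ne : eps ≠ 0 := by norm_num [eps]
lemma neg_eps_ne : -eps ≠ 0 := by norm_num [eps]

def T14 : HamiltonianConeLift := tw 1 4 (by decide) 0 (eps / 2) eps eps_ne
def T23 : HamiltonianConeLift := tw 2 3 (by decide) 0 (-(eps / 2)) (-eps) neg_eps_ne
def T12 : HamiltonianConeLift := tw 1 2 (by decide) Real.pi (eps / 2) eps eps_ne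
def T34 : HamiltonianConeLift := tw 3 4 (by decide) Real.pi (eps / 2) (-eps) neg_eps_ne

/-- The Track A lift. -/
def LA : HamiltonianConeLift :=
  concat (concat (concat T14 T23 (tw_zero _ _ _ _ _ _ _)) T12 (tw_zero _ _ _ _ _ _ _)) T34
    (tw_zero _ _ _ _ _ _ _)

/-- stage maps (time one). -/
def S14 (z : Fin 5 → ℂ) : Fin 5 → ℂ := rot 1 4 (ang 0 (eps / 2) eps (mu 1 4 z)) z
def S23 (z : Fin 5 → ℂ) : Fin 5 → ℂ := rot 2 3 (ang 0 (-(eps / 2)) (-eps) (mu 2 3 z)) z
def S12 (z : Fin 5 → ℂ) : Fin 5 → ℂ := rot 1 2 (ang Real.pi (eps / 2) eps (mu 1 2 z)) z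
def S34 (z : Fin 5 → ℂ) : Fin 5 → ℂ := rot 3 4 (ang Real.pi (eps / 2) (-eps) (mu 3 4 z)) z

/-- The time-one map of `LA`. -/
def PhiA (z : Fin 5 → ℂ) : Fin 5 → ℂ := S34 (S12 (S23 (S14 z)))

lemma LA_one (z : Fin 5 → ℂ) : LA.Ψ (1, z) = PhiA z := by
  unfold LA PhiA S34 S12 S23 S14 T14 T23 T12 T34
  rw [concat_Ψ_one, concat_Ψ_one, concat_Ψ_one, tw_one, tw_one, tw_one, tw_one]

end

end Crest.Agent.S0316Aux.A39
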