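import Crest.Agent.S0316Aux.H96_PlaneTwist
import Crest.Agent.S0316Aux.H35_Plucker

/-!
# S0316, TRACK A (two-block plane twists): definitions (helper84)

`LA = concat (concat (concat T12 T34) T14) T23`, each `T` a plane twist of helper96 whose angle is
`c + 2 arctan (k0 + k1 * mu)`.
-/

set_option autoImplicit false

open Crest.GeometryTopology.Quadric Crest.Agent.S0316Aux.H96

namespace Crest.Agent.S0316Aux.A

noncomputable section

/-- angle function `c + 2 arctan (k0 + k1 x)`. -/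
def Gat (c k0 k1 : ℝ) (x : ℝ) : ℝ := c + 2 * Real.arctan (k0 + k1 * x)

/-- an antiderivative of `Gat` (for `k1 ≠ 0`). -/
def Fat (c k0 k1 : ℝ) (x : ℝ) : ℝ :=
  c * x + (2 / k1) * ((k0 + k1 * x) * Real.arctan (k0 + k1 * x)
    - (1 / 2) * Real.log (1 + (k0 + k1 * x) ^ 2))

lemma contDiff_Gat (c k0 k1 : ℝ) : ContDiff ℝ (⊤ : ℕ∞) (Gat c k0 k1) := by
  unfold Gat
  exact contDiff_const.add (contDiff_const.mul
    (Real.contDiff_arctan.comp (contDiff_const.add (contDiff_const.mul contDiff_id))))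

lemma contDiff_Fat (c k0 k1 : ℝ) : ContDiff ℝ (⊤ : ℕ∞) (Fat c k0 k1) := by
  unfold Fat
  have hy : ContDiff ℝ (⊤ : ℕ∞) (fun x : ℝ => k0 + k1 * x) :=
    contDiff_const.add (contDiff_const.mul contDiff_id)
  have hlog : ContDiff ℝ (⊤ : ℕ∞) (fun x : ℝ => Real.log (1 + (k0 + k1 * x) ^ 2)) := by
    apply ContDiff.log (contDiff_const.add (hy.pow 2))
    intro x; positivity
  exact (contDiff_const.mul contDiff_id).add (contDiff_const.mul
    ((hy.mul (Real.contDiff_arctan.comp hy)).sub (contDiff_const.mul hlog)))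

lemma hasDerivAt_Fat (c k0 k1 : ℝ) (hk : k1 ≠ 0) (x : ℝ) :
    HasDerivAt (Fat c k0 k1) (Gat c k0 k1 x) x := by
  unfold Fat Gat
  have hy : HasDerivAt (fun x : ℝ => k0 + k1 * x) k1 x := by
    simpa using ((hasDerivAt_id x).const_mul k1).const_add k0
  have hat := hy.arctan
  have hpos : (1 + (k0 + k1 * x) ^ 2) ≠ 0 := by positivity
  have hlog : HasDerivAt (fun x : ℝ => Real.log (1 + (k0 + k1 * x) ^ 2))
      ((2 * (k0 + k1 * x) * k1) / (1 + (k0 + k1 * x) ^ 2)) x := by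
    have h1 : HasDerivAt (fun x : ℝ => 1 + (k0 + k1 * x) ^ 2) (2 * (k0 + k1 * x) * k1) x := by
      simpa using (hy.pow 2).const_add 1
    exact h1.log hpos
  have hmain := ((hasDerivAt_id x).const_mul c).add
    (((hy.mul hat).sub (hlog.const_mul (1/2))).const_mul (2 / k1))
  have h2 : HasDerivAt (fun x : ℝ => c * x + (2 / k1) * ((k0 + k1 * x) * Real.arctan (k0 + k1 * x)
      - (1 / 2) * Real.log (1 + (k0 + k1 * x) ^ 2))) _ x := hmain
  refine h2.congr_deriv ?_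
  field_simp
  ring

/-- the four twists. -/
def T12 : HamiltonianConeLift :=
  planeTwist 1 2 (by decide) (Fat Real.pi (17/62) (17/31)) (Gat Real.pi (17/62) (17/31))
    (contDiff_Fat _ _ _) (contDiff_Gat _ _ _) (hasDerivAt_Fat _ _ _ (by norm_num))
def T34 : HamiltonianConeLift :=
  planeTwist 3 4 (by decide) (Fat Real.pi (17/62) (-(17/31))) (Gat Real.pi (17/62) (-(17/31)))
    (contDiff_Fat _ _ _) (contDiff_Gat _ _ _) (hasDerivAt_Fat _ _ _ (by norm_num))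
def T14 : HamiltonianConeLift :=
  planeTwist 1 4 (by decide) (Fat 0 (17/62) (17/31)) (Gat 0 (17/62) (17/31))
    (contDiff_Fat _ _ _) (contDiff_Gat _ _ _) (hasDerivAt_Fat _ _ _ (by norm_num))
def T23 : HamiltonianConeLift :=
  planeTwist 2 3 (by decide) (Fat 0 (-(17/62)) (-(17/31))) (Gat 0 (-(17/62)) (-(17/31)))
    (contDiff_Fat _ _ _) (contDiff_Gat _ _ _) (hasDerivAt_Fat _ _ _ (by norm_num))

/-- the Hamiltonian isotopy of TRACK A. -/
def LA : HamiltonianConeLift :=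
  concat (concat (concat T12 T34 (planeTwist_Ψ_zero _ _ _ _ _ _ _ _)) T14
    (planeTwist_Ψ_zero _ _ _ _ _ _ _ _)) T23 (planeTwist_Ψ_zero _ _ _ _ _ _ _ _)

/-- rotation of the `(j,k)`-plane with given cosine and sine. -/
def rcs (j k : Fin 5) (c s : ℝ) (z : Fin 5 → ℂ) : Fin 5 → ℂ := fun i =>
  if i = j then (c : ℂ) * z j - (s : ℂ) * z k
  else if i = k then (s : ℂ) * z j + (c : ℂ) * z k
  else z i

/-- half-angle tangents. -/
def a12 (z : Fin 5 → ℂ) : ℝ := 17/62 + 17/31 * plu z 1 2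
def a34 (z : Fin 5 → ℂ) : ℝ := 17/62 - 17/31 * plu z 3 4
def a14 (z : Fin 5 → ℂ) : ℝ := 17/62 + 17/31 * plu z 1 4
def a23 (z : Fin 5 → ℂ) : ℝ := -(17/62) - 17/31 * plu z 2 3

/-- cosine / sine of `2 arctan a`. -/
def cR (a : ℝ) : ℝ := (1 - a^2) / (1 + a^2)
def sR (a : ℝ) : ℝ := 2 * a / (1 + a^2)

/-- first block (contains `R = -1` on coordinates 1..4). -/
def PhiA1 (z : Fin 5 → ℂ) : Fin 5 → ℂ :=
  rcs 3 4 (-cR (a34 z)) (-sR (a34 z)) (rcs 1 2 (-cR (a12 z)) (-sR (a12 z)) z)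
/-- second block. -/
def PhiA2 (z : Fin 5 → ℂ) : Fin 5 → ℂ :=
  rcs 2 3 (cR (a23 z)) (sR (a23 z)) (rcs 1 4 (cR (a14 z)) (sR (a14 z)) z)
/-- the time-one map. -/
def PhiA (z : Fin 5 → ℂ) : Fin 5 → ℂ := PhiA2 (PhiA1 z)

/-- self-dual / anti-self-dual Pluecker coordinates. -/
def u1 (z : Fin 5 → ℂ) : ℝ := plu z 1 2 + plu z 3 4
def u2 (z : Fin 5 → ℂ) : ℝ := plu z 1 3 - plu z 2 4
def u3 (z : Fin 5 → ℂ) : ℝ := plu z 1 4 + plu z 2 3
def v1 (z : Fin 5 → ℂ) : ℝ := plu z 1 2 - plu z 3 4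
def v2 (z : Fin 5 → ℂ) : ℝ := plu z 1 3 + plu z 2 4
def v3 (z : Fin 5 → ℂ) : ℝ := plu z 1 4 - plu z 2 3

/-- the degenerate fixed point `P0` (u = (0,0,-1), v = (-1,0,0)). -/
def Z0 : Fin 5 → ℂ := ![0, 1/2, -Complex.I/2, -1/2, -Complex.I/2]
/-- the degenerate direction. -/
def W0 : Fin 5 → ℂ := ![0, 0, 1, 0, -1]
/-- the two other fixed points: `Zpt ρ`, `ρ^2 = 12/17`
(u = (ρ, 6/17, 7/17), v = (7/17, -6/17, ρ)). -/
def Zpt (ρ : ℝ) : Fin 5 → ℂ :=
  ![0, -Complex.I * (((ρ + 7/17) / 2 : ℝ) : ℂ), 1/2 + 3/17 * Complex.I,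
    -Complex.I * (((ρ - 7/17) / 2 : ℝ) : ℂ), 1/2 - 3/17 * Complex.I]

end

end Crest.Agent.S0316Aux.A
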