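import Crest.Agent.S0316Aux.H96_PlaneTwist

/-!
helper96: Track A (two block twists).  `mu` under plane rotations, arctan twists, the block lift.
-/

set_option autoImplicit false

open Crest.GeometryTopology.Quadric

namespace Crest.Agent.S0316Aux.H96

noncomputable section

variable {j k a b : Fin 5}

lemma mu_antisymm (a b : Fin 5) (z : Fin 5 → ℂ) : mu a b z = - mu b a z := by
  rw [mu_eq, mu_eq]; ring

lemma mu_self (a : Fin 5) (z : Fin 5 → ℂ) : mu a a z = 0 := by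
  rw [mu_eq]; ring

lemma mu_rot_j (hjk : j ≠ k) (haj : a ≠ j) (hak : a ≠ k) (θ : ℝ) (z : Fin 5 → ℂ) :
    mu j a (rot j k θ z) = Real.cos θ * mu j a z - Real.sin θ * mu k a z := by
  rw [mu_eq, mu_eq, mu_eq, rot_apply_j, rot_apply_of_ne haj hak]
  simp only [Complex.sub_re, Complex.sub_im, Complex.mul_re, Complex.mul_im, Complex.ofReal_re,
    Complex.ofReal_im]
  ring

lemma mu_rot_k (hjk : j ≠ k) (haj : a ≠ j) (hak : a ≠ k) (θ : ℝ) (z : Fin 5 → ℂ) :
    mu k a (rot j k θ z) = Real.sin θ * mu j a z + Real.cos θ * mu k a z := by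
  rw [mu_eq, mu_eq, mu_eq, rot_apply_k hjk, rot_apply_of_ne haj hak]
  simp only [Complex.add_re, Complex.add_im, Complex.mul_re, Complex.mul_im, Complex.ofReal_re,
    Complex.ofReal_im]
  ring

lemma mu_rot_j' (hjk : j ≠ k) (haj : a ≠ j) (hak : a ≠ k) (θ : ℝ) (z : Fin 5 → ℂ) :
    mu a j (rot j k θ z) = Real.cos θ * mu a j z - Real.sin θ * mu a k z := by
  rw [mu_antisymm a j, mu_rot_j hjk haj hak, mu_antisymm a j z, mu_antisymm a k z]; ring

lemma mu_rot_k' (hjk : j ≠ k) (haj : a ≠ j) (hak : a ≠ k) (θ : ℝ) (z : Fin 5 → ℂ) :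
    mu a k (rot j k θ z) = Real.sin θ * mu a j z + Real.cos θ * mu a k z := by
  rw [mu_antisymm a k, mu_rot_k hjk haj hak, mu_antisymm a j z, mu_antisymm a k z]; ring

lemma mu_rot_of_ne (haj : a ≠ j) (hak : a ≠ k) (hbj : b ≠ j) (hbk : b ≠ k) (θ : ℝ)
    (z : Fin 5 → ℂ) : mu a b (rot j k θ z) = mu a b z := by
  rw [mu_eq, mu_eq, rot_apply_of_ne haj hak, rot_apply_of_ne hbj hbk]

/-! ### arctan profile -/

/-- antiderivative of `arctan`. -/
def atanPrim (y : ℝ) : ℝ := y * Real.arctan y - Real.log (1 + y ^ 2) / 2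

lemma one_add_sq_pos (y : ℝ) : 0 < 1 + y ^ 2 := by positivity

lemma contDiff_atanPrim : ContDiff ℝ (⊤ : ℕ∞) atanPrim := by
  unfold atanPrim
  refine (contDiff_id.mul Real.contDiff_arctan).sub (ContDiff.div_const ?_ 2)
  exact ContDiff.log (contDiff_const.add (contDiff_id.pow 2)) (fun y => (one_add_sq_pos y).ne')

lemma hasDerivAt_atanPrim (y : ℝ) : HasDerivAt atanPrim (Real.arctan y) y := by
  unfold atanPrim
  have h1 : HasDerivAt (fun y : ℝ => y * Real.arctan y)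
      (1 * Real.arctan y + y * (1 / (1 + y ^ 2))) y :=
    (hasDerivAt_id y).mul (Real.hasDerivAt_arctan y)
  have h2 : HasDerivAt (fun y : ℝ => 1 + y ^ 2) (2 * y) y := by
    have := ((hasDerivAt_id y).pow 2).const_add 1
    simpa using this
  have h3 := (h2.log (one_add_sq_pos y).ne').div_const 2
  refine (h1.sub h3).congr_deriv ?_
  have := (one_add_sq_pos y).ne'
  field_simp
  ring

/-- angle function `c0 + 2 arctan (a0 + b0 x)`. -/
def atanAngle (c0 a0 b0 : ℝ) (x : ℝ) : ℝ := c0 + 2 * Real.arctan (a0 + b0 * x)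

/-- its antiderivative (for `b0 ≠ 0`). -/
def atanHam (c0 a0 b0 : ℝ) (x : ℝ) : ℝ := c0 * x + (2 / b0) * atanPrim (a0 + b0 * x)

lemma contDiff_atanAngle (c0 a0 b0 : ℝ) : ContDiff ℝ (⊤ : ℕ∞) (atanAngle c0 a0 b0) := by
  unfold atanAngle
  exact contDiff_const.add (contDiff_const.mul
    (Real.contDiff_arctan.comp (contDiff_const.add (contDiff_const.mul contDiff_id))))

lemma contDiff_atanHam (c0 a0 b0 : ℝ) : ContDiff ℝ (⊤ : ℕ∞) (atanHam c0 a0 b0) := by
  unfold atanHam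
  exact (contDiff_const.mul contDiff_id).add (contDiff_const.mul
    (contDiff_atanPrim.comp (contDiff_const.add (contDiff_const.mul contDiff_id))))

lemma hasDerivAt_atanHam (c0 a0 : ℝ) {b0 : ℝ} (hb : b0 ≠ 0) (x : ℝ) :
    HasDerivAt (atanHam c0 a0 b0) (atanAngle c0 a0 b0 x) x := by
  unfold atanHam atanAngle
  have h1 : HasDerivAt (fun x : ℝ => a0 + b0 * x) b0 x := by
    simpa using ((hasDerivAt_id x).const_mul b0).const_add a0
  have h2 := ((hasDerivAt_atanPrim (a0 + b0 * x)).comp x h1).const_mul (2 / b0)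
  have h3 : HasDerivAt (fun x : ℝ => c0 * x) c0 x := by
    simpa using (hasDerivAt_id x).const_mul c0
  refine (h3.add h2).congr_deriv ?_
  field_simp

/-- the plane twist with angle `c0 + 2 arctan (a0 + b0 * mu_{jk})`. -/
def arctanTwist (j k : Fin 5) (hjk : j ≠ k) (c0 a0 b0 : ℝ) (hb : b0 ≠ 0) : HamiltonianConeLift :=
  planeTwist j k hjk (atanHam c0 a0 b0) (atanAngle c0 a0 b0) (contDiff_atanHam c0 a0 b0)
    (contDiff_atanAngle c0 a0 b0) (hasDerivAt_atanHam c0 a0 hb)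

lemma arctanTwist_Ψ_zero (j k : Fin 5) (hjk : j ≠ k) (c0 a0 b0 : ℝ) (hb : b0 ≠ 0)
    (z : Fin 5 → ℂ) : (arctanTwist j k hjk c0 a0 b0 hb).Ψ (0, z) = z :=
  planeTwist_Ψ_zero _ _ _ _ _ _ _ _ _

lemma arctanTwist_Ψ_one (j k : Fin 5) (hjk : j ≠ k) (c0 a0 b0 : ℝ) (hb : b0 ≠ 0)
    (z : Fin 5 → ℂ) :
    (arctanTwist j k hjk c0 a0 b0 hb).Ψ (1, z) = rot j k (atanAngle c0 a0 b0 (mu j k z)) z :=
  planeTwist_Ψ_one _ _ _ _ _ _ _ _ _

lemma cos_two_arctan (r : ℝ) : Real.cos (2 * Real.arctan r) = (1 - r ^ 2) / (1 + r ^ 2) := by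
  rw [Real.cos_two_mul, Real.cos_sq_arctan]
  have := (one_add_sq_pos r).ne'
  field_simp
  ring

lemma sin_two_arctan (r : ℝ) : Real.sin (2 * Real.arctan r) = 2 * r / (1 + r ^ 2) := by
  rw [Real.sin_two_mul, Real.sin_arctan, Real.cos_arctan]
  have h := one_add_sq_pos r
  have hs : Real.sqrt (1 + r ^ 2) * Real.sqrt (1 + r ^ 2) = 1 + r ^ 2 :=
    Real.mul_self_sqrt h.le
  have hs0 : Real.sqrt (1 + r ^ 2) ≠ 0 := (Real.sqrt_pos.mpr h).ne'
  field_simp
  rw [pow_two (Real.sqrt (1 + r ^ 2)), hs]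

/-! ### the block lift -/

/-- `ε / 2` with `ε = 17/31`. -/
def hA : ℝ := 17 / 62
/-- `ε = 17/31`. -/
def hB : ℝ := 17 / 31

lemma hB_ne : hB ≠ 0 := by norm_num [hB]
lemma neg_hB_ne : -hB ≠ 0 := by norm_num [hB]

def T14 : HamiltonianConeLift := arctanTwist 1 4 (by decide) 0 hA hB hB_ne
def T23 : HamiltonianConeLift := arctanTwist 2 3 (by decide) 0 (-hA) (-hB) neg_hB_ne
def T12 : HamiltonianConeLift := arctanTwist 1 2 (by decide) Real.pi hA hB hB_ne
def T34 : HamiltonianConeLift := arctanTwist 3 4 (by decide) Real.pi hA (-hB) neg_hB_ne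

lemma T23_zero (y : Fin 5 → ℂ) : T23.Ψ (0, y) = y := arctanTwist_Ψ_zero _ _ _ _ _ _ _ _
lemma T12_zero (y : Fin 5 → ℂ) : T12.Ψ (0, y) = y := arctanTwist_Ψ_zero _ _ _ _ _ _ _ _
lemma T34_zero (y : Fin 5 → ℂ) : T34.Ψ (0, y) = y := arctanTwist_Ψ_zero _ _ _ _ _ _ _ _

/-- The Track A lift: `T14`, then `T23`, then `T12`, then `T34`. -/
def blockLift : HamiltonianConeLift :=
  concat (concat (concat T14 T23 T23_zero) T12 T12_zero) T34 T34_zero

/-- the four stages of the time-one map. -/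
def st1 (z : Fin 5 → ℂ) : Fin 5 → ℂ := rot 1 4 (atanAngle 0 hA hB (mu 1 4 z)) z
def st2 (z : Fin 5 → ℂ) : Fin 5 → ℂ := rot 2 3 (atanAngle 0 (-hA) (-hB) (mu 2 3 z)) z
def st3 (z : Fin 5 → ℂ) : Fin 5 → ℂ := rot 1 2 (atanAngle Real.pi hA hB (mu 1 2 z)) z
def st4 (z : Fin 5 → ℂ) : Fin 5 → ℂ := rot 3 4 (atanAngle Real.pi hA (-hB) (mu 3 4 z)) z

/-- the time-one map of `blockLift`. -/
def blockPhi (z : Fin 5 → ℂ) : Fin 5 → ℂ := st4 (st3 (st2 (st1 z)))

lemma blockLift_Ψ_one (z : Fin 5 → ℂ) : blockLift.Ψ (1, z) = blockPhi z := by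
  unfold blockLift
  rw [concat_Ψ_one, concat_Ψ_one, concat_Ψ_one]
  unfold T14 T23 T12 T34
  rw [arctanTwist_Ψ_one, arctanTwist_Ψ_one, arctanTwist_Ψ_one, arctanTwist_Ψ_one]
  rfl

/-! ### the degenerate fixed point -/

/-- the degenerate fixed point `P0`. -/
def zDeg : Fin 5 → ℂ := ![0, 1 / 2, -Complex.I / 2, -1 / 2, -Complex.I / 2]
/-- the degenerate direction. -/
def wDeg : Fin 5 → ℂ := ![0, 0, 1, 0, -1]

lemma zDeg_mem : zDeg ∈ unitCone := by
  constructor
  · have h2 : (starRingEnd ℂ) (2 : ℂ) = 2 := map_ofNat _ 2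
    simp only [herm, zDeg, Fin.sum_univ_five]
    simp [h2]
    ring_nf
    simp
    norm_num
  · simp only [zDeg, Fin.sum_univ_five]
    simp
    ring_nf
    simp

/-- the line through `zDeg` in the direction `wDeg`. -/
def lineDeg (s : ℝ) : Fin 5 → ℂ := zDeg + s • wDeg

lemma lineDeg_apply (s : ℝ) :
    lineDeg s = ![0, 1 / 2, -Complex.I / 2 + s, -1 / 2, -Complex.I / 2 - s] := by
  funext i
  fin_cases i <;> simp [lineDeg, zDeg, wDeg] <;> ring

lemma rot_pi (hjk : j ≠ k) (z : Fin 5 → ℂ) :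
    rot j k Real.pi z = fun i => if i = j ∨ i = k then - z i else z i := by
  funext i
  by_cases h1 : i = j
  · subst h1; simp [rot]
  · by_cases h2 : i = k
    · subst h2; simp [rot, h1]
    · simp [rot, h1, h2]

lemma blockPhi_lineDeg (s : ℝ) : blockPhi (lineDeg s) = - lineDeg s := by
  have m14 : mu 1 4 (lineDeg s) = -1 / 2 := by
    rw [mu_eq, lineDeg_apply]; simp
  have m23 : mu 2 3 (lineDeg s) = -1 / 2 := by
    rw [mu_eq, lineDeg_apply]; simp; norm_num
  have m12 : mu 1 2 (lineDeg s) = -1 / 2 := by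
    rw [mu_eq, lineDeg_apply]; simp
  have m34 : mu 3 4 (lineDeg s) = 1 / 2 := by
    rw [mu_eq, lineDeg_apply]; simp; norm_num
  have e1 : st1 (lineDeg s) = lineDeg s := by
    unfold st1
    rw [m14]
    have : atanAngle 0 hA hB (-1 / 2) = 0 := by norm_num [atanAngle, hA, hB]
    rw [this, rot_zero]
  have e2 : st2 (lineDeg s) = lineDeg s := by
    unfold st2
    rw [m23]
    have : atanAngle 0 (-hA) (-hB) (-1 / 2) = 0 := by norm_num [atanAngle, hA, hB]
    rw [this, rot_zero]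
  have e3 : st3 (lineDeg s) = rot 1 2 Real.pi (lineDeg s) := by
    unfold st3
    rw [m12]
    have : atanAngle Real.pi hA hB (-1 / 2) = Real.pi := by norm_num [atanAngle, hA, hB]
    rw [this]
  have e4 : st4 (rot 1 2 Real.pi (lineDeg s)) = rot 3 4 Real.pi (rot 1 2 Real.pi (lineDeg s)) := by
    unfold st4
    rw [mu_rot_of_ne (by decide) (by decide) (by decide) (by decide), m34]
    have : atanAngle Real.pi hA (-hB) (1 / 2) = Real.pi := by norm_num [atanAngle, hA, hB]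
    rw [this]
  unfold blockPhi
  rw [e1, e2, e3, e4, rot_pi (by decide), rot_pi (by decide)]
  funext i
  fin_cases i <;> simp [lineDeg_apply]

lemma wDeg_tangent : wDeg ∈ coneTangent zDeg := by
  constructor
  · have h2 : (starRingEnd ℂ) (2 : ℂ) = 2 := map_ofNat _ 2
    simp only [herm, zDeg, wDeg, Fin.sum_univ_five]
    simp [h2]
  · simp only [zDeg, wDeg, Fin.sum_univ_five]
    simp

lemma wDeg_not_vertical (r : ℝ) : wDeg ≠ ((r : ℂ) * Complex.I) • zDeg := by
  intro h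
  have h1 := congrFun h 1
  have h2 := congrFun h 2
  simp [wDeg, zDeg] at h1 h2
  rw [h1] at h2
  simp at h2

/-- Any lift whose time-one map is `blockPhi` has a degenerate fixed point. -/
theorem hasDegenerateFixedPoint_of_blockPhi (L : HamiltonianConeLift)
    (hL : ∀ z, L.Ψ (1, z) = blockPhi z) : HasDegenerateFixedPoint L := by
  have hz0 : lineDeg 0 = zDeg := by simp [lineDeg]
  refine ⟨zDeg, zDeg_mem, -1, ?_, wDeg, wDeg_tangent, wDeg_not_vertical, 0, ?_⟩
  · rw [hL, ← hz0, blockPhi_lineDeg]; simp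
  · have hF : Differentiable ℝ (fun x : Fin 5 → ℂ => L.Ψ (1, x)) := by
      have h1 : Differentiable ℝ L.Ψ := L.smooth_Ψ.differentiable (by simp)
      exact h1.comp ((differentiable_const (1 : ℝ)).prodMk differentiable_id)
    have hline : HasDerivAt lineDeg wDeg 0 := by
      unfold lineDeg
      have := ((hasDerivAt_id (0 : ℝ)).smul_const wDeg).const_add zDeg
      simpa using this
    have h1 : HasDerivAt (fun s : ℝ => L.Ψ (1, lineDeg s))
        (fderiv ℝ (fun x : Fin 5 → ℂ => L.Ψ (1, x)) zDeg wDeg) 0 := by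
      have hfd : HasFDerivAt (fun x : Fin 5 → ℂ => L.Ψ (1, x))
          (fderiv ℝ (fun x : Fin 5 → ℂ => L.Ψ (1, x)) zDeg) (lineDeg 0) := by
        rw [hz0]; exact (hF zDeg).hasFDerivAt
      exact hfd.comp_hasDerivAt 0 hline
    have h2 : HasDerivAt (fun s : ℝ => L.Ψ (1, lineDeg s)) (- wDeg) 0 := by
      have : (fun s : ℝ => L.Ψ (1, lineDeg s)) = fun s => - lineDeg s := by
        funext s; rw [hL, blockPhi_lineDeg]
      rw [this]
      exact hline.neg
    rw [h1.unique h2]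
    simp

end

end Crest.Agent.S0316Aux.H96
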