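import Crest.Agent.S0316Aux.A39_Defs
import Crest.Agent.S0316Aux.H96_Block

/-!
helper84, Track A of S0316: the three explicit fixed points of `A39.PhiA`.
-/

set_option autoImplicit false

open Crest.GeometryTopology.Quadric

namespace Crest.Agent.S0316Aux.A84

open Crest.Agent.S0316Aux.H96 Crest.Agent.S0316Aux.A39

noncomputable section

/-- the two nondegenerate fixed points, `ρ = ± √(12/17)`. -/
def Zp (ρ : ℝ) : Fin 5 → ℂ :=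
  ![0, ⟨0, -(ρ + 7 / 17) / 2⟩, ⟨1 / 2, -3 / 17⟩, ⟨0, -(ρ - 7 / 17) / 2⟩, ⟨1 / 2, 3 / 17⟩]

def Y1 (ρ : ℝ) : Fin 5 → ℂ :=
  ![0, ⟨-3 / 10 - 7 / 40 * ρ, -49 / 340 - 7 / 20 * ρ⟩, ⟨1 / 2, -3 / 17⟩, ⟨0, -(ρ - 7 / 17) / 2⟩,
    ⟨7 / 20 - 3 / 20 * ρ, -21 / 170 - 17 / 40 * ρ⟩]

def Y2 (ρ : ℝ) : Fin 5 → ℂ :=
  ![0, ⟨-3 / 10 - 7 / 40 * ρ, -49 / 340 - 7 / 20 * ρ⟩,
    ⟨7 / 20 + 3 / 20 * ρ, 21 / 170 - 17 / 40 * ρ⟩,
    ⟨-3 / 10 + 7 / 40 * ρ, 49 / 340 - 7 / 20 * ρ⟩,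
    ⟨7 / 20 - 3 / 20 * ρ, -21 / 170 - 17 / 40 * ρ⟩]

def Y3 (ρ : ℝ) : Fin 5 → ℂ :=
  ![0, ⟨21 / 50 + 49 / 200 * ρ, -7 / 1700 - 1 / 100 * ρ⟩,
    ⟨1 / 100 + 21 / 100 * ρ, -3 / 850 + 119 / 200 * ρ⟩,
    ⟨-3 / 10 + 7 / 40 * ρ, 49 / 340 - 7 / 20 * ρ⟩,
    ⟨7 / 20 - 3 / 20 * ρ, -21 / 170 - 17 / 40 * ρ⟩]

def Y4 (ρ : ℝ) : Fin 5 → ℂ :=
  ![0, ⟨21 / 50 + 49 / 200 * ρ, -7 / 1700 - 1 / 100 * ρ⟩,
    ⟨1 / 100 + 21 / 100 * ρ, -3 / 850 + 119 / 200 * ρ⟩,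
    ⟨21 / 50 - 49 / 200 * ρ, 7 / 1700 - 1 / 100 * ρ⟩,
    ⟨1 / 100 - 21 / 100 * ρ, 3 / 850 + 119 / 200 * ρ⟩]

lemma cval {ρ : ℝ} (h : ρ ^ 2 = 12 / 17) :
    (1 - ((24 + 17 * ρ) / 62) ^ 2) / (1 + ((24 + 17 * ρ) / 62) ^ 2) = (7 - 3 * ρ) / 10 := by
  have h3 : ρ ^ 3 = 12 / 17 * ρ := by rw [pow_succ, h]
  rw [div_eq_iff (by positivity)]
  linarith [h, h3]

lemma sval {ρ : ℝ} (h : ρ ^ 2 = 12 / 17) :
    2 * ((24 + 17 * ρ) / 62) / (1 + ((24 + 17 * ρ) / 62) ^ 2) = (12 + 7 * ρ) / 20 := by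
  have h3 : ρ ^ 3 = 12 / 17 * ρ := by rw [pow_succ, h]
  rw [div_eq_iff (by positivity)]
  linarith [h, h3]

lemma cos_ang0 (a b x : ℝ) :
    Real.cos (ang 0 a b x) = (1 - (a + b * x) ^ 2) / (1 + (a + b * x) ^ 2) := by
  unfold ang; rw [zero_add, cos_two_arctan]

lemma sin_ang0 (a b x : ℝ) :
    Real.sin (ang 0 a b x) = 2 * (a + b * x) / (1 + (a + b * x) ^ 2) := by
  unfold ang; rw [zero_add, sin_two_arctan]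

lemma cos_angpi (a b x : ℝ) :
    Real.cos (ang Real.pi a b x) = -((1 - (a + b * x) ^ 2) / (1 + (a + b * x) ^ 2)) := by
  unfold ang; rw [add_comm, Real.cos_add_pi, cos_two_arctan]

lemma sin_angpi (a b x : ℝ) :
    Real.sin (ang Real.pi a b x) = -(2 * (a + b * x) / (1 + (a + b * x) ^ 2)) := by
  unfold ang; rw [add_comm, Real.sin_add_pi, sin_two_arctan]

lemma rot_of_cs (j k : Fin 5) (θ c s : ℝ) (hc : Real.cos θ = c) (hs : Real.sin θ = s)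
    (z : Fin 5 → ℂ) : rot j k θ z = fun i =>
      if i = j then (c : ℂ) * z j - (s : ℂ) * z k
      else if i = k then (s : ℂ) * z j + (c : ℂ) * z k else z i := by
  unfold rot; rw [hc, hs]

lemma S14_Zp {ρ : ℝ} (h : ρ ^ 2 = 12 / 17) : S14 (Zp ρ) = Y1 ρ := by
  have hm : mu 1 4 (Zp ρ) = (ρ + 7 / 17) / 2 := by
    rw [mu_eq]; simp [Zp]; ring
  have ht : eps / 2 + eps * ((ρ + 7 / 17) / 2) = (24 + 17 * ρ) / 62 := by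
    unfold eps; ring
  unfold S14
  have hc := cos_ang0 (eps / 2) eps ((ρ + 7 / 17) / 2)
  have hs := sin_ang0 (eps / 2) eps ((ρ + 7 / 17) / 2)
  rw [ht, cval h] at hc
  rw [ht, sval h] at hs
  rw [hm, rot_of_cs _ _ _ _ _ hc hs]
  funext i
  fin_cases i <;> simp [Zp, Y1] <;> (apply Complex.ext <;> simp <;> linarith [h])

lemma neg_sq_eq {ρ : ℝ} (h : ρ ^ 2 = 12 / 17) : (-ρ) ^ 2 = 12 / 17 := by rw [neg_sq, h]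

lemma S23_Y1 {ρ : ℝ} (h : ρ ^ 2 = 12 / 17) : S23 (Y1 ρ) = Y2 ρ := by
  have hm : mu 2 3 (Y1 ρ) = -(ρ - 7 / 17) / 2 := by
    rw [mu_eq]; simp [Y1]
  have ht : -(eps / 2) + -eps * (-(ρ - 7 / 17) / 2) = -((24 + 17 * (-ρ)) / 62) := by
    unfold eps; ring
  unfold S23
  have hc := cos_ang0 (-(eps / 2)) (-eps) (-(ρ - 7 / 17) / 2)
  have hs := sin_ang0 (-(eps / 2)) (-eps) (-(ρ - 7 / 17) / 2)
  rw [ht, neg_sq, cval (neg_sq_eq h)] at hc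
  have hs' : 2 * -((24 + 17 * -ρ) / 62) / (1 + ((24 + 17 * -ρ) / 62) ^ 2)
      = -((12 + 7 * -ρ) / 20) := by
    rw [← sval (neg_sq_eq h)]; ring
  rw [ht, neg_sq, hs'] at hs
  rw [hm, rot_of_cs _ _ _ _ _ hc hs]
  funext i
  fin_cases i <;> simp [Y1, Y2] <;> (apply Complex.ext <;> simp <;> linarith [h])

lemma S12_Y2 {ρ : ℝ} (h : ρ ^ 2 = 12 / 17) : S12 (Y2 ρ) = Y3 ρ := by
  have hm : mu 1 2 (Y2 ρ) = (ρ + 7 / 17) / 2 := by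
    rw [mu_eq]; simp [Y2]; linarith [h]
  have ht : eps / 2 + eps * ((ρ + 7 / 17) / 2) = (24 + 17 * ρ) / 62 := by
    unfold eps; ring
  unfold S12
  have hc := cos_angpi (eps / 2) eps ((ρ + 7 / 17) / 2)
  have hs := sin_angpi (eps / 2) eps ((ρ + 7 / 17) / 2)
  rw [ht, cval h] at hc
  rw [ht, sval h] at hs
  rw [hm, rot_of_cs _ _ _ _ _ hc hs]
  funext i
  fin_cases i <;> simp [Y2, Y3] <;> (apply Complex.ext <;> simp <;> linarith [h])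

lemma S34_Y3 {ρ : ℝ} (h : ρ ^ 2 = 12 / 17) : S34 (Y3 ρ) = Y4 ρ := by
  have hm : mu 3 4 (Y3 ρ) = (ρ - 7 / 17) / 2 := by
    rw [mu_eq]; simp [Y3]; linarith [h]
  have ht : eps / 2 + -eps * ((ρ - 7 / 17) / 2) = (24 + 17 * (-ρ)) / 62 := by
    unfold eps; ring
  unfold S34
  have hc := cos_angpi (eps / 2) (-eps) ((ρ - 7 / 17) / 2)
  have hs := sin_angpi (eps / 2) (-eps) ((ρ - 7 / 17) / 2)
  rw [ht, cval (neg_sq_eq h)] at hc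
  rw [ht, sval (neg_sq_eq h)] at hs
  rw [hm, rot_of_cs _ _ _ _ _ hc hs]
  funext i
  fin_cases i <;> simp [Y3, Y4] <;> (apply Complex.ext <;> simp <;> linarith [h])

lemma Y4_eq {ρ : ℝ} (h : ρ ^ 2 = 12 / 17) :
    Y4 ρ = (⟨1 / 50, 119 / 100 * ρ⟩ : ℂ) • Zp ρ := by
  funext i
  fin_cases i <;> simp [Y4, Zp] <;> (apply Complex.ext <;> simp <;> linarith [h])

/-- `Zp ρ` spans a fixed line of `PhiA`. -/
theorem PhiA_Zp {ρ : ℝ} (h : ρ ^ 2 = 12 / 17) :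
    PhiA (Zp ρ) = (⟨1 / 50, 119 / 100 * ρ⟩ : ℂ) • Zp ρ := by
  unfold PhiA
  rw [S14_Zp h, S23_Y1 h, S12_Y2 h, S34_Y3 h, Y4_eq h]

theorem Zp_mem {ρ : ℝ} (h : ρ ^ 2 = 12 / 17) : Zp ρ ∈ unitCone := by
  constructor
  · simp only [herm, Zp, Fin.sum_univ_five]
    apply Complex.ext <;> simp <;> linarith [h]
  · simp only [Zp, Fin.sum_univ_five]
    apply Complex.ext <;> simp [pow_two] <;> linarith [h]

lemma Zp_zero (ρ : ℝ) : Zp ρ 0 = 0 := by simp [Zp]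

lemma plu_eq_mu (z : Fin 5 → ℂ) (i j : Fin 5) : plu z i j = mu i j z := rfl

lemma plu_Zp (ρ : ℝ) :
    plu (Zp ρ) 1 2 = (ρ + 7 / 17) / 2 ∧ plu (Zp ρ) 1 3 = 0 ∧ plu (Zp ρ) 1 4 = (ρ + 7 / 17) / 2 ∧
    plu (Zp ρ) 2 3 = -(ρ - 7 / 17) / 2 ∧ plu (Zp ρ) 2 4 = 6 / 17 ∧
    plu (Zp ρ) 3 4 = (ρ - 7 / 17) / 2 := by
  simp only [plu_eq_mu, mu_eq]
  refine ⟨?_, ?_, ?_, ?_, ?_, ?_⟩ <;> simp [Zp] <;> ring

/-- `blockPhi` of helper96 is `PhiA` of helper39. -/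
lemma blockPhi_eq (z : Fin 5 → ℂ) : blockPhi z = PhiA z := by
  have e1 : hA = eps / 2 := by norm_num [hA, eps]
  have e2 : hB = eps := rfl
  unfold blockPhi PhiA st4 st3 st2 st1 S34 S12 S23 S14 atanAngle ang
  rw [e1, e2]

theorem PhiA_zDeg : PhiA zDeg = (-1 : ℂ) • zDeg := by
  have h := blockPhi_lineDeg 0
  have hz0 : lineDeg 0 = zDeg := by simp [lineDeg]
  rw [hz0, blockPhi_eq] at h
  rw [h]; simp

lemma zDeg_zero : zDeg 0 = 0 := by simp [zDeg]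

lemma plu_zDeg :
    plu zDeg 1 2 = -1 / 2 ∧ plu zDeg 1 3 = 0 ∧ plu zDeg 1 4 = -1 / 2 ∧
    plu zDeg 2 3 = -1 / 2 ∧ plu zDeg 2 4 = 0 ∧ plu zDeg 3 4 = 1 / 2 := by
  simp only [plu_eq_mu, mu_eq]
  refine ⟨?_, ?_, ?_, ?_, ?_, ?_⟩ <;> simp [zDeg] <;> norm_num

theorem degenerate_LA : HasDegenerateFixedPoint LA :=
  hasDegenerateFixedPoint_of_blockPhi LA (fun z => by rw [LA_one, blockPhi_eq])

end

end Crest.Agent.S0316Aux.A84
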