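import Crest.Agent.S0316Aux.Orth86

/-!
helper86: the Cayley path `cay s W ρ = 1 + (2/(1+s²ρ)) (s W + s² W²)` of a real antisymmetric matrix
`W` with `W³ = -ρ W`, `ρ ≥ 0`: it is orthogonal, commutes with `W`, and
`d/ds cay = (2/(1+s²ρ)) W cay`.
-/

set_option autoImplicit false

namespace Crest.Agent.S0316Aux.Cayley86

open Crest.GeometryTopology.Quadric Crest.Agent.S0316Aux.Orth86

/-- coefficient of `W`. -/
noncomputable def ca (s ρ : ℝ) : ℝ := 2 * s / (1 + s ^ 2 * ρ)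
/-- coefficient of `W²`. -/
noncomputable def cb (s ρ : ℝ) : ℝ := 2 * s ^ 2 / (1 + s ^ 2 * ρ)

/-- The Cayley path. -/
noncomputable def cay (s : ℝ) (W : Matrix (Fin 5) (Fin 5) ℝ) (ρ : ℝ) : Matrix (Fin 5) (Fin 5) ℝ :=
  1 + ca s ρ • W + cb s ρ • (W * W)

lemma den_pos (s : ℝ) {ρ : ℝ} (hρ : 0 ≤ ρ) : 0 < 1 + s ^ 2 * ρ := by positivity

lemma cay_zero (W : Matrix (Fin 5) (Fin 5) ℝ) (ρ : ℝ) : cay 0 W ρ = 1 := by
  simp [cay, ca, cb]

variable {W : Matrix (Fin 5) (Fin 5) ℝ} {ρ : ℝ}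

lemma cay_transpose (hW : W.transpose = -W) (s : ℝ) :
    (cay s W ρ).transpose = 1 - ca s ρ • W + cb s ρ • (W * W) := by
  simp only [cay, Matrix.transpose_add, Matrix.transpose_one, Matrix.transpose_smul,
    Matrix.transpose_mul, hW]
  simp [sub_eq_add_neg]

lemma W4 (hc : W * W * W = -ρ • W) : W * W * (W * W) = -ρ • (W * W) := by
  rw [← Matrix.mul_assoc, hc]
  simp

lemma cay_orth (hW : W.transpose = -W) (hc : W * W * W = -ρ • W) (hρ : 0 ≤ ρ) (s : ℝ) :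
    (cay s W ρ).transpose * cay s W ρ = 1 := by
  rw [cay_transpose hW]
  have h3' : W * (W * W) = -ρ • W := by rw [← Matrix.mul_assoc]; exact hc
  have h4 := W4 hc
  have hd := (den_pos s hρ).ne'
  have key : (1 - ca s ρ • W + cb s ρ • (W * W)) * cay s W ρ
      = 1 + (2 * cb s ρ - ca s ρ ^ 2 - ρ * cb s ρ ^ 2) • (W * W) := by
    simp only [cay, Matrix.add_mul, Matrix.sub_mul, Matrix.mul_add, Matrix.one_mul, Matrix.mul_one,
      Matrix.smul_mul, Matrix.mul_smul, hc, h3', h4, smul_smul, smul_neg, neg_smul]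
    module
  rw [key]
  have : 2 * cb s ρ - ca s ρ ^ 2 - ρ * cb s ρ ^ 2 = 0 := by
    simp only [ca, cb]
    field_simp
    ring
  rw [this]
  simp

lemma W_mul_cay (hc : W * W * W = -ρ • W) (s : ℝ) :
    W * cay s W ρ = (1 - ρ * cb s ρ) • W + ca s ρ • (W * W) := by
  have h3' : W * (W * W) = -ρ • W := by rw [← Matrix.mul_assoc]; exact hc
  simp only [cay, Matrix.mul_add, Matrix.mul_one, Matrix.mul_smul, h3', smul_smul]
  module

lemma cay_mul_W (hc : W * W * W = -ρ • W) (s : ℝ) :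
    cay s W ρ * W = (1 - ρ * cb s ρ) • W + ca s ρ • (W * W) := by
  simp only [cay, Matrix.add_mul, Matrix.one_mul, Matrix.smul_mul, hc, smul_smul]
  module

lemma W_comm_cay (hc : W * W * W = -ρ • W) (s : ℝ) : W * cay s W ρ = cay s W ρ * W := by
  rw [W_mul_cay hc, cay_mul_W hc]

lemma hasDerivAt_ca (hρ : 0 ≤ ρ) (s : ℝ) :
    HasDerivAt (fun s => ca s ρ) (2 / (1 + s ^ 2 * ρ) * (1 - ρ * cb s ρ)) s := by
  have hd := (den_pos s hρ).ne'
  have h1 : HasDerivAt (fun s : ℝ => 2 * s) 2 s := by simpa using (hasDerivAt_id s).const_mul 2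
  have h2 : HasDerivAt (fun s : ℝ => 1 + s ^ 2 * ρ) (2 * s * ρ) s := by
    have := ((hasDerivAt_pow 2 s).mul_const ρ).const_add 1
    simpa using this
  have e : (fun s => ca s ρ) = fun s : ℝ => (2 * s) / (1 + s ^ 2 * ρ) := rfl
  rw [e]
  refine (h1.div h2 hd).congr_deriv ?_
  simp only [cb]
  field_simp

lemma hasDerivAt_cb (hρ : 0 ≤ ρ) (s : ℝ) :
    HasDerivAt (fun s => cb s ρ) (2 / (1 + s ^ 2 * ρ) * ca s ρ) s := by
  have hd := (den_pos s hρ).ne'
  have h1 : HasDerivAt (fun s : ℝ => 2 * s ^ 2) (4 * s) s := by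
    refine ((hasDerivAt_pow 2 s).const_mul 2).congr_deriv ?_
    norm_num
    ring
  have h2 : HasDerivAt (fun s : ℝ => 1 + s ^ 2 * ρ) (2 * s * ρ) s := by
    have := ((hasDerivAt_pow 2 s).mul_const ρ).const_add 1
    simpa using this
  have e : (fun s => cb s ρ) = fun s : ℝ => (2 * s ^ 2) / (1 + s ^ 2 * ρ) := rfl
  rw [e]
  refine (h1.div h2 hd).congr_deriv ?_
  simp only [ca]
  field_simp
  ring

/-- explicit form of the action of `cay`. -/
lemma act_cay (s : ℝ) (W : Matrix (Fin 5) (Fin 5) ℝ) (ρ : ℝ) (z : Fin 5 → ℂ) :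
    act (cay s W ρ) z = z + (ca s ρ : ℂ) • act W z + (cb s ρ : ℂ) • act W (act W z) := by
  simp only [cay, act_add, act_one, act_smul_mat, act_mul]

/-- derivative of the Cayley path acting on a vector. -/
lemma hasDerivAt_act_cay (hc : W * W * W = -ρ • W) (hρ : 0 ≤ ρ) (z : Fin 5 → ℂ) (s : ℝ) :
    HasDerivAt (fun s => act (cay s W ρ) z)
      (((2 / (1 + s ^ 2 * ρ) : ℝ) : ℂ) • act W (act (cay s W ρ) z)) s := by
  have e : (fun s => act (cay s W ρ) z) =
      fun s => z + (ca s ρ : ℂ) • act W z + (cb s ρ : ℂ) • act W (act W z) := by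
    funext s; exact act_cay s W ρ z
  rw [e]
  have ha : HasDerivAt (fun s => ((ca s ρ : ℝ) : ℂ))
      ((2 / (1 + s ^ 2 * ρ) * (1 - ρ * cb s ρ) : ℝ) : ℂ) s := (hasDerivAt_ca hρ s).ofReal_comp
  have hb : HasDerivAt (fun s => ((cb s ρ : ℝ) : ℂ))
      ((2 / (1 + s ^ 2 * ρ) * ca s ρ : ℝ) : ℂ) s := (hasDerivAt_cb hρ s).ofReal_comp
  have := ((ha.smul_const (act W z)).const_add z).add (hb.smul_const (act W (act W z)))
  refine HasDerivAt.congr_deriv this ?_
  have h : act W (act (cay s W ρ) z)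
      = ((1 - ρ * cb s ρ : ℝ) : ℂ) • act W z + (ca s ρ : ℂ) • act W (act W z) := by
    rw [← act_mul, W_mul_cay hc, act_add, act_smul_mat, act_smul_mat, act_mul]
  rw [h]
  simp only [smul_add, smul_smul]
  push_cast
  rfl

end Crest.Agent.S0316Aux.Cayley86
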