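import Crest.Agent.S0316Aux.Defs
import Crest.Agent.S0316Aux.Cayley86
import Crest.Agent.S0316Aux.H35_Ell
import Crest.Agent.S0316Aux.H35_Plucker

/-!
helper86: BACKUP construction of the Cayley–Casimir stage as a `HamiltonianConeLift`
(`Ψ (t, z) = Btw (c t) z`), through the matrix Cayley path of `Cayley86`.
-/

set_option autoImplicit false

noncomputable section

namespace Crest.Agent.S0316Aux.CayLift86

open Crest.GeometryTopology.Quadric Crest.Agent.S0316Aux Crest.Agent.S0316Aux.Orth86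
  Crest.Agent.S0316Aux.Cayley86

/-- coordinatewise conjugate -/
def cj (u : Fin 5 → ℂ) : Fin 5 → ℂ := fun j => starRingEnd ℂ (u j)

/-- the moment matrix -/
def Wm (z : Fin 5 → ℂ) : Matrix (Fin 5) (Fin 5) ℝ := fun i j => plu (zeta z) i j

lemma Wm_transpose (z : Fin 5 → ℂ) : (Wm z).transpose = - Wm z := by
  ext i j
  simp [Wm, Matrix.transpose_apply, plu_antisymm (zeta z) i j]

lemma herm_zeta (z u : Fin 5 → ℂ) : herm (zeta z) u = herm (zeta z) (zeta u) := by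
  simp [herm, zeta, Fin.sum_univ_five]
  ring

lemma bil_zeta (z u : Fin 5 → ℂ) : bil (zeta z) u = bil (zeta z) (zeta u) := by
  simp [bil, zeta, Fin.sum_univ_five]
  ring

lemma herm_zeta_zeta (z : Fin 5 → ℂ) : herm (zeta z) (zeta z) = (NN z : ℂ) := by
  simp only [herm, zeta, Fin.sum_univ_five, NN]
  push_cast
  simp only [Complex.normSq_eq_conj_mul_self]
  simp [Complex.conj_ofNat]
  ring

lemma bil_zeta_zeta (z : Fin 5 → ℂ) : bil (zeta z) (zeta z) = QQ z := by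
  simp [bil, zeta, Fin.sum_univ_five, QQ]
  ring

lemma herm_zeta_cj (z : Fin 5 → ℂ) : herm (zeta z) (cj (zeta z)) = starRingEnd ℂ (QQ z) := by
  simp [herm, cj, zeta, Fin.sum_univ_five, QQ, Complex.conj_ofNat]
  ring

lemma bil_zeta_cj (z : Fin 5 → ℂ) : bil (zeta z) (cj (zeta z)) = (NN z : ℂ) := by
  simp only [bil, cj, zeta, Fin.sum_univ_five, NN]
  push_cast
  simp only [Complex.normSq_eq_conj_mul_self]
  simp [Complex.conj_ofNat]
  ring

/-- general action of the moment matrix. -/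
lemma act_Wm (z u : Fin 5 → ℂ) :
    act (Wm z) u = (-Complex.I * bil (zeta z) u) • cj (zeta z)
      + (Complex.I * herm (zeta z) u) • zeta z := by
  funext i
  have := plu_mulVec (zeta z) u i
  simp only [act, Wm, Pi.add_apply, Pi.smul_apply, smul_eq_mul, cj, bil]
  rw [this]
  ring

lemma act_Wm_zeta (z : Fin 5 → ℂ) :
    act (Wm z) (zeta z) = (-Complex.I * QQ z) • cj (zeta z) + (Complex.I * (NN z : ℂ)) • zeta z := by
  rw [act_Wm, bil_zeta_zeta, herm_zeta_zeta]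

lemma act_Wm_self (z : Fin 5 → ℂ) :
    act (Wm z) z = (-Complex.I * QQ z) • cj (zeta z) + (Complex.I * (NN z : ℂ)) • zeta z := by
  rw [act_Wm, bil_zeta, herm_zeta, bil_zeta_zeta, herm_zeta_zeta]

lemma act_Wm_cj (z : Fin 5 → ℂ) :
    act (Wm z) (cj (zeta z)) = (-Complex.I * (NN z : ℂ)) • cj (zeta z)
      + (Complex.I * starRingEnd ℂ (QQ z)) • zeta z := by
  rw [act_Wm, bil_zeta_cj, herm_zeta_cj]

lemma ww_cast (z : Fin 5 → ℂ) :
    (ww z : ℂ) = (NN z : ℂ) ^ 2 - starRingEnd ℂ (QQ z) * QQ z := by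
  simp only [ww]
  push_cast
  rw [Complex.normSq_eq_conj_mul_self]

/-- action on the plane spanned by `ζ̄, ζ`. -/
lemma act_Wm_comb (z : Fin 5 → ℂ) (p q : ℂ) :
    act (Wm z) (p • cj (zeta z) + q • zeta z)
      = (-Complex.I * (p * (NN z : ℂ) + q * QQ z)) • cj (zeta z)
        + (Complex.I * (p * starRingEnd ℂ (QQ z) + q * (NN z : ℂ))) • zeta z := by
  rw [act_vadd, act_smul, act_smul, act_Wm_cj, act_Wm_zeta]
  module

lemma act_Wm_sq_self (z : Fin 5 → ℂ) :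
    act (Wm z) (act (Wm z) z) = (-(ww z : ℂ)) • zeta z := by
  rw [act_Wm_self, act_Wm_comb, ww_cast]
  have hI : Complex.I * Complex.I = -1 := Complex.I_mul_I
  have e1 : -Complex.I * (-Complex.I * QQ z * (NN z : ℂ) + Complex.I * (NN z : ℂ) * QQ z) = 0 := by
    ring
  have e2 : Complex.I * (-Complex.I * QQ z * starRingEnd ℂ (QQ z)
      + Complex.I * (NN z : ℂ) * (NN z : ℂ)) = -((NN z : ℂ) ^ 2 - starRingEnd ℂ (QQ z) * QQ z) := by
    linear_combination ((NN z : ℂ) ^ 2 - starRingEnd ℂ (QQ z) * QQ z) * hI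
  rw [e1, e2]
  simp

lemma act_ext {A B : Matrix (Fin 5) (Fin 5) ℝ} (h : ∀ u, act A u = act B u) : A = B := by
  ext i j
  have := congrFun (h (Pi.single j 1)) i
  simp only [act, Pi.single_apply, mul_ite, mul_one, mul_zero, Finset.sum_ite_eq',
    Finset.mem_univ, if_true] at this
  exact_mod_cast this

lemma Wm_cube (z : Fin 5 → ℂ) : Wm z * Wm z * Wm z = -(ww z) • Wm z := by
  apply act_ext
  intro u
  rw [act_mul, act_mul, act_smul_mat, act_Wm z u, act_Wm_comb, act_Wm_comb]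
  have hI : Complex.I * Complex.I = -1 := Complex.I_mul_I
  push_cast
  rw [ww_cast, smul_add, smul_smul, smul_smul]
  congr 1
  · congr 1
    linear_combination (-Complex.I * bil (zeta z) u * ((NN z : ℂ) ^ 2
      - starRingEnd ℂ (QQ z) * QQ z)) * hI
  · congr 1
    linear_combination (Complex.I * herm (zeta z) u * ((NN z : ℂ) ^ 2
      - starRingEnd ℂ (QQ z) * QQ z)) * hI

lemma ww_nonneg (z : Fin 5 → ℂ) : 0 ≤ ww z := by
  have h1 : ‖QQ z‖ ≤ NN z := by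
    have e : NN z = ‖z 1 ^ 2‖ + ‖z 3 ^ 2‖ + ‖(z 2 + z 4) ^ 2 / 2‖ := by
      simp [NN, Complex.normSq_eq_norm_sq]
    rw [e]
    exact (norm_add₃_le)
  have h2 : Complex.normSq (QQ z) = ‖QQ z‖ ^ 2 := Complex.normSq_eq_norm_sq _
  have h3 : 0 ≤ ‖QQ z‖ := norm_nonneg _
  simp only [ww, h2]
  nlinarith

/-- matrix form of the twist. -/
lemma Btw_eq_act (τ : ℝ) (z : Fin 5 → ℂ) : Btw τ z = act (cay τ (Wm z) (ww z)) z := by
  rw [act_cay, act_Wm_sq_self, act_Wm_self]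
  funext j
  have hd : ((1 + τ ^ 2 * ww z : ℝ) : ℂ) ≠ 0 := by
    exact_mod_cast (den_pos τ (ww_nonneg z)).ne'
  simp only [Btw, Pi.add_apply, Pi.smul_apply, smul_eq_mul, cj, ca, cb]
  push_cast at hd ⊢
  field_simp
  ring

/-! ### structure of the twist -/

lemma cay_Wm_orth (τ : ℝ) (z : Fin 5 → ℂ) :
    (cay τ (Wm z) (ww z)).transpose * cay τ (Wm z) (ww z) = 1 :=
  cay_orth (Wm_transpose z) (Wm_cube z) (ww_nonneg z) τ

lemma Btw_mem_unitCone (τ : ℝ) {z : Fin 5 → ℂ} (hz : z ∈ unitCone) : Btw τ z ∈ unitCone := by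
  rw [Btw_eq_act]
  exact act_mem_unitCone (cay_Wm_orth τ z) hz

lemma Btw_zero (z : Fin 5 → ℂ) : Btw 0 z = z := by
  rw [Btw_eq_act, cay_zero, act_one]

lemma zeta_smul (c : ℂ) (z : Fin 5 → ℂ) : zeta (c • z) = c • zeta z := by
  funext j
  fin_cases j <;> simp [zeta] <;> ring

lemma zeta_add (u v : Fin 5 → ℂ) : zeta (u + v) = zeta u + zeta v := by
  funext j
  fin_cases j <;> simp [zeta] <;> ring

lemma zeta_zeta (z : Fin 5 → ℂ) : zeta (zeta z) = zeta z := by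
  funext j
  fin_cases j <;> simp [zeta]

lemma zeta_cj (z : Fin 5 → ℂ) : zeta (cj z) = cj (zeta z) := by
  funext j
  fin_cases j <;> simp [zeta, cj, Complex.conj_ofNat]

lemma Wm_smul {c : ℂ} (hc : ‖c‖ = 1) (z : Fin 5 → ℂ) : Wm (c • z) = Wm z := by
  ext i j
  simp [Wm, zeta_smul, plu_smul, hc]

lemma NN_smul {c : ℂ} (hc : ‖c‖ = 1) (z : Fin 5 → ℂ) : NN (c • z) = NN z := by
  have h : Complex.normSq c = 1 := by rw [Complex.normSq_eq_norm_sq, hc]; norm_num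
  simp only [NN, Pi.smul_apply, smul_eq_mul, ← mul_add, Complex.normSq_mul, h, one_mul]

lemma QQ_smul (c : ℂ) (z : Fin 5 → ℂ) : QQ (c • z) = c ^ 2 * QQ z := by
  simp only [QQ, Pi.smul_apply, smul_eq_mul]
  ring

lemma ww_smul {c : ℂ} (hc : ‖c‖ = 1) (z : Fin 5 → ℂ) : ww (c • z) = ww z := by
  have h : Complex.normSq c = 1 := by rw [Complex.normSq_eq_norm_sq, hc]; norm_num
  simp only [ww, NN_smul hc, QQ_smul, Complex.normSq_mul, map_pow, h, one_pow, one_mul]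

lemma Btw_smul (τ : ℝ) {c : ℂ} (hc : ‖c‖ = 1) (z : Fin 5 → ℂ) :
    Btw τ (c • z) = c • Btw τ z := by
  rw [Btw_eq_act, Btw_eq_act, Wm_smul hc, ww_smul hc, act_smul]

lemma act_cj (A : Matrix (Fin 5) (Fin 5) ℝ) (u : Fin 5 → ℂ) : act A (cj u) = cj (act A u) := by
  funext i
  simp [act, cj, map_sum]

/-- the projection commutes with the twist. -/
lemma zeta_Btw (τ : ℝ) (z : Fin 5 → ℂ) :
    zeta (Btw τ z) = act (cay τ (Wm z) (ww z)) (zeta z) := by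
  rw [Btw_eq_act, act_cay, act_cay, act_Wm_zeta, ← act_Wm_self, act_Wm_sq_self, act_Wm_self]
  simp only [zeta_add, zeta_smul, zeta_zeta, zeta_cj]

lemma NN_Btw (τ : ℝ) (z : Fin 5 → ℂ) : NN (Btw τ z) = NN z := by
  have : (NN (Btw τ z) : ℂ) = (NN z : ℂ) := by
    rw [← herm_zeta_zeta, zeta_Btw, herm_act_act (cay_Wm_orth τ z), herm_zeta_zeta]
  exact_mod_cast this

lemma QQ_Btw (τ : ℝ) (z : Fin 5 → ℂ) : QQ (Btw τ z) = QQ z := by
  rw [← bil_zeta_zeta, zeta_Btw, bil_act_act (cay_Wm_orth τ z), bil_zeta_zeta]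

lemma ww_Btw (τ : ℝ) (z : Fin 5 → ℂ) : ww (Btw τ z) = ww z := by
  simp only [ww, NN_Btw, QQ_Btw]

/-- the generating vector field direction `N ζ - Q ζ̄`. -/
def vv (y : Fin 5 → ℂ) : Fin 5 → ℂ := (NN y : ℂ) • zeta y - QQ y • cj (zeta y)

lemma act_Wm_self' (z : Fin 5 → ℂ) : act (Wm z) z = Complex.I • vv z := by
  rw [act_Wm_self, vv]
  module

/-- the moment matrix of `z` applied to the moved point. -/
lemma act_Wm_Btw (τ : ℝ) (z : Fin 5 → ℂ) :
    act (Wm z) (Btw τ z) = Complex.I • vv (Btw τ z) := by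
  rw [vv, NN_Btw, QQ_Btw, zeta_Btw, ← act_cj, Btw_eq_act, ← act_mul,
    W_comm_cay (Wm_cube z), act_mul, act_Wm_self, act_vadd, act_smul, act_smul]
  module

/-- time derivative of the twist. -/
lemma hasDerivAt_Btw (c : ℝ) (z : Fin 5 → ℂ) (t : ℝ) :
    HasDerivAt (fun s : ℝ => Btw (c * s) z)
      (((c * (2 / (1 + (c * t) ^ 2 * ww z)) : ℝ) : ℂ) • (Complex.I • vv (Btw (c * t) z))) t := by
  have e : (fun s : ℝ => Btw (c * s) z) = fun s : ℝ => act (cay (c * s) (Wm z) (ww z)) z := by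
    funext s; exact Btw_eq_act _ _
  rw [e]
  have h1 := hasDerivAt_act_cay (Wm_cube z) (ww_nonneg z) z (c * t)
  have h2 : HasDerivAt (fun s : ℝ => c * s) c t := by
    simpa using (hasDerivAt_id t).const_mul c
  have h3 := h1.scomp t h2
  refine h3.congr_deriv ?_
  rw [← Btw_eq_act, act_Wm_Btw]
  rw [Complex.ofReal_mul, mul_smul]
  rfl

/-! ### smoothness -/

lemma cd_re : ContDiff ℝ (⊤ : ℕ∞) (fun z : ℂ => z.re) := Complex.reCLM.contDiff
lemma cd_im : ContDiff ℝ (⊤ : ℕ∞) (fun z : ℂ => z.im) := Complex.imCLM.contDiff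
lemma cd_ofReal : ContDiff ℝ (⊤ : ℕ∞) (fun r : ℝ => (r : ℂ)) := Complex.ofRealCLM.contDiff
lemma cd_conj : ContDiff ℝ (⊤ : ℕ∞) (fun z : ℂ => starRingEnd ℂ z) := Complex.conjCLE.contDiff

lemma cd_normSq : ContDiff ℝ (⊤ : ℕ∞) (fun z : ℂ => Complex.normSq z) := by
  have : (fun z : ℂ => Complex.normSq z) = fun z => z.re * z.re + z.im * z.im := by
    funext z; simp [Complex.normSq_apply]
  rw [this]
  have := cd_re
  have := cd_im
  fun_prop

lemma cd_NN : ContDiff ℝ (⊤ : ℕ∞) (fun z : Fin 5 → ℂ => NN z) := by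
  unfold NN
  have := cd_normSq
  fun_prop

lemma cd_QQ : ContDiff ℝ (⊤ : ℕ∞) (fun z : Fin 5 → ℂ => QQ z) := by
  unfold QQ
  fun_prop

lemma cd_ww : ContDiff ℝ (⊤ : ℕ∞) (fun z : Fin 5 → ℂ => ww z) := by
  unfold ww
  have := cd_normSq
  have := cd_NN
  have := cd_QQ
  fun_prop

lemma cd_zeta (j : Fin 5) : ContDiff ℝ (⊤ : ℕ∞) (fun z : Fin 5 → ℂ => zeta z j) := by
  fin_cases j <;> simp [zeta] <;> fun_prop

lemma cd_Btw (c : ℝ) :
    ContDiff ℝ (⊤ : ℕ∞) (fun p : ℝ × (Fin 5 → ℂ) => Btw (c * p.1) p.2) := by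
  rw [contDiff_pi]
  intro j
  have hden : ∀ p : ℝ × (Fin 5 → ℂ), ((1 + (c * p.1) ^ 2 * ww p.2 : ℝ) : ℂ) ≠ 0 := by
    intro p
    exact_mod_cast (den_pos (c * p.1) (ww_nonneg p.2)).ne'
  have h1 := cd_ww
  have h2 := cd_NN
  have h3 := cd_QQ
  have h4 := cd_zeta j
  have h5 := cd_ofReal
  have h6 := cd_conj
  have hD : ContDiff ℝ (⊤ : ℕ∞)
      (fun p : ℝ × (Fin 5 → ℂ) => ((1 + (c * p.1) ^ 2 * ww p.2 : ℝ) : ℂ)) := by fun_prop
  have hA : ContDiff ℝ (⊤ : ℕ∞) (fun p : ℝ × (Fin 5 → ℂ) =>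
      (((-2 * (c * p.1) ^ 2 * ww p.2 : ℝ) : ℂ)
        + 2 * Complex.I * ((c * p.1 : ℝ) : ℂ) * (NN p.2 : ℂ))) := by fun_prop
  have hB : ContDiff ℝ (⊤ : ℕ∞) (fun p : ℝ × (Fin 5 → ℂ) =>
      (-2 * Complex.I * ((c * p.1 : ℝ) : ℂ) * QQ p.2)) := by fun_prop
  have hz : ContDiff ℝ (⊤ : ℕ∞) (fun p : ℝ × (Fin 5 → ℂ) => zeta p.2 j) := by fun_prop
  have hzc : ContDiff ℝ (⊤ : ℕ∞) (fun p : ℝ × (Fin 5 → ℂ) => starRingEnd ℂ (zeta p.2 j)) := by
    fun_prop
  have hc : ContDiff ℝ (⊤ : ℕ∞) (fun p : ℝ × (Fin 5 → ℂ) => p.2 j) := by fun_prop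
  have e : (fun p : ℝ × (Fin 5 → ℂ) => Btw (c * p.1) p.2 j) = fun p : ℝ × (Fin 5 → ℂ) =>
      p.2 j + (((-2 * (c * p.1) ^ 2 * ww p.2 : ℝ) : ℂ)
        + 2 * Complex.I * ((c * p.1 : ℝ) : ℂ) * (NN p.2 : ℂ))
          * (((1 + (c * p.1) ^ 2 * ww p.2 : ℝ) : ℂ))⁻¹ * zeta p.2 j
        + (-2 * Complex.I * ((c * p.1 : ℝ) : ℂ) * QQ p.2)
          * (((1 + (c * p.1) ^ 2 * ww p.2 : ℝ) : ℂ))⁻¹ * starRingEnd ℂ (zeta p.2 j) := by
    funext p
    simp only [Btw, div_eq_mul_inv]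
  rw [e]
  exact (hc.add ((hA.mul (hD.inv hden)).mul hz)).add ((hB.mul (hD.inv hden)).mul hzc)

/-- the Hamiltonian of the Cayley path. -/
def HB (c : ℝ) (p : ℝ × (Fin 5 → ℂ)) : ℝ := -c * (ww p.2 * ell ((c * p.1) ^ 2 * ww p.2))

lemma cd_HB (c : ℝ) : ContDiff ℝ (⊤ : ℕ∞) (HB c) := by
  unfold HB
  have h1 := cd_ww
  have hs : ContDiff ℝ (⊤ : ℕ∞) (fun p : ℝ × (Fin 5 → ℂ) => (c * p.1) ^ 2 * ww p.2) := by fun_prop
  have he := contDiff_ell_comp hs (fun p => mul_nonneg (sq_nonneg _) (ww_nonneg p.2))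
  have hw : ContDiff ℝ (⊤ : ℕ∞) (fun p : ℝ × (Fin 5 → ℂ) => ww p.2) := by fun_prop
  exact contDiff_const.mul (hw.mul he)

/-! ### derivative of the Casimir -/

lemma NN_line (y ω : Fin 5 → ℂ) (s : ℝ) :
    NN (y + s • ω) = NN y + s * (2 * (herm (zeta y) ω).re) + s ^ 2 * NN ω := by
  simp [NN, herm, zeta, Fin.sum_univ_five, Complex.normSq_apply, Complex.conj_ofNat]
  ring

lemma QQ_line (y ω : Fin 5 → ℂ) (s : ℝ) :
    QQ (y + s • ω) = QQ y + (s : ℂ) * (2 * bil (zeta y) ω) + (s : ℂ) ^ 2 * QQ ω := by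
  simp [QQ, bil, zeta, Fin.sum_univ_five]
  ring

lemma herm_vv (y ω : Fin 5 → ℂ) :
    (herm (vv y) ω).re = NN y * (herm (zeta y) ω).re
      - ((QQ y).re * (bil (zeta y) ω).re + (QQ y).im * (bil (zeta y) ω).im) := by
  have h1 : herm (cj (zeta y)) ω = bil (zeta y) ω := by
    simp [herm, bil, cj]
  have h2 : herm (vv y) ω = (NN y : ℂ) * herm (zeta y) ω
      - starRingEnd ℂ (QQ y) * bil (zeta y) ω := by
    rw [vv, sub_eq_add_neg, Orth86.herm_add_left, ← neg_smul, Orth86.herm_smul_left,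
      Orth86.herm_smul_left, h1]
    simp
    ring
  rw [h2]
  simp

lemma hasDerivAt_ww_line (y ω : Fin 5 → ℂ) :
    HasDerivAt (fun s : ℝ => ww (y + s • ω)) (4 * (herm (vv y) ω).re) 0 := by
  set n : ℝ := 2 * (herm (zeta y) ω).re with hn
  set b : ℂ := 2 * bil (zeta y) ω with hb
  have e : (fun s : ℝ => ww (y + s • ω)) = fun s : ℝ =>
      (NN y + s * n + s ^ 2 * NN ω) ^ 2
        - (((QQ y).re + s * b.re + s ^ 2 * (QQ ω).re) ^ 2
          + ((QQ y).im + s * b.im + s ^ 2 * (QQ ω).im) ^ 2) := by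
    funext s
    simp only [ww, NN_line, QQ_line, Complex.normSq_apply]
    have hs2 : ((s : ℂ) ^ 2) = ((s ^ 2 : ℝ) : ℂ) := by push_cast; ring
    rw [hs2]
    simp only [Complex.add_re, Complex.add_im, Complex.re_ofReal_mul, Complex.im_ofReal_mul]
    ring
  rw [e]
  have hq : ∀ A B C : ℝ, HasDerivAt (fun s : ℝ => A + s * B + s ^ 2 * C) B 0 := by
    intro A B C
    have h := ((hasDerivAt_const (0:ℝ) A).add ((hasDerivAt_id (0:ℝ)).mul_const B)).add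
      (((hasDerivAt_id (0:ℝ)).pow 2).mul_const C)
    refine h.congr_deriv ?_
    simp
  have h := ((hq (NN y) n (NN ω)).pow 2).sub
    (((hq (QQ y).re b.re (QQ ω).re).pow 2).add ((hq (QQ y).im b.im (QQ ω).im).pow 2))
  refine h.congr_deriv ?_
  rw [herm_vv, hn, hb]
  simp
  ring

lemma fderiv_ww (y ω : Fin 5 → ℂ) : fderiv ℝ ww y ω = 4 * (herm (vv y) ω).re := by
  have hd : DifferentiableAt ℝ ww y := (cd_ww.differentiable (by simp)) y
  rw [← hd.lineDeriv_eq_fderiv (v := ω)]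
  exact (hasDerivAt_ww_line y ω).deriv

lemma fderiv_HB (c t : ℝ) (y ω : Fin 5 → ℂ) :
    fderiv ℝ (fun x : Fin 5 → ℂ => HB c (t, x)) y ω
      = -c * (1 / (1 + (c * t) ^ 2 * ww y)) * (4 * (herm (vv y) ω).re) := by
  have hd : DifferentiableAt ℝ ww y := (cd_ww.differentiable (by simp)) y
  have h1 := hasDerivAt_mul_ell (τ := (c * t) ^ 2) (r := ww y) (sq_nonneg _) (ww_nonneg y)
  have h2 := (h1.const_mul (-c)).comp_hasFDerivAt y hd.hasFDerivAt
  have e : (fun x : Fin 5 → ℂ => HB c (t, x))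
      = (fun r : ℝ => -c * (r * ell ((c * t) ^ 2 * r))) ∘ ww := by
    funext x; simp [HB]
  rw [e, h2.fderiv]
  simp only [FunLike.coe_smul, Pi.smul_apply, smul_eq_mul, fderiv_ww]

/-- Hamilton's equation (for all `t`, `z`, `ω`). -/
lemma hamilton_Btw (c t : ℝ) (z ω : Fin 5 → ℂ) :
    2 * (herm (deriv (fun s : ℝ => Btw (c * s) z) t) ω).im
      = fderiv ℝ (fun x : Fin 5 → ℂ => HB c (t, x)) (Btw (c * t) z) ω := by
  rw [(hasDerivAt_Btw c z t).deriv, fderiv_HB, ww_Btw, Orth86.herm_smul_left,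
    Orth86.herm_smul_left, Complex.conj_ofReal, Complex.conj_I, Complex.im_ofReal_mul]
  have : (-Complex.I * herm (vv (Btw (c * t) z)) ω).im = -(herm (vv (Btw (c * t) z)) ω).re := by
    simp
  rw [this]
  ring

/-- BACKUP Cayley–Casimir stage. -/
def cayLift86 (c : ℝ) : HamiltonianConeLift where
  Ψ := fun p => Btw (c * p.1) p.2
  H := HB c
  smooth_Ψ := cd_Btw c
  smooth_H := cd_HB c
  mapsTo_cone := fun t z hz => Btw_mem_unitCone (c * t) hz
  compatible := fun t z _ a ha => ⟨a, Btw_smul (c * t) ha z⟩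
  start := fun z _ => ⟨1, by simp [Btw_zero]⟩
  invariant := fun t z _ a ha => by simp [HB, ww_smul ha]
  hamilton := fun t _ z _ ω _ => hamilton_Btw c t z ω

lemma cayLift86_Psi (c t : ℝ) (z : Fin 5 → ℂ) : (cayLift86 c).Ψ (t, z) = Btw (c * t) z := rfl

lemma cayLift86_Psi_zero (c : ℝ) (z : Fin 5 → ℂ) : (cayLift86 c).Ψ (0, z) = z := by
  simp [cayLift86_Psi, Btw_zero]

lemma cayLift86_Psi_one (c : ℝ) (z : Fin 5 → ℂ) : (cayLift86 c).Ψ (1, z) = Btw c z := by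
  simp [cayLift86_Psi]

end Crest.Agent.S0316Aux.CayLift86
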