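import Mathlib
import Crest.Prelude.Def_QuadricHamiltonian

/-!
# S0316 (row 205): shared definitions (helper36)

The Hamiltonian isotopy is `Ψ(t,z) = Jp(cos 7πt/6, sin 7πt/6) (Jm(cos πt/6, sin πt/6) (Dmap (4t/3) z))`:
two commuting one-parameter groups of `SO(4) ⊂ SO(5)` (left / right quaternion multiplications on the
coordinates 1..4) after a "Cayley–Casimir twist" `Dmap τ`, which rotates the coordinates (1,2,3) about the
angular momentum vector `L(z) = Im (conj z × z)` by the angle `θ` with `tan (θ/2) = τ |L|`.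
-/

set_option autoImplicit false

namespace Crest.Agent.S0316Aux
open Crest.GeometryTopology.Quadric

abbrev V := Fin 5 → ℂ

/-- Angular momentum of the coordinates (1,2,3): `L = Im (conj z × z)`. -/
noncomputable def L1 (z : V) : ℝ := 2 * (starRingEnd ℂ (z 2) * z 3).im
noncomputable def L2 (z : V) : ℝ := 2 * (starRingEnd ℂ (z 3) * z 1).im
noncomputable def L3 (z : V) : ℝ := 2 * (starRingEnd ℂ (z 1) * z 2).im
/-- The other half of the `so(4)` moment map: `N = 2 Im (conj z₄ • z)`. -/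
noncomputable def N1 (z : V) : ℝ := 2 * (starRingEnd ℂ (z 4) * z 1).im
noncomputable def N2 (z : V) : ℝ := 2 * (starRingEnd ℂ (z 4) * z 2).im
noncomputable def N3 (z : V) : ℝ := 2 * (starRingEnd ℂ (z 4) * z 3).im
/-- `|L|²`. -/
noncomputable def rr (z : V) : ℝ := L1 z ^ 2 + L2 z ^ 2 + L3 z ^ 2

/-- The `so(3)` element `l ×` acting on the coordinates (1,2,3). -/
noncomputable def X (l1 l2 l3 : ℝ) (z : V) : V :=
  ![0, l2 * z 3 - l3 * z 2, l3 * z 1 - l1 * z 3, l1 * z 2 - l2 * z 1, 0]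

/-- Rodrigues formula for the rotation about `l` by the angle `θ`, `tan (θ/2) = τ |l|`
(the Cayley transform of `τ l×`). -/
noncomputable def Rod (τ l1 l2 l3 : ℝ) (z : V) : V := fun i =>
  z i + ((2 * τ / (1 + τ ^ 2 * (l1 ^ 2 + l2 ^ 2 + l3 ^ 2)) : ℝ) : ℂ) * X l1 l2 l3 z i
    + ((2 * τ ^ 2 / (1 + τ ^ 2 * (l1 ^ 2 + l2 ^ 2 + l3 ^ 2)) : ℝ) : ℂ) * X l1 l2 l3 (X l1 l2 l3 z) i

/-- The Cayley–Casimir twist. -/
noncomputable def Dmap (τ : ℝ) (z : V) : V := Rod τ (L1 z) (L2 z) (L3 z) z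

/-- Left multiplication by `c - s i`-type unit quaternion: rotations in the planes (1,4), (3,2). -/
noncomputable def Jp (c s : ℝ) (y : V) : V :=
  ![y 0, c * y 1 + s * y 4, c * y 2 - s * y 3, c * y 3 + s * y 2, c * y 4 - s * y 1]

/-- Right multiplication: rotations in the planes (1,3), (4,2). -/
noncomputable def Jm (c s : ℝ) (z : V) : V :=
  ![z 0, c * z 1 + s * z 3, c * z 2 - s * z 4, c * z 3 - s * z 1, c * z 4 + s * z 2]

/-- `log (1+x) / x`, extended by `1` at `0`. -/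
noncomputable def ell (x : ℝ) : ℝ := dslope (fun y : ℝ => Real.log (1 + y)) 0 x

/-- The time-one map. -/
noncomputable def Phi (z : V) : V :=
  Jp (-(Real.sqrt 3 / 2)) (-(1 / 2)) (Jm (Real.sqrt 3 / 2) (1 / 2) (Dmap (4 / 3) z))

/-- The circle of candidates; the fixed points are `(S,C) = (-1,0), (4/7, ±√33/7)`. -/
noncomputable def zst (S C : ℝ) : V :=
  ![0, -((C : ℂ) + Complex.I * Real.sqrt 3) / 4, ((C : ℂ) + Complex.I * Real.sqrt 3) / 4,
    -(S : ℂ) / 2 - Real.sqrt 3 * C / 4 + Complex.I / 4,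
    (S : ℂ) / 2 - Real.sqrt 3 * C / 4 + Complex.I / 4]

end Crest.Agent.S0316Aux
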