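import Crest.Agent.S0316Aux.Defs

/-!
# S0316, task OFFQ2 (helper28): a fixed line of `Phi` lies in `z 0 = 0`.
-/

set_option autoImplicit false

noncomputable section

namespace Crest.Agent.S0316Aux.H28

open Crest.GeometryTopology.Quadric Crest.Agent.S0316Aux

lemma NN_nonneg (z : Fin 5 → ℂ) : 0 ≤ NN z := by
  unfold NN
  have h1 := Complex.normSq_nonneg (z 1)
  have h2 := Complex.normSq_nonneg (z 3)
  have h3 := Complex.normSq_nonneg (z 2 + z 4)
  linarith

lemma normSq_QQ_le (z : Fin 5 → ℂ) : Complex.normSq (QQ z) ≤ NN z ^ 2 := by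
  have h1 : ‖QQ z‖ ≤ NN z := by
    unfold QQ NN
    calc ‖z 1 ^ 2 + z 3 ^ 2 + (z 2 + z 4) ^ 2 / 2‖
        ≤ ‖z 1 ^ 2‖ + ‖z 3 ^ 2‖ + ‖(z 2 + z 4) ^ 2 / 2‖ := norm_add₃_le
      _ = _ := by simp [Complex.normSq_eq_norm_sq]
  rw [Complex.normSq_eq_norm_sq]
  exact pow_le_pow_left₀ (norm_nonneg _) h1 2

lemma ww_nonneg (z : Fin 5 → ℂ) : 0 ≤ ww z := by
  unfold ww; linarith [normSq_QQ_le z]

lemma ww_le (z : Fin 5 → ℂ) : ww z ≤ NN z ^ 2 := by
  unfold ww; linarith [Complex.normSq_nonneg (QQ z)]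

lemma NN_le (z : Fin 5 → ℂ) :
    NN z ≤ Complex.normSq (z 1) + Complex.normSq (z 2) + Complex.normSq (z 3)
      + Complex.normSq (z 4) := by
  unfold NN
  have : Complex.normSq (z 2 + z 4) + Complex.normSq (z 2 - z 4)
      = 2 * (Complex.normSq (z 2) + Complex.normSq (z 4)) := by
    simp only [Complex.normSq_apply, Complex.add_re, Complex.add_im, Complex.sub_re,
      Complex.sub_im]
    ring
  have h3 := Complex.normSq_nonneg (z 2 - z 4)
  linarith

lemma NN_cast (z : Fin 5 → ℂ) :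
    (NN z : ℂ) = (starRingEnd ℂ) (z 1) * z 1 + (starRingEnd ℂ) (z 3) * z 3
      + (starRingEnd ℂ) (z 2 + z 4) * (z 2 + z 4) / 2 := by
  unfold NN
  push_cast
  rw [Complex.normSq_eq_conj_mul_self, Complex.normSq_eq_conj_mul_self,
    Complex.normSq_eq_conj_mul_self]

/-- The twist, cleared of its denominator. -/
lemma Btw_sub (τ : ℝ) (z : Fin 5 → ℂ) (j : Fin 5) :
    ((1 + τ ^ 2 * ww z : ℝ) : ℂ) * (Btw τ z j - z j)
      = (((-2 * τ ^ 2 * ww z : ℝ) : ℂ) + 2 * Complex.I * (τ : ℂ) * (NN z : ℂ)) * zeta z j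
        + (-2 * Complex.I * (τ : ℂ) * QQ z) * (starRingEnd ℂ) (zeta z j) := by
  have hD : ((1 + τ ^ 2 * ww z : ℝ) : ℂ) ≠ 0 := by
    have : (0 : ℝ) < 1 + τ ^ 2 * ww z := by
      have := ww_nonneg z
      positivity
    exact_mod_cast this.ne'
  unfold Btw
  field_simp
  ring

/-- Real part of `∑ conj z_j (B z - z)_j`, cleared of the denominator. -/
lemma re_sum_Btw (τ : ℝ) (z : Fin 5 → ℂ) :
    (1 + τ ^ 2 * ww z) *
      ((starRingEnd ℂ) (z 1) * (Btw τ z 1 - z 1) + (starRingEnd ℂ) (z 2) * (Btw τ z 2 - z 2)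
        + (starRingEnd ℂ) (z 3) * (Btw τ z 3 - z 3)
        + (starRingEnd ℂ) (z 4) * (Btw τ z 4 - z 4)).re
      = -2 * τ ^ 2 * ww z * NN z := by
  have key : ((1 + τ ^ 2 * ww z : ℝ) : ℂ) *
      ((starRingEnd ℂ) (z 1) * (Btw τ z 1 - z 1) + (starRingEnd ℂ) (z 2) * (Btw τ z 2 - z 2)
        + (starRingEnd ℂ) (z 3) * (Btw τ z 3 - z 3)
        + (starRingEnd ℂ) (z 4) * (Btw τ z 4 - z 4))
      = ((-2 * τ ^ 2 * ww z * NN z : ℝ) : ℂ) + ((2 * τ * ww z : ℝ) : ℂ) * Complex.I := by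
    have h1 := Btw_sub τ z 1
    have h2 := Btw_sub τ z 2
    have h3 := Btw_sub τ z 3
    have h4 := Btw_sub τ z 4
    have hQ : ((Complex.normSq (QQ z) : ℝ) : ℂ) = (starRingEnd ℂ) (QQ z) * QQ z :=
      Complex.normSq_eq_conj_mul_self
    have hw : ((ww z : ℝ) : ℂ) = (NN z : ℂ) ^ 2 - (starRingEnd ℂ) (QQ z) * QQ z := by
      unfold ww; push_cast; rw [hQ]
    have hQc : (starRingEnd ℂ) (QQ z) = (starRingEnd ℂ) (z 1) ^ 2 + (starRingEnd ℂ) (z 3) ^ 2
        + ((starRingEnd ℂ) (z 2) + (starRingEnd ℂ) (z 4)) ^ 2 / 2 := by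
      unfold QQ; simp [Complex.conj_ofNat]
    have hN := NN_cast z
    simp only [zeta, Matrix.cons_val_one, Matrix.cons_val_zero, Matrix.cons_val] at h1 h2 h3 h4
    simp only [map_add, map_div₀, Complex.conj_ofNat] at h1 h2 h3 h4 hN
    push_cast at h1 h2 h3 h4 ⊢
    linear_combination (starRingEnd ℂ) (z 1) * h1 + (starRingEnd ℂ) (z 2) * h2
      + (starRingEnd ℂ) (z 3) * h3 + (starRingEnd ℂ) (z 4) * h4
      - ((-2 * (τ : ℂ) ^ 2 * (ww z : ℂ)) + 2 * Complex.I * (τ : ℂ) * (NN z : ℂ)) * hN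
      - (-2 * Complex.I * (τ : ℂ) * QQ z) * hQc - 2 * Complex.I * (τ : ℂ) * hw
  have := congrArg Complex.re key
  rw [Complex.re_ofReal_mul] at this
  rw [this, Complex.add_re, Complex.ofReal_re, Complex.re_ofReal_mul,
    Complex.I_re, mul_zero, add_zero]

lemma normSq_sum_of_mem (z : Fin 5 → ℂ) (hz : z ∈ unitCone) :
    Complex.normSq (z 0) + Complex.normSq (z 1) + Complex.normSq (z 2) + Complex.normSq (z 3)
      + Complex.normSq (z 4) = 1 := by
  have h := hz.1
  unfold herm at h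
  rw [Fin.sum_univ_five] at h
  simp only [← Complex.normSq_eq_conj_mul_self] at h
  exact_mod_cast h

/-- **OFFQ2**: a cone point spanning a fixed line of `Phi` has `z 0 = 0`. -/
theorem offQ2 (z : Fin 5 → ℂ) (hz : z ∈ unitCone) (l : ℂ) (h : Phi z = l • z) : z 0 = 0 := by
  by_contra h0
  have e0 : Phi z 0 = z 0 := by simp [Phi, Glin, Btw, zeta]
  have hl : l = 1 := by
    have h' := congrFun h 0
    rw [e0, Pi.smul_apply, smul_eq_mul] at h'
    have : (l - 1) * z 0 = 0 := by linear_combination -h'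
    rcases mul_eq_zero.mp this with h1 | h1
    · linear_combination h1
    · exact absurd h1 h0
  subst hl
  rw [one_smul] at h
  set b := Btw (65 / 72) z with hb
  have e1 : -((119 / 169 : ℂ) * b 1 - (120 / 169 : ℂ) * b 2) = z 1 := by
    have := congrFun h 1; simpa [Phi, Glin] using this
  have e2 : -((120 / 169 : ℂ) * b 1 + (119 / 169 : ℂ) * b 2) = z 2 := by
    have := congrFun h 2; simpa [Phi, Glin] using this
  have e3 : -b 3 = z 3 := by
    have := congrFun h 3; simpa [Phi, Glin] using this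
  have e4 : -b 4 = z 4 := by
    have := congrFun h 4; simpa [Phi, Glin] using this
  have b1 : b 1 = -(119 / 169 : ℂ) * z 1 - (120 / 169 : ℂ) * z 2 := by
    linear_combination (-(119 / 169 : ℂ)) * e1 - (120 / 169 : ℂ) * e2
  have b2 : b 2 = (120 / 169 : ℂ) * z 1 - (119 / 169 : ℂ) * z 2 := by
    linear_combination (120 / 169 : ℂ) * e1 - (119 / 169 : ℂ) * e2
  have b3 : b 3 = -z 3 := by linear_combination -e3
  have b4 : b 4 = -z 4 := by linear_combination -e4
  have hre := re_sum_Btw (65 / 72) z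
  rw [← hb, b1, b2, b3, b4] at hre
  have hre2 : ((starRingEnd ℂ) (z 1) * (-(119 / 169 : ℂ) * z 1 - (120 / 169 : ℂ) * z 2 - z 1)
        + (starRingEnd ℂ) (z 2) * ((120 / 169 : ℂ) * z 1 - (119 / 169 : ℂ) * z 2 - z 2)
        + (starRingEnd ℂ) (z 3) * (-z 3 - z 3) + (starRingEnd ℂ) (z 4) * (-z 4 - z 4)).re
      = -(288 / 169) * (Complex.normSq (z 1) + Complex.normSq (z 2))
        - 2 * (Complex.normSq (z 3) + Complex.normSq (z 4)) := by
    simp only [Complex.normSq_apply, Complex.add_re, Complex.sub_re, Complex.mul_re,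
      Complex.neg_re, Complex.conj_re, Complex.conj_im, Complex.sub_im, Complex.mul_im,
      Complex.neg_im]
    norm_num
    ring
  rw [hre2] at hre
  have hsum := normSq_sum_of_mem z hz
  have n0 := Complex.normSq_nonneg (z 0)
  have n1 := Complex.normSq_nonneg (z 1)
  have n2 := Complex.normSq_nonneg (z 2)
  have n3 := Complex.normSq_nonneg (z 3)
  have n4 := Complex.normSq_nonneg (z 4)
  have hN0 := NN_nonneg z
  have hN1 := NN_le z
  have hw0 := ww_nonneg z
  have hw1 := ww_le z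
  set n' := Complex.normSq (z 1) + Complex.normSq (z 2) + Complex.normSq (z 3)
      + Complex.normSq (z 4) with hn'
  have hn1 : n' ≤ 1 := by linarith
  have hn0 : 0 ≤ n' := by positivity
  have hNle1 : NN z ≤ 1 := le_trans hN1 hn1
  have hwle1 : ww z ≤ 1 := by nlinarith
  -- main inequality
  have hmain : n' ≤ 0 := by
    have hA : (1 + (65 / 72 : ℝ) ^ 2 * ww z) * ((288 / 169) * n') ≤
        2 * (65 / 72 : ℝ) ^ 2 * ww z * n' := by
      have h5 : (288 / 169 : ℝ) * n' ≤ (288 / 169) * (Complex.normSq (z 1) + Complex.normSq (z 2))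
          + 2 * (Complex.normSq (z 3) + Complex.normSq (z 4)) := by
        rw [hn']; linarith
      have h6 : 0 < 1 + (65 / 72 : ℝ) ^ 2 * ww z := by positivity
      have h7 : 2 * (65 / 72 : ℝ) ^ 2 * ww z * NN z ≤ 2 * (65 / 72 : ℝ) ^ 2 * ww z * n' :=
        mul_le_mul_of_nonneg_left hN1 (by positivity)
      have h8 := mul_le_mul_of_nonneg_left h5 h6.le
      linarith
    nlinarith
  have hz' : n' = 0 := le_antisymm hmain hn0
  have z1 : z 1 = 0 := Complex.normSq_eq_zero.mp (by linarith)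
  have z2 : z 2 = 0 := Complex.normSq_eq_zero.mp (by linarith)
  have z3 : z 3 = 0 := Complex.normSq_eq_zero.mp (by linarith)
  have z4 : z 4 = 0 := Complex.normSq_eq_zero.mp (by linarith)
  have hq := hz.2
  rw [Fin.sum_univ_five, z1, z2, z3, z4] at hq
  apply h0
  simpa using hq

end Crest.Agent.S0316Aux.H28
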