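import Crest.Agent.S0316Aux.H96_PlaneTwist

/-!
helper2 (Track A, task A4): a fixed line of
`rot 3 4 (π+d) ∘ rot 1 2 (π+c) ∘ rot 2 3 b ∘ rot 1 4 a` (all four cosines positive) lies in `z 0 = 0`.
-/

set_option autoImplicit false

open Crest.GeometryTopology.Quadric

namespace Crest.Agent.S0316Aux.H2

open Crest.Agent.S0316Aux.H96

lemma zz (k : ℝ) (w : ℂ) (hk : 0 < k) (hw : k * (w.re ^ 2 + w.im ^ 2) = 0) : w = 0 := by
  have h2 : w.re ^ 2 + w.im ^ 2 = 0 := by
    rcases mul_eq_zero.mp hw with h | h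
    · exact absurd h hk.ne'
    · exact h
  have hre : w.re = 0 := by nlinarith [sq_nonneg w.re, sq_nonneg w.im]
  have him : w.im = 0 := by nlinarith [sq_nonneg w.re, sq_nonneg w.im]
  exact Complex.ext hre him

lemma offQ2_aux (ca sa cb sb C S D T : ℝ) (hCS : C ^ 2 + S ^ 2 = 1) (hDT : D ^ 2 + T ^ 2 = 1)
    (ha : 0 < ca) (hb : 0 < cb) (hc : 0 < C) (hd : 0 < D) (z1 z2 z3 z4 : ℂ)
    (e1 : -(C : ℂ) * ((ca : ℂ) * z1 - (sa : ℂ) * z4) + (S : ℂ) * ((cb : ℂ) * z2 - (sb : ℂ) * z3) = z1)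
    (e2 : -(S : ℂ) * ((ca : ℂ) * z1 - (sa : ℂ) * z4) - (C : ℂ) * ((cb : ℂ) * z2 - (sb : ℂ) * z3) = z2)
    (e3 : -(D : ℂ) * ((sb : ℂ) * z2 + (cb : ℂ) * z3) + (T : ℂ) * ((sa : ℂ) * z1 + (ca : ℂ) * z4) = z3)
    (e4 : -(T : ℂ) * ((sb : ℂ) * z2 + (cb : ℂ) * z3) - (D : ℂ) * ((sa : ℂ) * z1 + (ca : ℂ) * z4) = z4) :
    z1 = 0 ∧ z2 = 0 ∧ z3 = 0 ∧ z4 = 0 := by
  have r1 := congrArg Complex.re e1
  have i1 := congrArg Complex.im e1
  have r2 := congrArg Complex.re e2
  have i2 := congrArg Complex.im e2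
  have r3 := congrArg Complex.re e3
  have i3 := congrArg Complex.im e3
  have r4 := congrArg Complex.re e4
  have i4 := congrArg Complex.im e4
  simp only [Complex.add_re, Complex.sub_re, Complex.mul_re, Complex.neg_re, Complex.ofReal_re,
    Complex.ofReal_im, Complex.add_im, Complex.sub_im, Complex.mul_im, Complex.neg_im, zero_mul,
    sub_zero, add_zero, neg_zero] at r1 i1 r2 i2 r3 i3 r4 i4
  have key : (C + ca) * (z1.re ^ 2 + z1.im ^ 2) + (C + cb) * (z2.re ^ 2 + z2.im ^ 2)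
      + (D + cb) * (z3.re ^ 2 + z3.im ^ 2) + (D + ca) * (z4.re ^ 2 + z4.im ^ 2) = 0 := by
    linear_combination
      (-z1.re) * (C * r1 + S * r2) + (-z1.im) * (C * i1 + S * i2)
      + (-z2.re) * (-S * r1 + C * r2) + (-z2.im) * (-S * i1 + C * i2)
      + (-z3.re) * (D * r3 + T * r4) + (-z3.im) * (D * i3 + T * i4)
      + (-z4.re) * (-T * r3 + D * r4) + (-z4.im) * (-T * i3 + D * i4)
      + (-(z1.re * (ca * z1.re - sa * z4.re) + z1.im * (ca * z1.im - sa * z4.im)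
          + z2.re * (cb * z2.re - sb * z3.re) + z2.im * (cb * z2.im - sb * z3.im))) * hCS
      + (-(z3.re * (sb * z2.re + cb * z3.re) + z3.im * (sb * z2.im + cb * z3.im)
          + z4.re * (sa * z1.re + ca * z4.re) + z4.im * (sa * z1.im + ca * z4.im))) * hDT
  have n1 : 0 ≤ (C + ca) * (z1.re ^ 2 + z1.im ^ 2) := by positivity
  have n2 : 0 ≤ (C + cb) * (z2.re ^ 2 + z2.im ^ 2) := by positivity
  have n3 : 0 ≤ (D + cb) * (z3.re ^ 2 + z3.im ^ 2) := by positivity
  have n4 : 0 ≤ (D + ca) * (z4.re ^ 2 + z4.im ^ 2) := by positivity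
  refine ⟨zz (C + ca) _ (by linarith) (by linarith), zz (C + cb) _ (by linarith) (by linarith),
    zz (D + cb) _ (by linarith) (by linarith), zz (D + ca) _ (by linarith) (by linarith)⟩

theorem offQ2 (a b c d : ℝ) (ha : 0 < Real.cos a) (hb : 0 < Real.cos b) (hc : 0 < Real.cos c)
    (hd : 0 < Real.cos d) {z : Fin 5 → ℂ} (hz : z ∈ unitCone) {l : ℂ}
    (h : rot 3 4 (Real.pi + d) (rot 1 2 (Real.pi + c) (rot 2 3 b (rot 1 4 a z))) = l • z) :
    z 0 = 0 := by
  by_contra h0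
  have e0 := congrFun h 0
  have e1 := congrFun h 1
  have e2 := congrFun h 2
  have e3 := congrFun h 3
  have e4 := congrFun h 4
  simp only [rot, Pi.smul_apply, smul_eq_mul, Real.cos_add, Real.sin_add, Real.cos_pi, Real.sin_pi,
    Fin.reduceEq, if_true, if_false] at e0 e1 e2 e3 e4
  have hl : l = 1 := by
    have : (l - 1) * z 0 = 0 := by linear_combination -e0
    rcases mul_eq_zero.mp this with h | h
    · linear_combination h
    · exact absurd h h0
  subst hl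
  obtain ⟨h1, h2, h3, h4⟩ := offQ2_aux (Real.cos a) (Real.sin a) (Real.cos b) (Real.sin b)
    (Real.cos c) (Real.sin c) (Real.cos d) (Real.sin d) (Real.cos_sq_add_sin_sq c)
    (Real.cos_sq_add_sin_sq d) ha hb hc hd (z 1) (z 2) (z 3) (z 4)
    (by push_cast at e1 ⊢; linear_combination e1) (by push_cast at e2 ⊢; linear_combination e2)
    (by push_cast at e3 ⊢; linear_combination e3) (by push_cast at e4 ⊢; linear_combination e4)
  have hs := hz.2
  simp only [Fin.sum_univ_five, h1, h2, h3, h4] at hs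
  apply h0
  have : z 0 ^ 2 = 0 := by simpa using hs
  exact pow_eq_zero_iff (two_ne_zero) |>.mp this

end Crest.Agent.S0316Aux.H2
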