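import Crest.Agent.S0316Aux.H96_PlaneTwist
import Crest.Agent.S0316Aux.H2_OffQ2A

/-!
helper2 (Track A, task A4): the explicit time-one map `PhiA` of the two-block plane twist design
(notes 741/778, `eps = 17/31`) and its three explicit fixed cone points.
-/

set_option autoImplicit false

open Crest.GeometryTopology.Quadric

namespace Crest.Agent.S0316Aux.H2

open Crest.Agent.S0316Aux.H96

noncomputable section

lemma cos_two_arctan (r : ℝ) : Real.cos (2 * Real.arctan r) = (1 - r ^ 2) / (1 + r ^ 2) := by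
  have h : (0 : ℝ) < 1 + r ^ 2 := by positivity
  rw [Real.cos_two_mul, Real.cos_sq_arctan]
  field_simp
  ring

lemma sin_two_arctan (r : ℝ) : Real.sin (2 * Real.arctan r) = 2 * r / (1 + r ^ 2) := by
  have h : (0 : ℝ) < 1 + r ^ 2 := by positivity
  have hs : Real.sqrt (1 + r ^ 2) * Real.sqrt (1 + r ^ 2) = 1 + r ^ 2 := Real.mul_self_sqrt h.le
  have hs0 : Real.sqrt (1 + r ^ 2) ≠ 0 := (Real.sqrt_pos.mpr h).ne'
  rw [Real.sin_two_mul, Real.sin_arctan, Real.cos_arctan]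
  calc 2 * (r / Real.sqrt (1 + r ^ 2)) * (1 / Real.sqrt (1 + r ^ 2))
      = 2 * r / (Real.sqrt (1 + r ^ 2) * Real.sqrt (1 + r ^ 2)) := by field_simp
    _ = 2 * r / (1 + r ^ 2) := by rw [hs]

/-- half-angle tangents of the four twists. -/
def r14 (z : Fin 5 → ℂ) : ℝ := (17 / 62) * (1 + 2 * mu 1 4 z)
def r23 (z : Fin 5 → ℂ) : ℝ := -(17 / 62) * (1 + 2 * mu 2 3 z)
def r12 (z : Fin 5 → ℂ) : ℝ := (17 / 62) * (1 + 2 * mu 1 2 z)
def r34 (z : Fin 5 → ℂ) : ℝ := (17 / 62) * (1 - 2 * mu 3 4 z)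

def S1 (z : Fin 5 → ℂ) : Fin 5 → ℂ := rot 1 4 (2 * Real.arctan (r14 z)) z
def S2 (z : Fin 5 → ℂ) : Fin 5 → ℂ := rot 2 3 (2 * Real.arctan (r23 z)) z
def S3 (z : Fin 5 → ℂ) : Fin 5 → ℂ := rot 1 2 (Real.pi + 2 * Real.arctan (r12 z)) z
def S4 (z : Fin 5 → ℂ) : Fin 5 → ℂ := rot 3 4 (Real.pi + 2 * Real.arctan (r34 z)) z

/-- the time-one map of `concat (concat (concat T14 T23) T12) T34`. -/
def PhiA (z : Fin 5 → ℂ) : Fin 5 → ℂ := S4 (S3 (S2 (S1 z)))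

lemma rot_eq (j k : Fin 5) (θ c s : ℝ) (hc : Real.cos θ = c) (hs : Real.sin θ = s)
    (z : Fin 5 → ℂ) : rot j k θ z = fun i =>
      if i = j then (c : ℂ) * z j - (s : ℂ) * z k
      else if i = k then (s : ℂ) * z j + (c : ℂ) * z k else z i := by
  subst hc hs; rfl

/-- rotation by `2 arctan r`, with cosine and sine given implicitly. -/
lemma rot_arctan (j k : Fin 5) (r c s : ℝ) (hc : c * (1 + r ^ 2) = 1 - r ^ 2)
    (hs : s * (1 + r ^ 2) = 2 * r) (z : Fin 5 → ℂ) : rot j k (2 * Real.arctan r) z = fun i =>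
      if i = j then (c : ℂ) * z j - (s : ℂ) * z k
      else if i = k then (s : ℂ) * z j + (c : ℂ) * z k else z i := by
  have h : (1 + r ^ 2) ≠ 0 := by positivity
  apply rot_eq
  · rw [cos_two_arctan, div_eq_iff h, hc]
  · rw [sin_two_arctan, div_eq_iff h, hs]

lemma rot_pi_arctan (j k : Fin 5) (r c s : ℝ) (hc : c * (1 + r ^ 2) = 1 - r ^ 2)
    (hs : s * (1 + r ^ 2) = 2 * r) (z : Fin 5 → ℂ) :
    rot j k (Real.pi + 2 * Real.arctan r) z = fun i =>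
      if i = j then ((-c : ℝ) : ℂ) * z j - ((-s : ℝ) : ℂ) * z k
      else if i = k then ((-s : ℝ) : ℂ) * z j + ((-c : ℝ) : ℂ) * z k else z i := by
  have h : (1 + r ^ 2) ≠ 0 := by positivity
  apply rot_eq
  · rw [Real.cos_add, Real.cos_pi, Real.sin_pi, cos_two_arctan]
    have : (1 - r ^ 2) / (1 + r ^ 2) = c := by rw [div_eq_iff h, hc]
    rw [this]; ring
  · rw [Real.sin_add, Real.cos_pi, Real.sin_pi, sin_two_arctan]
    have : 2 * r / (1 + r ^ 2) = s := by rw [div_eq_iff h, hs]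
    rw [this]; ring

/-- the family of candidate points, `p ^ 2 = 12 / 17`. -/
def Zp (p : ℝ) : Fin 5 → ℂ :=
  ![0, ⟨(p + 7 / 17) / 2, 0⟩, ⟨3 / 17, 1 / 2⟩, ⟨(p - 7 / 17) / 2, 0⟩, ⟨-3 / 17, 1 / 2⟩]

def Y1 (p : ℝ) : Fin 5 → ℂ :=
  ![0, ⟨49 / 340 + 7 / 20 * p, -3 / 10 - 7 / 40 * p⟩, ⟨3 / 17, 1 / 2⟩, ⟨(p - 7 / 17) / 2, 0⟩,
    ⟨21 / 170 + 17 / 40 * p, 7 / 20 - 3 / 20 * p⟩]

def Y2 (p : ℝ) : Fin 5 → ℂ :=
  ![0, ⟨49 / 340 + 7 / 20 * p, -3 / 10 - 7 / 40 * p⟩, ⟨-21 / 170 + 17 / 40 * p, 7 / 20 + 3 / 20 * p⟩,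
    ⟨-49 / 340 + 7 / 20 * p, -3 / 10 + 7 / 40 * p⟩, ⟨21 / 170 + 17 / 40 * p, 7 / 20 - 3 / 20 * p⟩]

def Y3 (p : ℝ) : Fin 5 → ℂ :=
  ![0, ⟨7 / 1700 + 1 / 100 * p, 21 / 50 + 49 / 200 * p⟩, ⟨3 / 850 - 119 / 200 * p, 1 / 100 + 21 / 100 * p⟩,
    ⟨-49 / 340 + 7 / 20 * p, -3 / 10 + 7 / 40 * p⟩, ⟨21 / 170 + 17 / 40 * p, 7 / 20 - 3 / 20 * p⟩]

def Y4 (p : ℝ) : Fin 5 → ℂ :=
  ![0, ⟨7 / 1700 + 1 / 100 * p, 21 / 50 + 49 / 200 * p⟩, ⟨3 / 850 - 119 / 200 * p, 1 / 100 + 21 / 100 * p⟩,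
    ⟨-7 / 1700 + 1 / 100 * p, 21 / 50 - 49 / 200 * p⟩, ⟨-3 / 850 - 119 / 200 * p, 1 / 100 - 21 / 100 * p⟩]

def lp (p : ℝ) : ℂ := ⟨1 / 50, 119 / 100 * p⟩

lemma S1_Zp (p : ℝ) (hp : p ^ 2 = 12 / 17) : S1 (Zp p) = Y1 p := by
  have hr : r14 (Zp p) = 12 / 31 + 17 / 62 * p := by
    simp [r14, mu, Zp]; linarith [hp]
  unfold S1
  rw [hr, rot_arctan 1 4 _ (7 / 10 - 3 / 10 * p) (3 / 5 + 7 / 20 * p)
    (by linear_combination ((493/7688) + (-867/38440) * p) * hp)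
    (by linear_combination ((459/3844) + (2023/76880) * p) * hp)]
  funext i
  fin_cases i
  · simp [Zp, Y1]
  · apply Complex.ext
    · simp [Zp, Y1]
      linarith [hp]
    · simp [Zp, Y1]
      linarith [hp]
  · simp [Zp, Y1]
  · simp [Zp, Y1]
  · apply Complex.ext
    · simp [Zp, Y1]
      linarith [hp]
    · simp [Zp, Y1]
      linarith [hp]

lemma S2_Y1 (p : ℝ) (hp : p ^ 2 = 12 / 17) : S2 (Y1 p) = Y2 p := by
  have hr : r23 (Y1 p) = -12 / 31 + 17 / 62 * p := by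
    simp [r23, mu, Y1]; linarith [hp]
  unfold S2
  rw [hr, rot_arctan 2 3 _ (7 / 10 + 3 / 10 * p) (-3 / 5 + 7 / 20 * p)
    (by linear_combination ((493/7688) + (867/38440) * p) * hp)
    (by linear_combination ((-459/3844) + (2023/76880) * p) * hp)]
  funext i
  fin_cases i
  · simp [Y1, Y2]
  · simp [Y1, Y2]
  · apply Complex.ext
    · simp [Y1, Y2]
      linarith [hp]
    · simp [Y1, Y2]
      linarith [hp]
  · apply Complex.ext
    · simp [Y1, Y2]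
      linarith [hp]
    · simp [Y1, Y2]
      linarith [hp]
  · simp [Y1, Y2]

lemma S3_Y2 (p : ℝ) (hp : p ^ 2 = 12 / 17) : S3 (Y2 p) = Y3 p := by
  have hr : r12 (Y2 p) = 12 / 31 + 17 / 62 * p := by
    simp [r12, mu, Y2]; linarith [hp]
  unfold S3
  rw [hr, rot_pi_arctan 1 2 _ (7 / 10 - 3 / 10 * p) (3 / 5 + 7 / 20 * p)
    (by linear_combination ((493/7688) + (-867/38440) * p) * hp)
    (by linear_combination ((459/3844) + (2023/76880) * p) * hp)]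
  funext i
  fin_cases i
  · simp [Y2, Y3]
  · apply Complex.ext
    · simp [Y2, Y3]
      linarith [hp]
    · simp [Y2, Y3]
      linarith [hp]
  · apply Complex.ext
    · simp [Y2, Y3]
      linarith [hp]
    · simp [Y2, Y3]
      linarith [hp]
  · simp [Y2, Y3]
  · simp [Y2, Y3]

lemma S4_Y3 (p : ℝ) (hp : p ^ 2 = 12 / 17) : S4 (Y3 p) = Y4 p := by
  have hr : r34 (Y3 p) = 12 / 31 - 17 / 62 * p := by
    simp [r34, mu, Y3]; linarith [hp]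
  unfold S4
  rw [hr, rot_pi_arctan 3 4 _ (7 / 10 + 3 / 10 * p) (3 / 5 - 7 / 20 * p)
    (by linear_combination ((493/7688) + (867/38440) * p) * hp)
    (by linear_combination ((459/3844) + (-2023/76880) * p) * hp)]
  funext i
  fin_cases i
  · simp [Y3, Y4]
  · simp [Y3, Y4]
  · simp [Y3, Y4]
  · apply Complex.ext
    · simp [Y3, Y4]
      linarith [hp]
    · simp [Y3, Y4]
      linarith [hp]
  · apply Complex.ext
    · simp [Y3, Y4]
      linarith [hp]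
    · simp [Y3, Y4]
      linarith [hp]

lemma Y4_eq (p : ℝ) (hp : p ^ 2 = 12 / 17) : Y4 p = lp p • Zp p := by
  funext i
  fin_cases i
  · simp [Zp, Y4, lp]
  · apply Complex.ext
    · simp [Zp, Y4, lp]
      linarith [hp]
    · simp [Zp, Y4, lp]
      linarith [hp]
  · apply Complex.ext
    · simp [Zp, Y4, lp]
      linarith [hp]
    · simp [Zp, Y4, lp]
      linarith [hp]
  · apply Complex.ext
    · simp [Zp, Y4, lp]
      linarith [hp]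
    · simp [Zp, Y4, lp]
      linarith [hp]
  · apply Complex.ext
    · simp [Zp, Y4, lp]
      linarith [hp]
    · simp [Zp, Y4, lp]
      linarith [hp]

theorem PhiA_Zp (p : ℝ) (hp : p ^ 2 = 12 / 17) : PhiA (Zp p) = lp p • Zp p := by
  unfold PhiA
  rw [S1_Zp p hp, S2_Y1 p hp, S3_Y2 p hp, S4_Y3 p hp, Y4_eq p hp]

theorem Zp_mem (p : ℝ) (hp : p ^ 2 = 12 / 17) : Zp p ∈ unitCone := by
  constructor
  · apply Complex.ext
    · simp [herm, Fin.sum_univ_five, Zp]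
      linarith [hp]
    · simp [herm, Fin.sum_univ_five, Zp]
      try linarith [hp]
  · apply Complex.ext
    · simp [Fin.sum_univ_five, Zp, pow_two]
      linarith [hp]
    · simp [Fin.sum_univ_five, Zp, pow_two]
      try linarith [hp]

/-- the degenerate fixed point (all four twist angles vanish there). -/
def Z0 : Fin 5 → ℂ := ![0, ⟨1 / 2, 0⟩, ⟨0, -1 / 2⟩, ⟨-1 / 2, 0⟩, ⟨0, -1 / 2⟩]

theorem Z0_mem : Z0 ∈ unitCone := by
  constructor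
  · apply Complex.ext
    · simp [herm, Fin.sum_univ_five, Z0]
      norm_num
    · simp [herm, Fin.sum_univ_five, Z0]
  · apply Complex.ext
    · simp [Fin.sum_univ_five, Z0, pow_two]
      norm_num
    · simp [Fin.sum_univ_five, Z0, pow_two]

lemma rot_pi (j k : Fin 5) (z : Fin 5 → ℂ) : rot j k (Real.pi + 2 * Real.arctan 0) z = fun i =>
      if i = j then - z j else if i = k then - z k else z i := by
  funext i
  simp [rot]

theorem PhiA_Z0 : PhiA Z0 = (-1 : ℂ) • Z0 := by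
  have h1 : S1 Z0 = Z0 := by
    have hr : r14 Z0 = 0 := by simp [r14, mu, Z0]; norm_num
    unfold S1; rw [hr]; simp [rot_zero]
  have h2 : S2 Z0 = Z0 := by
    have hr : r23 Z0 = 0 := by simp [r23, mu, Z0]; norm_num
    unfold S2; rw [hr]; simp [rot_zero]
  have h3 : S3 Z0 = ![0, ⟨-1 / 2, 0⟩, ⟨0, 1 / 2⟩, ⟨-1 / 2, 0⟩, ⟨0, -1 / 2⟩] := by
    have hr : r12 Z0 = 0 := by simp [r12, mu, Z0]; norm_num
    unfold S3; rw [hr, rot_pi]
    funext i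
    fin_cases i <;> simp [Z0] <;> apply Complex.ext <;> simp <;> norm_num
  have h4 : S4 ![0, ⟨-1 / 2, 0⟩, ⟨0, 1 / 2⟩, ⟨-1 / 2, 0⟩, ⟨0, -1 / 2⟩] = (-1 : ℂ) • Z0 := by
    have hr : r34 ![0, ⟨-1 / 2, 0⟩, ⟨0, 1 / 2⟩, ⟨-1 / 2, 0⟩, ⟨0, -1 / 2⟩] = 0 := by
      simp [r34, mu]; norm_num
    unfold S4; rw [hr, rot_pi]
    funext i
    fin_cases i <;> simp [Z0] <;> apply Complex.ext <;> simp <;> norm_num
  unfold PhiA
  rw [h1, h2, h3, h4]

lemma normSq_sum {z : Fin 5 → ℂ} (hz : z ∈ unitCone) :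
    ((z 0).re ^ 2 + (z 0).im ^ 2) + ((z 1).re ^ 2 + (z 1).im ^ 2) + ((z 2).re ^ 2 + (z 2).im ^ 2)
      + ((z 3).re ^ 2 + (z 3).im ^ 2) + ((z 4).re ^ 2 + (z 4).im ^ 2) = 1 := by
  have h := congrArg Complex.re hz.1
  simp [herm, Fin.sum_univ_five] at h
  linarith [h]

lemma mu_eq' (j k : Fin 5) (z : Fin 5 → ℂ) :
    mu j k z = 2 * ((z j).re * (z k).im - (z j).im * (z k).re) := by
  simp [mu]; ring

lemma cos_pos_of {r : ℝ} (h : r ^ 2 < 1) : 0 < Real.cos (2 * Real.arctan r) := by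
  rw [cos_two_arctan]
  apply div_pos <;> nlinarith [sq_nonneg r]

lemma sq_lt_one_of {m : ℝ} (h1 : -1 ≤ m) (h2 : m ≤ 1) : ((17 / 62) * (1 + 2 * m)) ^ 2 < 1 := by
  nlinarith

lemma aux_bound (a b c d R : ℝ) (hR : 0 ≤ R) (h : a ^ 2 + b ^ 2 + (c ^ 2 + d ^ 2) + R = 1) :
    -1 ≤ 2 * (a * d - b * c) ∧ 2 * (a * d - b * c) ≤ 1 := by
  constructor <;>
    nlinarith [sq_nonneg (a - d), sq_nonneg (a + d), sq_nonneg (b - c), sq_nonneg (b + c)]

lemma mu14_bd {z : Fin 5 → ℂ} (hz : z ∈ unitCone) : -1 ≤ mu 1 4 z ∧ mu 1 4 z ≤ 1 := by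
  rw [mu_eq']
  exact aux_bound _ _ _ _ (((z 0).re ^ 2 + (z 0).im ^ 2) + ((z 2).re ^ 2 + (z 2).im ^ 2)
    + ((z 3).re ^ 2 + (z 3).im ^ 2)) (by positivity) (by linarith [normSq_sum hz])

lemma mu23_bd {z : Fin 5 → ℂ} (hz : z ∈ unitCone) : -1 ≤ mu 2 3 z ∧ mu 2 3 z ≤ 1 := by
  rw [mu_eq']
  exact aux_bound _ _ _ _ (((z 0).re ^ 2 + (z 0).im ^ 2) + ((z 1).re ^ 2 + (z 1).im ^ 2)
    + ((z 4).re ^ 2 + (z 4).im ^ 2)) (by positivity) (by linarith [normSq_sum hz])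

lemma mu12_bd {z : Fin 5 → ℂ} (hz : z ∈ unitCone) : -1 ≤ mu 1 2 z ∧ mu 1 2 z ≤ 1 := by
  rw [mu_eq']
  exact aux_bound _ _ _ _ (((z 0).re ^ 2 + (z 0).im ^ 2) + ((z 3).re ^ 2 + (z 3).im ^ 2)
    + ((z 4).re ^ 2 + (z 4).im ^ 2)) (by positivity) (by linarith [normSq_sum hz])

lemma mu34_bd {z : Fin 5 → ℂ} (hz : z ∈ unitCone) : -1 ≤ mu 3 4 z ∧ mu 3 4 z ≤ 1 := by
  rw [mu_eq']
  exact aux_bound _ _ _ _ (((z 0).re ^ 2 + (z 0).im ^ 2) + ((z 1).re ^ 2 + (z 1).im ^ 2)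
    + ((z 2).re ^ 2 + (z 2).im ^ 2)) (by positivity) (by linarith [normSq_sum hz])

/-- a fixed line of `PhiA` lies in the hyperplane `z 0 = 0`. -/
theorem PhiA_fixed_z0 {z : Fin 5 → ℂ} (hz : z ∈ unitCone) {l : ℂ} (h : PhiA z = l • z) :
    z 0 = 0 := by
  have hz1 : S1 z ∈ unitCone := rot_mem_unitCone (by decide) _ hz
  have hz2 : S2 (S1 z) ∈ unitCone := rot_mem_unitCone (by decide) _ hz1
  have hz3 : S3 (S2 (S1 z)) ∈ unitCone := rot_mem_unitCone (by decide) _ hz2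
  have b14 : (r14 z) ^ 2 < 1 := sq_lt_one_of (mu14_bd hz).1 (mu14_bd hz).2
  have b23 : (r23 (S1 z)) ^ 2 < 1 := by
    have := sq_lt_one_of (mu23_bd hz1).1 (mu23_bd hz1).2
    unfold r23; nlinarith [this]
  have b12 : (r12 (S2 (S1 z))) ^ 2 < 1 := sq_lt_one_of (mu12_bd hz2).1 (mu12_bd hz2).2
  have b34 : (r34 (S3 (S2 (S1 z)))) ^ 2 < 1 := by
    have := sq_lt_one_of (m := - mu 3 4 (S3 (S2 (S1 z)))) (by linarith [(mu34_bd hz3).2])
      (by linarith [(mu34_bd hz3).1])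
    unfold r34; nlinarith [this]
  exact offQ2 _ _ _ _ (cos_pos_of b14) (cos_pos_of b23) (cos_pos_of b12) (cos_pos_of b34) hz h

/-- the three points have pairwise different Pluecker coordinates. -/
lemma mu12_Zp (p : ℝ) : mu 1 2 (Zp p) = (p + 7 / 17) / 2 := by
  simp [mu, Zp]; ring

lemma mu12_Z0 : mu 1 2 Z0 = -1 / 2 := by
  simp [mu, Z0]

end

end Crest.Agent.S0316Aux.H2
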