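import Mathlib
import Crest.Agent.S0316Aux.Defs
import Crest.Agent.S0316Aux.H35_Plucker
import Crest.Agent.S0316Aux.H89_Phi

/-!
# S0316: classification of the fixed lines of `Phi` on `z 0 = 0`, directly in Plücker coordinates
(helper34).  No `(u,v)` bridge, no quaternions.
-/

set_option autoImplicit false

noncomputable section

namespace Crest.Agent.S0316Aux.H34

open Crest.GeometryTopology.Quadric Crest.Agent.S0316Aux

local notation "conj" => starRingEnd ℂ

/-- invariance of `Im (conj x * y)` under `x ↦ α x + β conj x`. -/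
lemma im_twist (α β x y : ℂ) :
    (conj (α * x + β * conj x) * (α * y + β * conj y)).im
      = (Complex.normSq α - Complex.normSq β) * (conj x * y).im := by
  simp only [Complex.normSq_apply, Complex.mul_im, Complex.mul_re, Complex.add_re, Complex.add_im,
    Complex.conj_re, Complex.conj_im, map_add, map_mul, Complex.conj_conj]
  ring

lemma im_phase (l x y : ℂ) (hl : ‖l‖ = 1) :
    (conj (l * x) * (l * y)).im = (conj x * y).im := by
  have h : Complex.normSq l = 1 := by rw [Complex.normSq_eq_norm_sq, hl]; norm_num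
  have h2 : conj (l * x) * (l * y) = (Complex.normSq l : ℂ) * (conj x * y) := by
    rw [map_mul, Complex.normSq_eq_conj_mul_self]; ring
  rw [h2, h]; simp

/-- real identities on the cone (`z 0 = 0`). -/
lemma real_ids (r1 r2 r3 r4 s1 s2 s3 s4 : ℝ)
    (hn : r1^2+r2^2+r3^2+r4^2+(s1^2+s2^2+s3^2+s4^2) = 1)
    (hre : r1^2+r2^2+r3^2+r4^2-(s1^2+s2^2+s3^2+s4^2) = 0)
    (him : r1*s1+r2*s2+r3*s3+r4*s4 = 0) :
    (2*(r1*s2-s1*r2))^2+(2*(r1*s3-s1*r3))^2+(2*(r1*s4-s1*r4))^2+(2*(r2*s3-s2*r3))^2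
      +(2*(r2*s4-s2*r4))^2+(2*(r3*s4-s3*r4))^2 = 1 ∧
    (2*(r1*s2-s1*r2))^2+(2*(r2*s3-s2*r3))^2-(2*(r1*s4-s1*r4))^2-(2*(r3*s4-s3*r4))^2
      = 2*((r2^2+s2^2)-(r4^2+s4^2)) := by
  constructor
  · linear_combination (r1^2+r2^2+r3^2+r4^2+(s1^2+s2^2+s3^2+s4^2)+1)*hn
      - (r1^2+r2^2+r3^2+r4^2-(s1^2+s2^2+s3^2+s4^2))*hre - 4*(r1*s1+r2*s2+r3*s3+r4*s4)*him
  · linear_combination (2*r2^2+2*s2^2-2*r4^2-2*s4^2)*hn + (-2*r2^2+2*s2^2+2*r4^2-2*s4^2)*hre
      - 8*(r2*s2-r4*s4)*him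

/-- the two coefficients of the twist -/
def al (τ : ℝ) (z : Fin 5 → ℂ) : ℂ :=
  1 + (((-2 * τ ^ 2 * ww z : ℝ) : ℂ) + 2 * Complex.I * (τ : ℂ) * (NN z : ℂ))
        / ((1 + τ ^ 2 * ww z : ℝ) : ℂ)

def be (τ : ℝ) (z : Fin 5 → ℂ) : ℂ :=
  (-2 * Complex.I * (τ : ℂ) * QQ z) / ((1 + τ ^ 2 * ww z : ℝ) : ℂ)

lemma Btw_0 (τ : ℝ) (z : Fin 5 → ℂ) : Btw τ z 0 = z 0 := by
  simp [Btw, zeta]

lemma Btw_1 (τ : ℝ) (z : Fin 5 → ℂ) : Btw τ z 1 = al τ z * z 1 + be τ z * conj (z 1) := by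
  simp only [Btw, zeta, al, be, Matrix.cons_val]
  ring

lemma Btw_3 (τ : ℝ) (z : Fin 5 → ℂ) : Btw τ z 3 = al τ z * z 3 + be τ z * conj (z 3) := by
  simp only [Btw, zeta, al, be, Matrix.cons_val]
  ring

lemma Btw_add (τ : ℝ) (z : Fin 5 → ℂ) :
    Btw τ z 2 + Btw τ z 4 = al τ z * (z 2 + z 4) + be τ z * conj (z 2 + z 4) := by
  have h2 : conj ((z 2 + z 4) / 2) = conj (z 2 + z 4) / 2 := by
    rw [map_div₀]; congr 1; exact Complex.conj_ofNat 2
  simp only [Btw, zeta, al, be, Matrix.cons_val, h2]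
  ring

lemma Btw_sub (τ : ℝ) (z : Fin 5 → ℂ) : Btw τ z 2 - Btw τ z 4 = z 2 - z 4 := by
  simp only [Btw, zeta, Matrix.cons_val]
  ring

lemma al_re (τ : ℝ) (z : Fin 5 → ℂ) :
    (al τ z).re = 1 + (-2 * τ ^ 2 * ww z) / (1 + τ ^ 2 * ww z) := by
  unfold al
  rw [Complex.add_re, Complex.div_ofReal_re, Complex.add_re, Complex.ofReal_re]
  simp

lemma al_im (τ : ℝ) (z : Fin 5 → ℂ) :
    (al τ z).im = (2 * τ * NN z) / (1 + τ ^ 2 * ww z) := by
  unfold al
  rw [Complex.add_im, Complex.div_ofReal_im, Complex.add_im, Complex.ofReal_im]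
  simp

lemma be_re (τ : ℝ) (z : Fin 5 → ℂ) :
    (be τ z).re = (2 * τ * (QQ z).im) / (1 + τ ^ 2 * ww z) := by
  unfold be
  rw [Complex.div_ofReal_re]
  simp

lemma be_im (τ : ℝ) (z : Fin 5 → ℂ) :
    (be τ z).im = (-2 * τ * (QQ z).re) / (1 + τ ^ 2 * ww z) := by
  unfold be
  rw [Complex.div_ofReal_im]
  simp

lemma normSq_al_be (τ : ℝ) (z : Fin 5 → ℂ) (h : 1 + τ ^ 2 * ww z ≠ 0) :
    Complex.normSq (al τ z) - Complex.normSq (be τ z) = 1 := by
  rw [Complex.normSq_apply, Complex.normSq_apply, al_re, al_im, be_re, be_im]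
  have hw : ww z = NN z ^ 2 - ((QQ z).re * (QQ z).re + (QQ z).im * (QQ z).im) := by
    rw [ww, Complex.normSq_apply]
  field_simp
  rw [hw]
  ring

lemma Dn_al_re (τ : ℝ) (z : Fin 5 → ℂ) (h : 1 + τ ^ 2 * ww z ≠ 0) :
    (1 + τ ^ 2 * ww z) * (al τ z).re = 1 - τ ^ 2 * ww z := by
  rw [al_re]; field_simp; ring

lemma Dn_al_im (τ : ℝ) (z : Fin 5 → ℂ) (h : 1 + τ ^ 2 * ww z ≠ 0) :
    (1 + τ ^ 2 * ww z) * (al τ z).im = 2 * τ * NN z := by
  rw [al_im]; field_simp

lemma Dn_be_re (τ : ℝ) (z : Fin 5 → ℂ) (h : 1 + τ ^ 2 * ww z ≠ 0) :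
    (1 + τ ^ 2 * ww z) * (be τ z).re = 2 * τ * (QQ z).im := by
  rw [be_re]; field_simp

lemma Dn_be_im (τ : ℝ) (z : Fin 5 → ℂ) (h : 1 + τ ^ 2 * ww z ≠ 0) :
    (1 + τ ^ 2 * ww z) * (be τ z).im = -2 * τ * (QQ z).re := by
  rw [be_im]; field_simp

lemma cim (x y : ℂ) : (conj x * y).im = x.re * y.im - x.im * y.re := by
  simp [Complex.mul_im]; ring

lemma cre (x y : ℂ) : (conj x * y).re = x.re * y.re + x.im * y.im := by
  simp [Complex.mul_re]

lemma plu_eq (z : Fin 5 → ℂ) (i j : Fin 5) :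
    plu z i j = 2 * ((z i).re * (z j).im - (z i).im * (z j).re) := by
  rw [plu, cim]

lemma Dn_pos (τ : ℝ) (z : Fin 5 → ℂ) : 0 < 1 + τ ^ 2 * ww z := by
  have := H89.ww_nonneg z
  positivity

/-- cone equations in real coordinates when `z 0 = 0`. -/
lemma cone_real {z : Fin 5 → ℂ} (hz : z ∈ unitCone) (h0 : z 0 = 0) :
    ((z 1).re^2+(z 2).re^2+(z 3).re^2+(z 4).re^2
        +((z 1).im^2+(z 2).im^2+(z 3).im^2+(z 4).im^2) = 1) ∧
    ((z 1).re^2+(z 2).re^2+(z 3).re^2+(z 4).re^2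
        -((z 1).im^2+(z 2).im^2+(z 3).im^2+(z 4).im^2) = 0) ∧
    ((z 1).re*(z 1).im+(z 2).re*(z 2).im+(z 3).re*(z 3).im+(z 4).re*(z 4).im = 0) := by
  obtain ⟨h1, h2⟩ := hz
  have a := congrArg Complex.re h1
  have b := congrArg Complex.re h2
  have c := congrArg Complex.im h2
  simp only [herm, Fin.sum_univ_five, h0, Complex.add_re, Complex.add_im, sq,
    Complex.mul_re, Complex.mul_im, Complex.zero_re, Complex.zero_im, Complex.one_re,
    map_zero, Complex.conj_re, Complex.conj_im] at a b c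
  refine ⟨by linear_combination a, by linear_combination b, by linear_combination c / 2⟩

/-- the key equation for the `(2,4)` Plücker coordinate. -/
lemma key (Dn w τ N Qre Qim : ℝ) (d a α β : ℂ)
    (hαr : Dn * α.re = 1 - τ ^ 2 * w) (hαi : Dn * α.im = 2 * τ * N)
    (hβr : Dn * β.re = 2 * τ * Qim) (hβi : Dn * β.im = -2 * τ * Qre)
    (hQre : Qre = -(d.re ^ 2 - d.im ^ 2) / 2) (hQim : Qim = -(d.re * d.im))
    (hN : 2 * N + (d.re ^ 2 + d.im ^ 2) = 2) :
    Dn * (conj d * (α * a + β * conj a)).im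
      = (1 - τ ^ 2 * w) * (conj d * a).im + 2 * τ * (conj d * a).re := by
  rw [cim, cim, cre]
  simp only [Complex.add_re, Complex.add_im, Complex.mul_re, Complex.mul_im, Complex.conj_re,
    Complex.conj_im]
  subst hQre hQim
  linear_combination (d.re * a.im - d.im * a.re) * hαr + (d.re * a.re + d.im * a.im) * hαi
    + (-(d.re * a.im) - d.im * a.re) * hβr + (d.re * a.re - d.im * a.im) * hβi
    + τ * (d.re * a.re + d.im * a.im) * hN

lemma final_alg (p q r : ℝ) (hpq : p * q = 0) (hs : p ^ 2 + q ^ 2 + 169 / 144 * r ^ 2 = 1)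
    (hk : 13 * p ^ 2 - 13 * r ^ 2 - 13 * q ^ 2 + 12 * r = 0) :
    (p = 0 ∧ q = 0 ∧ r = 12 / 13) ∨ (q = 0 ∧ r = -156 / 313 ∧ p ^ 2 = 69408 / 97969) := by
  rcases mul_eq_zero.mp hpq with hp | hq
  · subst hp
    have hf : (13 * r - 12) * (25 * r + 156) = 0 := by linear_combination 144 * hk + 1872 * hs
    rcases mul_eq_zero.mp hf with h1 | h1
    · have hr : r = 12 / 13 := by linarith
      subst hr
      left
      refine ⟨rfl, ?_, rfl⟩
      have : q ^ 2 = 0 := by linear_combination hs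
      exact pow_eq_zero_iff (two_ne_zero) |>.mp this
    · exfalso
      have hr : r = -156 / 25 := by linarith
      subst hr
      nlinarith [sq_nonneg q]
  · subst hq
    have hf : (13 * r - 12) * (313 * r + 156) = 0 := by
      linear_combination (-144) * hk + 1872 * hs
    rcases mul_eq_zero.mp hf with h1 | h1
    · have hr : r = 12 / 13 := by linarith
      subst hr
      left
      refine ⟨?_, rfl, rfl⟩
      have : p ^ 2 = 0 := by linear_combination hs
      exact pow_eq_zero_iff (two_ne_zero) |>.mp this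
    · have hr : r = -156 / 313 := by linarith
      subst hr
      right
      refine ⟨rfl, rfl, ?_⟩
      linear_combination hs

/-- **Classification** of the fixed lines of `Phi` inside `z 0 = 0`, in Plücker coordinates. -/
theorem classP {z : Fin 5 → ℂ} {l : ℂ} (hz : z ∈ unitCone) (h0 : z 0 = 0) (hl : ‖l‖ = 1)
    (h : Phi z = l • z) :
    (∀ j, plu z 0 j = 0) ∧ plu z 1 3 = 0 ∧ plu z 2 3 = 0 ∧ plu z 2 4 = 5 / 12 * plu z 1 4 ∧
    ((plu z 1 2 = 0 ∧ plu z 3 4 = 0 ∧ plu z 1 4 = 12 / 13) ∨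
      (plu z 3 4 = 0 ∧ plu z 1 4 = -156 / 313 ∧ (plu z 1 2) ^ 2 = 69408 / 97969)) := by
  obtain ⟨hn, hre, him⟩ := cone_real hz h0
  have hD := Dn_pos (65 / 72) z
  have hab := normSq_al_be (65 / 72) z hD.ne'
  have e1 := congrFun h 1
  have e2 := congrFun h 2
  have e3 := congrFun h 3
  have e4 := congrFun h 4
  simp only [Phi, Glin, Pi.smul_apply, smul_eq_mul, Matrix.cons_val] at e1 e2 e3 e4
  have g1 : Btw (65 / 72) z 1
      = l * (-(((119 / 169 : ℝ) : ℂ) * z 1 + ((120 / 169 : ℝ) : ℂ) * z 2)) := by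
    push_cast
    linear_combination (-(119 / 169 : ℂ)) * e1 + (-(120 / 169 : ℂ)) * e2
  have g2 : Btw (65 / 72) z 2
      = l * (-(-((120 / 169 : ℝ) : ℂ) * z 1 + ((119 / 169 : ℝ) : ℂ) * z 2)) := by
    push_cast
    linear_combination (120 / 169 : ℂ) * e1 + (-(119 / 169 : ℂ)) * e2
  have g3 : Btw (65 / 72) z 3 = l * (-(z 3)) := by linear_combination -e3
  have g4 : Btw (65 / 72) z 4 = l * (-(z 4)) := by linear_combination -e4
  have gadd : Btw (65 / 72) z 2 + Btw (65 / 72) z 4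
      = l * (-(-((120 / 169 : ℝ) : ℂ) * z 1 + ((119 / 169 : ℝ) : ℂ) * z 2) + -(z 4)) := by
    rw [g2, g4]; ring
  have gsub : Btw (65 / 72) z 2 - Btw (65 / 72) z 4
      = l * (-(-((120 / 169 : ℝ) : ℂ) * z 1 + ((119 / 169 : ℝ) : ℂ) * z 2) - -(z 4)) := by
    rw [g2, g4]; ring
  -- conservation laws
  have c13 : (conj (Btw (65 / 72) z 1) * Btw (65 / 72) z 3).im = (conj (z 1) * z 3).im := by
    rw [Btw_1, Btw_3, im_twist, hab, one_mul]
  have c1a : (conj (Btw (65 / 72) z 1) * (Btw (65 / 72) z 2 + Btw (65 / 72) z 4)).im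
      = (conj (z 1) * (z 2 + z 4)).im := by
    rw [Btw_1, Btw_add, im_twist, hab, one_mul]
  have c3a : (conj (Btw (65 / 72) z 3) * (Btw (65 / 72) z 2 + Btw (65 / 72) z 4)).im
      = (conj (z 3) * (z 2 + z 4)).im := by
    rw [Btw_3, Btw_add, im_twist, hab, one_mul]
  rw [g1, g3, im_phase l _ _ hl, cim, cim] at c13
  rw [g1, gadd, im_phase l _ _ hl, cim, cim] at c1a
  rw [g3, gadd, im_phase l _ _ hl, cim, cim] at c3a
  simp only [Complex.neg_re, Complex.neg_im, Complex.add_re, Complex.add_im,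
    Complex.re_ofReal_mul, Complex.im_ofReal_mul, Complex.neg_re, neg_mul] at c13 c1a c3a
  have k13 : 119 / 169 * plu z 1 3 + 120 / 169 * plu z 2 3 = plu z 1 3 := by
    rw [plu_eq, plu_eq]; linear_combination 2 * c13
  have k14 : 119 / 169 * plu z 1 4 + 120 / 169 * plu z 2 4 = plu z 1 4 := by
    rw [plu_eq, plu_eq]; linear_combination 2 * c1a
  have k23 : 120 / 169 * plu z 1 3 - 119 / 169 * plu z 2 3 = - plu z 2 3 := by
    rw [plu_eq, plu_eq]; linear_combination 2 * c3a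
  have P23 : plu z 2 3 = 0 := by linarith
  have P13 : plu z 1 3 = 0 := by linarith
  have P24 : plu z 2 4 = 5 / 12 * plu z 1 4 := by linarith
  -- the key equation
  have hsum : z 1 ^ 2 + z 2 ^ 2 + z 3 ^ 2 + z 4 ^ 2 = 0 := by
    have := hz.2
    simp only [Fin.sum_univ_five, h0] at this
    linear_combination this
  have hQ : 2 * QQ z = -(z 2 - z 4) ^ 2 := by
    unfold QQ; linear_combination 2 * hsum
  have hQre : (QQ z).re = -((z 2 - z 4).re ^ 2 - (z 2 - z 4).im ^ 2) / 2 := by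
    have := congrArg Complex.re hQ
    simp only [Complex.mul_re, Complex.neg_re, sq, Complex.re_ofNat, Complex.im_ofNat] at this
    simp only [sq]
    linarith
  have hQim : (QQ z).im = -((z 2 - z 4).re * (z 2 - z 4).im) := by
    have := congrArg Complex.im hQ
    simp only [Complex.mul_im, Complex.neg_im, sq, Complex.re_ofNat, Complex.im_ofNat] at this
    linarith
  have hN : 2 * NN z + ((z 2 - z 4).re ^ 2 + (z 2 - z 4).im ^ 2) = 2 := by
    unfold NN
    simp only [Complex.normSq_apply, Complex.add_re, Complex.add_im, Complex.sub_re,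
      Complex.sub_im]
    linear_combination 2 * hn
  have hαr := Dn_al_re (65 / 72) z hD.ne'
  have hαi := Dn_al_im (65 / 72) z hD.ne'
  have hβr := Dn_be_re (65 / 72) z hD.ne'
  have hβi := Dn_be_im (65 / 72) z hD.ne'
  have ck := key _ _ _ _ _ _ (z 2 - z 4) (z 2 + z 4) _ _ hαr hαi hβr hβi hQre hQim hN
  have hL : (conj (z 2 - z 4) * (al (65 / 72) z * (z 2 + z 4)
        + be (65 / 72) z * conj (z 2 + z 4))).im
      = (conj (-(-((120 / 169 : ℝ) : ℂ) * z 1 + ((119 / 169 : ℝ) : ℂ) * z 2) - -(z 4))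
          * (-(-((120 / 169 : ℝ) : ℂ) * z 1 + ((119 / 169 : ℝ) : ℂ) * z 2) + -(z 4))).im := by
    rw [← Btw_add, ← Btw_sub (65 / 72) z, gadd, gsub, im_phase l _ _ hl]
  rw [hL, cim, cim, cre] at ck
  simp only [Complex.neg_re, Complex.neg_im, Complex.add_re, Complex.add_im, Complex.sub_re,
    Complex.sub_im, Complex.re_ofReal_mul, Complex.im_ofReal_mul, Complex.neg_re, neg_mul] at ck
  have kk : (1 + (65 / 72 : ℝ) ^ 2 * ww z) * (-(120 / 169) * plu z 1 4 + 119 / 169 * plu z 2 4)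
      = (1 - (65 / 72 : ℝ) ^ 2 * ww z) * plu z 2 4
        + 2 * (65 / 72 : ℝ) * (((z 2).re ^ 2 + (z 2).im ^ 2) - ((z 4).re ^ 2 + (z 4).im ^ 2)) := by
    rw [plu_eq, plu_eq]; linear_combination ck
  have hX : ((z 2).re ^ 2 + (z 2).im ^ 2) - ((z 4).re ^ 2 + (z 4).im ^ 2)
      = -(6 / 13) * plu z 1 4 := by
    rw [P24] at kk
    linear_combination (-(36 / 65 : ℝ)) * kk
  obtain ⟨s1, s2⟩ := real_ids (z 1).re (z 2).re (z 3).re (z 4).re (z 1).im (z 2).im (z 3).im
    (z 4).im hn hre him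
  simp only [← plu_eq] at s1 s2
  have hpl : plu z 1 2 * plu z 3 4 - plu z 1 3 * plu z 2 4 + plu z 1 4 * plu z 2 3 = 0 := by
    simp only [plu_eq]; ring
  rw [P13, P23] at hpl s1
  rw [P23] at s2
  rw [P24] at s1
  refine ⟨fun j => by simp [plu, h0], P13, P23, P24, ?_⟩
  exact final_alg (plu z 1 2) (plu z 3 4) (plu z 1 4) (by linear_combination hpl)
    (by linear_combination s1) (by linear_combination 13 * s2 + 26 * hX)

/-- two antisymmetric tables vanishing on row `0` agree if they agree on six entries. -/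
lemma plu_eq_of_six {z z' : Fin 5 → ℂ} (h0 : ∀ j, plu z 0 j = plu z' 0 j)
    (h12 : plu z 1 2 = plu z' 1 2) (h13 : plu z 1 3 = plu z' 1 3) (h14 : plu z 1 4 = plu z' 1 4)
    (h23 : plu z 2 3 = plu z' 2 3) (h24 : plu z 2 4 = plu z' 2 4) (h34 : plu z 3 4 = plu z' 3 4) :
    ∀ i j, plu z i j = plu z' i j := by
  have hs : ∀ i j, plu z i j = plu z' i j → plu z j i = plu z' j i := by
    intro i j h
    rw [plu_antisymm z i j, plu_antisymm z' i j, h]
  intro i j
  fin_cases i <;> fin_cases j <;>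
    first
      | exact h0 _
      | exact hs _ _ (h0 _)
      | (simp only [plu_self]; done)
      | exact h12 | exact h13 | exact h14 | exact h23 | exact h24 | exact h34
      | exact hs _ _ h12 | exact hs _ _ h13 | exact hs _ _ h14 | exact hs _ _ h23
      | exact hs _ _ h24 | exact hs _ _ h34

/-- `z` has the Plücker table `(p12, p14, p24)`, all other entries `0`. -/
def HasTable (z : Fin 5 → ℂ) (p12 p14 p24 : ℝ) : Prop :=
  (∀ j, plu z 0 j = 0) ∧ plu z 1 2 = p12 ∧ plu z 1 3 = 0 ∧ plu z 1 4 = p14 ∧ plu z 2 3 = 0 ∧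
    plu z 2 4 = p24 ∧ plu z 3 4 = 0

lemma HasTable.plu_eq {z z' : Fin 5 → ℂ} {p12 p14 p24 : ℝ} (h : HasTable z p12 p14 p24)
    (h' : HasTable z' p12 p14 p24) : ∀ i j, plu z i j = plu z' i j := by
  obtain ⟨a0, a12, a13, a14, a23, a24, a34⟩ := h
  obtain ⟨b0, b12, b13, b14, b23, b24, b34⟩ := h'
  exact plu_eq_of_six (fun j => by rw [a0, b0]) (by rw [a12, b12]) (by rw [a13, b13])
    (by rw [a14, b14]) (by rw [a23, b23]) (by rw [a24, b24]) (by rw [a34, b34])

/-- Classification, table form (`s` is any square root of `69408/97969`, e.g.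
`12 * √482 / 313`); the exclusion of `z 0 ≠ 0` is helper89's `H89.z0_eq_zero`. -/
theorem classP_table {s : ℝ} (hs : s ^ 2 = 69408 / 97969) {z : Fin 5 → ℂ} {l : ℂ}
    (hz : z ∈ unitCone) (hPhi : Phi z ∈ unitCone) (h : Phi z = l • z) :
    HasTable z 0 (12 / 13) (5 / 13) ∨ HasTable z s (-156 / 313) (-65 / 313) ∨
      HasTable z (-s) (-156 / 313) (-65 / 313) := by
  have h0 : z 0 = 0 := H89.z0_eq_zero hz h
  have hl : ‖l‖ = 1 := norm_eq_one_of_smul_mem hz (h ▸ hPhi)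
  obtain ⟨a0, a13, a23, a24, hc | hc⟩ := classP hz h0 hl h
  · obtain ⟨a12, a34, a14⟩ := hc
    left
    exact ⟨a0, a12, a13, a14, a23, by rw [a24, a14]; norm_num, a34⟩
  · obtain ⟨a34, a14, a12⟩ := hc
    have hf : (plu z 1 2 - s) * (plu z 1 2 + s) = 0 := by linear_combination a12 - hs
    rcases mul_eq_zero.mp hf with h1 | h1
    · right; left
      exact ⟨a0, by linarith, a13, a14, a23, by rw [a24, a14]; norm_num, a34⟩
    · right; right
      exact ⟨a0, by linarith, a13, a14, a23, by rw [a24, a14]; norm_num, a34⟩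

/-- The hypothesis `hall` of `ncard_fixedLines_eq_three` (H35_Plucker), for any three points with
the three tables. -/
theorem hall34 {s : ℝ} (hs : s ^ 2 = 69408 / 97969) {Z0 Zp Zm : Fin 5 → ℂ}
    (t0 : HasTable Z0 0 (12 / 13) (5 / 13)) (tp : HasTable Zp s (-156 / 313) (-65 / 313))
    (tm : HasTable Zm (-s) (-156 / 313) (-65 / 313))
    {z : Fin 5 → ℂ} (hz : z ∈ unitCone) (hPhi : Phi z ∈ unitCone) (h : ∃ c : ℂ, Phi z = c • z) :
    (∀ i j, plu z i j = plu Z0 i j) ∨ (∀ i j, plu z i j = plu Zp i j) ∨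
      (∀ i j, plu z i j = plu Zm i j) := by
  obtain ⟨c, hc⟩ := h
  rcases classP_table hs hz hPhi hc with h1 | h1 | h1
  · exact Or.inl (h1.plu_eq t0)
  · exact Or.inr (Or.inl (h1.plu_eq tp))
  · exact Or.inr (Or.inr (h1.plu_eq tm))

end Crest.Agent.S0316Aux.H34
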