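import Crest.Agent.S0316Aux.Defs
import Crest.Agent.S0316Aux.H35_Plucker

/-!
Direct classification, in Plücker coordinates, of the fixed lines of the canonical time-one map
`Phi` (file `Defs.lean`) inside the hyperplane section `z 0 = 0`.  (helper35, for S0316.)
-/

set_option autoImplicit false

namespace Crest.Agent.S0316Aux

open Crest.GeometryTopology.Quadric

noncomputable section

local notation "conj" => starRingEnd ℂ

/-! ### General facts on the twist -/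

lemma normSq_QQ_le (z : Fin 5 → ℂ) : Complex.normSq (QQ z) ≤ NN z ^ 2 := by
  have h1 : ‖QQ z‖ ≤ NN z := by
    unfold QQ NN
    calc ‖z 1 ^ 2 + z 3 ^ 2 + (z 2 + z 4) ^ 2 / 2‖
        ≤ ‖z 1 ^ 2‖ + ‖z 3 ^ 2‖ + ‖(z 2 + z 4) ^ 2 / 2‖ := norm_add₃_le
      _ = Complex.normSq (z 1) + Complex.normSq (z 3) + Complex.normSq (z 2 + z 4) / 2 := by
          simp [Complex.normSq_eq_norm_sq]
  rw [Complex.normSq_eq_norm_sq]
  exact pow_le_pow_left₀ (norm_nonneg _) h1 2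

lemma ww_nonneg (z : Fin 5 → ℂ) : 0 ≤ ww z := by
  unfold ww; linarith [normSq_QQ_le z]

lemma DD_pos (τ : ℝ) (z : Fin 5 → ℂ) : 0 < 1 + τ ^ 2 * ww z := by
  have := ww_nonneg z
  positivity

/-- first coefficient of the twist. -/
def alc (τ : ℝ) (z : Fin 5 → ℂ) : ℂ :=
  (((1 - τ ^ 2 * ww z : ℝ) : ℂ) + 2 * Complex.I * (τ : ℂ) * (NN z : ℂ)) / ((1 + τ ^ 2 * ww z : ℝ) : ℂ)

/-- second coefficient of the twist. -/
def bec (τ : ℝ) (z : Fin 5 → ℂ) : ℂ :=
  (-2 * Complex.I * (τ : ℂ) * QQ z) / ((1 + τ ^ 2 * ww z : ℝ) : ℂ)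

lemma Btw_eq (τ : ℝ) (z : Fin 5 → ℂ) (j : Fin 5) :
    Btw τ z j = z j + (alc τ z - 1) * zeta z j + bec τ z * conj (zeta z j) := by
  have hD : ((1 + τ ^ 2 * ww z : ℝ) : ℂ) ≠ 0 := by
    exact_mod_cast (DD_pos τ z).ne'
  unfold Btw alc bec
  field_simp
  push_cast
  ring

lemma normSq_alc_sub (τ : ℝ) (z : Fin 5 → ℂ) :
    Complex.normSq (alc τ z) - Complex.normSq (bec τ z) = 1 := by
  have hD := (DD_pos τ z).ne'
  unfold alc bec
  rw [Complex.normSq_div, Complex.normSq_div, Complex.normSq_ofReal]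
  have h1 : Complex.normSq (((1 - τ ^ 2 * ww z : ℝ) : ℂ) + 2 * Complex.I * (τ : ℂ) * (NN z : ℂ))
      = (1 - τ ^ 2 * ww z) ^ 2 + 4 * τ ^ 2 * NN z ^ 2 := by
    generalize (1 - τ ^ 2 * ww z) = A
    simp [Complex.normSq_apply]; ring
  have h2 : Complex.normSq (-2 * Complex.I * (τ : ℂ) * QQ z) = 4 * τ ^ 2 * Complex.normSq (QQ z) := by
    generalize QQ z = Q
    simp only [Complex.normSq_apply, Complex.mul_re, Complex.mul_im, Complex.neg_re, Complex.neg_im,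
      Complex.I_re, Complex.I_im, Complex.ofReal_re, Complex.ofReal_im, Complex.re_ofNat,
      Complex.im_ofNat]
    ring
  rw [h1, h2]
  have h3 : Complex.normSq (QQ z) = NN z ^ 2 - ww z := by unfold ww; ring
  rw [h3]
  field_simp
  ring

/-- The symplectic pairing is preserved by `x ↦ α x + β conj x` when `|α|² - |β|² = 1`. -/
lemma im_conj_mul_twist (al be x y : ℂ) :
    (conj (al * x + be * conj x) * (al * y + be * conj y)).im
      = (Complex.normSq al - Complex.normSq be) * (conj x * y).im := by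
  simp [Complex.normSq_apply, Complex.mul_im, Complex.mul_re]
  ring

lemma Btw_0 (τ : ℝ) (z : Fin 5 → ℂ) : Btw τ z 0 = z 0 := by
  rw [Btw_eq]; simp [zeta]

lemma Btw_1 (τ : ℝ) (z : Fin 5 → ℂ) : Btw τ z 1 = alc τ z * z 1 + bec τ z * conj (z 1) := by
  rw [Btw_eq]; simp [zeta]; ring

lemma Btw_3 (τ : ℝ) (z : Fin 5 → ℂ) : Btw τ z 3 = alc τ z * z 3 + bec τ z * conj (z 3) := by
  rw [Btw_eq]; simp [zeta]; ring

lemma Btw_24_add (τ : ℝ) (z : Fin 5 → ℂ) :
    Btw τ z 2 + Btw τ z 4 = alc τ z * (z 2 + z 4) + bec τ z * conj (z 2 + z 4) := by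
  have h2 : conj (2 : ℂ) = 2 := Complex.conj_ofNat 2
  rw [Btw_eq, Btw_eq]; simp [zeta, h2]; ring

lemma Btw_24_sub (τ : ℝ) (z : Fin 5 → ℂ) : Btw τ z 2 - Btw τ z 4 = z 2 - z 4 := by
  rw [Btw_eq, Btw_eq]; simp [zeta]

/-- conservation laws -/
lemma plu_Btw_13 (τ : ℝ) (z : Fin 5 → ℂ) : plu (Btw τ z) 1 3 = plu z 1 3 := by
  unfold plu
  rw [Btw_1, Btw_3, im_conj_mul_twist, normSq_alc_sub, one_mul]

lemma plu_add (b : Fin 5 → ℂ) (i j k : Fin 5) :
    plu b i j + plu b i k = 2 * (conj (b i) * (b j + b k)).im := by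
  unfold plu; rw [mul_add, Complex.add_im]; ring

lemma plu_Btw_12_14 (τ : ℝ) (z : Fin 5 → ℂ) :
    plu (Btw τ z) 1 2 + plu (Btw τ z) 1 4 = plu z 1 2 + plu z 1 4 := by
  rw [plu_add, plu_add, Btw_24_add, Btw_1, im_conj_mul_twist, normSq_alc_sub, one_mul]

lemma plu_Btw_32_34 (τ : ℝ) (z : Fin 5 → ℂ) :
    plu (Btw τ z) 3 2 + plu (Btw τ z) 3 4 = plu z 3 2 + plu z 3 4 := by
  rw [plu_add, plu_add, Btw_24_add, Btw_3, im_conj_mul_twist, normSq_alc_sub, one_mul]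

lemma plu_eq_im_sub_add (b : Fin 5 → ℂ) (i j : Fin 5) :
    plu b i j = (conj (b i - b j) * (b i + b j)).im := by
  simp [plu, Complex.mul_im]; ring

/-- The fourth scalar relation (valid when `Q = -d²/2`, `N = 1 - |d|²/2`, `d = z₂ - z₄`). -/
lemma plu_Btw_24 (τ : ℝ) (z : Fin 5 → ℂ) (hQ : QQ z = -(z 2 - z 4) ^ 2 / 2)
    (hN : NN z = 1 - Complex.normSq (z 2 - z 4) / 2) :
    (1 + τ ^ 2 * ww z) * plu (Btw τ z) 2 4
      = (1 - τ ^ 2 * ww z) * plu z 2 4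
        + 2 * τ * (Complex.normSq (z 2) - Complex.normSq (z 4)) := by
  have hD : ((1 + τ ^ 2 * ww z : ℝ) : ℂ) ≠ 0 := by
    exact_mod_cast (DD_pos τ z).ne'
  have hal : ((1 + τ ^ 2 * ww z : ℝ) : ℂ) * alc τ z
      = ((1 - τ ^ 2 * ww z : ℝ) : ℂ) + 2 * Complex.I * (τ : ℂ) * (NN z : ℂ) := by
    unfold alc; field_simp
  have hbe : ((1 + τ ^ 2 * ww z : ℝ) : ℂ) * bec τ z = -2 * Complex.I * (τ : ℂ) * QQ z := by
    unfold bec; field_simp
  rw [plu_eq_im_sub_add (Btw τ z), Btw_24_sub, Btw_24_add, ← Complex.im_ofReal_mul]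
  have e : ((1 + τ ^ 2 * ww z : ℝ) : ℂ) *
      (conj (z 2 - z 4) * (alc τ z * (z 2 + z 4) + bec τ z * conj (z 2 + z 4)))
      = conj (z 2 - z 4) * ((((1 + τ ^ 2 * ww z : ℝ) : ℂ) * alc τ z) * (z 2 + z 4)
        + (((1 + τ ^ 2 * ww z : ℝ) : ℂ) * bec τ z) * conj (z 2 + z 4)) := by ring
  rw [e, hal, hbe, hQ, hN]
  generalize (1 - τ ^ 2 * ww z) = A
  simp [plu, Complex.normSq_apply, Complex.mul_im, Complex.mul_re, pow_two]
  ring

/-! ### Facts on the cone -/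

lemma cone_real {z : Fin 5 → ℂ} (hz : z ∈ unitCone) (h0 : z 0 = 0) :
    ((z 1).re ^ 2 + (z 2).re ^ 2 + (z 3).re ^ 2 + (z 4).re ^ 2 = 1 / 2) ∧
    ((z 1).im ^ 2 + (z 2).im ^ 2 + (z 3).im ^ 2 + (z 4).im ^ 2 = 1 / 2) ∧
    ((z 1).re * (z 1).im + (z 2).re * (z 2).im + (z 3).re * (z 3).im + (z 4).re * (z 4).im = 0) := by
  obtain ⟨h1, h2⟩ := hz
  have a1 := congrArg Complex.re h1
  have a2 := congrArg Complex.re h2
  have a3 := congrArg Complex.im h2
  simp [herm, Fin.sum_univ_five, h0, Complex.mul_re, Complex.mul_im, pow_two] at a1 a2 a3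
  refine ⟨by nlinarith, by nlinarith, by nlinarith⟩

lemma plucker_rel (z : Fin 5 → ℂ) :
    plu z 1 2 * plu z 3 4 - plu z 1 3 * plu z 2 4 + plu z 1 4 * plu z 2 3 = 0 := by
  simp [plu, Complex.mul_im]; ring

lemma plu_re_im (z : Fin 5 → ℂ) (i j : Fin 5) :
    plu z i j = 2 * ((z i).re * (z j).im - (z i).im * (z j).re) := by
  simp [plu, Complex.mul_im]; ring

lemma plu_norm {z : Fin 5 → ℂ} (hz : z ∈ unitCone) (h0 : z 0 = 0) :
    plu z 1 2 ^ 2 + plu z 1 3 ^ 2 + plu z 1 4 ^ 2 + plu z 2 3 ^ 2 + plu z 2 4 ^ 2 + plu z 3 4 ^ 2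
      = 1 := by
  obtain ⟨a, b, c⟩ := cone_real hz h0
  simp only [plu_re_im]
  linear_combination (4 * ((z 1).im ^ 2 + (z 2).im ^ 2 + (z 3).im ^ 2 + (z 4).im ^ 2)) * a
    + 2 * b - 4 * ((z 1).re * (z 1).im + (z 2).re * (z 2).im + (z 3).re * (z 3).im
      + (z 4).re * (z 4).im) * c

lemma normSq_two {z : Fin 5 → ℂ} (hz : z ∈ unitCone) (h0 : z 0 = 0) :
    2 * Complex.normSq (z 2) = plu z 1 2 ^ 2 + plu z 2 3 ^ 2 + plu z 2 4 ^ 2 := by
  obtain ⟨a, b, c⟩ := cone_real hz h0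
  simp only [plu_re_im, Complex.normSq_apply]
  linear_combination (-4 * (z 2).im ^ 2) * a - (4 * (z 2).re ^ 2) * b
    + 8 * ((z 2).re * (z 2).im) * c

lemma normSq_four {z : Fin 5 → ℂ} (hz : z ∈ unitCone) (h0 : z 0 = 0) :
    2 * Complex.normSq (z 4) = plu z 1 4 ^ 2 + plu z 2 4 ^ 2 + plu z 3 4 ^ 2 := by
  obtain ⟨a, b, c⟩ := cone_real hz h0
  simp only [plu_re_im, Complex.normSq_apply]
  linear_combination (-4 * (z 4).im ^ 2) * a - (4 * (z 4).re ^ 2) * b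
    + 8 * ((z 4).re * (z 4).im) * c

lemma QQ_cone {z : Fin 5 → ℂ} (hz : z ∈ unitCone) (h0 : z 0 = 0) :
    QQ z = -(z 2 - z 4) ^ 2 / 2 := by
  have h2 := hz.2
  simp only [Fin.sum_univ_five, h0] at h2
  unfold QQ
  linear_combination h2

lemma NN_cone {z : Fin 5 → ℂ} (hz : z ∈ unitCone) (h0 : z 0 = 0) :
    NN z = 1 - Complex.normSq (z 2 - z 4) / 2 := by
  obtain ⟨a, b, c⟩ := cone_real hz h0
  unfold NN
  simp only [Complex.normSq_apply, Complex.add_re, Complex.add_im, Complex.sub_re, Complex.sub_im]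
  linear_combination a + b

/-! ### The fixed point equation -/

/-- inverse of the linear part `Glin`, up to the sign. -/
def Rinv (z : Fin 5 → ℂ) : Fin 5 → ℂ :=
  ![-(z 0), (119 / 169 : ℂ) * z 1 + (120 / 169 : ℂ) * z 2,
    -(120 / 169 : ℂ) * z 1 + (119 / 169 : ℂ) * z 2, z 3, z 4]

lemma Btw_eq_of_fixed {z : Fin 5 → ℂ} {l : ℂ} (h : Phi z = l • z) :
    Btw (65 / 72) z = (-l) • Rinv z := by
  have h0 := congrFun h 0
  have h1 := congrFun h 1
  have h2 := congrFun h 2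
  have h3 := congrFun h 3
  have h4 := congrFun h 4
  simp only [Phi, Glin, Pi.smul_apply, smul_eq_mul, Matrix.cons_val] at h0 h1 h2 h3 h4
  funext j
  fin_cases j
  · simp only [Rinv, Pi.smul_apply, smul_eq_mul, Matrix.cons_val, Fin.zero_eta]
    linear_combination h0
  · simp only [Rinv, Pi.smul_apply, smul_eq_mul, Matrix.cons_val, Fin.mk_one]
    linear_combination (-119 / 169 : ℂ) * h1 - (120 / 169 : ℂ) * h2
  · simp only [Rinv, Pi.smul_apply, smul_eq_mul, Matrix.cons_val, Fin.reduceFinMk]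
    linear_combination (120 / 169 : ℂ) * h1 - (119 / 169 : ℂ) * h2
  · simp only [Rinv, Pi.smul_apply, smul_eq_mul, Matrix.cons_val, Fin.reduceFinMk]
    linear_combination -h3
  · simp only [Rinv, Pi.smul_apply, smul_eq_mul, Matrix.cons_val, Fin.reduceFinMk]
    linear_combination -h4

lemma plu_Btw_of_fixed {z : Fin 5 → ℂ} {l : ℂ} (hl : ‖l‖ = 1) (h : Phi z = l • z) (i j : Fin 5) :
    plu (Btw (65 / 72) z) i j = plu (Rinv z) i j := by
  rw [Btw_eq_of_fixed h, plu_smul, norm_neg, hl]; ring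

lemma plu_Rinv_12 (z : Fin 5 → ℂ) : plu (Rinv z) 1 2 = plu z 1 2 := by
  simp [plu_re_im, Rinv]; ring
lemma plu_Rinv_13 (z : Fin 5 → ℂ) :
    plu (Rinv z) 1 3 = 119 / 169 * plu z 1 3 + 120 / 169 * plu z 2 3 := by
  simp [plu_re_im, Rinv]; ring
lemma plu_Rinv_14 (z : Fin 5 → ℂ) :
    plu (Rinv z) 1 4 = 119 / 169 * plu z 1 4 + 120 / 169 * plu z 2 4 := by
  simp [plu_re_im, Rinv]; ring
lemma plu_Rinv_23 (z : Fin 5 → ℂ) :
    plu (Rinv z) 2 3 = -(120 / 169) * plu z 1 3 + 119 / 169 * plu z 2 3 := by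
  simp [plu_re_im, Rinv]; ring
lemma plu_Rinv_24 (z : Fin 5 → ℂ) :
    plu (Rinv z) 2 4 = -(120 / 169) * plu z 1 4 + 119 / 169 * plu z 2 4 := by
  simp [plu_re_im, Rinv]; ring
lemma plu_Rinv_34 (z : Fin 5 → ℂ) : plu (Rinv z) 3 4 = plu z 3 4 := by
  simp [plu_re_im, Rinv]

/-- **Classification** of the fixed lines of `Phi` in the hyperplane section `z 0 = 0`. -/
theorem class_plu {z : Fin 5 → ℂ} {l : ℂ} (hz : z ∈ unitCone) (h0 : z 0 = 0) (hl : ‖l‖ = 1)
    (h : Phi z = l • z) :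
    plu z 1 3 = 0 ∧ plu z 2 3 = 0 ∧ plu z 3 4 = 0 ∧
      ((plu z 1 4 = 12 / 13 ∧ plu z 2 4 = 5 / 13 ∧ plu z 1 2 = 0) ∨
       (plu z 1 4 = -156 / 313 ∧ plu z 2 4 = -65 / 313 ∧ plu z 1 2 ^ 2 = 69408 / 97969)) := by
  have c13 := plu_Btw_13 (65 / 72) z
  have c12 := plu_Btw_12_14 (65 / 72) z
  have c32 := plu_Btw_32_34 (65 / 72) z
  have c24 := plu_Btw_24 (65 / 72) z (QQ_cone hz h0) (NN_cone hz h0)
  rw [plu_antisymm _ 2 3, plu_antisymm z 2 3] at c32
  simp only [plu_Btw_of_fixed hl h, plu_Rinv_12, plu_Rinv_13, plu_Rinv_14, plu_Rinv_23,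
    plu_Rinv_24, plu_Rinv_34] at c13 c12 c32 c24
  have n2 := normSq_two hz h0
  have n4 := normSq_four hz h0
  have hP := plucker_rel z
  have hn := plu_norm hz h0
  generalize plu z 1 2 = p12 at *
  generalize plu z 1 3 = p13 at *
  generalize plu z 1 4 = p14 at *
  generalize plu z 2 3 = p23 at *
  generalize plu z 2 4 = p24 at *
  generalize plu z 3 4 = p34 at *
  generalize Complex.normSq (z 2) = m2 at *
  generalize Complex.normSq (z 4) = m4 at *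
  generalize ww z = w at *
  have e13 : p13 = 0 := by linarith
  have e23 : p23 = 0 := by linarith
  have e24 : p24 = 5 / 12 * p14 := by linarith
  subst e13 e23 e24
  have e4 : 5 / 12 * p14 = -(65 / 144) * (p12 ^ 2 - p14 ^ 2 - p34 ^ 2) := by
    linear_combination (-1 / 2) * c24 - (65 / 144) * n2 + (65 / 144) * n4
  have hprod : p12 * p34 = 0 := by linarith
  rcases mul_eq_zero.mp hprod with h12 | h34
  · subst h12
    have hf : (13 * p14 - 12) * (25 * p14 + 156) = 0 := by nlinarith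
    rcases mul_eq_zero.mp hf with h1 | h1
    · have e14 : p14 = 12 / 13 := by linarith
      subst e14
      have : p34 ^ 2 = 0 := by nlinarith
      have e34 : p34 = 0 := by simpa using this
      refine ⟨rfl, rfl, e34, Or.inl ⟨rfl, by norm_num, rfl⟩⟩
    · exfalso
      have e14 : p14 = -156 / 25 := by linarith
      subst e14
      nlinarith [sq_nonneg p34]
  · subst h34
    have hf : (13 * p14 - 12) * (313 * p14 + 156) = 0 := by nlinarith
    rcases mul_eq_zero.mp hf with h1 | h1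
    · have e14 : p14 = 12 / 13 := by linarith
      subst e14
      have : p12 ^ 2 = 0 := by nlinarith
      have e12 : p12 = 0 := by simpa using this
      refine ⟨rfl, rfl, rfl, Or.inl ⟨rfl, by norm_num, e12⟩⟩
    · have e14 : p14 = -156 / 313 := by linarith
      subst e14
      refine ⟨rfl, rfl, rfl, Or.inr ⟨rfl, by norm_num, by nlinarith⟩⟩

end

end Crest.Agent.S0316Aux
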