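import Crest.Prelude.Def_QuadricHamiltonian

/-!
helper96: time concatenation of two `HamiltonianConeLift`s (design independent).
-/

set_option autoImplicit false

open Crest.GeometryTopology.Quadric

namespace Crest.Agent.S0316Aux.H96

noncomputable section

/-- first clock: runs from 0 to 1 on `[0,1/3]`, then stays 1. -/
def clockA (t : ℝ) : ℝ := Real.smoothTransition (3 * t)
/-- second clock: 0 on `(-∞,2/3]`, runs from 0 to 1 on `[2/3,1]`. -/
def clockB (t : ℝ) : ℝ := Real.smoothTransition (3 * t - 2)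

lemma contDiff_clockA : ContDiff ℝ (⊤ : ℕ∞) clockA := by
  unfold clockA
  exact Real.smoothTransition.contDiff.comp (contDiff_const.mul contDiff_id)

lemma contDiff_clockB : ContDiff ℝ (⊤ : ℕ∞) clockB := by
  unfold clockB
  exact Real.smoothTransition.contDiff.comp ((contDiff_const.mul contDiff_id).sub contDiff_const)

lemma contDiff_deriv_clockA : ContDiff ℝ (⊤ : ℕ∞) (deriv clockA) :=
  (contDiff_infty_iff_deriv.mp contDiff_clockA).2

lemma contDiff_deriv_clockB : ContDiff ℝ (⊤ : ℕ∞) (deriv clockB) :=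
  (contDiff_infty_iff_deriv.mp contDiff_clockB).2

lemma clockA_mem (t : ℝ) : clockA t ∈ Set.Icc (0 : ℝ) 1 :=
  ⟨Real.smoothTransition.nonneg _, Real.smoothTransition.le_one _⟩

lemma clockB_mem (t : ℝ) : clockB t ∈ Set.Icc (0 : ℝ) 1 :=
  ⟨Real.smoothTransition.nonneg _, Real.smoothTransition.le_one _⟩

lemma clockA_zero : clockA 0 = 0 := by simp [clockA]
lemma clockB_zero : clockB 0 = 0 := by
  unfold clockB; exact Real.smoothTransition.zero_of_nonpos (by norm_num)
lemma clockA_one : clockA 1 = 1 := by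
  unfold clockA; exact Real.smoothTransition.one_of_one_le (by norm_num)
lemma clockB_one : clockB 1 = 1 := by
  unfold clockB; exact Real.smoothTransition.one_of_one_le (by norm_num)

lemma clockB_eq_zero {t : ℝ} (h : t ≤ 2 / 3) : clockB t = 0 := by
  unfold clockB; exact Real.smoothTransition.zero_of_nonpos (by linarith)
lemma clockA_eq_one {t : ℝ} (h : 1 / 3 ≤ t) : clockA t = 1 := by
  unfold clockA; exact Real.smoothTransition.one_of_one_le (by linarith)

lemma clockB_eventually_zero {t : ℝ} (h : t < 2 / 3) : clockB =ᶠ[nhds t] fun _ => 0 := by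
  filter_upwards [Iio_mem_nhds h] with s hs
  exact clockB_eq_zero (le_of_lt hs)

lemma clockA_eventually_one {t : ℝ} (h : 1 / 3 < t) : clockA =ᶠ[nhds t] fun _ => 1 := by
  filter_upwards [Ioi_mem_nhds h] with s hs
  exact clockA_eq_one (le_of_lt hs)

lemma deriv_clockB_eq_zero {t : ℝ} (h : t < 2 / 3) : deriv clockB t = 0 := by
  rw [(clockB_eventually_zero h).deriv_eq]; simp

lemma deriv_clockA_eq_zero {t : ℝ} (h : 1 / 3 < t) : deriv clockA t = 0 := by
  rw [(clockA_eventually_one h).deriv_eq]; simp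

lemma herm_smul_smul (c : ℂ) (u w : Fin 5 → ℂ) :
    herm (c • u) (c • w) = (starRingEnd ℂ c * c) * herm u w := by
  unfold herm
  rw [Finset.mul_sum]
  refine Finset.sum_congr rfl fun j _ => ?_
  simp only [Pi.smul_apply, smul_eq_mul, map_mul]
  ring

lemma conj_mul_self_of_norm_one {c : ℂ} (hc : ‖c‖ = 1) : starRingEnd ℂ c * c = 1 := by
  rw [Complex.conj_mul', hc]; simp

lemma smul_mem_unitCone {c : ℂ} (hc : ‖c‖ = 1) {z : Fin 5 → ℂ} (hz : z ∈ unitCone) :
    c • z ∈ unitCone := by
  refine ⟨?_, ?_⟩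
  · rw [herm_smul_smul, conj_mul_self_of_norm_one hc, hz.1, one_mul]
  · have : ∑ j, (c • z) j ^ 2 = c ^ 2 * ∑ j, z j ^ 2 := by
      rw [Finset.mul_sum]
      refine Finset.sum_congr rfl fun j _ => ?_
      simp only [Pi.smul_apply, smul_eq_mul]; ring
    rw [this, hz.2, mul_zero]

lemma norm_eq_one_of_smul_mem {c : ℂ} {z : Fin 5 → ℂ} (hz : z ∈ unitCone)
    (hcz : c • z ∈ unitCone) : ‖c‖ = 1 := by
  have h := hcz.1
  rw [herm_smul_smul, hz.1, mul_one, Complex.conj_mul'] at h
  have h2 : ‖c‖ ^ 2 = 1 := by exact_mod_cast h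
  have h3 : (‖c‖ - 1) * (‖c‖ + 1) = 0 := by ring_nf; linarith
  rcases mul_eq_zero.mp h3 with h4 | h4
  · linarith
  · have := norm_nonneg c; linarith

lemma herm_real_smul_left (r : ℝ) (u w : Fin 5 → ℂ) :
    herm (r • u) w = (r : ℂ) * herm u w := by
  unfold herm
  rw [Finset.mul_sum]
  refine Finset.sum_congr rfl fun j _ => ?_
  simp only [Pi.smul_apply, Complex.real_smul, map_mul, Complex.conj_ofReal]
  ring

lemma lift_hasDerivAt (L : HamiltonianConeLift) (σ : ℝ) (z : Fin 5 → ℂ) :
    HasDerivAt (fun s : ℝ => L.Ψ (s, z)) (deriv (fun s : ℝ => L.Ψ (s, z)) σ) σ := by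
  apply DifferentiableAt.hasDerivAt
  have h1 : Differentiable ℝ L.Ψ := L.smooth_Ψ.differentiable (by simp)
  have h2 : Differentiable ℝ (fun s : ℝ => ((s, z) : ℝ × (Fin 5 → ℂ))) :=
    differentiable_id.prodMk (differentiable_const z)
  exact (h1.comp h2) σ

lemma lift_H_differentiableAt (L : HamiltonianConeLift) (σ : ℝ) (x : Fin 5 → ℂ) :
    DifferentiableAt ℝ (fun y : Fin 5 → ℂ => L.H (σ, y)) x := by
  have h1 : Differentiable ℝ L.H := L.smooth_H.differentiable (by simp)
  have h2 : Differentiable ℝ (fun y : Fin 5 → ℂ => ((σ, y) : ℝ × (Fin 5 → ℂ))) :=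
    (differentiable_const σ).prodMk differentiable_id
  exact (h1.comp h2) x

/-- Time concatenation: first run `L1` (during `[0,1/3]`), then `L2` (during `[2/3,1]`). -/
def concat (L1 L2 : HamiltonianConeLift) (h2 : ∀ y, L2.Ψ (0, y) = y) : HamiltonianConeLift where
  Ψ := fun p => L2.Ψ (clockB p.1, L1.Ψ (clockA p.1, p.2))
  H := fun p => deriv clockA p.1 * L1.H (clockA p.1, p.2) + deriv clockB p.1 * L2.H (clockB p.1, p.2)
  smooth_Ψ := by
    refine L2.smooth_Ψ.comp ((contDiff_clockB.comp contDiff_fst).prodMk ?_)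
    exact L1.smooth_Ψ.comp ((contDiff_clockA.comp contDiff_fst).prodMk contDiff_snd)
  smooth_H := by
    refine ContDiff.add (ContDiff.mul (contDiff_deriv_clockA.comp contDiff_fst) ?_)
      (ContDiff.mul (contDiff_deriv_clockB.comp contDiff_fst) ?_)
    · exact L1.smooth_H.comp ((contDiff_clockA.comp contDiff_fst).prodMk contDiff_snd)
    · exact L2.smooth_H.comp ((contDiff_clockB.comp contDiff_fst).prodMk contDiff_snd)
  mapsTo_cone := fun t z hz => L2.mapsTo_cone _ _ (L1.mapsTo_cone _ _ hz)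
  compatible := by
    intro t z hz c hc
    obtain ⟨c1, hc1⟩ := L1.compatible (clockA t) z hz c hc
    have hy := L1.mapsTo_cone (clockA t) z hz
    have hy' := L1.mapsTo_cone (clockA t) (c • z) (smul_mem_unitCone hc hz)
    rw [hc1] at hy'
    have hn : ‖c1‖ = 1 := norm_eq_one_of_smul_mem hy hy'
    obtain ⟨c2, hc2⟩ := L2.compatible (clockB t) _ hy c1 hn
    exact ⟨c2, by simp only [hc1, hc2]⟩
  start := by
    intro z hz
    obtain ⟨c, hc⟩ := L1.start z hz
    exact ⟨c, by simp only [clockA_zero, clockB_zero, h2, hc]⟩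
  invariant := by
    intro t z hz c hc
    simp only [L1.invariant _ z hz c hc, L2.invariant _ z hz c hc]
  hamilton := by
    intro t _ z hz w hw
    simp only at hw ⊢
    rcases lt_or_ge t (2 / 3) with ht | ht
    · -- only `L1` moves
      have hb0 : clockB t = 0 := clockB_eq_zero ht.le
      have hΨ : (fun s : ℝ => L2.Ψ (clockB s, L1.Ψ (clockA s, z)))
          =ᶠ[nhds t] fun s => L1.Ψ (clockA s, z) := by
        filter_upwards [clockB_eventually_zero ht] with s hs
        rw [hs, h2]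
      rw [hb0, h2] at hw
      rw [hΨ.deriv_eq, hb0, h2, deriv_clockB_eq_zero ht]
      have hA : HasDerivAt clockA (deriv clockA t) t :=
        ((contDiff_clockA.differentiable (by simp)) t).hasDerivAt
      have hd : HasDerivAt (fun s : ℝ => L1.Ψ (clockA s, z))
          (deriv clockA t • deriv (fun s : ℝ => L1.Ψ (s, z)) (clockA t)) t :=
        (lift_hasDerivAt L1 (clockA t) z).scomp t hA
      rw [hd.deriv, herm_real_smul_left]
      have hH : (fun x : Fin 5 → ℂ => deriv clockA t * L1.H (clockA t, x) + 0 * L2.H (0, x))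
          = fun x => deriv clockA t * L1.H (clockA t, x) := by
        funext x; ring
      rw [hH, fderiv_const_mul (lift_H_differentiableAt L1 _ _)]
      have := L1.hamilton (clockA t) (clockA_mem t) z hz w hw
      simp only [_root_.smul_apply, smul_eq_mul, ← this, Complex.mul_im,
        Complex.ofReal_re, Complex.ofReal_im]
      ring
    · -- only `L2` moves
      have ht' : (1 : ℝ) / 3 < t := by linarith
      have ha1 : clockA t = 1 := clockA_eq_one ht'.le
      have hΨ : (fun s : ℝ => L2.Ψ (clockB s, L1.Ψ (clockA s, z)))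
          =ᶠ[nhds t] fun s => L2.Ψ (clockB s, L1.Ψ (1, z)) := by
        filter_upwards [clockA_eventually_one ht'] with s hs
        rw [hs]
      rw [ha1] at hw
      rw [hΨ.deriv_eq, ha1, deriv_clockA_eq_zero ht']
      have hB : HasDerivAt clockB (deriv clockB t) t :=
        ((contDiff_clockB.differentiable (by simp)) t).hasDerivAt
      have hd : HasDerivAt (fun s : ℝ => L2.Ψ (clockB s, L1.Ψ (1, z)))
          (deriv clockB t • deriv (fun s : ℝ => L2.Ψ (s, L1.Ψ (1, z))) (clockB t)) t :=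
        (lift_hasDerivAt L2 (clockB t) (L1.Ψ (1, z))).scomp t hB
      rw [hd.deriv, herm_real_smul_left]
      have hH : (fun x : Fin 5 → ℂ => 0 * L1.H (1, x) + deriv clockB t * L2.H (clockB t, x))
          = fun x => deriv clockB t * L2.H (clockB t, x) := by
        funext x; ring
      rw [hH, fderiv_const_mul (lift_H_differentiableAt L2 _ _)]
      have := L2.hamilton (clockB t) (clockB_mem t) _ (L1.mapsTo_cone 1 z hz) w hw
      simp only [_root_.smul_apply, smul_eq_mul, ← this, Complex.mul_im,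
        Complex.ofReal_re, Complex.ofReal_im]
      ring

@[simp] lemma concat_Ψ (L1 L2 : HamiltonianConeLift) (h2 : ∀ y, L2.Ψ (0, y) = y)
    (t : ℝ) (z : Fin 5 → ℂ) :
    (concat L1 L2 h2).Ψ (t, z) = L2.Ψ (clockB t, L1.Ψ (clockA t, z)) := rfl

lemma concat_Ψ_one (L1 L2 : HamiltonianConeLift) (h2 : ∀ y, L2.Ψ (0, y) = y)
    (z : Fin 5 → ℂ) :
    (concat L1 L2 h2).Ψ (1, z) = L2.Ψ (1, L1.Ψ (1, z)) := by
  simp [clockA_one, clockB_one]

lemma concat_Ψ_zero (L1 L2 : HamiltonianConeLift) (h2 : ∀ y, L2.Ψ (0, y) = y)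
    (h1 : ∀ y, L1.Ψ (0, y) = y) (z : Fin 5 → ℂ) :
    (concat L1 L2 h2).Ψ (0, z) = z := by
  simp [clockA_zero, clockB_zero, h1, h2]

end

end Crest.Agent.S0316Aux.H96
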