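import Crest.Agent.S0316Aux.H96_Concat

/-!
helper96: the plane twist `z ↦ rot_{jk}(s * g (mu_{jk} z)) z` as a `HamiltonianConeLift`
(Hamiltonian `f ∘ mu_{jk}`, `f' = g`).  Rigid rotations are the case `f` linear.
-/

set_option autoImplicit false

open Crest.GeometryTopology.Quadric

namespace Crest.Agent.S0316Aux.H96

noncomputable section

/-- the moment function of the rotation in the real `(j,k)`-plane. -/
def mu (j k : Fin 5) (z : Fin 5 → ℂ) : ℝ := 2 * (starRingEnd ℂ (z j) * z k).im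

/-- rotation of the real `(j,k)`-plane by the angle `θ` (acting complex linearly). -/
def rot (j k : Fin 5) (θ : ℝ) (z : Fin 5 → ℂ) : Fin 5 → ℂ := fun i =>
  if i = j then (Real.cos θ : ℂ) * z j - (Real.sin θ : ℂ) * z k
  else if i = k then (Real.sin θ : ℂ) * z j + (Real.cos θ : ℂ) * z k
  else z i

/-- the infinitesimal rotation. -/
def rotJ (j k : Fin 5) (z : Fin 5 → ℂ) : Fin 5 → ℂ := fun i =>
  if i = j then - z k else if i = k then z j else 0

variable {j k : Fin 5}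

lemma rot_apply_j (θ : ℝ) (z : Fin 5 → ℂ) :
    rot j k θ z j = (Real.cos θ : ℂ) * z j - (Real.sin θ : ℂ) * z k := by simp [rot]

lemma rot_apply_k (hjk : j ≠ k) (θ : ℝ) (z : Fin 5 → ℂ) :
    rot j k θ z k = (Real.sin θ : ℂ) * z j + (Real.cos θ : ℂ) * z k := by
  simp [rot, hjk.symm]

lemma rot_apply_of_ne {i : Fin 5} (hj : i ≠ j) (hk : i ≠ k) (θ : ℝ) (z : Fin 5 → ℂ) :
    rot j k θ z i = z i := by simp [rot, hj, hk]

lemma rot_zero (z : Fin 5 → ℂ) : rot j k 0 z = z := by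
  funext i
  unfold rot
  split_ifs with h1 h2
  · simp [h1]
  · simp [h2]
  · rfl

lemma rot_smul (θ : ℝ) (c : ℂ) (z : Fin 5 → ℂ) : rot j k θ (c • z) = c • rot j k θ z := by
  funext i
  simp only [rot, Pi.smul_apply, smul_eq_mul]
  split_ifs <;> ring

/-- sums of a two-variable expression over the coordinates only change at `j` and `k`. -/
lemma sum_rot₂ (hjk : j ≠ k) (G : ℂ → ℂ → ℂ) (u u' w w' : Fin 5 → ℂ)
    (hu : ∀ i, i ≠ j → i ≠ k → u' i = u i) (hw : ∀ i, i ≠ j → i ≠ k → w' i = w i)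
    (h : G (u' j) (w' j) + G (u' k) (w' k) = G (u j) (w j) + G (u k) (w k)) :
    ∑ i, G (u' i) (w' i) = ∑ i, G (u i) (w i) := by
  have key : ∀ F : Fin 5 → ℂ, ∑ i, F i = F j + F k + ∑ i ∈ (Finset.univ.erase j).erase k, F i := by
    intro F
    rw [← Finset.add_sum_erase Finset.univ F (Finset.mem_univ j),
      ← Finset.add_sum_erase (Finset.univ.erase j) F
        (Finset.mem_erase.mpr ⟨hjk.symm, Finset.mem_univ k⟩)]
    ring
  rw [key, key (fun i => G (u i) (w i)), h]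
  congr 1
  refine Finset.sum_congr rfl fun i hi => ?_
  have hik : i ≠ k := (Finset.mem_erase.mp hi).1
  have hij : i ≠ j := (Finset.mem_erase.mp (Finset.mem_erase.mp hi).2).1
  rw [hu i hij hik, hw i hij hik]

lemma cos_sq_add_sin_sq_c (θ : ℝ) : (Real.cos θ : ℂ) ^ 2 + (Real.sin θ : ℂ) ^ 2 = 1 := by
  have := Real.cos_sq_add_sin_sq θ
  exact_mod_cast this

lemma herm_rot_rot (hjk : j ≠ k) (θ : ℝ) (u w : Fin 5 → ℂ) :
    herm (rot j k θ u) (rot j k θ w) = herm u w := by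
  unfold herm
  refine sum_rot₂ hjk (fun a b => starRingEnd ℂ a * b) u _ w _
    (fun i h1 h2 => rot_apply_of_ne h1 h2 θ u) (fun i h1 h2 => rot_apply_of_ne h1 h2 θ w) ?_
  simp only [rot_apply_j, rot_apply_k hjk, map_sub, map_add, map_mul, Complex.conj_ofReal]
  linear_combination (starRingEnd ℂ (u j) * w j + starRingEnd ℂ (u k) * w k) *
    cos_sq_add_sin_sq_c θ

lemma sum_mul_rot_rot (hjk : j ≠ k) (θ : ℝ) (u w : Fin 5 → ℂ) :
    ∑ i, rot j k θ u i * rot j k θ w i = ∑ i, u i * w i := by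
  refine sum_rot₂ hjk (fun a b => a * b) u _ w _
    (fun i h1 h2 => rot_apply_of_ne h1 h2 θ u) (fun i h1 h2 => rot_apply_of_ne h1 h2 θ w) ?_
  simp only [rot_apply_j, rot_apply_k hjk]
  linear_combination (u j * w j + u k * w k) * cos_sq_add_sin_sq_c θ

lemma rot_mem_unitCone (hjk : j ≠ k) (θ : ℝ) {z : Fin 5 → ℂ} (hz : z ∈ unitCone) :
    rot j k θ z ∈ unitCone := by
  refine ⟨by rw [herm_rot_rot hjk, hz.1], ?_⟩
  have := sum_mul_rot_rot hjk θ z z
  simp only [← pow_two] at this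
  rw [this, hz.2]

lemma mu_rot (hjk : j ≠ k) (θ : ℝ) (z : Fin 5 → ℂ) : mu j k (rot j k θ z) = mu j k z := by
  unfold mu
  rw [rot_apply_j, rot_apply_k hjk]
  have h := Real.cos_sq_add_sin_sq θ
  simp only [map_sub, map_mul, Complex.conj_ofReal, Complex.mul_im, Complex.sub_im, Complex.add_im,
    Complex.sub_re, Complex.add_re, Complex.mul_re, Complex.ofReal_re, Complex.ofReal_im,
    Complex.conj_re, Complex.conj_im]
  linear_combination (2 * ((z j).re * (z k).im - (z j).im * (z k).re)) * h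

lemma mu_smul {c : ℂ} (hc : ‖c‖ = 1) (z : Fin 5 → ℂ) : mu j k (c • z) = mu j k z := by
  unfold mu
  simp only [Pi.smul_apply, smul_eq_mul, map_mul]
  have : starRingEnd ℂ c * starRingEnd ℂ (z j) * (c * z k)
      = (starRingEnd ℂ c * c) * (starRingEnd ℂ (z j) * z k) := by ring
  rw [this, conj_mul_self_of_norm_one hc, one_mul]

lemma mu_eq (z : Fin 5 → ℂ) :
    mu j k z = 2 * ((z j).re * (z k).im - (z j).im * (z k).re) := by
  simp [mu, Complex.mul_im]; ring

/-- real part of a coordinate as a continuous linear map. -/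
def reC (i : Fin 5) : (Fin 5 → ℂ) →L[ℝ] ℝ :=
  Complex.reCLM.comp (ContinuousLinearMap.proj (R := ℝ) (φ := fun _ : Fin 5 => ℂ) i)
/-- imaginary part of a coordinate as a continuous linear map. -/
def imC (i : Fin 5) : (Fin 5 → ℂ) →L[ℝ] ℝ :=
  Complex.imCLM.comp (ContinuousLinearMap.proj (R := ℝ) (φ := fun _ : Fin 5 => ℂ) i)

@[simp] lemma reC_apply (i : Fin 5) (z : Fin 5 → ℂ) : reC i z = (z i).re := rfl
@[simp] lemma imC_apply (i : Fin 5) (z : Fin 5 → ℂ) : imC i z = (z i).im := rfl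

lemma contDiff_mu : ContDiff ℝ (⊤ : ℕ∞) (mu j k) := by
  have : mu j k = fun z => 2 * (reC j z * imC k z - imC j z * reC k z) := by
    funext z; rw [mu_eq]; rfl
  rw [this]
  exact contDiff_const.mul (((reC j).contDiff.mul (imC k).contDiff).sub
    ((imC j).contDiff.mul (reC k).contDiff))

lemma hasFDerivAt_mu (y : Fin 5 → ℂ) :
    HasFDerivAt (mu j k)
      ((2 : ℝ) • (((y j).re • imC k + (y k).im • reC j) - ((y j).im • reC k + (y k).re • imC j))) y := by
  have : mu j k = fun z => 2 * (reC j z * imC k z - imC j z * reC k z) := by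
    funext z; rw [mu_eq]; rfl
  rw [this]
  exact (((reC j).hasFDerivAt.mul (imC k).hasFDerivAt).sub
    ((imC j).hasFDerivAt.mul (reC k).hasFDerivAt)).const_mul 2

lemma herm_rotJ (hjk : j ≠ k) (y w : Fin 5 → ℂ) :
    herm (rotJ j k y) w = - starRingEnd ℂ (y k) * w j + starRingEnd ℂ (y j) * w k := by
  unfold herm
  have h0 : ∑ i, starRingEnd ℂ ((0 : Fin 5 → ℂ) i) * w i = 0 := by simp
  have key : ∀ F : Fin 5 → ℂ, ∑ i, F i = F j + F k + ∑ i ∈ (Finset.univ.erase j).erase k, F i := by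
    intro F
    rw [← Finset.add_sum_erase Finset.univ F (Finset.mem_univ j),
      ← Finset.add_sum_erase (Finset.univ.erase j) F
        (Finset.mem_erase.mpr ⟨hjk.symm, Finset.mem_univ k⟩)]
    ring
  rw [key]
  have : ∑ i ∈ (Finset.univ.erase j).erase k, starRingEnd ℂ (rotJ j k y i) * w i = 0 := by
    refine Finset.sum_eq_zero fun i hi => ?_
    have hik : i ≠ k := (Finset.mem_erase.mp hi).1
    have hij : i ≠ j := (Finset.mem_erase.mp (Finset.mem_erase.mp hi).2).1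
    simp [rotJ, hij, hik]
  rw [this]
  simp [rotJ, hjk.symm]

lemma hasDerivAt_rot (hjk : j ≠ k) (θ : ℝ) (z : Fin 5 → ℂ) (t : ℝ) :
    HasDerivAt (fun s : ℝ => rot j k (s * θ) z) (θ • rotJ j k (rot j k (t * θ) z)) t := by
  rw [hasDerivAt_pi]
  intro i
  have hc : HasDerivAt (fun s : ℝ => ((Real.cos (s * θ) : ℝ) : ℂ))
      ((-(Real.sin (t * θ)) * θ : ℝ) : ℂ) t := by
    have := ((Real.hasDerivAt_cos (t * θ)).comp t ((hasDerivAt_id t).mul_const θ)).ofReal_comp
    simpa using this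
  have hs : HasDerivAt (fun s : ℝ => ((Real.sin (s * θ) : ℝ) : ℂ))
      ((Real.cos (t * θ) * θ : ℝ) : ℂ) t := by
    have := ((Real.hasDerivAt_sin (t * θ)).comp t ((hasDerivAt_id t).mul_const θ)).ofReal_comp
    simpa using this
  by_cases hi : i = j
  · subst hi
    have h := (hc.mul_const (z i)).sub (hs.mul_const (z k))
    have e1 : (fun s : ℝ => rot i k (s * θ) z i)
        = fun s : ℝ => ((Real.cos (s * θ) : ℝ) : ℂ) * z i - ((Real.sin (s * θ) : ℝ) : ℂ) * z k := by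
      funext s; rw [rot_apply_j]
    rw [e1]
    refine h.congr_deriv ?_
    simp only [Pi.smul_apply, rotJ, if_true, Complex.real_smul, rot_apply_k hjk]
    push_cast; ring
  · by_cases hi2 : i = k
    · subst hi2
      have h := (hs.mul_const (z j)).add (hc.mul_const (z i))
      have e1 : (fun s : ℝ => rot j i (s * θ) z i)
          = fun s : ℝ => ((Real.sin (s * θ) : ℝ) : ℂ) * z j + ((Real.cos (s * θ) : ℝ) : ℂ) * z i := by
        funext s; rw [rot_apply_k hjk]
      rw [e1]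
      refine h.congr_deriv ?_
      simp only [Pi.smul_apply, rotJ, hi, if_false, if_true, Complex.real_smul, rot_apply_j]
      push_cast; ring
    · have e1 : (fun s : ℝ => rot j k (s * θ) z i) = fun _ => z i := by
        funext s; rw [rot_apply_of_ne hi hi2]
      rw [e1]
      simp only [Pi.smul_apply, rotJ, hi, hi2, if_false, smul_zero]
      exact hasDerivAt_const _ _

lemma contDiff_rot_comp {E : Type*} [NormedAddCommGroup E] [NormedSpace ℝ E]
    {θ : E → ℝ} {y : E → (Fin 5 → ℂ)} (hθ : ContDiff ℝ (⊤ : ℕ∞) θ) (hy : ContDiff ℝ (⊤ : ℕ∞) y) :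
    ContDiff ℝ (⊤ : ℕ∞) (fun p => rot j k (θ p) (y p)) := by
  rw [contDiff_pi]
  intro i
  have hyi : ∀ l : Fin 5, ContDiff ℝ (⊤ : ℕ∞) (fun p => y p l) := fun l => (contDiff_pi.mp hy) l
  have hc : ContDiff ℝ (⊤ : ℕ∞) (fun p => ((Real.cos (θ p) : ℝ) : ℂ)) :=
    Complex.ofRealCLM.contDiff.comp (Real.contDiff_cos.comp hθ)
  have hs : ContDiff ℝ (⊤ : ℕ∞) (fun p => ((Real.sin (θ p) : ℝ) : ℂ)) :=
    Complex.ofRealCLM.contDiff.comp (Real.contDiff_sin.comp hθ)
  unfold rot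
  split_ifs
  · exact (hc.mul (hyi j)).sub (hs.mul (hyi k))
  · exact (hs.mul (hyi j)).add (hc.mul (hyi k))
  · exact hyi i

/-- The plane twist: Hamiltonian `f ∘ mu_{jk}`, flow = rotation of the `(j,k)`-plane by the angle
`s * g (mu_{jk} z)` where `g = f'`. -/
def planeTwist (j k : Fin 5) (hjk : j ≠ k) (f g : ℝ → ℝ) (hf : ContDiff ℝ (⊤ : ℕ∞) f)
    (hg : ContDiff ℝ (⊤ : ℕ∞) g) (hfg : ∀ x, HasDerivAt f (g x) x) : HamiltonianConeLift where
  Ψ := fun p => rot j k (p.1 * g (mu j k p.2)) p.2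
  H := fun p => f (mu j k p.2)
  smooth_Ψ := contDiff_rot_comp (contDiff_fst.mul (hg.comp (contDiff_mu.comp contDiff_snd)))
    contDiff_snd
  smooth_H := hf.comp (contDiff_mu.comp contDiff_snd)
  mapsTo_cone := fun t z hz => rot_mem_unitCone hjk _ hz
  compatible := fun t z _ c hc => ⟨c, by simp only [mu_smul hc, rot_smul]⟩
  start := fun z _ => ⟨1, by simp [rot_zero]⟩
  invariant := fun t z _ c hc => by simp only [mu_smul hc]
  hamilton := by
    intro t _ z _ w _
    simp only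
    rw [(hasDerivAt_rot hjk (g (mu j k z)) z t).deriv, herm_real_smul_left, herm_rotJ hjk]
    set y := rot j k (t * g (mu j k z)) z with hy
    have hmu : mu j k y = mu j k z := mu_rot hjk _ _
    have hd : HasFDerivAt (fun x : Fin 5 → ℂ => f (mu j k x))
        (g (mu j k y) • ((2 : ℝ) • (((y j).re • imC k + (y k).im • reC j)
          - ((y j).im • reC k + (y k).re • imC j)))) y :=
      (hfg (mu j k y)).comp_hasFDerivAt y (hasFDerivAt_mu y)
    rw [hd.fderiv, hmu]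
    simp [Complex.mul_im, Complex.mul_re]
    ring

@[simp] lemma planeTwist_Ψ (j k : Fin 5) (hjk : j ≠ k) (f g : ℝ → ℝ) (hf : ContDiff ℝ (⊤ : ℕ∞) f)
    (hg : ContDiff ℝ (⊤ : ℕ∞) g) (hfg : ∀ x, HasDerivAt f (g x) x) (t : ℝ) (z : Fin 5 → ℂ) :
    (planeTwist j k hjk f g hf hg hfg).Ψ (t, z) = rot j k (t * g (mu j k z)) z := rfl

lemma planeTwist_Ψ_zero (j k : Fin 5) (hjk : j ≠ k) (f g : ℝ → ℝ) (hf : ContDiff ℝ (⊤ : ℕ∞) f)
    (hg : ContDiff ℝ (⊤ : ℕ∞) g) (hfg : ∀ x, HasDerivAt f (g x) x) (z : Fin 5 → ℂ) :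
    (planeTwist j k hjk f g hf hg hfg).Ψ (0, z) = z := by simp [rot_zero]

lemma planeTwist_Ψ_one (j k : Fin 5) (hjk : j ≠ k) (f g : ℝ → ℝ) (hf : ContDiff ℝ (⊤ : ℕ∞) f)
    (hg : ContDiff ℝ (⊤ : ℕ∞) g) (hfg : ∀ x, HasDerivAt f (g x) x) (z : Fin 5 → ℂ) :
    (planeTwist j k hjk f g hf hg hfg).Ψ (1, z) = rot j k (g (mu j k z)) z := by simp

/-- The rigid rotation of the `(j,k)`-plane by the angle `s * α`. -/
def rigidRot (j k : Fin 5) (hjk : j ≠ k) (α : ℝ) : HamiltonianConeLift :=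
  planeTwist j k hjk (fun x => α * x) (fun _ => α) (contDiff_const.mul contDiff_id) contDiff_const
    (fun x => by simpa using (hasDerivAt_id x).const_mul α)

lemma rigidRot_Ψ (j k : Fin 5) (hjk : j ≠ k) (α : ℝ) (t : ℝ) (z : Fin 5 → ℂ) :
    (rigidRot j k hjk α).Ψ (t, z) = rot j k (t * α) z := rfl

end

end Crest.Agent.S0316Aux.H96
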