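import Crest.Agent.S0316Aux.Defs
import Crest.Agent.S0316Aux.H96_Concat
import Crest.Agent.S0316Aux.H96_PlaneTwist

/-!
helper42: glue lemma.  From a lift of the Cayley–Casimir twist to a lift with time-one map `Phi`.
-/

set_option autoImplicit false

noncomputable section

namespace Crest.Agent.S0316Aux

open Crest.GeometryTopology.Quadric
open Crest.Agent.S0316Aux.H96

/-- the angle `α = 2 arctan (5/12)`. -/
def alphaG : ℝ := 2 * Real.arctan (5 / 12)

lemma cos_arctan_G : Real.cos (Real.arctan (5 / 12)) = 12 / 13 := by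
  rw [Real.cos_arctan]
  have h : Real.sqrt (1 + (5 / 12 : ℝ) ^ 2) = 13 / 12 := by
    rw [show (1 + (5 / 12 : ℝ) ^ 2) = (13 / 12) ^ 2 by norm_num]
    exact Real.sqrt_sq (by norm_num)
  rw [h]; norm_num

lemma sin_arctan_G : Real.sin (Real.arctan (5 / 12)) = 5 / 13 := by
  rw [Real.sin_arctan]
  have h : Real.sqrt (1 + (5 / 12 : ℝ) ^ 2) = 13 / 12 := by
    rw [show (1 + (5 / 12 : ℝ) ^ 2) = (13 / 12) ^ 2 by norm_num]
    exact Real.sqrt_sq (by norm_num)
  rw [h]; norm_num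

lemma cos_alphaG : Real.cos alphaG = 119 / 169 := by
  unfold alphaG
  rw [Real.cos_two_mul, cos_arctan_G]; norm_num

lemma sin_alphaG : Real.sin alphaG = 120 / 169 := by
  unfold alphaG
  rw [Real.sin_two_mul, cos_arctan_G, sin_arctan_G]; norm_num

lemma cos_pi_add_alphaG : Real.cos (Real.pi + alphaG) = -(119 / 169) := by
  rw [add_comm, Real.cos_add_pi, cos_alphaG]

lemma sin_pi_add_alphaG : Real.sin (Real.pi + alphaG) = -(120 / 169) := by
  rw [add_comm, Real.sin_add_pi, sin_alphaG]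

lemma rot_rot_eq_Glin (b : Fin 5 → ℂ) :
    rot 3 4 Real.pi (rot 1 2 (Real.pi + alphaG) b) = Glin b := by
  funext i
  fin_cases i <;>
    simp [rot, Glin, cos_pi_add_alphaG, sin_pi_add_alphaG] <;> ring

/-- Glue: a lift of the twist gives a lift with time-one map `Phi`. -/
theorem exists_lift_Phi (LB : HamiltonianConeLift)
    (hB : ∀ z, LB.Ψ (1, z) = Btw (65 / 72) z) :
    ∃ L : HamiltonianConeLift, ∀ z, L.Ψ (1, z) = Phi z := by
  have h12 : (1 : Fin 5) ≠ 2 := by decide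
  have h34 : (3 : Fin 5) ≠ 4 := by decide
  have s12 : ∀ y, (rigidRot 1 2 h12 (Real.pi + alphaG)).Ψ (0, y) = y := by
    intro y; rw [rigidRot_Ψ]; simp [rot_zero]
  have s34 : ∀ y, (rigidRot 3 4 h34 Real.pi).Ψ (0, y) = y := by
    intro y; rw [rigidRot_Ψ]; simp [rot_zero]
  refine ⟨concat (concat LB (rigidRot 1 2 h12 (Real.pi + alphaG)) s12)
    (rigidRot 3 4 h34 Real.pi) s34, fun z => ?_⟩
  rw [concat_Ψ_one, concat_Ψ_one, hB, rigidRot_Ψ, rigidRot_Ψ, one_mul, one_mul,
    rot_rot_eq_Glin]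
  rfl

end Crest.Agent.S0316Aux
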