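import Crest.Agent.S0316Aux.Defs
import Crest.Agent.S0316Aux.H35_Plucker
import Crest.Agent.S0316Aux.H42_Glue

/-!
helper42: final assembly of S0316 from the five interfaces
(CAYLIFT, OFFQ2, CLASS, POINTS, DEGEN).
-/

set_option autoImplicit false

noncomputable section

namespace Crest.Agent.S0316Aux

open Crest.GeometryTopology.Quadric

/-- Two points with vanishing `0`-th coordinate and the same six Plücker coordinates
`12, 13, 14, 23, 24, 34` have the same Plücker coordinates. -/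
lemma plu_ext_of_six {z z' : Fin 5 → ℂ} (h0 : z 0 = 0) (h0' : z' 0 = 0)
    (h12 : plu z 1 2 = plu z' 1 2) (h13 : plu z 1 3 = plu z' 1 3)
    (h14 : plu z 1 4 = plu z' 1 4) (h23 : plu z 2 3 = plu z' 2 3)
    (h24 : plu z 2 4 = plu z' 2 4) (h34 : plu z 3 4 = plu z' 3 4) :
    ∀ i j, plu z i j = plu z' i j := by
  have z0j : ∀ j, plu z 0 j = 0 := fun j => by simp [plu, h0]
  have z0j' : ∀ j, plu z' 0 j = 0 := fun j => by simp [plu, h0']
  have zj0 : ∀ j, plu z j 0 = 0 := fun j => by simp [plu, h0]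
  have zj0' : ∀ j, plu z' j 0 = 0 := fun j => by simp [plu, h0']
  intro i j
  fin_cases i <;> fin_cases j <;>
    first
      | exact (z0j _).trans (z0j' _).symm
      | exact (zj0 _).trans (zj0' _).symm
      | exact (plu_self z _).trans (plu_self z' _).symm
      | assumption
      | (rw [plu_antisymm z, plu_antisymm z']; congr 1)

/-- The shape of the Plücker data of a point: `(p12, p14, p24)`, all the others vanish. -/
def HasPlu (z : Fin 5 → ℂ) (p12 p14 p24 : ℝ) : Prop :=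
  z 0 = 0 ∧ plu z 1 2 = p12 ∧ plu z 1 3 = 0 ∧ plu z 1 4 = p14 ∧ plu z 2 3 = 0 ∧
    plu z 2 4 = p24 ∧ plu z 3 4 = 0

lemma HasPlu.ext {z z' : Fin 5 → ℂ} {a b c : ℝ} (h : HasPlu z a b c) (h' : HasPlu z' a b c) :
    ∀ i j, plu z i j = plu z' i j := by
  obtain ⟨h0, h12, h13, h14, h23, h24, h34⟩ := h
  obtain ⟨h0', h12', h13', h14', h23', h24', h34'⟩ := h'
  exact plu_ext_of_six h0 h0' (h12.trans h12'.symm) (h13.trans h13'.symm) (h14.trans h14'.symm)
    (h23.trans h23'.symm) (h24.trans h24'.symm) (h34.trans h34'.symm)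

/-- **Final assembly.**  `ρ = 12 √482 / 313` enters only through `ρ > 0`, `ρ² = 69408/97969`. -/
theorem final_of_interfaces
    -- CAYLIFT
    (hLift : ∃ LB : HamiltonianConeLift, ∀ z, LB.Ψ (1, z) = Btw (65 / 72) z)
    -- OFFQ2 + CLASS
    (hClass : ∀ z ∈ unitCone, ∀ l : ℂ, Phi z = l • z →
      HasPlu z 0 (12 / 13) (5 / 13) ∨
        ∃ q : ℝ, q ^ 2 = 69408 / 97969 ∧ HasPlu z q (-156 / 313) (-65 / 313))
    -- POINTS
    (ρ : ℝ) (hρ0 : 0 < ρ) (hρ : ρ ^ 2 = 69408 / 97969)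
    (Z0 Z1 Z2 : Fin 5 → ℂ)
    (c0 : Z0 ∈ unitCone) (c1 : Z1 ∈ unitCone) (c2 : Z2 ∈ unitCone)
    (f0 : ∃ l : ℂ, Phi Z0 = l • Z0) (f1 : ∃ l : ℂ, Phi Z1 = l • Z1)
    (f2 : ∃ l : ℂ, Phi Z2 = l • Z2)
    (p0 : HasPlu Z0 0 (12 / 13) (5 / 13)) (p1 : HasPlu Z1 ρ (-156 / 313) (-65 / 313))
    (p2 : HasPlu Z2 (-ρ) (-156 / 313) (-65 / 313))
    -- DEGEN
    (hDegen : ∀ L : HamiltonianConeLift, (∀ z, L.Ψ (1, z) = Phi z) →
      HasDegenerateFixedPoint L) :
    ∃ L : HamiltonianConeLift, (fixedLines L).ncard = 3 ∧ HasDegenerateFixedPoint L := by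
  obtain ⟨LB, hLB⟩ := hLift
  obtain ⟨L, hL⟩ := exists_lift_Phi LB hLB
  refine ⟨L, ?_, hDegen L hL⟩
  refine ncard_fixedLines_eq_three L Z0 Z1 Z2 c0 c1 c2 (by simpa only [hL] using f0)
    (by simpa only [hL] using f1) (by simpa only [hL] using f2) ?_ ?_ ?_ ?_
  · refine ⟨1, 4, ?_⟩
    rw [p0.2.2.2.1, p1.2.2.2.1]; norm_num
  · refine ⟨1, 4, ?_⟩
    rw [p0.2.2.2.1, p2.2.2.2.1]; norm_num
  · refine ⟨1, 2, ?_⟩
    rw [p1.2.1, p2.2.1]; intro h; linarith
  · intro z hz hc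
    obtain ⟨l, hl⟩ := hc
    rw [hL] at hl
    rcases hClass z hz l hl with h | ⟨q, hq, h⟩
    · exact Or.inl (h.ext p0)
    · have hfac : (q - ρ) * (q + ρ) = 0 := by linear_combination hq - hρ
      rcases mul_eq_zero.mp hfac with h1 | h1
      · have : q = ρ := by linarith
        subst this
        exact Or.inr (Or.inl (h.ext p1))
      · have : q = -ρ := by linarith
        subst this
        exact Or.inr (Or.inr (h.ext p2))

end Crest.Agent.S0316Aux
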