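import Mathlib

/-!
# S0316 auxiliary file (helper46): the algebraic core of the fixed point count

Pure real arithmetic.  `u, v` are unit vectors of `ℝ³`, `x = u'`, `y = v'` their images under the
Cayley twist about `w = u + v` (constant `65/144`), and `u`, `v` are recovered from `x`, `y` by the
rotations about `e₁`, `e₂` with `tan (θ/2) = 5/12`, all written as Cayley relations
`Y - X = c • n × (X + Y)`.
-/

set_option autoImplicit false

namespace Crest.Agent.S0316Aux.H46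

theorem sq_sum_zero (a b c : ℝ) (h : a ^ 2 + b ^ 2 + c ^ 2 = 0) : a = 0 ∧ b = 0 ∧ c = 0 := by
  have ha : a ^ 2 = 0 := le_antisymm (by linarith [sq_nonneg b, sq_nonneg c]) (sq_nonneg a)
  have hb : b ^ 2 = 0 := le_antisymm (by linarith [sq_nonneg a, sq_nonneg c]) (sq_nonneg b)
  have hc : c ^ 2 = 0 := le_antisymm (by linarith [sq_nonneg a, sq_nonneg b]) (sq_nonneg c)
  exact ⟨pow_eq_zero_iff (two_ne_zero) |>.mp ha, pow_eq_zero_iff (two_ne_zero) |>.mp hb,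
    pow_eq_zero_iff (two_ne_zero) |>.mp hc⟩

/-- The forward direction of the count: the four Cayley relations force one of the three points. -/
theorem core_forward
    (u1 u2 u3 v1 v2 v3 x1 x2 x3 y1 y2 y3 : ℝ)
    (hu : u1 ^ 2 + u2 ^ 2 + u3 ^ 2 = 1) (hv : v1 ^ 2 + v2 ^ 2 + v3 ^ 2 = 1)
    (e11 : x1 - u1 = 65 / 144 * ((u2 + v2) * (u3 + x3) - (u3 + v3) * (u2 + x2)))
    (e12 : x2 - u2 = 65 / 144 * ((u3 + v3) * (u1 + x1) - (u1 + v1) * (u3 + x3)))
    (e13 : x3 - u3 = 65 / 144 * ((u1 + v1) * (u2 + x2) - (u2 + v2) * (u1 + x1)))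
    (e21 : y1 - v1 = 65 / 144 * ((u2 + v2) * (v3 + y3) - (u3 + v3) * (v2 + y2)))
    (e22 : y2 - v2 = 65 / 144 * ((u3 + v3) * (v1 + y1) - (u1 + v1) * (v3 + y3)))
    (e23 : y3 - v3 = 65 / 144 * ((u1 + v1) * (v2 + y2) - (u2 + v2) * (v1 + y1)))
    (e31 : u1 - x1 = 0) (e32 : u2 - x2 = -(5 / 12) * (u3 + x3))
    (e33 : u3 - x3 = 5 / 12 * (u2 + x2))
    (e41 : v1 - y1 = 5 / 12 * (v3 + y3)) (e42 : v2 - y2 = 0)
    (e43 : v3 - y3 = -(5 / 12) * (v1 + y1)) :
    (u1 = 0 ∧ u2 = -12 / 13 ∧ u3 = -5 / 13 ∧ v1 = -12 / 13 ∧ v2 = 0 ∧ v3 = 5 / 13) ∨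
    (u1 ^ 2 = 69408 / 97969 ∧ u2 = 156 / 313 ∧ u3 = 65 / 313 ∧
      v1 = 156 / 313 ∧ v2 = u1 ∧ v3 = -65 / 313) := by
  -- Step 1: the twist preserves `w = u + v`.
  set s1 := x1 + y1 - (u1 + v1) with hs1
  set s2 := x2 + y2 - (u2 + v2) with hs2
  set s3 := x3 + y3 - (u3 + v3) with hs3
  have h1 : s1 = 65 / 144 * ((u2 + v2) * s3 - (u3 + v3) * s2) := by
    rw [hs1, hs2, hs3]; linear_combination e11 + e21
  have h2 : s2 = 65 / 144 * ((u3 + v3) * s1 - (u1 + v1) * s3) := by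
    rw [hs1, hs2, hs3]; linear_combination e12 + e22
  have h3 : s3 = 65 / 144 * ((u1 + v1) * s2 - (u2 + v2) * s1) := by
    rw [hs1, hs2, hs3]; linear_combination e13 + e23
  have hss : s1 ^ 2 + s2 ^ 2 + s3 ^ 2 = 0 := by
    linear_combination s1 * h1 + s2 * h2 + s3 * h3
  obtain ⟨hs1z, hs2z, hs3z⟩ := sq_sum_zero s1 s2 s3 hss
  -- Step 2: linear consequences.
  have hx1 : x1 = u1 := by linarith
  have hy2 : y2 = v2 := by linarith
  have hy1 : y1 = v1 := by rw [hs1] at hs1z; linarith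
  have hx2 : x2 = u2 := by rw [hs2] at hs2z; linarith
  have hx3 : x3 = -u3 := by
    have : u3 + x3 = 0 := by
      have := e32; rw [hx2] at this; linarith
    linarith
  have hy3 : y3 = -v3 := by
    have : v3 + y3 = 0 := by
      have := e41; rw [hy1] at this; linarith
    linarith
  have hv3 : v3 = -u3 := by rw [hs3] at hs3z; rw [hx3, hy3] at hs3z; linarith
  have hu2 : u2 = 12 / 5 * u3 := by
    have := e33; rw [hx3, hx2] at this; linarith
  have hv1 : v1 = 12 / 5 * u3 := by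
    have := e43; rw [hy3, hy1, hv3] at this; linarith
  -- Step 3: the quadratic relation.
  have hq : u3 = 65 / 144 * (u1 * v2 - 144 / 25 * u3 ^ 2) := by
    have := e13
    rw [hx3, hx2, hx1, hu2, hv1] at this
    linear_combination (-1 / 2) * this
  have hp2 : u1 ^ 2 = 1 - 169 / 25 * u3 ^ 2 := by
    have := hu; rw [hu2] at this; linear_combination this
  have hq2 : v2 ^ 2 = 1 - 169 / 25 * u3 ^ 2 := by
    have := hv; rw [hv1, hv3] at this; linear_combination this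
  have hpq : u1 * v2 = 144 / 65 * u3 + 144 / 25 * u3 ^ 2 := by linear_combination (-144 / 65) * hq
  -- Step 4: the quartic in `D = u3`.
  have hquart : (313 / 25 * u3 ^ 2 + 144 / 65 * u3 - 1) * (u3 ^ 2 - 144 / 65 * u3 - 1) = 0 := by
    have h : (u1 * v2) ^ 2 = u1 ^ 2 * v2 ^ 2 := by ring
    rw [hpq, hp2, hq2] at h
    linear_combination (-1) * h
  have hfac : (u3 + 5 / 13) ^ 2 * (u3 - 65 / 313) * (u3 - 13 / 5) = 0 := by
    linear_combination (25 / 313) * hquart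
  have hbound : u3 ^ 2 ≤ 25 / 169 := by
    have h0 := sq_nonneg u1
    rw [hp2] at h0; linarith
  have hne : u3 - 13 / 5 ≠ 0 := by
    intro h
    have : u3 = 13 / 5 := by linarith
    rw [this] at hbound; norm_num at hbound
  rcases mul_eq_zero.mp hfac with h | h
  · rcases mul_eq_zero.mp h with h | h
    · -- `D = -5/13`
      left
      have hD : u3 = -5 / 13 := by
        have := pow_eq_zero_iff (two_ne_zero) |>.mp h
        linarith
      have hp0 : u1 ^ 2 = 0 := by rw [hp2, hD]; norm_num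
      have hq0 : v2 ^ 2 = 0 := by rw [hq2, hD]; norm_num
      refine ⟨pow_eq_zero_iff (two_ne_zero) |>.mp hp0, ?_, hD, ?_,
        pow_eq_zero_iff (two_ne_zero) |>.mp hq0, ?_⟩
      · rw [hu2, hD]; norm_num
      · rw [hv1, hD]; norm_num
      · rw [hv3, hD]; norm_num
    · -- `D = 65/313`
      right
      have hD : u3 = 65 / 313 := by linarith
      have hp : u1 ^ 2 = 69408 / 97969 := by rw [hp2, hD]; norm_num
      have hpq' : u1 * v2 = 69408 / 97969 := by rw [hpq, hD]; norm_num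
      have hu1 : u1 ≠ 0 := by
        intro h0; rw [h0] at hp; norm_num at hp
      have hvu : v2 = u1 := by
        have : u1 * (v2 - u1) = 0 := by linear_combination hpq' - hp
        rcases mul_eq_zero.mp this with h0 | h0
        · exact absurd h0 hu1
        · linarith
      refine ⟨hp, ?_, hD, ?_, hvu, ?_⟩
      · rw [hu2, hD]; norm_num
      · rw [hv1, hD]; norm_num
      · rw [hv3, hD]; norm_num
  · exact absurd h hne

/-- The degenerate point satisfies the four Cayley relations (with `x = (u1,u2,-u3)`,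
`y = (v1,v2,-v3)`). -/
theorem core_backward_zero :
    let u1 : ℝ := 0; let u2 : ℝ := -12 / 13; let u3 : ℝ := -5 / 13
    let v1 : ℝ := -12 / 13; let v2 : ℝ := 0; let v3 : ℝ := 5 / 13
    let x1 := u1; let x2 := u2; let x3 := -u3; let y1 := v1; let y2 := v2; let y3 := -v3
    (u1 ^ 2 + u2 ^ 2 + u3 ^ 2 = 1) ∧ (v1 ^ 2 + v2 ^ 2 + v3 ^ 2 = 1) ∧
    (x1 - u1 = 65 / 144 * ((u2 + v2) * (u3 + x3) - (u3 + v3) * (u2 + x2))) ∧
    (x2 - u2 = 65 / 144 * ((u3 + v3) * (u1 + x1) - (u1 + v1) * (u3 + x3))) ∧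
    (x3 - u3 = 65 / 144 * ((u1 + v1) * (u2 + x2) - (u2 + v2) * (u1 + x1))) ∧
    (y1 - v1 = 65 / 144 * ((u2 + v2) * (v3 + y3) - (u3 + v3) * (v2 + y2))) ∧
    (y2 - v2 = 65 / 144 * ((u3 + v3) * (v1 + y1) - (u1 + v1) * (v3 + y3))) ∧
    (y3 - v3 = 65 / 144 * ((u1 + v1) * (v2 + y2) - (u2 + v2) * (v1 + y1))) ∧
    (u1 - x1 = 0) ∧ (u2 - x2 = -(5 / 12) * (u3 + x3)) ∧ (u3 - x3 = 5 / 12 * (u2 + x2)) ∧
    (v1 - y1 = 5 / 12 * (v3 + y3)) ∧ (v2 - y2 = 0) ∧ (v3 - y3 = -(5 / 12) * (v1 + y1)) := by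
  norm_num

/-- The two nondegenerate points satisfy the four Cayley relations. -/
theorem core_backward_pm (p : ℝ) (hp : p ^ 2 = 69408 / 97969) :
    let u1 : ℝ := p; let u2 : ℝ := 156 / 313; let u3 : ℝ := 65 / 313
    let v1 : ℝ := 156 / 313; let v2 : ℝ := p; let v3 : ℝ := -65 / 313
    let x1 := u1; let x2 := u2; let x3 := -u3; let y1 := v1; let y2 := v2; let y3 := -v3
    (u1 ^ 2 + u2 ^ 2 + u3 ^ 2 = 1) ∧ (v1 ^ 2 + v2 ^ 2 + v3 ^ 2 = 1) ∧
    (x1 - u1 = 65 / 144 * ((u2 + v2) * (u3 + x3) - (u3 + v3) * (u2 + x2))) ∧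
    (x2 - u2 = 65 / 144 * ((u3 + v3) * (u1 + x1) - (u1 + v1) * (u3 + x3))) ∧
    (x3 - u3 = 65 / 144 * ((u1 + v1) * (u2 + x2) - (u2 + v2) * (u1 + x1))) ∧
    (y1 - v1 = 65 / 144 * ((u2 + v2) * (v3 + y3) - (u3 + v3) * (v2 + y2))) ∧
    (y2 - v2 = 65 / 144 * ((u3 + v3) * (v1 + y1) - (u1 + v1) * (v3 + y3))) ∧
    (y3 - v3 = 65 / 144 * ((u1 + v1) * (v2 + y2) - (u2 + v2) * (v1 + y1))) ∧
    (u1 - x1 = 0) ∧ (u2 - x2 = -(5 / 12) * (u3 + x3)) ∧ (u3 - x3 = 5 / 12 * (u2 + x2)) ∧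
    (v1 - y1 = 5 / 12 * (v3 + y3)) ∧ (v2 - y2 = 0) ∧ (v3 - y3 = -(5 / 12) * (v1 + y1)) := by
  intro u1 u2 u3 v1 v2 v3 x1 x2 x3 y1 y2 y3
  simp only [u1, u2, u3, v1, v2, v3, x1, x2, x3, y1, y2, y3]
  refine ⟨?_, ?_, ?_, ?_, ?_, ?_, ?_, ?_, ?_, ?_, ?_, ?_, ?_, ?_⟩
  · rw [hp]; norm_num
  · rw [hp]; norm_num
  · ring
  · ring
  · linear_combination (65 / 72) * hp
  · ring
  · ring
  · linear_combination (-65 / 72) * hp
  · ring
  · ring
  · ring
  · ring
  · ring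
  · ring

/-- The positive root `r = 12 √482 / 313` of `p² = 69408/97969`. -/
noncomputable def rootR : ℝ := 12 * Real.sqrt 482 / 313

theorem rootR_sq : rootR ^ 2 = 69408 / 97969 := by
  unfold rootR
  have h : Real.sqrt 482 ^ 2 = 482 := Real.sq_sqrt (by norm_num)
  rw [div_pow, mul_pow, h]; norm_num

theorem rootR_pos : 0 < rootR := by
  unfold rootR
  have : 0 < Real.sqrt 482 := Real.sqrt_pos.mpr (by norm_num)
  positivity

theorem eq_rootR_or (p : ℝ) (hp : p ^ 2 = 69408 / 97969) : p = rootR ∨ p = -rootR := by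
  have h : (p - rootR) * (p + rootR) = 0 := by linear_combination hp - rootR_sq
  rcases mul_eq_zero.mp h with h | h
  · left; linarith
  · right; linarith

end Crest.Agent.S0316Aux.H46
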