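import Crest.Agent.S0316Aux.H96_PlaneTwist

/-!
helper59 (Track A, task A6): plane twists whose angle profile is `2 * arctan (affine) + c0`.
The time-one map is a *rational* rotation of the `(j,k)`-plane.
-/

set_option autoImplicit false

open Crest.GeometryTopology.Quadric
open Crest.Agent.S0316Aux.H96

namespace Crest.Agent.S0316Aux.H59

noncomputable section

/-- the angle profile `2 arctan (a x + m) + c0`. -/
def gTw (a m c0 : ℝ) (x : ℝ) : ℝ := 2 * Real.arctan (a * x + m) + c0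

/-- an antiderivative of `gTw` (for `a ≠ 0`). -/
def fTw (a m c0 : ℝ) (x : ℝ) : ℝ :=
  (2 * (a * x + m) * Real.arctan (a * x + m) - Real.log (1 + (a * x + m) ^ 2)) / a + c0 * x

lemma contDiff_aff (a m : ℝ) : ContDiff ℝ (⊤ : ℕ∞) (fun x : ℝ => a * x + m) :=
  (contDiff_const.mul contDiff_id).add contDiff_const

lemma contDiff_arctan_aff (a m : ℝ) :
    ContDiff ℝ (⊤ : ℕ∞) (fun x : ℝ => Real.arctan (a * x + m)) :=
  Real.contDiff_arctan.comp (contDiff_aff a m)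

lemma contDiff_gTw (a m c0 : ℝ) : ContDiff ℝ (⊤ : ℕ∞) (gTw a m c0) :=
  (contDiff_const.mul (contDiff_arctan_aff a m)).add contDiff_const

lemma contDiff_fTw (a m c0 : ℝ) : ContDiff ℝ (⊤ : ℕ∞) (fTw a m c0) := by
  unfold fTw
  have h1 : ContDiff ℝ (⊤ : ℕ∞) (fun x : ℝ => Real.log (1 + (a * x + m) ^ 2)) := by
    apply ContDiff.log (contDiff_const.add ((contDiff_aff a m).pow 2))
    intro x
    positivity
  exact ((((contDiff_const.mul (contDiff_aff a m)).mul (contDiff_arctan_aff a m)).sub h1).div_const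
    a).add (contDiff_const.mul contDiff_id)

lemma hasDerivAt_fTw {a : ℝ} (ha : a ≠ 0) (m c0 x : ℝ) :
    HasDerivAt (fTw a m c0) (gTw a m c0 x) x := by
  unfold fTw gTw
  have hy : HasDerivAt (fun x : ℝ => a * x + m) a x := by
    simpa using ((hasDerivAt_id x).const_mul a).add_const m
  have hpos : (1 + (a * x + m) ^ 2) ≠ 0 := by positivity
  have h1 := hy.arctan
  have h2 : HasDerivAt (fun x : ℝ => Real.log (1 + (a * x + m) ^ 2))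
      ((2 * (a * x + m) * a) / (1 + (a * x + m) ^ 2)) x := by
    have := ((hy.pow 2).const_add 1).log hpos
    simpa using this
  have h3 := ((((hy.const_mul 2).mul h1).sub h2).div_const a).add ((hasDerivAt_id x).const_mul c0)
  have e : ((2 * a * Real.arctan (a * x + m) + 2 * (a * x + m) * (1 / (1 + (a * x + m) ^ 2) * a) -
          2 * (a * x + m) * a / (1 + (a * x + m) ^ 2)) / a + c0 * 1)
      = 2 * Real.arctan (a * x + m) + c0 := by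
    field_simp
    ring
  rw [e] at h3
  exact h3

/-- the plane twist with angle profile `2 arctan (a * mu + m) + c0`. -/
def arctanTwist (j k : Fin 5) (hjk : j ≠ k) (a : ℝ) (ha : a ≠ 0) (m c0 : ℝ) :
    HamiltonianConeLift :=
  planeTwist j k hjk (fTw a m c0) (gTw a m c0) (contDiff_fTw a m c0) (contDiff_gTw a m c0)
    (hasDerivAt_fTw ha m c0)

lemma arctanTwist_Ψ_zero (j k : Fin 5) (hjk : j ≠ k) (a : ℝ) (ha : a ≠ 0) (m c0 : ℝ)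
    (z : Fin 5 → ℂ) : (arctanTwist j k hjk a ha m c0).Ψ (0, z) = z :=
  planeTwist_Ψ_zero _ _ _ _ _ _ _ _ _

lemma cos_two_arctan (r : ℝ) : Real.cos (2 * Real.arctan r) = (1 - r ^ 2) / (1 + r ^ 2) := by
  have hpos : (0 : ℝ) < 1 + r ^ 2 := by positivity
  rw [Real.cos_two_mul, Real.cos_sq_arctan]
  field_simp
  ring

lemma sin_two_arctan (r : ℝ) : Real.sin (2 * Real.arctan r) = 2 * r / (1 + r ^ 2) := by
  have hpos : (0 : ℝ) < 1 + r ^ 2 := by positivity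
  rw [Real.sin_two_mul, Real.sin_arctan, Real.cos_arctan]
  have hs : Real.sqrt (1 + r ^ 2) * Real.sqrt (1 + r ^ 2) = 1 + r ^ 2 :=
    Real.mul_self_sqrt hpos.le
  have hs0 : Real.sqrt (1 + r ^ 2) ≠ 0 := (Real.sqrt_pos.mpr hpos).ne'
  field_simp
  rw [pow_two (Real.sqrt (1 + r ^ 2)), hs]

/-- rational rotation of the `(j,k)`-plane with half-angle tangent `r`, times the sign `σ`. -/
def ratRot (j k : Fin 5) (σ r : ℝ) (z : Fin 5 → ℂ) : Fin 5 → ℂ := fun i =>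
  if i = j then ((σ * (1 - r ^ 2) / (1 + r ^ 2) : ℝ) : ℂ) * z j
      - ((σ * (2 * r) / (1 + r ^ 2) : ℝ) : ℂ) * z k
  else if i = k then ((σ * (2 * r) / (1 + r ^ 2) : ℝ) : ℂ) * z j
      + ((σ * (1 - r ^ 2) / (1 + r ^ 2) : ℝ) : ℂ) * z k
  else z i

lemma rot_two_arctan (j k : Fin 5) (r : ℝ) (z : Fin 5 → ℂ) :
    rot j k (2 * Real.arctan r + 0) z = ratRot j k 1 r z := by
  funext i
  simp only [rot, ratRot, add_zero, cos_two_arctan, sin_two_arctan, one_mul]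

lemma rot_two_arctan_add_pi (j k : Fin 5) (r : ℝ) (z : Fin 5 → ℂ) :
    rot j k (2 * Real.arctan r + Real.pi) z = ratRot j k (-1) r z := by
  funext i
  simp only [rot, ratRot, Real.cos_add_pi, Real.sin_add_pi, cos_two_arctan, sin_two_arctan]
  have e1 : -((1 - r ^ 2) / (1 + r ^ 2)) = -1 * (1 - r ^ 2) / (1 + r ^ 2) := by ring
  have e2 : -(2 * r / (1 + r ^ 2)) = -1 * (2 * r) / (1 + r ^ 2) := by ring
  rw [e1, e2]

lemma arctanTwist_Ψ_one_zero (j k : Fin 5) (hjk : j ≠ k) (a : ℝ) (ha : a ≠ 0) (m : ℝ)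
    (z : Fin 5 → ℂ) :
    (arctanTwist j k hjk a ha m 0).Ψ (1, z) = ratRot j k 1 (a * mu j k z + m) z := by
  unfold arctanTwist
  rw [planeTwist_Ψ_one]
  exact rot_two_arctan j k _ z

lemma arctanTwist_Ψ_one_pi (j k : Fin 5) (hjk : j ≠ k) (a : ℝ) (ha : a ≠ 0) (m : ℝ)
    (z : Fin 5 → ℂ) :
    (arctanTwist j k hjk a ha m Real.pi).Ψ (1, z) = ratRot j k (-1) (a * mu j k z + m) z := by
  unfold arctanTwist
  rw [planeTwist_Ψ_one]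
  exact rot_two_arctan_add_pi j k _ z

/-- four-fold concatenation of arctan twists: first `(j₁,k₁)` and `(j₂,k₂)` with an extra angle
`π`, then `(j₃,k₃)` and `(j₄,k₄)`. -/
def fourTwist (j₁ k₁ j₂ k₂ j₃ k₃ j₄ k₄ : Fin 5) (h₁ : j₁ ≠ k₁) (h₂ : j₂ ≠ k₂) (h₃ : j₃ ≠ k₃)
    (h₄ : j₄ ≠ k₄) (a₁ a₂ a₃ a₄ : ℝ) (ha₁ : a₁ ≠ 0) (ha₂ : a₂ ≠ 0) (ha₃ : a₃ ≠ 0) (ha₄ : a₄ ≠ 0)
    (m₁ m₂ m₃ m₄ : ℝ) : HamiltonianConeLift :=
  concat (concat (concat (arctanTwist j₁ k₁ h₁ a₁ ha₁ m₁ Real.pi)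
      (arctanTwist j₂ k₂ h₂ a₂ ha₂ m₂ Real.pi) (arctanTwist_Ψ_zero _ _ _ _ _ _ _))
      (arctanTwist j₃ k₃ h₃ a₃ ha₃ m₃ 0) (arctanTwist_Ψ_zero _ _ _ _ _ _ _))
      (arctanTwist j₄ k₄ h₄ a₄ ha₄ m₄ 0) (arctanTwist_Ψ_zero _ _ _ _ _ _ _)

lemma fourTwist_Ψ_one (j₁ k₁ j₂ k₂ j₃ k₃ j₄ k₄ : Fin 5) (h₁ : j₁ ≠ k₁) (h₂ : j₂ ≠ k₂)
    (h₃ : j₃ ≠ k₃) (h₄ : j₄ ≠ k₄) (a₁ a₂ a₃ a₄ : ℝ) (ha₁ : a₁ ≠ 0) (ha₂ : a₂ ≠ 0) (ha₃ : a₃ ≠ 0)
    (ha₄ : a₄ ≠ 0) (m₁ m₂ m₃ m₄ : ℝ) (z : Fin 5 → ℂ) :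
    (fourTwist j₁ k₁ j₂ k₂ j₃ k₃ j₄ k₄ h₁ h₂ h₃ h₄ a₁ a₂ a₃ a₄ ha₁ ha₂ ha₃ ha₄ m₁ m₂ m₃ m₄).Ψ (1, z)
      = (fun y => ratRot j₄ k₄ 1 (a₄ * mu j₄ k₄ y + m₄) y)
        ((fun y => ratRot j₃ k₃ 1 (a₃ * mu j₃ k₃ y + m₃) y)
        ((fun y => ratRot j₂ k₂ (-1) (a₂ * mu j₂ k₂ y + m₂) y)
        (ratRot j₁ k₁ (-1) (a₁ * mu j₁ k₁ z + m₁) z))) := by
  unfold fourTwist
  rw [concat_Ψ_one, concat_Ψ_one, concat_Ψ_one, arctanTwist_Ψ_one_pi, arctanTwist_Ψ_one_pi,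
    arctanTwist_Ψ_one_zero, arctanTwist_Ψ_one_zero]

end

end Crest.Agent.S0316Aux.H59
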