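import Crest.Agent.S0316Aux.H6_Lift

/-!
# S0316, Track A (helper6): basic facts (cone in real coordinates, bounds, cone preservation)
-/

set_option autoImplicit false

namespace Crest.Agent.S0316Aux.H6

open Crest.GeometryTopology.Quadric Crest.Agent.S0316Aux.H96

noncomputable section

lemma pl_eq (i j : Fin 5) (z : Fin 5 → ℂ) :
    pl i j z = 2 * ((z i).re * (z j).im - (z i).im * (z j).re) := by
  simp [pl, Complex.mul_im]; ring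

lemma cone_norm {z : Fin 5 → ℂ} (hz : z ∈ unitCone) :
    (z 0).re ^ 2 + (z 0).im ^ 2 + ((z 1).re ^ 2 + (z 1).im ^ 2) + ((z 2).re ^ 2 + (z 2).im ^ 2)
      + ((z 3).re ^ 2 + (z 3).im ^ 2) + ((z 4).re ^ 2 + (z 4).im ^ 2) = 1 := by
  have h := congrArg Complex.re hz.1
  simp [herm, Fin.sum_univ_five, Complex.mul_re] at h
  linarith

lemma cone_iso_re {z : Fin 5 → ℂ} (hz : z ∈ unitCone) :
    (z 0).re ^ 2 - (z 0).im ^ 2 + ((z 1).re ^ 2 - (z 1).im ^ 2) + ((z 2).re ^ 2 - (z 2).im ^ 2)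
      + ((z 3).re ^ 2 - (z 3).im ^ 2) + ((z 4).re ^ 2 - (z 4).im ^ 2) = 0 := by
  have h := congrArg Complex.re hz.2
  simp [Fin.sum_univ_five, sq, Complex.mul_re] at h
  linarith

lemma cone_iso_im {z : Fin 5 → ℂ} (hz : z ∈ unitCone) :
    (z 0).re * (z 0).im + (z 1).re * (z 1).im + (z 2).re * (z 2).im
      + (z 3).re * (z 3).im + (z 4).re * (z 4).im = 0 := by
  have h := congrArg Complex.im hz.2
  simp [Fin.sum_univ_five, sq, Complex.mul_im] at h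
  linarith

lemma TA_mem {z : Fin 5 → ℂ} (hz : z ∈ unitCone) : TA z ∈ unitCone := by
  rw [← stageA]
  exact rot_mem_unitCone (by decide) _ (rot_mem_unitCone (by decide) _ hz)

lemma TB_mem {z : Fin 5 → ℂ} (hz : z ∈ unitCone) : TB z ∈ unitCone := by
  rw [← stageB]
  exact rot_mem_unitCone (by decide) _ (rot_mem_unitCone (by decide) _ hz)

lemma aux_bound (a b c d : ℝ) (hle : a ^ 2 + b ^ 2 + (c ^ 2 + d ^ 2) ≤ 1) :
    (2 * (a * d - b * c)) ^ 2 ≤ 1 := by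
  have h1 : 2 * (a * d - b * c) ≤ a ^ 2 + b ^ 2 + (c ^ 2 + d ^ 2) := by
    nlinarith [sq_nonneg (a - d), sq_nonneg (b + c)]
  have h2 : -(a ^ 2 + b ^ 2 + (c ^ 2 + d ^ 2)) ≤ 2 * (a * d - b * c) := by
    nlinarith [sq_nonneg (a + d), sq_nonneg (b - c)]
  have h3 : 2 * (a * d - b * c) ≤ 1 := le_trans h1 hle
  have h4 : -1 ≤ 2 * (a * d - b * c) := by linarith
  nlinarith

lemma pl12_sq_le {z : Fin 5 → ℂ} (hz : z ∈ unitCone) : pl 1 2 z ^ 2 ≤ 1 := by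
  have h := cone_norm hz
  rw [pl_eq]
  exact aux_bound _ _ _ _ (by nlinarith [sq_nonneg (z 0).re, sq_nonneg (z 0).im, sq_nonneg (z 1).re, sq_nonneg (z 1).im, sq_nonneg (z 2).re, sq_nonneg (z 2).im, sq_nonneg (z 3).re, sq_nonneg (z 3).im, sq_nonneg (z 4).re, sq_nonneg (z 4).im])
lemma pl34_sq_le {z : Fin 5 → ℂ} (hz : z ∈ unitCone) : pl 3 4 z ^ 2 ≤ 1 := by
  have h := cone_norm hz
  rw [pl_eq]
  exact aux_bound _ _ _ _ (by nlinarith [sq_nonneg (z 0).re, sq_nonneg (z 0).im, sq_nonneg (z 1).re, sq_nonneg (z 1).im, sq_nonneg (z 2).re, sq_nonneg (z 2).im, sq_nonneg (z 3).re, sq_nonneg (z 3).im, sq_nonneg (z 4).re, sq_nonneg (z 4).im])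
lemma pl14_sq_le {z : Fin 5 → ℂ} (hz : z ∈ unitCone) : pl 1 4 z ^ 2 ≤ 1 := by
  have h := cone_norm hz
  rw [pl_eq]
  exact aux_bound _ _ _ _ (by nlinarith [sq_nonneg (z 0).re, sq_nonneg (z 0).im, sq_nonneg (z 1).re, sq_nonneg (z 1).im, sq_nonneg (z 2).re, sq_nonneg (z 2).im, sq_nonneg (z 3).re, sq_nonneg (z 3).im, sq_nonneg (z 4).re, sq_nonneg (z 4).im])
lemma pl32_sq_le {z : Fin 5 → ℂ} (hz : z ∈ unitCone) : pl 3 2 z ^ 2 ≤ 1 := by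
  have h := cone_norm hz
  rw [pl_eq]
  exact aux_bound _ _ _ _ (by nlinarith [sq_nonneg (z 0).re, sq_nonneg (z 0).im, sq_nonneg (z 1).re, sq_nonneg (z 1).im, sq_nonneg (z 2).re, sq_nonneg (z 2).im, sq_nonneg (z 3).re, sq_nonneg (z 3).im, sq_nonneg (z 4).re, sq_nonneg (z 4).im])

lemma rsq_lt_M {p : ℝ} (hp : p ^ 2 ≤ 1) : (cc * (1 / 2 - p)) ^ 2 < 1 := by
  have h1 : -1 ≤ p ∧ p ≤ 1 := abs_le.mp (abs_le_one_iff_mul_self_le_one.mpr (by nlinarith))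
  have h2 : (1 / 2 - p) ^ 2 ≤ 9 / 4 := by nlinarith [h1.1, h1.2]
  rw [mul_pow, cc_sq]
  nlinarith

lemma rsq_lt_P {p : ℝ} (hp : p ^ 2 ≤ 1) : (cc * (1 / 2 + p)) ^ 2 < 1 := by
  have h1 : -1 ≤ p ∧ p ≤ 1 := abs_le.mp (abs_le_one_iff_mul_self_le_one.mpr (by nlinarith))
  have h2 : (1 / 2 + p) ^ 2 ≤ 9 / 4 := by nlinarith [h1.1, h1.2]
  rw [mul_pow, cc_sq]
  nlinarith

lemma cayC_pos {r : ℝ} (hr : r ^ 2 < 1) : 0 < cayC r := by
  unfold cayC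
  apply div_pos <;> nlinarith [sq_nonneg r]

lemma cayC_r1_pos {z : Fin 5 → ℂ} (hz : z ∈ unitCone) : 0 < cayC (r1 z) :=
  cayC_pos (rsq_lt_M (pl12_sq_le hz))
lemma cayC_r2_pos {z : Fin 5 → ℂ} (hz : z ∈ unitCone) : 0 < cayC (r2 z) :=
  cayC_pos (rsq_lt_P (pl34_sq_le hz))
lemma cayC_r3_pos {z : Fin 5 → ℂ} (hz : z ∈ unitCone) : 0 < cayC (r3 z) :=
  cayC_pos (rsq_lt_M (pl14_sq_le hz))
lemma cayC_r4_pos {z : Fin 5 → ℂ} (hz : z ∈ unitCone) : 0 < cayC (r4 z) :=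
  cayC_pos (rsq_lt_P (pl32_sq_le hz))

lemma cay_sq (r : ℝ) : cayC r ^ 2 + cayS r ^ 2 = 1 := by
  unfold cayC cayS
  have h : (1 + r ^ 2) ≠ 0 := by positivity
  field_simp
  ring

end

end Crest.Agent.S0316Aux.H6
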