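import Mathlib

/-!
# S0316, Track A (helper6): real-algebra core of the fixed point count for the two-block twist
-/

set_option autoImplicit false

namespace Crest.Agent.S0316Aux.H6

/-- main (generic) case: the four linear relations hold. -/
theorem core_main (c X Y P Q U V W1 W3 : ℝ) (hc : 0 < c) (hc2 : c ^ 2 = 81 / 200)
    (hW1 : W1 = 81 / 800 * (X ^ 2 - P ^ 2)) (hW3 : W3 = 81 / 800 * (Y ^ 2 - Q ^ 2))
    (Nu : P ^ 2 + U ^ 2 + (1 - Y) ^ 2 = 1) (Nv : (1 - X) ^ 2 + V ^ 2 + Q ^ 2 = 1)
    (hX : X ≠ 0)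
    (L1 : (1 - W1) * U = c * X * (1 - Y))
    (L2 : (1 + W3) * U = -(c * P * Q))
    (L3 : (1 + W1) * V = c * P * Q)
    (L4 : (1 - W3) * V = -(c * Y * (1 - X))) :
    X = 25 / 18 ∧ Y = 25 / 18 ∧ U = -(50 / 81) * c ∧ V = (50 / 81) * c ∧
      ((P = 5 / 6 ∧ Q = 5 / 6) ∨ (P = -5 / 6 ∧ Q = -5 / 6)) := by
  have hP1 : P ^ 2 ≤ 1 := by nlinarith [sq_nonneg U, sq_nonneg (1 - Y)]
  have hQ1 : Q ^ 2 ≤ 1 := by nlinarith [sq_nonneg V, sq_nonneg (1 - X)]
  have hU1 : U ^ 2 ≤ 1 := by nlinarith [sq_nonneg P, sq_nonneg (1 - Y)]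
  have hV1 : V ^ 2 ≤ 1 := by nlinarith [sq_nonneg Q, sq_nonneg (1 - X)]
  have hW1pos : 0 < 1 + W1 := by rw [hW1]; nlinarith [sq_nonneg X]
  -- E1, E3
  have E1 : X * (1 - Y) * (1 + W3) + P * Q * (1 - W1) = 0 := by
    have : c * (X * (1 - Y) * (1 + W3) + P * Q * (1 - W1)) = 0 := by
      linear_combination (-(1 + W3)) * L1 + (1 - W1) * L2
    rcases mul_eq_zero.mp this with h | h
    · exact absurd h hc.ne'
    · exact h
  have E3 : Y * (1 - X) * (1 + W1) + P * Q * (1 - W3) = 0 := by
    have : c * (Y * (1 - X) * (1 + W1) + P * Q * (1 - W3)) = 0 := by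
      linear_combination (-(1 - W3)) * L3 + (1 + W1) * L4
    rcases mul_eq_zero.mp this with h | h
    · exact absurd h hc.ne'
    · exact h
  have hB : (X - Y) * (1 + W1) = (W1 - W3) * (X * (1 - Y) + P * Q) := by
    linear_combination E1 - E3
  have ha : (U + V) * (1 + W1) = U * (W1 - W3) := by
    linear_combination L2 + L3
  have hb : W1 - W3 = 81 / 800 * (2 * (X - Y) + U ^ 2 - V ^ 2) := by
    rw [hW1, hW3]; linear_combination (81 / 800) * Nv - (81 / 800) * Nu
  have hD : (W1 - W3) * ((1 + W1) - 81 / 800 * U * (U - V)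
      - 2 * (81 / 800) * (X * (1 - Y) + P * Q)) = 0 := by
    linear_combination (1 + W1) * hb + (81 / 800) * (U - V) * ha + 2 * (81 / 800) * hB
  have hbr : 0 < (1 + W1) - 81 / 800 * U * (U - V) - 2 * (81 / 800) * (X * (1 - Y) + P * Q) := by
    rw [hW1]
    nlinarith [sq_nonneg (X - (1 - Y)), sq_nonneg (U + V), sq_nonneg (P + Q), sq_nonneg (U - V),
      sq_nonneg (P - Q)]
  have hD0 : W1 - W3 = 0 := by
    rcases mul_eq_zero.mp hD with h | h
    · exact h
    · exact absurd h hbr.ne'
  have hXY : X = Y := by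
    have : (X - Y) * (1 + W1) = 0 := by rw [hB, hD0]; ring
    rcases mul_eq_zero.mp this with h | h
    · linarith
    · exact absurd h hW1pos.ne'
  subst hXY
  have hW : W3 = W1 := by linarith
  have hPQ : P ^ 2 = Q ^ 2 := by
    have := hD0
    rw [hW1, hW3] at this
    linarith
  have hUV : V = -U := by
    have : (U + V) * (1 + W1) = 0 := by rw [ha, hD0]; ring
    rcases mul_eq_zero.mp this with h | h
    · linarith
    · exact absurd h hW1pos.ne'
  rw [hW] at L2
  have hQcases : Q = P ∨ Q = -P := by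
    have : (Q - P) * (Q + P) = 0 := by linear_combination -hPQ
    rcases mul_eq_zero.mp this with h | h
    · left; linarith
    · right; linarith
  rcases hQcases with hQ | hQ
  · -- Q = P
    subst hQ
    have hU : U = c / 2 * (X * (1 - X) - Q ^ 2) := by linear_combination (L1 + L2) / 2
    have hWU : W1 * U = -(c / 2) * (Q ^ 2 + X * (1 - X)) := by linear_combination (L2 - L1) / 2
    have F1 : 81 / 800 * (X ^ 2 - Q ^ 2) * (X * (1 - X) - Q ^ 2) = -(Q ^ 2 + X * (1 - X)) := by
      have : c / 2 * (81 / 800 * (X ^ 2 - Q ^ 2) * (X * (1 - X) - Q ^ 2)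
          + (Q ^ 2 + X * (1 - X))) = 0 := by
        rw [hW1, hU] at hWU
        linear_combination hWU
      rcases mul_eq_zero.mp this with h | h
      · exact absurd h (by positivity)
      · linarith
    have F2 : 81 / 800 * (X * (1 - X) - Q ^ 2) ^ 2 = 2 * X - X ^ 2 - Q ^ 2 := by
      have h2 : U ^ 2 = 81 / 800 * (X * (1 - X) - Q ^ 2) ^ 2 := by
        rw [hU]; linear_combination (1 / 4) * (X * (1 - X) - Q ^ 2) ^ 2 * hc2
      linear_combination Nu - h2
    have hm : X * (X - 2 * Q ^ 2) = 0 := by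
      linear_combination (X * (1 - X) - Q ^ 2) * F1 - (X ^ 2 - Q ^ 2) * F2
    have hm' : Q ^ 2 = X / 2 := by
      rcases mul_eq_zero.mp hm with h | h
      · exact absurd h hX
      · linarith
    have hcub : (X - 25 / 18) * (81 / 800 * X ^ 2 + 63 / 1600 * X + 27 / 25) = 0 := by
      have : X * ((X - 25 / 18) * (81 / 800 * X ^ 2 + 63 / 1600 * X + 27 / 25)) = 0 := by
        rw [hm'] at F1
        linear_combination -F1
      rcases mul_eq_zero.mp this with h | h
      · exact absurd h hX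
      · exact h
    have hX0 : X = 25 / 18 := by
      rcases mul_eq_zero.mp hcub with h | h
      · linarith
      · exfalso
        have h5 : 81 / 800 * X ^ 2 + 63 / 1600 * X + 27 / 25
            = 81 / 800 * (X + 7 / 36) ^ 2 + (27 / 25 - 49 / 12800) := by ring
        have h6 : 0 ≤ 81 / 800 * (X + 7 / 36) ^ 2 := by positivity
        rw [h5] at h
        linarith
    subst hX0
    have hQ2 : Q ^ 2 = 25 / 36 := by rw [hm']; norm_num
    have hUval : U = -(50 / 81) * c := by rw [hU, hQ2]; ring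
    refine ⟨rfl, rfl, hUval, by rw [hUV, hUval]; ring, ?_⟩
    have : (Q - 5 / 6) * (Q + 5 / 6) = 0 := by linear_combination hQ2
    rcases mul_eq_zero.mp this with h | h
    · left; constructor <;> linarith
    · right; constructor <;> linarith
  · -- Q = -P : impossible
    exfalso
    subst hQ
    have hU : U = c / 2 * (X * (1 - X) + P ^ 2) := by linear_combination (L1 + L2) / 2
    have hWU : W1 * U = (c / 2) * (P ^ 2 - X * (1 - X)) := by linear_combination (L2 - L1) / 2
    have F1 : 81 / 800 * (X ^ 2 - P ^ 2) * (X * (1 - X) + P ^ 2) = P ^ 2 - X * (1 - X) := by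
      have : c / 2 * (81 / 800 * (X ^ 2 - P ^ 2) * (X * (1 - X) + P ^ 2)
          - (P ^ 2 - X * (1 - X))) = 0 := by
        rw [hW1, hU] at hWU
        linear_combination hWU
      rcases mul_eq_zero.mp this with h | h
      · exact absurd h (by positivity)
      · linarith
    have F2 : 81 / 800 * (X * (1 - X) + P ^ 2) ^ 2 = 2 * X - X ^ 2 - P ^ 2 := by
      have h2 : U ^ 2 = 81 / 800 * (X * (1 - X) + P ^ 2) ^ 2 := by
        rw [hU]; linear_combination (1 / 4) * (X * (1 - X) + P ^ 2) ^ 2 * hc2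
      linear_combination Nu - h2
    have hm : X * (X - 2 * P ^ 2) = 0 := by
      linear_combination (X * (1 - X) + P ^ 2) * F1 - (X ^ 2 - P ^ 2) * F2
    have hm' : P ^ 2 = X / 2 := by
      rcases mul_eq_zero.mp hm with h | h
      · exact absurd h hX
      · linarith
    have hXr : 0 ≤ X ∧ X ≤ 2 := by
      constructor <;> nlinarith [sq_nonneg V, sq_nonneg P, sq_nonneg (1 - X)]
    have h3 : (X - 1 / 2) * (81 / 800 * X * (3 / 2 - X) - 1) = 0 := by
      have : X * ((X - 1 / 2) * (81 / 800 * X * (3 / 2 - X) - 1)) = 0 := by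
        rw [hm'] at F1
        linear_combination F1
      rcases mul_eq_zero.mp this with h | h
      · exact absurd h hX
      · exact h
    rcases mul_eq_zero.mp h3 with h | h
    · have hX2 : X = 1 / 2 := by linarith
      rw [hm', hX2] at F2
      norm_num at F2
    · have h5 : 81 / 800 * X * (3 / 2 - X) - 1
          = -(81 / 800 * (X - 3 / 4) ^ 2) - (1 - 729 / 12800) := by ring
      have h6 : 0 ≤ 81 / 800 * (X - 3 / 4) ^ 2 := by positivity
      rw [h5] at h
      linarith

/-- the full polynomial system coming from a fixed point on `Q² = S² × S²`. -/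
theorem core (c X Y P Q U V W1 W3 : ℝ) (hc : 0 < c) (hc2 : c ^ 2 = 81 / 200)
    (hW1 : W1 = 81 / 800 * (X ^ 2 - P ^ 2)) (hW3 : W3 = 81 / 800 * (Y ^ 2 - Q ^ 2))
    (Nu : P ^ 2 + U ^ 2 + (1 - Y) ^ 2 = 1) (Nv : (1 - X) ^ 2 + V ^ 2 + Q ^ 2 = 1)
    (e1 : X * ((1 - W1) * U - c * X * (1 - Y)) = 0)
    (e2 : Q * ((1 + W3) * U + c * Q * P) = 0)
    (e3 : P * ((1 + W1) * V - c * P * Q) = 0)
    (e4 : Y * ((1 - W3) * V + c * Y * (1 - X)) = 0)
    (e5 : ((1 + W3) ^ 2 + c ^ 2 * Q ^ 2) *
        (((1 - W1) ^ 2 - c ^ 2 * X ^ 2) * U - 2 * c * X * (1 - W1) * (1 - Y)) =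
      ((1 - W1) ^ 2 + c ^ 2 * X ^ 2) *
        (((1 + W3) ^ 2 - c ^ 2 * Q ^ 2) * U + 2 * c * Q * (1 + W3) * P)) :
    (X = 0 ∧ Y = 0 ∧ P = 0 ∧ Q = 0 ∧ U = 0 ∧ V = 0) ∨
    (X = 25 / 18 ∧ Y = 25 / 18 ∧ U = -(50 / 81) * c ∧ V = (50 / 81) * c ∧
      ((P = 5 / 6 ∧ Q = 5 / 6) ∨ (P = -5 / 6 ∧ Q = -5 / 6))) := by
  have hP1 : P ^ 2 ≤ 1 := by nlinarith [sq_nonneg U, sq_nonneg (1 - Y)]
  have hQ1 : Q ^ 2 ≤ 1 := by nlinarith [sq_nonneg V, sq_nonneg (1 - X)]
  have hW1pos : 0 < 1 + W1 := by rw [hW1]; nlinarith [sq_nonneg X]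
  have hW3pos : 0 < 1 + W3 := by rw [hW3]; nlinarith [sq_nonneg Y]
  by_cases hX : X = 0
  · left
    subst hX
    have hV : V = 0 := by nlinarith [sq_nonneg V, sq_nonneg Q]
    have hQ : Q = 0 := by nlinarith [sq_nonneg V, sq_nonneg Q]
    subst hV; subst hQ
    have hY : Y = 0 := by
      have : c * Y ^ 2 = 0 := by linear_combination e4
      rcases mul_eq_zero.mp this with h | h
      · exact absurd h hc.ne'
      · exact pow_eq_zero_iff (two_ne_zero) |>.mp h
    subst hY
    have hP : P = 0 := by nlinarith [sq_nonneg P, sq_nonneg U]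
    have hU : U = 0 := by nlinarith [sq_nonneg P, sq_nonneg U]
    exact ⟨rfl, rfl, hP, rfl, hU, rfl⟩
  by_cases hY : Y = 0
  · exfalso
    subst hY
    have hP : P = 0 := by nlinarith [sq_nonneg P, sq_nonneg U]
    have hU : U = 0 := by nlinarith [sq_nonneg P, sq_nonneg U]
    subst hP; subst hU
    have : c * X ^ 2 = 0 := by linear_combination -e1
    rcases mul_eq_zero.mp this with h | h
    · exact absurd h hc.ne'
    · exact hX (pow_eq_zero_iff (two_ne_zero) |>.mp h)
  have L1 : (1 - W1) * U = c * X * (1 - Y) := by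
    rcases mul_eq_zero.mp e1 with h | h
    · exact absurd h hX
    · linarith
  have L4 : (1 - W3) * V = -(c * Y * (1 - X)) := by
    rcases mul_eq_zero.mp e4 with h | h
    · exact absurd h hY
    · linarith
  by_cases hQ : Q = 0
  · exfalso
    subst hQ
    have h1 : (1 + W3) ^ 2 * (2 * c * X * (c * X * U + (1 - W1) * (1 - Y))) = 0 := by
      linear_combination -e5
    have h2 : c * X * U + (1 - W1) * (1 - Y) = 0 := by
      rcases mul_eq_zero.mp h1 with h | h
      · exact absurd h (by positivity)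
      · rcases mul_eq_zero.mp h with h' | h'
        · exact absurd h' (by
            have : c * X ≠ 0 := mul_ne_zero hc.ne' hX
            intro h3; apply this; linarith)
        · exact h'
    have h3 : ((1 - W1) ^ 2 + c ^ 2 * X ^ 2) * U = 0 := by
      linear_combination (1 - W1) * L1 + c * X * h2
    have hcX : 0 < c ^ 2 * X ^ 2 := by positivity
    have hU : U = 0 := by
      rcases mul_eq_zero.mp h3 with h | h
      · nlinarith [sq_nonneg (1 - W1)]
      · exact h
    subst hU
    have hY1 : 1 - Y = 0 := by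
      have : c * X * (1 - Y) = 0 := by linear_combination -L1
      rcases mul_eq_zero.mp this with h | h
      · exact absurd h (mul_ne_zero hc.ne' hX)
      · exact h
    have hP2 : P ^ 2 = 1 := by rw [hY1] at Nu; linarith
    have hP : P ≠ 0 := by intro h; rw [h] at hP2; norm_num at hP2
    have hV : V = 0 := by
      rcases mul_eq_zero.mp e3 with h | h
      · exact absurd h hP
      · have : (1 + W1) * V = 0 := by linarith
        rcases mul_eq_zero.mp this with h' | h'
        · exact absurd h' hW1pos.ne'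
        · exact h'
    subst hV
    have hX1 : 1 - X = 0 := by
      have : c * Y * (1 - X) = 0 := by linear_combination L4
      rcases mul_eq_zero.mp this with h | h
      · exact absurd h (mul_ne_zero hc.ne' hY)
      · exact h
    rw [hX1] at Nv
    norm_num at Nv
  have L2 : (1 + W3) * U = -(c * P * Q) := by
    rcases mul_eq_zero.mp e2 with h | h
    · exact absurd h hQ
    · linarith
  by_cases hP : P = 0
  · exfalso
    subst hP
    have hU : U = 0 := by
      have : (1 + W3) * U = 0 := by linarith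
      rcases mul_eq_zero.mp this with h' | h'
      · exact absurd h' hW3pos.ne'
      · exact h'
    subst hU
    have hY1 : 1 - Y = 0 := by
      have : c * X * (1 - Y) = 0 := by linear_combination -L1
      rcases mul_eq_zero.mp this with h | h
      · exact absurd h (mul_ne_zero hc.ne' hX)
      · exact h
    rw [hY1] at Nu
    norm_num at Nu
  have L3 : (1 + W1) * V = c * P * Q := by
    rcases mul_eq_zero.mp e3 with h | h
    · exact absurd h hP
    · linarith
  right
  exact core_main c X Y P Q U V W1 W3 hc hc2 hW1 hW3 Nu Nv hX L1 L2 L3 L4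

end Crest.Agent.S0316Aux.H6
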