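import Crest.Agent.S0316Aux.H6_Off
import Crest.Agent.S0316Aux.H6_Core
import Crest.Agent.S0316Aux.H35_Plucker

/-!
# S0316, Track A (helper6): from a fixed line in `z 0 = 0` to the polynomial system of `H6_Core`
-/

set_option autoImplicit false

namespace Crest.Agent.S0316Aux.H6

open Crest.GeometryTopology.Quadric

noncomputable section

/-! ### Pluecker coordinates of block rotated vectors -/

section plrot
variable (c1 s1 c2 s2 : ℝ) (z : Fin 5 → ℂ)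

lemma pl12_rotA : pl 1 2 (rotA c1 s1 c2 s2 z) = (c1 ^ 2 + s1 ^ 2) * pl 1 2 z := by
  simp [pl_eq, rotA]; ring
lemma pl34_rotA : pl 3 4 (rotA c1 s1 c2 s2 z) = (c2 ^ 2 + s2 ^ 2) * pl 3 4 z := by
  simp [pl_eq, rotA]; ring
lemma pl13_rotA : pl 1 3 (rotA c1 s1 c2 s2 z) =
    c1 * c2 * pl 1 3 z - c1 * s2 * pl 1 4 z - s1 * c2 * pl 2 3 z + s1 * s2 * pl 2 4 z := by
  simp [pl_eq, rotA]; ring
lemma pl14_rotA : pl 1 4 (rotA c1 s1 c2 s2 z) =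
    c1 * s2 * pl 1 3 z + c1 * c2 * pl 1 4 z - s1 * s2 * pl 2 3 z - s1 * c2 * pl 2 4 z := by
  simp [pl_eq, rotA]; ring
lemma pl23_rotA : pl 2 3 (rotA c1 s1 c2 s2 z) =
    s1 * c2 * pl 1 3 z - s1 * s2 * pl 1 4 z + c1 * c2 * pl 2 3 z - c1 * s2 * pl 2 4 z := by
  simp [pl_eq, rotA]; ring
lemma pl24_rotA : pl 2 4 (rotA c1 s1 c2 s2 z) =
    s1 * s2 * pl 1 3 z + s1 * c2 * pl 1 4 z + c1 * s2 * pl 2 3 z + c1 * c2 * pl 2 4 z := by
  simp [pl_eq, rotA]; ring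

lemma pl14_rotB : pl 1 4 (rotB c1 s1 c2 s2 z) = (c1 ^ 2 + s1 ^ 2) * pl 1 4 z := by
  simp [pl_eq, rotB]; ring
lemma pl23_rotB : pl 2 3 (rotB c1 s1 c2 s2 z) = (c2 ^ 2 + s2 ^ 2) * pl 2 3 z := by
  simp [pl_eq, rotB]; ring
lemma pl12_rotB : pl 1 2 (rotB c1 s1 c2 s2 z) =
    c1 * s2 * pl 1 3 z + c1 * c2 * pl 1 2 z + s1 * s2 * pl 3 4 z + s1 * c2 * pl 2 4 z := by
  simp [pl_eq, rotB]; ring
lemma pl34_rotB : pl 3 4 (rotB c1 s1 c2 s2 z) =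
    -(c2 * s1) * pl 1 3 z + c1 * c2 * pl 3 4 z + s1 * s2 * pl 1 2 z - s2 * c1 * pl 2 4 z := by
  simp [pl_eq, rotB]; ring
lemma pl13_rotB : pl 1 3 (rotB c1 s1 c2 s2 z) =
    c1 * c2 * pl 1 3 z - c1 * s2 * pl 1 2 z + s1 * c2 * pl 3 4 z - s1 * s2 * pl 2 4 z := by
  simp [pl_eq, rotB]; ring
lemma pl24_rotB : pl 2 4 (rotB c1 s1 c2 s2 z) =
    -(s1 * s2) * pl 1 3 z + s2 * c1 * pl 3 4 z - c2 * s1 * pl 1 2 z + c1 * c2 * pl 2 4 z := by
  simp [pl_eq, rotB]; ring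

end plrot

lemma pl32_eq (z : Fin 5 → ℂ) : pl 3 2 z = - pl 2 3 z := by
  simp [pl_eq]; ring

/-! ### the spheres -/

lemma sum_pl_sq {z : Fin 5 → ℂ} (hz : z ∈ unitCone) (h0 : z 0 = 0) :
    pl 1 2 z ^ 2 + pl 1 3 z ^ 2 + pl 1 4 z ^ 2 + pl 2 3 z ^ 2 + pl 2 4 z ^ 2 + pl 3 4 z ^ 2 = 1 := by
  have n := cone_norm hz
  have i1 := cone_iso_re hz
  have i2 := cone_iso_im hz
  rw [h0] at n i1 i2
  simp only [Complex.zero_re, Complex.zero_im] at n i1 i2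
  simp only [pl_eq]
  linear_combination
    ((z 1).re ^ 2 + (z 2).re ^ 2 + (z 3).re ^ 2 + (z 4).re ^ 2 + (z 1).im ^ 2 + (z 2).im ^ 2
      + (z 3).im ^ 2 + (z 4).im ^ 2 + 1) * n
    - ((z 1).re ^ 2 + (z 2).re ^ 2 + (z 3).re ^ 2 + (z 4).re ^ 2 - (z 1).im ^ 2 - (z 2).im ^ 2
      - (z 3).im ^ 2 - (z 4).im ^ 2) * i1
    - 4 * ((z 1).re * (z 1).im + (z 2).re * (z 2).im + (z 3).re * (z 3).im
      + (z 4).re * (z 4).im) * i2

lemma plucker_rel (z : Fin 5 → ℂ) :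
    pl 1 2 z * pl 3 4 z - pl 1 3 z * pl 2 4 z + pl 1 4 z * pl 2 3 z = 0 := by
  simp only [pl_eq]; ring

lemma trig_aux (c1 s1 c2 s2 c3 s3 c4 s4 p12 p13 p14 p23 p24 p34 q13 q24 : ℝ)
    (n3 : c3 ^ 2 + s3 ^ 2 = 1) (n4 : c4 ^ 2 + s4 ^ 2 = 1)
    (A13 : q13 = c1 * c2 * p13 - c1 * s2 * p14 - s1 * c2 * p23 + s1 * s2 * p24)
    (A14 : p14 = c1 * s2 * p13 + c1 * c2 * p14 - s1 * s2 * p23 - s1 * c2 * p24)
    (A23 : p23 = s1 * c2 * p13 - s1 * s2 * p14 + c1 * c2 * p23 - c1 * s2 * p24)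
    (A24 : q24 = s1 * s2 * p13 + s1 * c2 * p14 + c1 * s2 * p23 + c1 * c2 * p24)
    (B12 : p12 = c3 * s4 * q13 + c3 * c4 * p12 + s3 * s4 * p34 + s3 * c4 * q24)
    (B34 : p34 = -(c4 * s3) * q13 + c3 * c4 * p34 + s3 * s4 * p12 - s4 * c3 * q24)
    (B13 : p13 = c3 * c4 * q13 - c3 * s4 * p12 + s3 * c4 * p34 - s3 * s4 * q24)
    (B24 : p24 = -(s3 * s4) * q13 + s4 * c3 * p34 - c4 * s3 * p12 + c3 * c4 * q24) :
    ((c1 * s2 + s1 * c2) * (p13 - p24) + (c1 * c2 - s1 * s2) * (p14 + p23) = p14 + p23) ∧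
    (-(s1 * c2 - c1 * s2) * (p13 + p24) + (c1 * c2 + s1 * s2) * (p14 - p23) = p14 - p23) ∧
    (p12 + p34 = (c3 * c4 + s3 * s4) * (p12 + p34) + (s3 * c4 - c3 * s4) * (p13 - p24)) ∧
    (p12 - p34 = (c3 * c4 - s3 * s4) * (p12 - p34) - (c3 * s4 + s3 * c4) * (p13 + p24)) ∧
    ((c1 * c2 - s1 * s2) * (p13 - p24) - (c1 * s2 + s1 * c2) * (p14 + p23) =
      (c3 * c4 + s3 * s4) * (p13 - p24) - (s3 * c4 - c3 * s4) * (p12 + p34)) := by
  have U1 : p12 + p34 = (c3 * c4 + s3 * s4) * (p12 + p34) - (s3 * c4 - c3 * s4) * (q13 - q24) := by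
    linear_combination B12 + B34
  have U2 : p13 - p24 = (c3 * c4 + s3 * s4) * (q13 - q24) + (s3 * c4 - c3 * s4) * (p12 + p34) := by
    linear_combination B13 - B24
  have V1 : p12 - p34 = (c3 * c4 - s3 * s4) * (p12 - p34) + (c3 * s4 + s3 * c4) * (q13 + q24) := by
    linear_combination B12 - B34
  have V2 : p13 + p24 = (c3 * c4 - s3 * s4) * (q13 + q24) - (c3 * s4 + s3 * c4) * (p12 - p34) := by
    linear_combination B13 + B24
  have nm : (c3 * c4 + s3 * s4) ^ 2 + (s3 * c4 - c3 * s4) ^ 2 = 1 := by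
    linear_combination (c4 ^ 2 + s4 ^ 2) * n3 + n4
  have np : (c3 * c4 - s3 * s4) ^ 2 + (c3 * s4 + s3 * c4) ^ 2 = 1 := by
    linear_combination (c4 ^ 2 + s4 ^ 2) * n3 + n4
  have Q2 : q13 - q24 = (c3 * c4 + s3 * s4) * (p13 - p24) - (s3 * c4 - c3 * s4) * (p12 + p34) := by
    linear_combination (-(q13 - q24)) * nm - (c3 * c4 + s3 * s4) * U2 + (s3 * c4 - c3 * s4) * U1
  refine ⟨?_, ?_, ?_, ?_, ?_⟩
  · linear_combination -A14 - A23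
  · linear_combination -A14 + A23
  · linear_combination (-(p12 + p34)) * nm - (c3 * c4 + s3 * s4) * U1 - (s3 * c4 - c3 * s4) * U2
  · linear_combination (-(p12 - p34)) * np - (c3 * c4 - s3 * s4) * V1 + (c3 * s4 + s3 * c4) * V2
  · linear_combination Q2 - A13 + A24

lemma rat_a (r1 r2 u2 u3 : ℝ)
    (h : ((-cayC r1) * (-cayS r2) + (-cayS r1) * (-cayC r2)) * u2
      + ((-cayC r1) * (-cayC r2) - (-cayS r1) * (-cayS r2)) * u3 = u3) :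
    (r1 + r2) * ((1 - r1 * r2) * u2 - (r1 + r2) * u3) = 0 := by
  have g1 : (1 + r1 ^ 2) ≠ 0 := by positivity
  have g2 : (1 + r2 ^ 2) ≠ 0 := by positivity
  unfold cayC cayS at h
  field_simp at h
  linear_combination (1 / 2) * h

lemma rat_b (r1 r2 v2 v3 : ℝ)
    (h : -((-cayS r1) * (-cayC r2) - (-cayC r1) * (-cayS r2)) * v2
      + ((-cayC r1) * (-cayC r2) + (-cayS r1) * (-cayS r2)) * v3 = v3) :
    (r1 - r2) * ((1 + r1 * r2) * v2 + (r1 - r2) * v3) = 0 := by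
  have g1 : (1 + r1 ^ 2) ≠ 0 := by positivity
  have g2 : (1 + r2 ^ 2) ≠ 0 := by positivity
  unfold cayC cayS at h
  field_simp at h
  linear_combination (-1 / 2) * h

lemma rat_c (r3 r4 u1 u2 : ℝ)
    (h : u1 = (cayC r3 * cayC r4 + cayS r3 * cayS r4) * u1
      + (cayS r3 * cayC r4 - cayC r3 * cayS r4) * u2) :
    (r3 - r4) * ((1 + r3 * r4) * u2 - (r3 - r4) * u1) = 0 := by
  have g1 : (1 + r3 ^ 2) ≠ 0 := by positivity
  have g2 : (1 + r4 ^ 2) ≠ 0 := by positivity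
  unfold cayC cayS at h
  field_simp at h
  linear_combination (-1 / 2) * h

lemma rat_d (r3 r4 v1 v2 : ℝ)
    (h : v1 = (cayC r3 * cayC r4 - cayS r3 * cayS r4) * v1
      - (cayC r3 * cayS r4 + cayS r3 * cayC r4) * v2) :
    (r3 + r4) * ((1 - r3 * r4) * v2 + (r3 + r4) * v1) = 0 := by
  have g1 : (1 + r3 ^ 2) ≠ 0 := by positivity
  have g2 : (1 + r4 ^ 2) ≠ 0 := by positivity
  unfold cayC cayS at h
  field_simp at h
  linear_combination (1 / 2) * h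

lemma rat_e (r1 r2 r3 r4 u1 u2 u3 : ℝ)
    (h : ((-cayC r1) * (-cayC r2) - (-cayS r1) * (-cayS r2)) * u2
        - ((-cayC r1) * (-cayS r2) + (-cayS r1) * (-cayC r2)) * u3 =
      (cayC r3 * cayC r4 + cayS r3 * cayS r4) * u2
        - (cayS r3 * cayC r4 - cayC r3 * cayS r4) * u1) :
    ((1 + r3 * r4) ^ 2 + (r3 - r4) ^ 2) *
        (((1 - r1 * r2) ^ 2 - (r1 + r2) ^ 2) * u2 - 2 * (r1 + r2) * (1 - r1 * r2) * u3) =
      ((1 - r1 * r2) ^ 2 + (r1 + r2) ^ 2) *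
        (((1 + r3 * r4) ^ 2 - (r3 - r4) ^ 2) * u2 - 2 * (r3 - r4) * (1 + r3 * r4) * u1) := by
  have g1 : (1 + r1 ^ 2) ≠ 0 := by positivity
  have g2 : (1 + r2 ^ 2) ≠ 0 := by positivity
  have g3 : (1 + r3 ^ 2) ≠ 0 := by positivity
  have g4 : (1 + r4 ^ 2) ≠ 0 := by positivity
  unfold cayC cayS at h
  field_simp at h
  linear_combination h


/-- Classification of the fixed lines through their Pluecker coordinates. -/
theorem classify {z : Fin 5 → ℂ} (hz : z ∈ unitCone) {l : ℂ} (h : Phi6 z = l • z) :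
    z 0 = 0 ∧
    ((pl 1 2 z = 1 / 2 ∧ pl 1 3 z = 0 ∧ pl 1 4 z = 1 / 2 ∧ pl 2 3 z = 1 / 2 ∧ pl 2 4 z = 0 ∧
        pl 3 4 z = -1 / 2) ∨
     (pl 1 2 z = 2 / 9 ∧ pl 1 3 z = 0 ∧ pl 1 4 z = 2 / 9 ∧ pl 2 3 z = -11 / 18 ∧
        pl 2 4 z = 50 / 81 * cc ∧ pl 3 4 z = 11 / 18) ∨
     (pl 1 2 z = -11 / 18 ∧ pl 1 3 z = 0 ∧ pl 1 4 z = -11 / 18 ∧ pl 2 3 z = 2 / 9 ∧
        pl 2 4 z = 50 / 81 * cc ∧ pl 3 4 z = -2 / 9)) := by
  have h0 := z0_eq_zero hz h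
  refine ⟨h0, ?_⟩
  set y := TA z with hy
  have hyc : y ∈ unitCone := TA_mem hz
  have hPhi : TB y = l • z := h
  have hmem : l • z ∈ unitCone := by rw [← hPhi]; exact TB_mem hyc
  have hl : ‖l‖ = 1 := Crest.Agent.S0316Aux.norm_eq_one_of_smul_mem hz hmem
  have hpl : ∀ i j, pl i j (TB y) = pl i j z := by
    intro i j
    rw [hPhi]
    have := Crest.Agent.S0316Aux.plu_smul l z i j
    rw [hl] at this
    simpa [Crest.Agent.S0316Aux.plu, pl] using this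
  have yA : y = rotA (-cayC (r1 z)) (-cayS (r1 z)) (-cayC (r2 z)) (-cayS (r2 z)) z := rfl
  have yB : TB y = rotB (cayC (r3 y)) (cayS (r3 y)) (cayC (r4 y)) (cayS (r4 y)) y := rfl
  have q12 : pl 1 2 y = pl 1 2 z := by
    rw [yA, pl12_rotA]; linear_combination (pl 1 2 z) * cay_sq (r1 z)
  have q34 : pl 3 4 y = pl 3 4 z := by
    rw [yA, pl34_rotA]; linear_combination (pl 3 4 z) * cay_sq (r2 z)
  have q14 : pl 1 4 y = pl 1 4 z := by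
    rw [← hpl 1 4, yB, pl14_rotB]; linear_combination (-(pl 1 4 y)) * cay_sq (r3 y)
  have q23 : pl 2 3 y = pl 2 3 z := by
    rw [← hpl 2 3, yB, pl23_rotB]; linear_combination (-(pl 2 3 y)) * cay_sq (r4 y)
  have hr3 : r3 y = r3 z := by unfold r3; rw [q14]
  have hr4 : r4 y = r4 z := by unfold r4; rw [pl32_eq, pl32_eq, q23]
  rw [hr3, hr4] at yB
  have A13 := pl13_rotA (-cayC (r1 z)) (-cayS (r1 z)) (-cayC (r2 z)) (-cayS (r2 z)) z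
  have A14 := pl14_rotA (-cayC (r1 z)) (-cayS (r1 z)) (-cayC (r2 z)) (-cayS (r2 z)) z
  have A23 := pl23_rotA (-cayC (r1 z)) (-cayS (r1 z)) (-cayC (r2 z)) (-cayS (r2 z)) z
  have A24 := pl24_rotA (-cayC (r1 z)) (-cayS (r1 z)) (-cayC (r2 z)) (-cayS (r2 z)) z
  rw [← yA] at A13 A14 A23 A24
  rw [q14] at A14
  rw [q23] at A23
  have B12 := pl12_rotB (cayC (r3 z)) (cayS (r3 z)) (cayC (r4 z)) (cayS (r4 z)) y
  have B34 := pl34_rotB (cayC (r3 z)) (cayS (r3 z)) (cayC (r4 z)) (cayS (r4 z)) y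
  have B13 := pl13_rotB (cayC (r3 z)) (cayS (r3 z)) (cayC (r4 z)) (cayS (r4 z)) y
  have B24 := pl24_rotB (cayC (r3 z)) (cayS (r3 z)) (cayC (r4 z)) (cayS (r4 z)) y
  rw [← yB, hpl, q12, q34] at B12 B34 B13 B24
  obtain ⟨t1, t2, t3, t4, t5⟩ := trig_aux _ _ _ _ _ _ _ _ _ _ _ _ _ _ _ _
    (cay_sq (r3 z)) (cay_sq (r4 z)) A13 A14 A23 A24 B12 B34 B13 B24
  have a := rat_a _ _ _ _ t1
  have b := rat_b _ _ _ _ t2
  have c := rat_c _ _ _ _ t3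
  have d := rat_d _ _ _ _ t4
  have e := rat_e _ _ _ _ _ _ _ t5
  have sq := sum_pl_sq hz h0
  have pr := plucker_rel z
  have hr1 : r1 z = cc * (1 / 2 - pl 1 2 z) := rfl
  have hr2 : r2 z = cc * (1 / 2 + pl 3 4 z) := rfl
  have hr3' : r3 z = cc * (1 / 2 - pl 1 4 z) := rfl
  have hr4' : r4 z = cc * (1 / 2 - pl 2 3 z) := by unfold r4; rw [pl32_eq]; ring
  have hcc := cc_pos.ne'
  have s12 : r1 z + r2 z = cc * (1 - (pl 1 2 z - pl 3 4 z)) := by rw [hr1, hr2]; ring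
  have d12 : r1 z - r2 z = -(cc * (pl 1 2 z + pl 3 4 z)) := by rw [hr1, hr2]; ring
  have s34 : r3 z + r4 z = cc * (1 - (pl 1 4 z + pl 2 3 z)) := by rw [hr3', hr4']; ring
  have d34 : r3 z - r4 z = -(cc * (pl 1 4 z - pl 2 3 z)) := by rw [hr3', hr4']; ring
  rw [s12] at a e
  rw [d12] at b
  rw [d34] at c e
  rw [s34] at d
  have hW1 : r1 z * r2 z = 81 / 800 * ((1 - (pl 1 2 z - pl 3 4 z)) ^ 2
      - (pl 1 2 z + pl 3 4 z) ^ 2) := by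
    rw [hr1, hr2]; linear_combination ((1 / 2 - pl 1 2 z) * (1 / 2 + pl 3 4 z)) * cc_sq
  have hW3 : r3 z * r4 z = 81 / 800 * ((1 - (pl 1 4 z + pl 2 3 z)) ^ 2
      - (pl 1 4 z - pl 2 3 z) ^ 2) := by
    rw [hr3', hr4']; linear_combination ((1 / 2 - pl 1 4 z) * (1 / 2 - pl 2 3 z)) * cc_sq
  have key := core cc (1 - (pl 1 2 z - pl 3 4 z)) (1 - (pl 1 4 z + pl 2 3 z))
    (pl 1 2 z + pl 3 4 z) (pl 1 4 z - pl 2 3 z) (pl 1 3 z - pl 2 4 z) (pl 1 3 z + pl 2 4 z)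
    (r1 z * r2 z) (r3 z * r4 z) cc_pos cc_sq hW1 hW3
    (by linear_combination sq + 2 * pr) (by linear_combination sq - 2 * pr)
    (by
      have : cc * ((1 - (pl 1 2 z - pl 3 4 z)) * ((1 - r1 z * r2 z) * (pl 1 3 z - pl 2 4 z)
          - cc * (1 - (pl 1 2 z - pl 3 4 z)) * (1 - (1 - (pl 1 4 z + pl 2 3 z))))) = 0 := by
        linear_combination a
      exact (mul_eq_zero.mp this).resolve_left hcc)
    (by
      have : cc * ((pl 1 4 z - pl 2 3 z) * ((1 + r3 z * r4 z) * (pl 1 3 z - pl 2 4 z)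
          + cc * (pl 1 4 z - pl 2 3 z) * (pl 1 2 z + pl 3 4 z))) = 0 := by
        linear_combination -c
      exact (mul_eq_zero.mp this).resolve_left hcc)
    (by
      have : cc * ((pl 1 2 z + pl 3 4 z) * ((1 + r1 z * r2 z) * (pl 1 3 z + pl 2 4 z)
          - cc * (pl 1 2 z + pl 3 4 z) * (pl 1 4 z - pl 2 3 z))) = 0 := by
        linear_combination -b
      exact (mul_eq_zero.mp this).resolve_left hcc)
    (by
      have : cc * ((1 - (pl 1 4 z + pl 2 3 z)) * ((1 - r3 z * r4 z) * (pl 1 3 z + pl 2 4 z)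
          + cc * (1 - (pl 1 4 z + pl 2 3 z)) * (1 - (1 - (pl 1 2 z - pl 3 4 z))))) = 0 := by
        linear_combination d
      exact (mul_eq_zero.mp this).resolve_left hcc)
    (by linear_combination e)
  rcases key with ⟨k1, k2, k3, k4, k5, k6⟩ | ⟨k1, k2, k3, k4, ⟨k5, k6⟩ | ⟨k5, k6⟩⟩
  · left
    refine ⟨?_, ?_, ?_, ?_, ?_, ?_⟩ <;> linarith
  · right; left
    refine ⟨?_, ?_, ?_, ?_, ?_, ?_⟩ <;> linarith
  · right; right
    refine ⟨?_, ?_, ?_, ?_, ?_, ?_⟩ <;> linarith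

end

end Crest.Agent.S0316Aux.H6
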