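import Mathlib
import Crest.Prelude.Def_QuadricHamiltonian

/-!
# S0316, Track A (helper6): explicit two-block twist, definitions

`Phi6 z = TB (TA z)` where `TA` rotates the real coordinate planes (1,2), (3,4)
by the angles `thM π (pl 1 2 z)`, `thP π (pl 3 4 z)` and `TB` rotates the planes (1,4), (3,2)
by `thM 0 (pl 1 4 z)`, `thP 0 (pl 3 2 z)`.
-/

set_option autoImplicit false

namespace Crest.Agent.S0316Aux.H6

open Crest.GeometryTopology.Quadric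

noncomputable section

/-- the twist constant `c = 9 √2 / 20`, `c ^ 2 = 81 / 200`. -/
def cc : ℝ := 9 * Real.sqrt 2 / 20

/-- Pluecker coordinate `p_ij (z) = 2 Im (conj z_i * z_j)`. -/
def pl (i j : Fin 5) (z : Fin 5 → ℂ) : ℝ := 2 * (starRingEnd ℂ (z i) * z j).im

/-- an antiderivative of `arctan`. -/
def Fat (q : ℝ) : ℝ := q * Real.arctan q - Real.log (1 + q ^ 2) / 2

/-- angle profile `e + 2 arctan (c (1/2 - x))`. -/
def thM (e x : ℝ) : ℝ := e + 2 * Real.arctan (cc * (1 / 2 - x))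

/-- angle profile `e + 2 arctan (c (1/2 + x))`. -/
def thP (e x : ℝ) : ℝ := e + 2 * Real.arctan (cc * (1 / 2 + x))

/-- antiderivative of `thM e`. -/
def hM (e x : ℝ) : ℝ := e * x - (2 / cc) * Fat (cc * (1 / 2 - x))

/-- antiderivative of `thP e`. -/
def hP (e x : ℝ) : ℝ := e * x + (2 / cc) * Fat (cc * (1 / 2 + x))

/-- block rotation with given cosines and sines: planes (1,2) and (3,4). -/
def rotA (c1 s1 c2 s2 : ℝ) (z : Fin 5 → ℂ) : Fin 5 → ℂ :=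
  ![z 0,
    (c1 : ℂ) * z 1 - (s1 : ℂ) * z 2,
    (s1 : ℂ) * z 1 + (c1 : ℂ) * z 2,
    (c2 : ℂ) * z 3 - (s2 : ℂ) * z 4,
    (s2 : ℂ) * z 3 + (c2 : ℂ) * z 4]

/-- block rotation with given cosines and sines: planes (1,4) and (3,2). -/
def rotB (c3 s3 c4 s4 : ℝ) (z : Fin 5 → ℂ) : Fin 5 → ℂ :=
  ![z 0,
    (c3 : ℂ) * z 1 - (s3 : ℂ) * z 4,
    (s4 : ℂ) * z 3 + (c4 : ℂ) * z 2,
    (c4 : ℂ) * z 3 - (s4 : ℂ) * z 2,
    (s3 : ℂ) * z 1 + (c3 : ℂ) * z 4]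

/-- Cayley cosine and sine. -/
def cayC (r : ℝ) : ℝ := (1 - r ^ 2) / (1 + r ^ 2)
def cayS (r : ℝ) : ℝ := 2 * r / (1 + r ^ 2)

/-- the four half-angle tangents. -/
def r1 (z : Fin 5 → ℂ) : ℝ := cc * (1 / 2 - pl 1 2 z)
def r2 (z : Fin 5 → ℂ) : ℝ := cc * (1 / 2 + pl 3 4 z)
def r3 (z : Fin 5 → ℂ) : ℝ := cc * (1 / 2 - pl 1 4 z)
def r4 (z : Fin 5 → ℂ) : ℝ := cc * (1 / 2 + pl 3 2 z)

/-- first twist (time one; includes the rotation by `π`, i.e. the reflection `R`), rational form. -/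
def TA (z : Fin 5 → ℂ) : Fin 5 → ℂ :=
  rotA (-cayC (r1 z)) (-cayS (r1 z)) (-cayC (r2 z)) (-cayS (r2 z)) z

/-- second twist (time one), rational form. -/
def TB (z : Fin 5 → ℂ) : Fin 5 → ℂ :=
  rotB (cayC (r3 z)) (cayS (r3 z)) (cayC (r4 z)) (cayS (r4 z)) z

/-- the time one map. -/
def Phi6 (z : Fin 5 → ℂ) : Fin 5 → ℂ := TB (TA z)

/-- the three fixed points. -/
def zS : Fin 5 → ℂ := ![0, 1 / 2, Complex.I / 2, -1 / 2, Complex.I / 2]
def zP : Fin 5 → ℂ :=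
  ![0, 2 / 9, ((5 * Real.sqrt 2 / 36 : ℝ) : ℂ) + Complex.I / 2, 11 / 18,
    -((5 * Real.sqrt 2 / 36 : ℝ) : ℂ) + Complex.I / 2]
def zN : Fin 5 → ℂ :=
  ![0, -11 / 18, ((5 * Real.sqrt 2 / 36 : ℝ) : ℂ) + Complex.I / 2, -2 / 9,
    -((5 * Real.sqrt 2 / 36 : ℝ) : ℂ) + Complex.I / 2]

/-- the degenerate direction at `zS`. -/
def wS : Fin 5 → ℂ := ![0, Complex.I, -1, 0, 0]

lemma cc_pos : 0 < cc := by unfold cc; positivity

lemma cc_sq : cc ^ 2 = 81 / 200 := by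
  unfold cc
  have h : Real.sqrt 2 ^ 2 = 2 := Real.sq_sqrt (by norm_num)
  linear_combination (81 / 400) * h

end

end Crest.Agent.S0316Aux.H6
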