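import Crest.Agent.S0316Aux.H6_Points

/-!
# S0316, Track A (helper6): the degenerate fixed point `zS`
-/

set_option autoImplicit false

namespace Crest.Agent.S0316Aux.H6

open Crest.GeometryTopology.Quadric

noncomputable section

lemma cayC_zero : cayC 0 = 1 := by simp [cayC]
lemma cayS_zero : cayS 0 = 0 := by simp [cayS]

/-- On the locus where all four angles vanish, `Phi6` is `-1`. -/
lemma Phi6_eq_neg {x : Fin 5 → ℂ} (h0 : x 0 = 0) (h12 : pl 1 2 x = 1 / 2)
    (h34 : pl 3 4 x = -1 / 2) (h14 : pl 1 4 x = 1 / 2) (h23 : pl 2 3 x = 1 / 2) :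
    Phi6 x = -x := by
  have R1 : r1 x = 0 := by unfold r1; rw [h12]; norm_num
  have R2 : r2 x = 0 := by unfold r2; rw [h34]; norm_num
  have hA : TA x = -x := by
    unfold TA
    rw [R1, R2, cayC_zero, cayS_zero]
    funext i
    fin_cases i <;> simp [rotA, h0]
  have R3 : r3 (-x) = 0 := by
    unfold r3
    have : pl 1 4 (-x) = pl 1 4 x := by simp [pl_eq]
    rw [this, h14]; norm_num
  have R4 : r4 (-x) = 0 := by
    unfold r4
    have : pl 3 2 (-x) = - pl 2 3 x := by simp [pl_eq]; ring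
    rw [this, h23]; norm_num
  unfold Phi6
  rw [hA]
  unfold TB
  rw [R3, R4, cayC_zero, cayS_zero]
  funext i
  fin_cases i <;> simp [rotB]

/-- the degenerate direction. -/
def wD : Fin 5 → ℂ := ![0, 0, 1, 0, -1]

lemma Phi6_line (s : ℝ) : Phi6 (zS + s • wD) = -(zS + s • wD) := by
  apply Phi6_eq_neg
  · simp [zS, wD]
  · simp [pl_eq, zS, wD]; try ring
  · simp [pl_eq, zS, wD]; try ring
  · simp [pl_eq, zS, wD]; try ring
  · simp [pl_eq, zS, wD]; try ring

lemma Phi6_zS : Phi6 zS = (-1 : ℂ) • zS := by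
  have := Phi6_line 0
  simpa using this

lemma zS_zero : zS 0 = 0 := by simp [zS]
lemma zS_pl12 : pl 1 2 zS = 1 / 2 := by simp [pl_eq, zS]; try ring
lemma zS_pl13 : pl 1 3 zS = 0 := by simp [pl_eq, zS]
lemma zS_pl14 : pl 1 4 zS = 1 / 2 := by simp [pl_eq, zS]; try ring
lemma zS_pl23 : pl 2 3 zS = 1 / 2 := by simp [pl_eq, zS]; try ring
lemma zS_pl24 : pl 2 4 zS = 0 := by simp [pl_eq, zS]
lemma zS_pl34 : pl 3 4 zS = -1 / 2 := by simp [pl_eq, zS]; try ring

theorem degenerate : HasDegenerateFixedPoint L6 := by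
  refine ⟨zS, zS_mem, -1, by rw [L6_Ψ_one, Phi6_zS], wD, ?_, ?_, 0, ?_⟩
  · constructor
    · simp [herm, Fin.sum_univ_five, zS, wD]
    · simp [Fin.sum_univ_five, zS, wD]
  · intro r h
    have h2 := congrFun h 2
    have h1 := congrFun h 1
    simp [zS, wD] at h1
    rw [h1] at h2
    simp [zS, wD] at h2
  · have hf : (fun x : Fin 5 → ℂ => L6.Ψ (1, x)) = Phi6 := by
      funext x; exact L6_Ψ_one x
    have hd : DifferentiableAt ℝ (fun x : Fin 5 → ℂ => L6.Ψ (1, x)) zS := by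
      have h1 : Differentiable ℝ L6.Ψ := L6.smooth_Ψ.differentiable (by simp)
      have h2 : Differentiable ℝ (fun y : Fin 5 → ℂ => (((1 : ℝ), y) : ℝ × (Fin 5 → ℂ))) :=
        (differentiable_const (1 : ℝ)).prodMk differentiable_id
      exact (h1.comp h2) zS
    rw [← hd.lineDeriv_eq_fderiv (v := wD)]
    unfold lineDeriv
    rw [hf]
    have e : (fun t : ℝ => Phi6 (zS + t • wD)) = fun t : ℝ => -(zS + t • wD) := by
      funext t; exact Phi6_line t
    rw [e]
    have hD : HasDerivAt (fun t : ℝ => -(zS + t • wD)) (-(0 + (1 : ℝ) • wD)) 0 :=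
      ((hasDerivAt_const (0 : ℝ) zS).add ((hasDerivAt_id (0 : ℝ)).smul_const wD)).neg
    rw [hD.deriv]
    simp

end

end Crest.Agent.S0316Aux.H6
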