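import Crest.Agent.S0316Aux.H6_Degen

/-!
# S0316, Track A (helper6): exactly three fixed lines
-/

set_option autoImplicit false

namespace Crest.Agent.S0316Aux.H6

open Crest.GeometryTopology.Quadric

noncomputable section

theorem ncard_three : (fixedLines L6).ncard = 3 := by
  refine Crest.Agent.S0316Aux.ncard_fixedLines_eq_three L6 zS zP6 zN6 zS_mem zP6_mem zN6_mem
    ⟨-1, by rw [L6_Ψ_one, Phi6_zS]⟩ (by simpa only [L6_Ψ_one] using zP6_fixed)
    (by simpa only [L6_Ψ_one] using zN6_fixed) ⟨1, 2, ?_⟩ ⟨1, 2, ?_⟩ ⟨1, 2, ?_⟩ ?_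
  · show pl 1 2 zS ≠ pl 1 2 zP6
    rw [zS_pl12, zP6_pl12]; norm_num
  · show pl 1 2 zS ≠ pl 1 2 zN6
    rw [zS_pl12, zN6_pl12]; norm_num
  · show pl 1 2 zP6 ≠ pl 1 2 zN6
    rw [zP6_pl12, zN6_pl12]; norm_num
  · rintro z hz ⟨c, hc⟩
    rw [L6_Ψ_one] at hc
    obtain ⟨h0, h | h | h⟩ := classify hz hc
    · obtain ⟨a1, a2, a3, a4, a5, a6⟩ := h
      left
      exact plu_ext h0 zS_zero (by rw [a1, zS_pl12]) (by rw [a2, zS_pl13]) (by rw [a3, zS_pl14])
        (by rw [a4, zS_pl23]) (by rw [a5, zS_pl24]) (by rw [a6, zS_pl34])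
    · obtain ⟨a1, a2, a3, a4, a5, a6⟩ := h
      right; left
      exact plu_ext h0 zP6_zero (by rw [a1, zP6_pl12]) (by rw [a2, zP6_pl13])
        (by rw [a3, zP6_pl14]) (by rw [a4, zP6_pl23]) (by rw [a5, zP6_pl24])
        (by rw [a6, zP6_pl34])
    · obtain ⟨a1, a2, a3, a4, a5, a6⟩ := h
      right; right
      exact plu_ext h0 zN6_zero (by rw [a1, zN6_pl12]) (by rw [a2, zN6_pl13])
        (by rw [a3, zN6_pl14]) (by rw [a4, zN6_pl23]) (by rw [a5, zN6_pl24])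
        (by rw [a6, zN6_pl34])

theorem main :
    ∃ L : HamiltonianConeLift, (fixedLines L).ncard = 3 ∧ HasDegenerateFixedPoint L :=
  ⟨L6, ncard_three, degenerate⟩

end

end Crest.Agent.S0316Aux.H6
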