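import Crest.Agent.S0316Aux.H6_Defs
import Crest.Agent.S0316Aux.H96_PlaneTwist

/-!
# S0316, Track A (helper6): the lift with time-one map `Phi6`
-/

set_option autoImplicit false

namespace Crest.Agent.S0316Aux.H6

open Crest.GeometryTopology.Quadric Crest.Agent.S0316Aux.H96

noncomputable section

lemma hasDerivAt_Fat (q : ℝ) : HasDerivAt Fat (Real.arctan q) q := by
  have h1 : HasDerivAt (fun q : ℝ => q * Real.arctan q)
      (1 * Real.arctan q + q * (1 / (1 + q ^ 2))) q :=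
    (hasDerivAt_id q).mul (Real.hasDerivAt_arctan q)
  have hpos : (1 + q ^ 2) ≠ 0 := by positivity
  have h2 : HasDerivAt (fun q : ℝ => 1 + q ^ 2) (2 * q) q := by
    have := ((hasDerivAt_id q).pow 2).const_add 1
    simpa using this
  have h3 : HasDerivAt (fun q : ℝ => Real.log (1 + q ^ 2) / 2) ((2 * q) / (1 + q ^ 2) / 2) q :=
    (h2.log hpos).div_const 2
  have h4 := h1.sub h3
  have e : 1 * Real.arctan q + q * (1 / (1 + q ^ 2)) - (2 * q) / (1 + q ^ 2) / 2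
      = Real.arctan q := by
    field_simp
    ring
  rw [e] at h4
  exact h4

lemma contDiff_Fat : ContDiff ℝ (⊤ : ℕ∞) Fat := by
  unfold Fat
  refine ContDiff.sub (contDiff_id.mul Real.contDiff_arctan) (ContDiff.div_const ?_ 2)
  refine ContDiff.log (contDiff_const.add (contDiff_id.pow 2)) ?_
  intro x
  positivity

lemma contDiff_thM (e : ℝ) : ContDiff ℝ (⊤ : ℕ∞) (thM e) := by
  unfold thM
  exact contDiff_const.add (contDiff_const.mul
    (Real.contDiff_arctan.comp (contDiff_const.mul (contDiff_const.sub contDiff_id))))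

lemma contDiff_thP (e : ℝ) : ContDiff ℝ (⊤ : ℕ∞) (thP e) := by
  unfold thP
  exact contDiff_const.add (contDiff_const.mul
    (Real.contDiff_arctan.comp (contDiff_const.mul (contDiff_const.add contDiff_id))))

lemma contDiff_hM (e : ℝ) : ContDiff ℝ (⊤ : ℕ∞) (hM e) := by
  unfold hM
  exact (contDiff_const.mul contDiff_id).sub (contDiff_const.mul
    (contDiff_Fat.comp (contDiff_const.mul (contDiff_const.sub contDiff_id))))

lemma contDiff_hP (e : ℝ) : ContDiff ℝ (⊤ : ℕ∞) (hP e) := by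
  unfold hP
  exact (contDiff_const.mul contDiff_id).add (contDiff_const.mul
    (contDiff_Fat.comp (contDiff_const.mul (contDiff_const.add contDiff_id))))

lemma hasDerivAt_hM (e x : ℝ) : HasDerivAt (hM e) (thM e x) x := by
  have hc : cc ≠ 0 := cc_pos.ne'
  have h0 : HasDerivAt (fun x : ℝ => cc * (1 / 2 - x)) (cc * (0 - 1)) x :=
    ((hasDerivAt_const x (1 / 2 : ℝ)).sub (hasDerivAt_id x)).const_mul cc
  have h1 : HasDerivAt (fun x : ℝ => Fat (cc * (1 / 2 - x)))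
      (Real.arctan (cc * (1 / 2 - x)) * (cc * (0 - 1))) x :=
    (hasDerivAt_Fat _).comp x h0
  have h2 := ((hasDerivAt_id x).const_mul e).sub (h1.const_mul (2 / cc))
  have e2 : e * 1 - 2 / cc * (Real.arctan (cc * (1 / 2 - x)) * (cc * (0 - 1))) = thM e x := by
    unfold thM
    field_simp
    ring
  rw [e2] at h2
  exact h2

lemma hasDerivAt_hP (e x : ℝ) : HasDerivAt (hP e) (thP e x) x := by
  have hc : cc ≠ 0 := cc_pos.ne'
  have h0 : HasDerivAt (fun x : ℝ => cc * (1 / 2 + x)) (cc * (0 + 1)) x :=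
    ((hasDerivAt_const x (1 / 2 : ℝ)).add (hasDerivAt_id x)).const_mul cc
  have h1 : HasDerivAt (fun x : ℝ => Fat (cc * (1 / 2 + x)))
      (Real.arctan (cc * (1 / 2 + x)) * (cc * (0 + 1))) x :=
    (hasDerivAt_Fat _).comp x h0
  have h2 := ((hasDerivAt_id x).const_mul e).add (h1.const_mul (2 / cc))
  have e2 : e * 1 + 2 / cc * (Real.arctan (cc * (1 / 2 + x)) * (cc * (0 + 1))) = thP e x := by
    unfold thP
    field_simp
    ring
  rw [e2] at h2
  exact h2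

/-- the four plane twists. -/
def T12 : HamiltonianConeLift :=
  planeTwist 1 2 (by decide) (hM Real.pi) (thM Real.pi) (contDiff_hM _) (contDiff_thM _)
    (hasDerivAt_hM _)
def T34 : HamiltonianConeLift :=
  planeTwist 3 4 (by decide) (hP Real.pi) (thP Real.pi) (contDiff_hP _) (contDiff_thP _)
    (hasDerivAt_hP _)
def T14 : HamiltonianConeLift :=
  planeTwist 1 4 (by decide) (hM 0) (thM 0) (contDiff_hM _) (contDiff_thM _) (hasDerivAt_hM _)
def T32 : HamiltonianConeLift :=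
  planeTwist 3 2 (by decide) (hP 0) (thP 0) (contDiff_hP _) (contDiff_thP _) (hasDerivAt_hP _)

lemma T34_zero (y : Fin 5 → ℂ) : T34.Ψ (0, y) = y := planeTwist_Ψ_zero _ _ _ _ _ _ _ _ y
lemma T14_zero (y : Fin 5 → ℂ) : T14.Ψ (0, y) = y := planeTwist_Ψ_zero _ _ _ _ _ _ _ _ y
lemma T32_zero (y : Fin 5 → ℂ) : T32.Ψ (0, y) = y := planeTwist_Ψ_zero _ _ _ _ _ _ _ _ y

lemma T12_one (y : Fin 5 → ℂ) : T12.Ψ (1, y) = rot 1 2 (thM Real.pi (mu 1 2 y)) y :=
  planeTwist_Ψ_one _ _ _ _ _ _ _ _ y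
lemma T34_one (y : Fin 5 → ℂ) : T34.Ψ (1, y) = rot 3 4 (thP Real.pi (mu 3 4 y)) y :=
  planeTwist_Ψ_one _ _ _ _ _ _ _ _ y
lemma T14_one (y : Fin 5 → ℂ) : T14.Ψ (1, y) = rot 1 4 (thM 0 (mu 1 4 y)) y :=
  planeTwist_Ψ_one _ _ _ _ _ _ _ _ y
lemma T32_one (y : Fin 5 → ℂ) : T32.Ψ (1, y) = rot 3 2 (thP 0 (mu 3 2 y)) y :=
  planeTwist_Ψ_one _ _ _ _ _ _ _ _ y

/-- the Hamiltonian isotopy. -/
def L6 : HamiltonianConeLift :=
  concat (concat (concat T12 T34 T34_zero) T14 T14_zero) T32 T32_zero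

lemma cos_two_arctan (r : ℝ) : Real.cos (2 * Real.arctan r) = cayC r := by
  have h : 0 < 1 + r ^ 2 := by positivity
  rw [Real.cos_two_mul, Real.cos_sq_arctan]
  unfold cayC
  field_simp
  ring

lemma sin_two_arctan (r : ℝ) : Real.sin (2 * Real.arctan r) = cayS r := by
  have h : 0 < 1 + r ^ 2 := by positivity
  rw [Real.sin_two_mul, Real.sin_arctan, Real.cos_arctan]
  unfold cayS
  have hs : Real.sqrt (1 + r ^ 2) * Real.sqrt (1 + r ^ 2) = 1 + r ^ 2 :=
    Real.mul_self_sqrt h.le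
  have hs0 : Real.sqrt (1 + r ^ 2) ≠ 0 := (Real.sqrt_pos.mpr h).ne'
  field_simp
  rw [Real.sq_sqrt (by positivity)]

lemma cos_thM_pi (x : ℝ) : Real.cos (thM Real.pi x) = -cayC (cc * (1 / 2 - x)) := by
  unfold thM
  rw [Real.cos_add, Real.cos_pi, Real.sin_pi, cos_two_arctan]; ring
lemma sin_thM_pi (x : ℝ) : Real.sin (thM Real.pi x) = -cayS (cc * (1 / 2 - x)) := by
  unfold thM
  rw [Real.sin_add, Real.cos_pi, Real.sin_pi, sin_two_arctan]; ring
lemma cos_thP_pi (x : ℝ) : Real.cos (thP Real.pi x) = -cayC (cc * (1 / 2 + x)) := by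
  unfold thP
  rw [Real.cos_add, Real.cos_pi, Real.sin_pi, cos_two_arctan]; ring
lemma sin_thP_pi (x : ℝ) : Real.sin (thP Real.pi x) = -cayS (cc * (1 / 2 + x)) := by
  unfold thP
  rw [Real.sin_add, Real.cos_pi, Real.sin_pi, sin_two_arctan]; ring
lemma cos_thM_zero (x : ℝ) : Real.cos (thM 0 x) = cayC (cc * (1 / 2 - x)) := by
  unfold thM
  rw [zero_add, cos_two_arctan]
lemma sin_thM_zero (x : ℝ) : Real.sin (thM 0 x) = cayS (cc * (1 / 2 - x)) := by
  unfold thM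
  rw [zero_add, sin_two_arctan]
lemma cos_thP_zero (x : ℝ) : Real.cos (thP 0 x) = cayC (cc * (1 / 2 + x)) := by
  unfold thP
  rw [zero_add, cos_two_arctan]
lemma sin_thP_zero (x : ℝ) : Real.sin (thP 0 x) = cayS (cc * (1 / 2 + x)) := by
  unfold thP
  rw [zero_add, sin_two_arctan]

lemma stageA (z : Fin 5 → ℂ) :
    rot 3 4 (thP Real.pi (mu 3 4 (rot 1 2 (thM Real.pi (mu 1 2 z)) z)))
      (rot 1 2 (thM Real.pi (mu 1 2 z)) z) = TA z := by
  have h34 : mu 3 4 (rot 1 2 (thM Real.pi (mu 1 2 z)) z) = mu 3 4 z := by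
    simp [mu, rot]
  rw [h34]
  funext i
  fin_cases i <;>
    simp [rot, TA, rotA, r1, r2, pl, mu, cos_thM_pi, sin_thM_pi, cos_thP_pi, sin_thP_pi]

lemma stageB (z : Fin 5 → ℂ) :
    rot 3 2 (thP 0 (mu 3 2 (rot 1 4 (thM 0 (mu 1 4 z)) z)))
      (rot 1 4 (thM 0 (mu 1 4 z)) z) = TB z := by
  have h32 : mu 3 2 (rot 1 4 (thM 0 (mu 1 4 z)) z) = mu 3 2 z := by
    simp [mu, rot]
  rw [h32]
  funext i
  fin_cases i <;>
    simp [rot, TB, rotB, r3, r4, pl, mu, cos_thM_zero, sin_thM_zero, cos_thP_zero, sin_thP_zero]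

lemma L6_Ψ_one (z : Fin 5 → ℂ) : L6.Ψ (1, z) = Phi6 z := by
  unfold L6
  rw [concat_Ψ_one, concat_Ψ_one, concat_Ψ_one]
  rw [T12_one, T34_one, T14_one, T32_one, stageA, stageB]
  rfl

end

end Crest.Agent.S0316Aux.H6
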