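import Crest.Agent.S0316Aux.H6_Basic

/-!
# S0316, Track A (helper6): no fixed line off the hyperplane section `z 0 = 0`
-/

set_option autoImplicit false

namespace Crest.Agent.S0316Aux.H6

open Crest.GeometryTopology.Quadric

noncomputable section

lemma TA_0 (z : Fin 5 → ℂ) : TA z 0 = z 0 := by simp [TA, rotA]
lemma TA_1 (z : Fin 5 → ℂ) :
    TA z 1 = ((-cayC (r1 z) : ℝ) : ℂ) * z 1 - ((-cayS (r1 z) : ℝ) : ℂ) * z 2 := by simp [TA, rotA]
lemma TA_2 (z : Fin 5 → ℂ) :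
    TA z 2 = ((-cayS (r1 z) : ℝ) : ℂ) * z 1 + ((-cayC (r1 z) : ℝ) : ℂ) * z 2 := by simp [TA, rotA]
lemma TA_3 (z : Fin 5 → ℂ) :
    TA z 3 = ((-cayC (r2 z) : ℝ) : ℂ) * z 3 - ((-cayS (r2 z) : ℝ) : ℂ) * z 4 := by simp [TA, rotA]
lemma TA_4 (z : Fin 5 → ℂ) :
    TA z 4 = ((-cayS (r2 z) : ℝ) : ℂ) * z 3 + ((-cayC (r2 z) : ℝ) : ℂ) * z 4 := by simp [TA, rotA]

lemma TB_0 (z : Fin 5 → ℂ) : TB z 0 = z 0 := by simp [TB, rotB]
lemma TB_1 (z : Fin 5 → ℂ) :
    TB z 1 = ((cayC (r3 z) : ℝ) : ℂ) * z 1 - ((cayS (r3 z) : ℝ) : ℂ) * z 4 := by simp [TB, rotB]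
lemma TB_2 (z : Fin 5 → ℂ) :
    TB z 2 = ((cayS (r4 z) : ℝ) : ℂ) * z 3 + ((cayC (r4 z) : ℝ) : ℂ) * z 2 := by simp [TB, rotB]
lemma TB_3 (z : Fin 5 → ℂ) :
    TB z 3 = ((cayC (r4 z) : ℝ) : ℂ) * z 3 - ((cayS (r4 z) : ℝ) : ℂ) * z 2 := by simp [TB, rotB]
lemma TB_4 (z : Fin 5 → ℂ) :
    TB z 4 = ((cayS (r3 z) : ℝ) : ℂ) * z 1 + ((cayC (r3 z) : ℝ) : ℂ) * z 4 := by simp [TB, rotB]

/-- pure real statement behind the exclusion. -/
lemma off_aux (C1 S1 C2 S2 C3 S3 C4 S4 a1 a2 a3 a4 p1 p2 p3 p4 : ℝ)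
    (d1 : p1 = -C1 * a1 - -S1 * a2) (d2 : p2 = -S1 * a1 + -C1 * a2)
    (d3 : p3 = -C2 * a3 - -S2 * a4) (d4 : p4 = -S2 * a3 + -C2 * a4)
    (h1 : C3 * p1 - S3 * p4 = a1) (h2 : S4 * p3 + C4 * p2 = a2)
    (h3 : C4 * p3 - S4 * p2 = a3) (h4 : S3 * p1 + C3 * p4 = a4) :
    C3 * (p1 ^ 2 + p4 ^ 2) + C4 * (p2 ^ 2 + p3 ^ 2) + C1 * (a1 ^ 2 + a2 ^ 2)
      + C2 * (a3 ^ 2 + a4 ^ 2) = 0 := by
  linear_combination p1 * h1 + p2 * h2 + p3 * h3 + p4 * h4 + a1 * d1 + a2 * d2 + a3 * d3 + a4 * d4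

theorem z0_eq_zero {z : Fin 5 → ℂ} (hz : z ∈ unitCone) {l : ℂ} (h : Phi6 z = l • z) :
    z 0 = 0 := by
  by_contra hz0
  have h0 := congrFun h 0
  have hl : l = 1 := by
    have e : z 0 = l * z 0 := by
      simpa [Phi6, TB_0, TA_0] using h0
    have : (l - 1) * z 0 = 0 := by linear_combination -e
    rcases mul_eq_zero.mp this with h' | h'
    · linear_combination h'
    · exact absurd h' hz0
  subst hl
  set y := TA z with hy
  have hyc : y ∈ unitCone := TA_mem hz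
  have h1 : TB y 1 = z 1 := by simpa [Phi6] using congrFun h 1
  have h2 : TB y 2 = z 2 := by simpa [Phi6] using congrFun h 2
  have h3 : TB y 3 = z 3 := by simpa [Phi6] using congrFun h 3
  have h4 : TB y 4 = z 4 := by simpa [Phi6] using congrFun h 4
  rw [TB_1] at h1; rw [TB_2] at h2; rw [TB_3] at h3; rw [TB_4] at h4
  have d1 : y 1 = _ := TA_1 z
  have d2 : y 2 = _ := TA_2 z
  have d3 : y 3 = _ := TA_3 z
  have d4 : y 4 = _ := TA_4 z
  have C1 := cayC_r1_pos hz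
  have C2 := cayC_r2_pos hz
  have C3 := cayC_r3_pos hyc
  have C4 := cayC_r4_pos hyc
  have kre := off_aux (cayC (r1 z)) (cayS (r1 z)) (cayC (r2 z)) (cayS (r2 z))
    (cayC (r3 y)) (cayS (r3 y)) (cayC (r4 y)) (cayS (r4 y))
    (z 1).re (z 2).re (z 3).re (z 4).re (y 1).re (y 2).re (y 3).re (y 4).re
    (by have := congrArg Complex.re d1; simpa using this)
    (by have := congrArg Complex.re d2; simpa using this)
    (by have := congrArg Complex.re d3; simpa using this)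
    (by have := congrArg Complex.re d4; simpa using this)
    (by have := congrArg Complex.re h1; simpa using this)
    (by have := congrArg Complex.re h2; simpa using this)
    (by have := congrArg Complex.re h3; simpa using this)
    (by have := congrArg Complex.re h4; simpa using this)
  have kim := off_aux (cayC (r1 z)) (cayS (r1 z)) (cayC (r2 z)) (cayS (r2 z))
    (cayC (r3 y)) (cayS (r3 y)) (cayC (r4 y)) (cayS (r4 y))
    (z 1).im (z 2).im (z 3).im (z 4).im (y 1).im (y 2).im (y 3).im (y 4).im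
    (by have := congrArg Complex.im d1; simpa using this)
    (by have := congrArg Complex.im d2; simpa using this)
    (by have := congrArg Complex.im d3; simpa using this)
    (by have := congrArg Complex.im d4; simpa using this)
    (by have := congrArg Complex.im h1; simpa using this)
    (by have := congrArg Complex.im h2; simpa using this)
    (by have := congrArg Complex.im h3; simpa using this)
    (by have := congrArg Complex.im h4; simpa using this)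
  have t1 : 0 ≤ cayC (r3 y) * ((y 1).re ^ 2 + (y 4).re ^ 2) := by positivity
  have t2 : 0 ≤ cayC (r4 y) * ((y 2).re ^ 2 + (y 3).re ^ 2) := by positivity
  have t3 : 0 ≤ cayC (r3 y) * ((y 1).im ^ 2 + (y 4).im ^ 2) := by positivity
  have t4 : 0 ≤ cayC (r4 y) * ((y 2).im ^ 2 + (y 3).im ^ 2) := by positivity
  have t5 : 0 ≤ cayC (r1 z) * ((z 1).re ^ 2 + (z 2).re ^ 2) := by positivity
  have t6 : 0 ≤ cayC (r2 z) * ((z 3).re ^ 2 + (z 4).re ^ 2) := by positivity
  have t7 : 0 ≤ cayC (r1 z) * ((z 1).im ^ 2 + (z 2).im ^ 2) := by positivity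
  have t8 : 0 ≤ cayC (r2 z) * ((z 3).im ^ 2 + (z 4).im ^ 2) := by positivity
  have s5 : (z 1).re ^ 2 + (z 2).re ^ 2 = 0 := by
    have : cayC (r1 z) * ((z 1).re ^ 2 + (z 2).re ^ 2) = 0 := by linarith
    rcases mul_eq_zero.mp this with h' | h'
    · exact absurd h' C1.ne'
    · exact h'
  have s6 : (z 3).re ^ 2 + (z 4).re ^ 2 = 0 := by
    have : cayC (r2 z) * ((z 3).re ^ 2 + (z 4).re ^ 2) = 0 := by linarith
    rcases mul_eq_zero.mp this with h' | h'
    · exact absurd h' C2.ne'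
    · exact h'
  have s7 : (z 1).im ^ 2 + (z 2).im ^ 2 = 0 := by
    have : cayC (r1 z) * ((z 1).im ^ 2 + (z 2).im ^ 2) = 0 := by linarith
    rcases mul_eq_zero.mp this with h' | h'
    · exact absurd h' C1.ne'
    · exact h'
  have s8 : (z 3).im ^ 2 + (z 4).im ^ 2 = 0 := by
    have : cayC (r2 z) * ((z 3).im ^ 2 + (z 4).im ^ 2) = 0 := by linarith
    rcases mul_eq_zero.mp this with h' | h'
    · exact absurd h' C2.ne'
    · exact h'
  have n := cone_norm hz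
  have i1 := cone_iso_re hz
  have i2 := cone_iso_im hz
  have a1 : (z 1).re = 0 := by nlinarith [sq_nonneg (z 1).re, sq_nonneg (z 2).re]
  have a2 : (z 2).re = 0 := by nlinarith [sq_nonneg (z 1).re, sq_nonneg (z 2).re]
  have a3 : (z 3).re = 0 := by nlinarith [sq_nonneg (z 3).re, sq_nonneg (z 4).re]
  have a4 : (z 4).re = 0 := by nlinarith [sq_nonneg (z 3).re, sq_nonneg (z 4).re]
  have b1 : (z 1).im = 0 := by nlinarith [sq_nonneg (z 1).im, sq_nonneg (z 2).im]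
  have b2 : (z 2).im = 0 := by nlinarith [sq_nonneg (z 1).im, sq_nonneg (z 2).im]
  have b3 : (z 3).im = 0 := by nlinarith [sq_nonneg (z 3).im, sq_nonneg (z 4).im]
  have b4 : (z 4).im = 0 := by nlinarith [sq_nonneg (z 3).im, sq_nonneg (z 4).im]
  rw [a1, a2, a3, a4, b1, b2, b3, b4] at n i1 i2
  have e1 : (z 0).re ^ 2 = 1 / 2 := by linarith
  have e2 : (z 0).im ^ 2 = 1 / 2 := by linarith
  have e3 : (z 0).re * (z 0).im = 0 := by linarith
  have : ((z 0).re * (z 0).im) ^ 2 = 1 / 4 := by rw [mul_pow, e1, e2]; norm_num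
  rw [e3] at this
  norm_num at this

end

end Crest.Agent.S0316Aux.H6
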