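import Crest.Agent.S0316Aux.H6_Bridge

/-!
# S0316, Track A (helper6): the three fixed points
-/

set_option autoImplicit false

namespace Crest.Agent.S0316Aux.H6

open Crest.GeometryTopology.Quadric

noncomputable section

lemma plu_ext {z z' : Fin 5 → ℂ} (h0 : z 0 = 0) (h0' : z' 0 = 0)
    (h12 : pl 1 2 z = pl 1 2 z') (h13 : pl 1 3 z = pl 1 3 z') (h14 : pl 1 4 z = pl 1 4 z')
    (h23 : pl 2 3 z = pl 2 3 z') (h24 : pl 2 4 z = pl 2 4 z') (h34 : pl 3 4 z = pl 3 4 z') :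
    ∀ i j, Crest.Agent.S0316Aux.plu z i j = Crest.Agent.S0316Aux.plu z' i j := by
  have e : ∀ (w : Fin 5 → ℂ) (i j : Fin 5), Crest.Agent.S0316Aux.plu w i j = pl i j w :=
    fun _ _ _ => rfl
  have anti : ∀ (w : Fin 5 → ℂ) (i j : Fin 5), pl j i w = - pl i j w := by
    intro w i j; simp only [pl_eq]; ring
  have z0l : ∀ (w : Fin 5 → ℂ), w 0 = 0 → ∀ j, pl 0 j w = 0 := by
    intro w hw j; simp [pl_eq, hw]
  have z0r : ∀ (w : Fin 5 → ℂ), w 0 = 0 → ∀ j, pl j 0 w = 0 := by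
    intro w hw j; simp [pl_eq, hw]
  have diag : ∀ (w : Fin 5 → ℂ) (i : Fin 5), pl i i w = 0 := by
    intro w i; simp only [pl_eq]; ring
  intro i j
  rw [e, e]
  fin_cases i <;> fin_cases j <;>
    first
    | exact (z0l z h0 _).trans (z0l z' h0' _).symm
    | exact (z0r z h0 _).trans (z0r z' h0' _).symm
    | exact (diag z _).trans (diag z' _).symm
    | exact h12 | exact h13 | exact h14 | exact h23 | exact h24 | exact h34
    | (exact (anti z 1 2).trans ((congrArg Neg.neg h12).trans (anti z' 1 2).symm))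
    | (exact (anti z 1 3).trans ((congrArg Neg.neg h13).trans (anti z' 1 3).symm))
    | (exact (anti z 1 4).trans ((congrArg Neg.neg h14).trans (anti z' 1 4).symm))
    | (exact (anti z 2 3).trans ((congrArg Neg.neg h23).trans (anti z' 2 3).symm))
    | (exact (anti z 2 4).trans ((congrArg Neg.neg h24).trans (anti z' 2 4).symm))
    | (exact (anti z 3 4).trans ((congrArg Neg.neg h34).trans (anti z' 3 4).symm))

/-- the two nondegenerate fixed points, written with `cc` (`5 √2 / 36 = 25 cc / 81`). -/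
def zP6 : Fin 5 → ℂ :=
  ![0, 2 / 9, ((25 / 81 * cc : ℝ) : ℂ) + Complex.I / 2, 11 / 18,
    -((25 / 81 * cc : ℝ) : ℂ) + Complex.I / 2]
def zN6 : Fin 5 → ℂ :=
  ![0, -11 / 18, ((25 / 81 * cc : ℝ) : ℂ) + Complex.I / 2, -2 / 9,
    -((25 / 81 * cc : ℝ) : ℂ) + Complex.I / 2]

lemma mem_cone_of_re_im {z : Fin 5 → ℂ}
    (n : (z 0).re ^ 2 + (z 0).im ^ 2 + ((z 1).re ^ 2 + (z 1).im ^ 2) + ((z 2).re ^ 2 + (z 2).im ^ 2)
      + ((z 3).re ^ 2 + (z 3).im ^ 2) + ((z 4).re ^ 2 + (z 4).im ^ 2) = 1)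
    (i1 : (z 0).re ^ 2 - (z 0).im ^ 2 + ((z 1).re ^ 2 - (z 1).im ^ 2)
      + ((z 2).re ^ 2 - (z 2).im ^ 2)
      + ((z 3).re ^ 2 - (z 3).im ^ 2) + ((z 4).re ^ 2 - (z 4).im ^ 2) = 0)
    (i2 : (z 0).re * (z 0).im + (z 1).re * (z 1).im + (z 2).re * (z 2).im
      + (z 3).re * (z 3).im + (z 4).re * (z 4).im = 0) : z ∈ unitCone := by
  constructor
  · apply Complex.ext
    · simp [herm, Fin.sum_univ_five, Complex.mul_re]
      linarith
    · simp [herm, Fin.sum_univ_five, Complex.mul_im]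
      ring
  · apply Complex.ext
    · simp [Fin.sum_univ_five, sq, Complex.mul_re]
      linarith
    · simp [Fin.sum_univ_five, sq, Complex.mul_im]
      linarith

lemma zS_mem : zS ∈ unitCone := by
  apply mem_cone_of_re_im <;> simp [zS] <;> norm_num

lemma zP6_mem : zP6 ∈ unitCone := by
  have h := cc_sq
  apply mem_cone_of_re_im <;> simp [zP6] <;> nlinarith

lemma zN6_mem : zN6 ∈ unitCone := by
  have h := cc_sq
  apply mem_cone_of_re_im <;> simp [zN6] <;> nlinarith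

lemma zP6_pl12 : pl 1 2 zP6 = (2 / 9) := by
  simp [pl_eq, zP6]; try ring
lemma zP6_pl13 : pl 1 3 zP6 = 0 := by
  simp [pl_eq, zP6]; try ring
lemma zP6_pl14 : pl 1 4 zP6 = (2 / 9) := by
  simp [pl_eq, zP6]; try ring
lemma zP6_pl23 : pl 2 3 zP6 = (-11 / 18) := by
  simp [pl_eq, zP6]; try ring
lemma zP6_pl24 : pl 2 4 zP6 = (50 / 81) * cc := by
  simp [pl_eq, zP6]; try ring
lemma zP6_pl34 : pl 3 4 zP6 = (11 / 18) := by
  simp [pl_eq, zP6]; try ring
lemma zP6_zero : zP6 0 = 0 := by simp [zP6]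

lemma zP6_fixed : ∃ c : ℂ, Phi6 zP6 = c • zP6 := by
  have p12 := zP6_pl12
  have p13 := zP6_pl13
  have p14 := zP6_pl14
  have p23 := zP6_pl23
  have p24 := zP6_pl24
  have p34 := zP6_pl34
  have R1 : r1 zP6 = cc * (5 / 18) := by unfold r1; rw [p12]; norm_num
  have R2 : r2 zP6 = cc * (10 / 9) := by unfold r2; rw [p34]; norm_num
  have hC1 : cayC (r1 zP6) = (31 / 33) := by rw [R1]; unfold cayC; rw [mul_pow, cc_sq]; norm_num
  have hS1 : cayS (r1 zP6) = (160 / 297) * cc := by rw [R1]; unfold cayS; rw [mul_pow, cc_sq]; ring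
  have hC2 : cayC (r2 zP6) = (1 / 3) := by rw [R2]; unfold cayC; rw [mul_pow, cc_sq]; norm_num
  have hS2 : cayS (r2 zP6) = (40 / 27) * cc := by rw [R2]; unfold cayS; rw [mul_pow, cc_sq]; ring
  have yA : TA zP6 = rotA (-(31 / 33)) (-((160 / 297) * cc)) (-(1 / 3)) (-((40 / 27) * cc)) zP6 := by
    unfold TA; rw [hC1, hS1, hC2, hS2]
  have q12 : pl 1 2 (TA zP6) = (2 / 9) := by
    rw [yA, pl12_rotA, p12]; linear_combination ((51200 / 793881)) * cc_sq
  have q13 : pl 1 3 (TA zP6) = 0 := by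
    rw [yA, pl13_rotA, p13, p14, p23, p24]; linear_combination ((320000 / 649539) * cc) * cc_sq
  have q14 : pl 1 4 (TA zP6) = (2 / 9) := by
    rw [yA, pl14_rotA, p13, p14, p23, p24]; linear_combination ((27200 / 72171)) * cc_sq
  have q23 : pl 2 3 (TA zP6) = (-11 / 18) := by
    rw [yA, pl23_rotA, p13, p14, p23, p24]; linear_combination ((-6800 / 6561)) * cc_sq
  have q24 : pl 2 4 (TA zP6) = (-50 / 81) * cc := by
    rw [yA, pl24_rotA, p13, p14, p23, p24]; linear_combination (0) * cc_sq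
  have q34 : pl 3 4 (TA zP6) = (11 / 18) := by
    rw [yA, pl34_rotA, p34]; linear_combination ((8800 / 6561)) * cc_sq
  have R3 : r3 (TA zP6) = cc * (5 / 18) := by unfold r3; rw [q14]; norm_num
  have R4 : r4 (TA zP6) = cc * (10 / 9) := by unfold r4; rw [pl32_eq, q23]; norm_num
  have hC3 : cayC (r3 (TA zP6)) = (31 / 33) := by rw [R3]; unfold cayC; rw [mul_pow, cc_sq]; norm_num
  have hS3 : cayS (r3 (TA zP6)) = (160 / 297) * cc := by rw [R3]; unfold cayS; rw [mul_pow, cc_sq]; ring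
  have hC4 : cayC (r4 (TA zP6)) = (1 / 3) := by rw [R4]; unfold cayC; rw [mul_pow, cc_sq]; norm_num
  have hS4 : cayS (r4 (TA zP6)) = (40 / 27) * cc := by rw [R4]; unfold cayS; rw [mul_pow, cc_sq]; ring
  have yB : Phi6 zP6 = rotB (31 / 33) ((160 / 297) * cc) (1 / 3) ((40 / 27) * cc) (TA zP6) := by
    unfold Phi6 TB; rw [hC3, hS3, hC4, hS4]
  have n12 : pl 1 2 (Phi6 zP6) = (2 / 9) := by
    rw [yB, pl12_rotB, q13, q12, q34, q24]; linear_combination ((27200 / 72171)) * cc_sq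
  have n13 : pl 1 3 (Phi6 zP6) = 0 := by
    rw [yB, pl13_rotB, q13, q12, q34, q24]; linear_combination ((320000 / 649539) * cc) * cc_sq
  have n14 : pl 1 4 (Phi6 zP6) = (2 / 9) := by
    rw [yB, pl14_rotB, q14]; linear_combination ((51200 / 793881)) * cc_sq
  have n23 : pl 2 3 (Phi6 zP6) = (-11 / 18) := by
    rw [yB, pl23_rotB, q23]; linear_combination ((-8800 / 6561)) * cc_sq
  have n24 : pl 2 4 (Phi6 zP6) = (50 / 81) * cc := by
    rw [yB, pl24_rotB, q13, q34, q12, q24]; linear_combination (0) * cc_sq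
  have n34 : pl 3 4 (Phi6 zP6) = (11 / 18) := by
    rw [yB, pl34_rotB, q13, q34, q12, q24]; linear_combination ((6800 / 6561)) * cc_sq
  have hm : Phi6 zP6 ∈ unitCone := TB_mem (TA_mem zP6_mem)
  have h00 : Phi6 zP6 0 = 0 := by simp [Phi6, TB_0, TA_0, zP6_zero]
  exact ⟨_, Crest.Agent.S0316Aux.plucker_inj zP6_mem hm (plu_ext zP6_zero h00 (by rw [p12, n12]) (by rw [p13, n13])
    (by rw [p14, n14]) (by rw [p23, n23]) (by rw [p24, n24]) (by rw [p34, n34]))⟩

lemma zN6_pl12 : pl 1 2 zN6 = (-11 / 18) := by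
  simp [pl_eq, zN6]; try ring
lemma zN6_pl13 : pl 1 3 zN6 = 0 := by
  simp [pl_eq, zN6]; try ring
lemma zN6_pl14 : pl 1 4 zN6 = (-11 / 18) := by
  simp [pl_eq, zN6]; try ring
lemma zN6_pl23 : pl 2 3 zN6 = (2 / 9) := by
  simp [pl_eq, zN6]; try ring
lemma zN6_pl24 : pl 2 4 zN6 = (50 / 81) * cc := by
  simp [pl_eq, zN6]; try ring
lemma zN6_pl34 : pl 3 4 zN6 = (-2 / 9) := by
  simp [pl_eq, zN6]; try ring
lemma zN6_zero : zN6 0 = 0 := by simp [zN6]

lemma zN6_fixed : ∃ c : ℂ, Phi6 zN6 = c • zN6 := by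
  have p12 := zN6_pl12
  have p13 := zN6_pl13
  have p14 := zN6_pl14
  have p23 := zN6_pl23
  have p24 := zN6_pl24
  have p34 := zN6_pl34
  have R1 : r1 zN6 = cc * (10 / 9) := by unfold r1; rw [p12]; norm_num
  have R2 : r2 zN6 = cc * (5 / 18) := by unfold r2; rw [p34]; norm_num
  have hC1 : cayC (r1 zN6) = (1 / 3) := by rw [R1]; unfold cayC; rw [mul_pow, cc_sq]; norm_num
  have hS1 : cayS (r1 zN6) = (40 / 27) * cc := by rw [R1]; unfold cayS; rw [mul_pow, cc_sq]; ring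
  have hC2 : cayC (r2 zN6) = (31 / 33) := by rw [R2]; unfold cayC; rw [mul_pow, cc_sq]; norm_num
  have hS2 : cayS (r2 zN6) = (160 / 297) * cc := by rw [R2]; unfold cayS; rw [mul_pow, cc_sq]; ring
  have yA : TA zN6 = rotA (-(1 / 3)) (-((40 / 27) * cc)) (-(31 / 33)) (-((160 / 297) * cc)) zN6 := by
    unfold TA; rw [hC1, hS1, hC2, hS2]
  have q12 : pl 1 2 (TA zN6) = (-11 / 18) := by
    rw [yA, pl12_rotA, p12]; linear_combination ((-8800 / 6561)) * cc_sq
  have q13 : pl 1 3 (TA zN6) = 0 := by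
    rw [yA, pl13_rotA, p13, p14, p23, p24]; linear_combination ((320000 / 649539) * cc) * cc_sq
  have q14 : pl 1 4 (TA zN6) = (-11 / 18) := by
    rw [yA, pl14_rotA, p13, p14, p23, p24]; linear_combination ((-6800 / 6561)) * cc_sq
  have q23 : pl 2 3 (TA zN6) = (2 / 9) := by
    rw [yA, pl23_rotA, p13, p14, p23, p24]; linear_combination ((27200 / 72171)) * cc_sq
  have q24 : pl 2 4 (TA zN6) = (-50 / 81) * cc := by
    rw [yA, pl24_rotA, p13, p14, p23, p24]; linear_combination (0) * cc_sq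
  have q34 : pl 3 4 (TA zN6) = (-2 / 9) := by
    rw [yA, pl34_rotA, p34]; linear_combination ((-51200 / 793881)) * cc_sq
  have R3 : r3 (TA zN6) = cc * (10 / 9) := by unfold r3; rw [q14]; norm_num
  have R4 : r4 (TA zN6) = cc * (5 / 18) := by unfold r4; rw [pl32_eq, q23]; norm_num
  have hC3 : cayC (r3 (TA zN6)) = (1 / 3) := by rw [R3]; unfold cayC; rw [mul_pow, cc_sq]; norm_num
  have hS3 : cayS (r3 (TA zN6)) = (40 / 27) * cc := by rw [R3]; unfold cayS; rw [mul_pow, cc_sq]; ring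
  have hC4 : cayC (r4 (TA zN6)) = (31 / 33) := by rw [R4]; unfold cayC; rw [mul_pow, cc_sq]; norm_num
  have hS4 : cayS (r4 (TA zN6)) = (160 / 297) * cc := by rw [R4]; unfold cayS; rw [mul_pow, cc_sq]; ring
  have yB : Phi6 zN6 = rotB (1 / 3) ((40 / 27) * cc) (31 / 33) ((160 / 297) * cc) (TA zN6) := by
    unfold Phi6 TB; rw [hC3, hS3, hC4, hS4]
  have n12 : pl 1 2 (Phi6 zN6) = (-11 / 18) := by
    rw [yB, pl12_rotB, q13, q12, q34, q24]; linear_combination ((-6800 / 6561)) * cc_sq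
  have n13 : pl 1 3 (Phi6 zN6) = 0 := by
    rw [yB, pl13_rotB, q13, q12, q34, q24]; linear_combination ((320000 / 649539) * cc) * cc_sq
  have n14 : pl 1 4 (Phi6 zN6) = (-11 / 18) := by
    rw [yB, pl14_rotB, q14]; linear_combination ((-8800 / 6561)) * cc_sq
  have n23 : pl 2 3 (Phi6 zN6) = (2 / 9) := by
    rw [yB, pl23_rotB, q23]; linear_combination ((51200 / 793881)) * cc_sq
  have n24 : pl 2 4 (Phi6 zN6) = (50 / 81) * cc := by
    rw [yB, pl24_rotB, q13, q34, q12, q24]; linear_combination (0) * cc_sq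
  have n34 : pl 3 4 (Phi6 zN6) = (-2 / 9) := by
    rw [yB, pl34_rotB, q13, q34, q12, q24]; linear_combination ((-27200 / 72171)) * cc_sq
  have hm : Phi6 zN6 ∈ unitCone := TB_mem (TA_mem zN6_mem)
  have h00 : Phi6 zN6 0 = 0 := by simp [Phi6, TB_0, TA_0, zN6_zero]
  exact ⟨_, Crest.Agent.S0316Aux.plucker_inj zN6_mem hm (plu_ext zN6_zero h00 (by rw [p12, n12]) (by rw [p13, n13])
    (by rw [p14, n14]) (by rw [p23, n23]) (by rw [p24, n24]) (by rw [p34, n34]))⟩

end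

end Crest.Agent.S0316Aux.H6
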