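import Mathlib
import Crest.Agent.S0316Aux.Defs

/-!
helper73, auxiliary file for S0316: the degenerate fixed point of the canonical `Phi` of `Defs.lean`.

Cone point `Z0 = ((1+i)/26)·(0,12,5,0,13 i)`, multiplier `l0 = -(72+65 i)/97`, tangent vector
`w0 = (1+i)·e₃`, `r = 0`.  Along the line `Z0 + s w0` the invariants `NN`, `QQ`, `ww` depend on `s`
only through `s ^ 2`, so the coefficients of the twist have vanishing derivative at `s = 0`.
-/

set_option autoImplicit false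

namespace Crest.Agent.S0316Aux.H73

open Crest.GeometryTopology.Quadric Crest.Agent.S0316Aux

noncomputable section

/-- The degenerate cone point. -/
def Z0 : Fin 5 → ℂ := ![0, ⟨6 / 13, 6 / 13⟩, ⟨5 / 26, 5 / 26⟩, 0, ⟨-1 / 2, 1 / 2⟩]

/-- The degenerate direction. -/
def w0 : Fin 5 → ℂ := ![0, 0, 0, ⟨1, 1⟩, 0]

/-- The multiplier. -/
def l0 : ℂ := ⟨-72 / 97, -65 / 97⟩

/-- the line through `Z0` in the direction `w0`. -/
def line (s : ℝ) : Fin 5 → ℂ := ![0, ⟨6 / 13, 6 / 13⟩, ⟨5 / 26, 5 / 26⟩, ⟨s, s⟩, ⟨-1 / 2, 1 / 2⟩]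

lemma line_eq (s : ℝ) : Z0 + s • w0 = line s := by
  funext j
  fin_cases j <;> apply Complex.ext <;> simp [Z0, w0, line]

lemma NN_line (s : ℝ) : NN (line s) = 241 / 338 + 2 * s ^ 2 := by
  simp [NN, line, Complex.normSq_apply]
  ring

lemma QQ_line (s : ℝ) : QQ (line s) = ⟨-5 / 26, 36 / 169 + 2 * s ^ 2⟩ := by
  apply Complex.ext <;> simp [QQ, line, pow_two] <;> ring

lemma ww_line (s : ℝ) : ww (line s) = 72 / 169 + 2 * s ^ 2 := by
  simp only [ww, NN_line, QQ_line, Complex.normSq_apply]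
  ring

/-- the first coefficient of the twist along the line. -/
def alS (s : ℝ) : ℂ :=
  (((-2 * (65 / 72 : ℝ) ^ 2 * (72 / 169 + 2 * s ^ 2) : ℝ) : ℂ)
      + 2 * Complex.I * ((65 / 72 : ℝ) : ℂ) * ((241 / 338 + 2 * s ^ 2 : ℝ) : ℂ))
    / ((1 + (65 / 72 : ℝ) ^ 2 * (72 / 169 + 2 * s ^ 2) : ℝ) : ℂ)

/-- the second coefficient of the twist along the line. -/
def beS (s : ℝ) : ℂ :=
  (-2 * Complex.I * ((65 / 72 : ℝ) : ℂ)
      * (((-5 / 26 : ℝ) : ℂ) + ((36 / 169 + 2 * s ^ 2 : ℝ) : ℂ) * Complex.I))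
    / ((1 + (65 / 72 : ℝ) ^ 2 * (72 / 169 + 2 * s ^ 2) : ℝ) : ℂ)

lemma Btw_line (s : ℝ) (j : Fin 5) :
    Btw (65 / 72) (line s) j
      = line s j + alS s * zeta (line s) j + beS s * (starRingEnd ℂ) (zeta (line s) j) := by
  have hQ : QQ (line s)
      = ((-5 / 26 : ℝ) : ℂ) + ((36 / 169 + 2 * s ^ 2 : ℝ) : ℂ) * Complex.I := by
    rw [QQ_line]; apply Complex.ext <;> simp [pow_two]
  simp only [Btw, alS, beS, NN_line, ww_line, hQ]

lemma hasDerivAt_sq (a : ℝ) : HasDerivAt (fun s : ℝ => a + 2 * s ^ 2) 0 0 := by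
  have h := ((hasDerivAt_pow 2 (0 : ℝ)).const_mul 2).const_add a
  simpa using h

lemma hasDerivAt_den :
    HasDerivAt (fun s : ℝ => ((1 + (65 / 72 : ℝ) ^ 2 * (72 / 169 + 2 * s ^ 2) : ℝ) : ℂ)) 0 0 := by
  have h := (((hasDerivAt_sq (72 / 169)).const_mul ((65 / 72 : ℝ) ^ 2)).const_add 1).ofReal_comp
  simpa using h

lemma den_ne : ((1 + (65 / 72 : ℝ) ^ 2 * (72 / 169 + 2 * (0 : ℝ) ^ 2) : ℝ) : ℂ) ≠ 0 := by
  rw [Ne, Complex.ofReal_eq_zero]; norm_num

lemma hasDerivAt_alS : HasDerivAt alS 0 0 := by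
  have h1 : HasDerivAt
      (fun s : ℝ => ((-2 * (65 / 72 : ℝ) ^ 2 * (72 / 169 + 2 * s ^ 2) : ℝ) : ℂ)) 0 0 := by
    have h := ((hasDerivAt_sq (72 / 169)).const_mul (-2 * (65 / 72 : ℝ) ^ 2)).ofReal_comp
    simpa using h
  have h2 : HasDerivAt (fun s : ℝ => 2 * Complex.I * ((65 / 72 : ℝ) : ℂ)
      * ((241 / 338 + 2 * s ^ 2 : ℝ) : ℂ)) 0 0 := by
    have h := ((hasDerivAt_sq (241 / 338)).ofReal_comp).const_mul
      (2 * Complex.I * ((65 / 72 : ℝ) : ℂ))
    simpa using h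
  have h := (h1.add h2).div hasDerivAt_den den_ne
  exact h.congr_deriv (by simp)

lemma hasDerivAt_beS : HasDerivAt beS 0 0 := by
  have h2 : HasDerivAt (fun s : ℝ => -2 * Complex.I * ((65 / 72 : ℝ) : ℂ)
      * (((-5 / 26 : ℝ) : ℂ) + ((36 / 169 + 2 * s ^ 2 : ℝ) : ℂ) * Complex.I)) 0 0 := by
    have h := ((((hasDerivAt_sq (36 / 169)).ofReal_comp).mul_const Complex.I).const_add
      ((-5 / 26 : ℝ) : ℂ)).const_mul (-2 * Complex.I * ((65 / 72 : ℝ) : ℂ))
    simpa using h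
  have h := h2.div hasDerivAt_den den_ne
  exact h.congr_deriv (by simp)

lemma alS_zero : alS 0 = ⟨-50 / 97, 1205 / 1261⟩ := by
  apply Complex.ext <;> simp [alS, Complex.div_re, Complex.div_im, Complex.normSq_apply] <;> norm_num

lemma beS_zero : beS 0 = ⟨360 / 1261, 25 / 97⟩ := by
  apply Complex.ext <;> simp [beS, Complex.div_re, Complex.div_im, Complex.normSq_apply] <;> norm_num

lemma line_apply (s : ℝ) (j : Fin 5) : line s j = Z0 j + (s : ℂ) * w0 j := by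
  fin_cases j <;> apply Complex.ext <;> simp [line, Z0, w0]

lemma zeta_line (s : ℝ) (j : Fin 5) : zeta (line s) j = zeta Z0 j + (s : ℂ) * w0 j := by
  fin_cases j <;> apply Complex.ext <;> simp [zeta, line, Z0, w0]

lemma hasDerivAt_Btw (j : Fin 5) :
    HasDerivAt (fun s : ℝ => Btw (65 / 72) (line s) j)
      (w0 j + alS 0 * w0 j + beS 0 * (starRingEnd ℂ) (w0 j)) 0 := by
  have hs : HasDerivAt (fun s : ℝ => (s : ℂ)) 1 0 := by
    simpa using (hasDerivAt_id (0 : ℝ)).ofReal_comp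
  have h1 : HasDerivAt (fun s : ℝ => Z0 j + (s : ℂ) * w0 j) (w0 j) 0 := by
    simpa using (hs.mul_const (w0 j)).const_add (Z0 j)
  have h2 : HasDerivAt (fun s : ℝ => zeta Z0 j + (s : ℂ) * w0 j) (w0 j) 0 := by
    simpa using (hs.mul_const (w0 j)).const_add (zeta Z0 j)
  have h3 : HasDerivAt (fun s : ℝ => (starRingEnd ℂ) (zeta Z0 j)
      + (s : ℂ) * (starRingEnd ℂ) (w0 j)) ((starRingEnd ℂ) (w0 j)) 0 := by
    simpa using (hs.mul_const ((starRingEnd ℂ) (w0 j))).const_add ((starRingEnd ℂ) (zeta Z0 j))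
  have h := (h1.add (hasDerivAt_alS.mul h2)).add (hasDerivAt_beS.mul h3)
  have hfun : (fun s : ℝ => Btw (65 / 72) (line s) j)
      = ((fun s : ℝ => Z0 j + (s : ℂ) * w0 j)
          + alS * fun s : ℝ => zeta Z0 j + (s : ℂ) * w0 j)
        + beS * fun s : ℝ => (starRingEnd ℂ) (zeta Z0 j)
          + (s : ℂ) * (starRingEnd ℂ) (w0 j) := by
    funext s
    simp only [Pi.add_apply, Pi.mul_apply]
    rw [Btw_line, line_apply, zeta_line]
    simp
  rw [hfun]
  exact h.congr_deriv (by simp)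

lemma key_value :
    -((⟨1, 1⟩ : ℂ) + alS 0 * ⟨1, 1⟩ + beS 0 * (starRingEnd ℂ) ⟨1, 1⟩) = l0 * ⟨1, 1⟩ := by
  rw [alS_zero, beS_zero]
  apply Complex.ext <;> simp [l0] <;> norm_num

lemma hasDerivAt_Phi_line : HasDerivAt (fun s : ℝ => Phi (line s)) (l0 • w0) 0 := by
  rw [hasDerivAt_pi]
  intro j
  fin_cases j
  · exact (hasDerivAt_Btw 0).congr_deriv (by simp [w0])
  · exact ((((hasDerivAt_Btw 1).const_mul (119 / 169 : ℂ)).sub
      ((hasDerivAt_Btw 2).const_mul (120 / 169 : ℂ))).neg).congr_deriv (by simp [w0])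
  · exact ((((hasDerivAt_Btw 1).const_mul (120 / 169 : ℂ)).add
      ((hasDerivAt_Btw 2).const_mul (119 / 169 : ℂ))).neg).congr_deriv (by simp [w0])
  · exact ((hasDerivAt_Btw 3).neg).congr_deriv (by simpa [w0] using key_value)
  · exact ((hasDerivAt_Btw 4).neg).congr_deriv (by simp [w0])

lemma line_zero : line 0 = Z0 := by
  funext j
  fin_cases j <;> apply Complex.ext <;> simp [line, Z0]

lemma Z0_mem_unitCone : Z0 ∈ unitCone := by
  constructor
  · apply Complex.ext <;> simp [herm, Fin.sum_univ_five, Z0] <;> norm_num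
  · apply Complex.ext <;> simp [Fin.sum_univ_five, Z0, pow_two] <;> norm_num

lemma zeta_line_zero :
    zeta (line 0) = ![0, ⟨6 / 13, 6 / 13⟩, ⟨-2 / 13, 9 / 26⟩, 0, ⟨-2 / 13, 9 / 26⟩] := by
  funext j
  fin_cases j <;> apply Complex.ext <;> simp [zeta, line] <;> norm_num

lemma Phi_Z0 : Phi Z0 = l0 • Z0 := by
  rw [← line_zero]
  funext j
  simp only [Phi, Glin, Btw_line, alS_zero, beS_zero, zeta_line_zero]
  fin_cases j <;> apply Complex.ext <;> simp [line, l0] <;> norm_num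

lemma w0_mem_coneTangent : w0 ∈ coneTangent Z0 := by
  constructor
  · simp [herm, Fin.sum_univ_five, Z0, w0]
  · simp [Fin.sum_univ_five, Z0, w0]

lemma w0_ne (r : ℝ) : w0 ≠ ((r : ℂ) * Complex.I) • Z0 := by
  intro h
  have h3 := congrFun h 3
  have : (⟨1, 1⟩ : ℂ) = 0 := by simpa [w0, Z0] using h3
  have h1 := congrArg Complex.re this
  simp at h1

/-- **DEGEN**: every lift whose time-one map is the canonical `Phi` has a degenerate fixed
point. -/
theorem hasDegenerateFixedPoint (L : HamiltonianConeLift) (hL : ∀ z, L.Ψ (1, z) = Phi z) :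
    HasDegenerateFixedPoint L := by
  have hfun : (fun x : Fin 5 → ℂ => L.Ψ (1, x)) = Phi := funext hL
  have hdiff : DifferentiableAt ℝ Phi Z0 := by
    rw [← hfun]
    have h1 : ContDiff ℝ (⊤ : ℕ∞) (fun x : Fin 5 → ℂ => L.Ψ (1, x)) :=
      L.smooth_Ψ.comp (contDiff_const.prodMk contDiff_id)
    exact (h1.differentiable (by simp)) Z0
  refine ⟨Z0, Z0_mem_unitCone, l0, by rw [hL, Phi_Z0], w0, w0_mem_coneTangent, w0_ne, 0, ?_⟩
  rw [hfun, ← hdiff.lineDeriv_eq_fderiv]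
  have h : HasDerivAt (fun s : ℝ => Phi (Z0 + s • w0)) (l0 • w0) 0 := by
    simpa only [line_eq] using hasDerivAt_Phi_line
  have h2 : lineDeriv ℝ Phi Z0 w0 = l0 • w0 := h.deriv
  rw [h2]
  simp

end

end Crest.Agent.S0316Aux.H73
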