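import Crest.Prelude.Def_QuadricHamiltonian

set_option autoImplicit false
open Crest.GeometryTopology.Quadric

namespace Crest.Agent.S0316Aux.H78

/-- The complex bilinear form `∑ u j * w j`. -/
def bil (u w : Fin 5 → ℂ) : ℂ := ∑ j, u j * w j

/-- Action of a real `5 × 5` matrix on complex 5-space. -/
def act (M : Matrix (Fin 5) (Fin 5) ℝ) (z : Fin 5 → ℂ) : Fin 5 → ℂ :=
  fun i => ∑ j, (M i j : ℂ) * z j

/-! ### `herm` and `bil` -/

lemma herm_add_left (u v w : Fin 5 → ℂ) : herm (u + v) w = herm u w + herm v w := by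
  simp [herm, add_mul, Finset.sum_add_distrib]

lemma herm_add_right (u v w : Fin 5 → ℂ) : herm u (v + w) = herm u v + herm u w := by
  simp [herm, mul_add, Finset.sum_add_distrib]

lemma herm_smul_left (c : ℂ) (u w : Fin 5 → ℂ) :
    herm (c • u) w = starRingEnd ℂ c * herm u w := by
  simp [herm, Finset.mul_sum, mul_assoc]

lemma herm_smul_right (c : ℂ) (u w : Fin 5 → ℂ) : herm u (c • w) = c * herm u w := by
  simp [herm, Finset.mul_sum, mul_left_comm]

lemma herm_conj (u w : Fin 5 → ℂ) : starRingEnd ℂ (herm u w) = herm w u := by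
  simp [herm, mul_comm]

lemma herm_zero_left (w : Fin 5 → ℂ) : herm 0 w = 0 := by simp [herm]
lemma herm_zero_right (w : Fin 5 → ℂ) : herm w 0 = 0 := by simp [herm]

lemma herm_neg_left (u w : Fin 5 → ℂ) : herm (-u) w = - herm u w := by simp [herm]
lemma herm_neg_right (u w : Fin 5 → ℂ) : herm u (-w) = - herm u w := by simp [herm]

lemma bil_comm (u w : Fin 5 → ℂ) : bil u w = bil w u := by simp [bil, mul_comm]
lemma bil_add_left (u v w : Fin 5 → ℂ) : bil (u + v) w = bil u w + bil v w := by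
  simp [bil, add_mul, Finset.sum_add_distrib]
lemma bil_add_right (u v w : Fin 5 → ℂ) : bil u (v + w) = bil u v + bil u w := by
  simp [bil, mul_add, Finset.sum_add_distrib]
lemma bil_smul_left (c : ℂ) (u w : Fin 5 → ℂ) : bil (c • u) w = c * bil u w := by
  simp [bil, Finset.mul_sum, mul_assoc]
lemma bil_smul_right (c : ℂ) (u w : Fin 5 → ℂ) : bil u (c • w) = c * bil u w := by
  simp [bil, Finset.mul_sum, mul_left_comm]

lemma mem_unitCone {z : Fin 5 → ℂ} : z ∈ unitCone ↔ herm z z = 1 ∧ bil z z = 0 := by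
  simp [unitCone, bil, sq]

lemma mem_coneTangent {z w : Fin 5 → ℂ} :
    w ∈ coneTangent z ↔ (herm z w).re = 0 ∧ bil z w = 0 := by
  simp [coneTangent, bil]

/-! ### the action -/

lemma act_apply (M : Matrix (Fin 5) (Fin 5) ℝ) (z : Fin 5 → ℂ) (i : Fin 5) :
    act M z i = ∑ j, (M i j : ℂ) * z j := rfl

lemma act_add (M : Matrix (Fin 5) (Fin 5) ℝ) (u w : Fin 5 → ℂ) :
    act M (u + w) = act M u + act M w := by
  ext i; simp [act, mul_add, Finset.sum_add_distrib]

lemma act_smul (M : Matrix (Fin 5) (Fin 5) ℝ) (c : ℂ) (u : Fin 5 → ℂ) :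
    act M (c • u) = c • act M u := by
  ext i; simp [act, Finset.mul_sum, mul_left_comm]

lemma act_real_smul (M : Matrix (Fin 5) (Fin 5) ℝ) (c : ℝ) (u : Fin 5 → ℂ) :
    act M (c • u) = c • act M u := by
  ext i; simp [act, Finset.mul_sum, mul_left_comm]

lemma act_neg (M : Matrix (Fin 5) (Fin 5) ℝ) (u : Fin 5 → ℂ) : act M (-u) = - act M u := by
  ext i; simp [act]

lemma act_zero (M : Matrix (Fin 5) (Fin 5) ℝ) : act M 0 = 0 := by
  ext i; simp [act]

lemma act_one (u : Fin 5 → ℂ) : act 1 u = u := by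
  ext i
  simp only [act, Matrix.one_apply]
  rw [Finset.sum_eq_single i]
  · simp
  · intro j _ hj; simp [Ne.symm hj]
  · simp

lemma zero_act (u : Fin 5 → ℂ) : act 0 u = 0 := by
  ext i; simp [act]

lemma add_act (M N : Matrix (Fin 5) (Fin 5) ℝ) (u : Fin 5 → ℂ) :
    act (M + N) u = act M u + act N u := by
  ext i; simp [act, add_mul, Finset.sum_add_distrib]

lemma neg_act (M : Matrix (Fin 5) (Fin 5) ℝ) (u : Fin 5 → ℂ) : act (-M) u = - act M u := by
  ext i; simp [act]

lemma smul_act (r : ℝ) (M : Matrix (Fin 5) (Fin 5) ℝ) (u : Fin 5 → ℂ) :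
    act (r • M) u = (r : ℂ) • act M u := by
  ext i; simp [act, Finset.mul_sum, mul_assoc]

lemma mul_act (M N : Matrix (Fin 5) (Fin 5) ℝ) (u : Fin 5 → ℂ) :
    act (M * N) u = act M (act N u) := by
  ext i
  simp only [act, Matrix.mul_apply, Complex.ofReal_sum, Complex.ofReal_mul, Finset.sum_mul,
    Finset.mul_sum]
  rw [Finset.sum_comm]
  simp [mul_assoc]

lemma herm_act_left (M : Matrix (Fin 5) (Fin 5) ℝ) (u w : Fin 5 → ℂ) :
    herm (act M u) w = herm u (act M.transpose w) := by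
  simp only [herm, act, map_sum, map_mul, Complex.conj_ofReal, Finset.sum_mul, Finset.mul_sum,
    Matrix.transpose_apply]
  rw [Finset.sum_comm]
  refine Finset.sum_congr rfl fun i _ => Finset.sum_congr rfl fun j _ => ?_
  ring

lemma herm_act_right (M : Matrix (Fin 5) (Fin 5) ℝ) (u w : Fin 5 → ℂ) :
    herm u (act M w) = herm (act M.transpose u) w := by
  rw [herm_act_left, Matrix.transpose_transpose]

lemma bil_act_left (M : Matrix (Fin 5) (Fin 5) ℝ) (u w : Fin 5 → ℂ) :
    bil (act M u) w = bil u (act M.transpose w) := by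
  simp only [bil, act, Finset.sum_mul, Finset.mul_sum, Matrix.transpose_apply]
  rw [Finset.sum_comm]
  refine Finset.sum_congr rfl fun i _ => Finset.sum_congr rfl fun j _ => ?_
  ring

lemma herm_act_act {M : Matrix (Fin 5) (Fin 5) ℝ} (hM : M.transpose * M = 1)
    (u w : Fin 5 → ℂ) : herm (act M u) (act M w) = herm u w := by
  rw [herm_act_left, ← mul_act, hM, act_one]

lemma bil_act_act {M : Matrix (Fin 5) (Fin 5) ℝ} (hM : M.transpose * M = 1)
    (u w : Fin 5 → ℂ) : bil (act M u) (act M w) = bil u w := by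
  rw [bil_act_left, ← mul_act, hM, act_one]

lemma act_mem_unitCone {M : Matrix (Fin 5) (Fin 5) ℝ} (hM : M.transpose * M = 1)
    {z : Fin 5 → ℂ} (hz : z ∈ unitCone) : act M z ∈ unitCone := by
  rw [mem_unitCone] at hz ⊢
  rw [herm_act_act hM, bil_act_act hM]; exact hz

lemma act_mem_coneTangent {M : Matrix (Fin 5) (Fin 5) ℝ} (hM : M.transpose * M = 1)
    {z w : Fin 5 → ℂ} (hw : w ∈ coneTangent z) : act M w ∈ coneTangent (act M z) := by
  rw [mem_coneTangent] at hw ⊢
  rw [herm_act_act hM, bil_act_act hM]; exact hw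

lemma smul_mem_unitCone {z : Fin 5 → ℂ} (hz : z ∈ unitCone) {c : ℂ} (hc : ‖c‖ = 1) :
    c • z ∈ unitCone := by
  rw [mem_unitCone] at hz ⊢
  rw [herm_smul_left, herm_smul_right, bil_smul_left, bil_smul_right, hz.1, hz.2]
  refine ⟨?_, by simp⟩
  rw [mul_one, Complex.conj_mul', hc]; simp

/-! ### smoothness helpers -/

lemma contDiff_coord (j : Fin 5) : ContDiff ℝ (⊤ : ℕ∞) (fun y : Fin 5 → ℂ => y j) :=
  (ContinuousLinearMap.proj (R := ℝ) (φ := fun _ : Fin 5 => ℂ) j).contDiff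

lemma contDiff_conj_coord (j : Fin 5) :
    ContDiff ℝ (⊤ : ℕ∞) (fun y : Fin 5 → ℂ => starRingEnd ℂ (y j)) :=
  Complex.conjCLE.contDiff.comp (contDiff_coord j)

lemma contDiff_act (M : Matrix (Fin 5) (Fin 5) ℝ) : ContDiff ℝ (⊤ : ℕ∞) (act M) := by
  rw [contDiff_pi]
  intro i
  exact ContDiff.sum fun j _ => contDiff_const.mul (contDiff_coord j)

lemma contDiff_herm {F : Type*} [NormedAddCommGroup F] [NormedSpace ℝ F]
    {f g : F → (Fin 5 → ℂ)} (hf : ContDiff ℝ (⊤ : ℕ∞) f) (hg : ContDiff ℝ (⊤ : ℕ∞) g) :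
    ContDiff ℝ (⊤ : ℕ∞) (fun x => herm (f x) (g x)) := by
  unfold herm
  refine ContDiff.sum fun j _ => ?_
  exact ((contDiff_conj_coord j).comp hf).mul ((contDiff_coord j).comp hg)

/-! ### the moment map -/

/-- The moment map of the real matrix `A` (used for antisymmetric `A`). -/
def mu (A : Matrix (Fin 5) (Fin 5) ℝ) (y : Fin 5 → ℂ) : ℝ := (herm (act A y) y).im

lemma contDiff_mu (A : Matrix (Fin 5) (Fin 5) ℝ) : ContDiff ℝ (⊤ : ℕ∞) (mu A) :=
  Complex.imCLM.contDiff.comp (contDiff_herm (contDiff_act A) contDiff_id)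

lemma mu_smul (A : Matrix (Fin 5) (Fin 5) ℝ) {c : ℂ} (hc : ‖c‖ = 1) (y : Fin 5 → ℂ) :
    mu A (c • y) = mu A y := by
  unfold mu
  rw [act_smul, herm_smul_left, herm_smul_right, ← mul_assoc, Complex.conj_mul', hc]
  simp

lemma mu_act (A O : Matrix (Fin 5) (Fin 5) ℝ) (y : Fin 5 → ℂ) :
    mu A (act O y) = mu (O.transpose * A * O) y := by
  unfold mu
  rw [herm_act_right, ← mul_act, ← mul_act, Matrix.mul_assoc]

/-- expansion of the moment map along a line -/
lemma mu_line {A : Matrix (Fin 5) (Fin 5) ℝ} (hA : A.transpose = -A) (y w : Fin 5 → ℂ) (s : ℝ) :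
    mu A (y + s • w) = mu A y + s * (2 * (herm (act A y) w).im) + s ^ 2 * mu A w := by
  unfold mu
  have h1 : herm (act A w) y = - starRingEnd ℂ (herm (act A y) w) := by
    rw [herm_conj, herm_act_left, hA, neg_act, herm_neg_right]
  have hs : (s • w : Fin 5 → ℂ) = (s : ℂ) • w := by
    ext i; simp
  rw [hs, act_add, act_smul, herm_add_left, herm_add_right, herm_add_right, herm_smul_left,
    herm_smul_right, herm_smul_right, herm_smul_left, h1]
  simp only [Complex.conj_ofReal, Complex.add_im, Complex.mul_im, Complex.ofReal_re,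
    Complex.ofReal_im, Complex.neg_im, Complex.conj_im, Complex.mul_re, Complex.neg_re,
    Complex.conj_re]
  ring

/-- The real-linear functional `w ↦ (herm u w).im`. -/
noncomputable def hermIm (u : Fin 5 → ℂ) : (Fin 5 → ℂ) →L[ℝ] ℝ :=
  Complex.imCLM ∘L (∑ j, (starRingEnd ℂ (u j)) •
    (ContinuousLinearMap.proj (R := ℝ) (φ := fun _ : Fin 5 => ℂ) j))

@[simp] lemma hermIm_apply (u w : Fin 5 → ℂ) : hermIm u w = (herm u w).im := by
  simp [hermIm, herm]

/-- `fderiv` along `w` as a derivative along the line `s ↦ y + s • w`. -/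
lemma fderiv_apply_eq_deriv_line {F : Type*} [NormedAddCommGroup F] [NormedSpace ℝ F]
    {f : (Fin 5 → ℂ) → F} {y : Fin 5 → ℂ} (hf : DifferentiableAt ℝ f y) (w : Fin 5 → ℂ) :
    fderiv ℝ f y w = deriv (fun s : ℝ => f (y + s • w)) 0 :=
  (hf.lineDeriv_eq_fderiv (v := w)).symm

lemma fderiv_mu {A : Matrix (Fin 5) (Fin 5) ℝ} (hA : A.transpose = -A) (y w : Fin 5 → ℂ) :
    fderiv ℝ (mu A) y w = 2 * (herm (act A y) w).im := by
  rw [fderiv_apply_eq_deriv_line ((contDiff_mu A).differentiable (by simp) y)]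
  have : (fun s : ℝ => mu A (y + s • w)) =
      fun s : ℝ => mu A y + s * (2 * (herm (act A y) w).im) + s ^ 2 * mu A w := by
    funext s; exact mu_line hA y w s
  rw [this]
  have h : HasDerivAt (fun s : ℝ => mu A y + s * (2 * (herm (act A y) w).im) + s ^ 2 * mu A w)
      (0 + 1 * (2 * (herm (act A y) w).im) + (2 * (0:ℝ) ^ 1 * 1) * mu A w) 0 := by
    refine ((hasDerivAt_const _ _).add ((hasDerivAt_id _).mul_const _)).add ?_
    exact (((hasDerivAt_id (0:ℝ)).pow 2).mul_const _)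
  rw [h.deriv]; ring

lemma hasFDerivAt_mu {A : Matrix (Fin 5) (Fin 5) ℝ} (hA : A.transpose = -A) (y : Fin 5 → ℂ) :
    HasFDerivAt (mu A) ((2 : ℝ) • hermIm (act A y)) y := by
  have h := ((contDiff_mu A).differentiable (by simp) y).hasFDerivAt
  have : fderiv ℝ (mu A) y = (2 : ℝ) • hermIm (act A y) := by
    ext w; rw [fderiv_mu hA]; simp
  rwa [this] at h

end Crest.Agent.S0316Aux.H78
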