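import Crest.Agent.S0316Aux.Defs
import Crest.Agent.S0316Aux.H35_Plucker

set_option autoImplicit false
open Crest.GeometryTopology.Quadric

noncomputable section
namespace Crest.Agent.S0316Aux.H78

/-- The conic `z₀ = z₃ = 0` of candidates: `((1+i)/2) (x + i y)`, `x = (0,12/13,5/13,0,0)`,
`y = (0,-5q/13,12q/13,0,-13p)`; on the cone iff `169 p² + q² = 1`. -/
def Zpt (p q : ℝ) : Fin 5 → ℂ :=
  ![0, ⟨(12 + 5 * q) / 26, (12 - 5 * q) / 26⟩, ⟨(5 - 12 * q) / 26, (5 + 12 * q) / 26⟩, 0,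
    ⟨13 * p / 2, -(13 * p / 2)⟩]

@[simp] lemma Zpt_0 (p q : ℝ) : Zpt p q 0 = 0 := rfl
@[simp] lemma Zpt_1 (p q : ℝ) : Zpt p q 1 = ⟨(12 + 5 * q) / 26, (12 - 5 * q) / 26⟩ := rfl
@[simp] lemma Zpt_2 (p q : ℝ) : Zpt p q 2 = ⟨(5 - 12 * q) / 26, (5 + 12 * q) / 26⟩ := rfl
@[simp] lemma Zpt_3 (p q : ℝ) : Zpt p q 3 = 0 := rfl
@[simp] lemma Zpt_4 (p q : ℝ) : Zpt p q 4 = ⟨13 * p / 2, -(13 * p / 2)⟩ := rfl

lemma Zpt_mem {p q : ℝ} (h : 169 * p ^ 2 + q ^ 2 = 1) : Zpt p q ∈ unitCone := by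
  constructor
  · simp only [herm, Fin.sum_univ_five, Zpt_0, Zpt_1, Zpt_2, Zpt_3, Zpt_4]
    apply Complex.ext
    · simp
      linear_combination (1/2) * h
    · simp
      ring
  · simp only [Fin.sum_univ_five, Zpt_0, Zpt_1, Zpt_2, Zpt_3, Zpt_4]
    apply Complex.ext
    · simp [sq]
      ring
    · simp [sq]
      linear_combination (-1/2) * h

lemma NN_Zpt (p q : ℝ) : NN (Zpt p q) =
    ((12 + 5 * q) / 26) ^ 2 + ((12 - 5 * q) / 26) ^ 2 +
      (((5 - 12 * q) / 26 + 13 * p / 2) ^ 2 + ((5 + 12 * q) / 26 - 13 * p / 2) ^ 2) / 2 := by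
  simp [NN, Complex.normSq_apply]
  ring

lemma QQ_Zpt (p q : ℝ) : QQ (Zpt p q) =
    ⟨((12 + 5 * q) / 26) ^ 2 - ((12 - 5 * q) / 26) ^ 2 +
      (((5 - 12 * q) / 26 + 13 * p / 2) ^ 2 - ((5 + 12 * q) / 26 - 13 * p / 2) ^ 2) / 2,
     2 * ((12 + 5 * q) / 26) * ((12 - 5 * q) / 26) +
      ((5 - 12 * q) / 26 + 13 * p / 2) * ((5 + 12 * q) / 26 - 13 * p / 2)⟩ := by
  apply Complex.ext
  · simp [QQ, sq]
    ring
  · simp [QQ, sq]
    ring


lemma Btw_apply_of (τ : ℝ) (z : Fin 5 → ℂ) (α β : ℂ) (D : ℝ) (hD : D ≠ 0)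
    (hDdef : 1 + τ ^ 2 * ww z = D)
    (hα : α * (D : ℂ) = ((-2 * τ ^ 2 * ww z : ℝ) : ℂ) + 2 * Complex.I * (τ : ℂ) * (NN z : ℂ))
    (hβ : β * (D : ℂ) = -2 * Complex.I * (τ : ℂ) * QQ z) (j : Fin 5) :
    Btw τ z j = z j + α * zeta z j + β * (starRingEnd ℂ) (zeta z j) := by
  have hD' : (D : ℂ) ≠ 0 := by exact_mod_cast hD
  unfold Btw
  rw [hDdef, ← hα, ← hβ]
  field_simp

lemma ww_Zpt (p q : ℝ) : ww (Zpt p q) = (NN (Zpt p q)) ^ 2 -
    ((QQ (Zpt p q)).re ^ 2 + (QQ (Zpt p q)).im ^ 2) := by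
  simp [ww, Complex.normSq_apply, sq]

lemma zeta_Zpt (p q : ℝ) : zeta (Zpt p q) =
    ![0, ⟨(12 + 5 * q) / 26, (12 - 5 * q) / 26⟩,
      ⟨((5 - 12 * q) / 26 + 13 * p / 2) / 2, ((5 + 12 * q) / 26 - 13 * p / 2) / 2⟩, 0,
      ⟨((5 - 12 * q) / 26 + 13 * p / 2) / 2, ((5 + 12 * q) / 26 - 13 * p / 2) / 2⟩] := by
  have h : (Zpt p q 2 + Zpt p q 4) / 2 =
      ⟨((5 - 12 * q) / 26 + 13 * p / 2) / 2, ((5 + 12 * q) / 26 - 13 * p / 2) / 2⟩ := by
    apply Complex.ext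
    · simp
    · simp; ring
  unfold zeta
  rw [h]
  simp

/-- the degenerate point -/
lemma Phi_Z0 : Phi (Zpt (-1/13) 0) = (⟨-72/97, -65/97⟩ : ℂ) • Zpt (-1/13) 0 := by
  have hN : NN (Zpt (-1/13) 0) = 241/338 := by rw [NN_Zpt]; norm_num
  have hQ : QQ (Zpt (-1/13) 0) = ⟨-5/26, 36/169⟩ := by
    rw [QQ_Zpt]; apply Complex.ext <;> norm_num
  have hw : ww (Zpt (-1/13) 0) = 72/169 := by rw [ww_Zpt, hN, hQ]; norm_num
  have hB := Btw_apply_of (65/72) (Zpt (-1/13) 0) ⟨-50/97, 1205/1261⟩ ⟨360/1261, 25/97⟩ (97/72)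
    (by norm_num) (by rw [hw]; norm_num)
    (by rw [hw, hN]; apply Complex.ext <;> simp <;> norm_num)
    (by rw [hQ]; apply Complex.ext <;> simp <;> norm_num)
  rw [zeta_Zpt] at hB
  funext j
  fin_cases j
  · simp [Phi, Glin, hB]
  · simp [Phi, Glin, hB]
    apply Complex.ext <;> simp <;> norm_num
  · simp [Phi, Glin, hB]
    apply Complex.ext <;> simp <;> norm_num
  · simp [Phi, Glin, hB]
  · simp [Phi, Glin, hB]
    apply Complex.ext <;> simp <;> norm_num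



lemma Btw_apply_of' (τ : ℝ) (z : Fin 5 → ℂ) (αr αi βr βi : ℝ) (D : ℝ) (hD : D ≠ 0)
    (hDdef : 1 + τ ^ 2 * ww z = D)
    (hαr : αr * D = -2 * τ ^ 2 * ww z) (hαi : αi * D = 2 * τ * NN z)
    (hβr : βr * D = 2 * τ * (QQ z).im) (hβi : βi * D = -2 * τ * (QQ z).re) (j : Fin 5) :
    Btw τ z j = z j + (⟨αr, αi⟩ : ℂ) * zeta z j + (⟨βr, βi⟩ : ℂ) * (starRingEnd ℂ) (zeta z j) := by
  apply Btw_apply_of τ z _ _ D hD hDdef
  · apply Complex.ext
    · simp only [Complex.mul_re, Complex.ofReal_re, Complex.ofReal_im, Complex.add_re,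
        Complex.I_re, Complex.I_im, Complex.re_ofNat, Complex.im_ofNat, Complex.mul_im]
      linarith
    · simp only [Complex.mul_re, Complex.ofReal_re, Complex.ofReal_im, Complex.add_im,
        Complex.I_re, Complex.I_im, Complex.re_ofNat, Complex.im_ofNat, Complex.mul_im]
      linarith
  · apply Complex.ext
    · simp only [Complex.mul_re, Complex.ofReal_re, Complex.ofReal_im, Complex.neg_re,
        Complex.neg_im,
        Complex.I_re, Complex.I_im, Complex.re_ofNat, Complex.im_ofNat, Complex.mul_im]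
      linarith
    · simp only [Complex.mul_re, Complex.ofReal_re, Complex.ofReal_im, Complex.neg_re,
        Complex.neg_im,
        Complex.I_re, Complex.I_im, Complex.re_ofNat, Complex.im_ofNat, Complex.mul_im]
      linarith

/-- the two nondegenerate points, `ρ = ± √482` -/
lemma Phi_Zr {ρ : ℝ} (hρ : ρ ^ 2 = 482) : Phi (Zpt (13/313) (12 * ρ / 313)) =
    (⟨-312696/1590121 - 3600/122317 * ρ, -21715/122317 + 51840/1590121 * ρ⟩ : ℂ) •
      Zpt (13/313) (12 * ρ / 313) := by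
  have hN : NN (Zpt (13/313) (12 * ρ / 313)) = 144841/195938 - 936/97969 * ρ := by
    rw [NN_Zpt]; grind
  have hQ : QQ (Zpt (13/313) (12 * ρ / 313)) =
      ⟨65/626 + 360/52897 * ρ, 3093084/16556761 + 936/97969 * ρ⟩ := by
    rw [QQ_Zpt]; apply Complex.ext <;> simp only <;> grind
  have hw : ww (Zpt (13/313) (12 * ρ / 313)) = 46872/97969 - 1872/97969 * ρ := by
    rw [ww_Zpt, hN, hQ]; simp only; grind
  have hD0 : (3268081/2351256 - 54925/3526884 * ρ : ℝ) ≠ 0 := by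
    intro h
    have : ρ = 3268081/2351256 * (3526884/54925) := by linarith
    rw [this] at hρ
    norm_num at hρ
  have hB := Btw_apply_of' (65/72) (Zpt (13/313) (12 * ρ / 313))
    (-431769650/921790321 + 15818400/921790321 * ρ) (876409755/921790321 - 1620710/921790321 * ρ)
    (3950313480/11983274173 + 14844960/921790321 * ρ)
    (-179186475/921790321 - 132040850/11983274173 * ρ)
    (3268081/2351256 - 54925/3526884 * ρ) hD0 (by rw [hw]; ring)
    (by rw [hw]; grind) (by rw [hN]; grind) (by rw [hQ]; simp only; grind)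
    (by rw [hQ]; simp only; grind)
  rw [zeta_Zpt] at hB
  funext j
  fin_cases j
  · simp [Phi, Glin, hB]
  · simp [Phi, Glin, hB]
    apply Complex.ext <;> simp <;> grind
  · simp [Phi, Glin, hB]
    apply Complex.ext <;> simp <;> grind
  · simp [Phi, Glin, hB]
  · simp [Phi, Glin, hB]
    apply Complex.ext <;> simp <;> grind



lemma plu_Zpt_12 (p q : ℝ) : plu (Zpt p q) 1 2 = q := by
  simp [plu]; ring
lemma plu_Zpt_14 (p q : ℝ) : plu (Zpt p q) 1 4 = -12 * p := by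
  simp [plu]; ring
lemma plu_Zpt_24 (p q : ℝ) : plu (Zpt p q) 2 4 = -5 * p := by
  simp [plu]; ring
lemma plu_Zpt_0 (p q : ℝ) (j : Fin 5) : plu (Zpt p q) 0 j = 0 := by
  simp [plu]
lemma plu_Zpt_3 (p q : ℝ) (j : Fin 5) : plu (Zpt p q) 3 j = 0 := by
  simp [plu]
lemma plu_Zpt_3' (p q : ℝ) (j : Fin 5) : plu (Zpt p q) j 3 = 0 := by
  simp [plu]

/-- A point with the Plücker table of `Zpt p q` has the same Plücker coordinates. -/
theorem plu_eq_Zpt {z : Fin 5 → ℂ} {p q : ℝ} (h0 : z 0 = 0) (h13 : plu z 1 3 = 0)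
    (h23 : plu z 2 3 = 0) (h34 : plu z 3 4 = 0) (h12 : plu z 1 2 = q) (h14 : plu z 1 4 = -12 * p)
    (h24 : plu z 2 4 = -5 * p) : ∀ i j, plu z i j = plu (Zpt p q) i j := by
  have h0j : ∀ j, plu z 0 j = 0 := fun j => by simp [plu, h0]
  have key : ∀ i j : Fin 5, i < j → plu z i j = plu (Zpt p q) i j := by
    intro i j hij
    fin_cases i <;> fin_cases j <;> first
      | exact absurd hij (by decide)
      | (simp only [Fin.zero_eta, Fin.mk_one, Fin.reduceFinMk]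
         first
          | rw [h0j, plu_Zpt_0]
          | rw [h12, plu_Zpt_12]
          | rw [h13, plu_Zpt_3']
          | rw [h14, plu_Zpt_14]
          | rw [h23, plu_Zpt_3']
          | rw [h24, plu_Zpt_24]
          | rw [h34, plu_Zpt_3])
  intro i j
  rcases lt_trichotomy i j with h | h | h
  · exact key i j h
  · subst h; rw [plu_self, plu_self]
  · rw [plu_antisymm z j i, plu_antisymm (Zpt p q) j i, key j i h]

/-- Glue: table form of the classification gives `ncard = 3`. -/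
theorem ncard_of_class (L : HamiltonianConeLift) (hL : ∀ z, L.Ψ (1, z) = Phi z)
    (hclass : ∀ z ∈ unitCone, ∀ l : ℂ, Phi z = l • z →
      z 0 = 0 ∧ plu z 1 3 = 0 ∧ plu z 2 3 = 0 ∧ plu z 2 4 = 5 / 12 * plu z 1 4 ∧
        ((plu z 1 4 = 12 / 13 ∧ plu z 1 2 = 0 ∧ plu z 3 4 = 0) ∨
          (plu z 1 4 = -156 / 313 ∧ plu z 3 4 = 0 ∧ plu z 1 2 ^ 2 = 69408 / 97969))) :
    (fixedLines L).ncard = 3 := by
  have hs : Real.sqrt 482 ^ 2 = 482 := Real.sq_sqrt (by norm_num)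
  have hs' : (-Real.sqrt 482) ^ 2 = 482 := by rw [neg_sq]; exact hs
  have hpos : 0 < Real.sqrt 482 := Real.sqrt_pos.mpr (by norm_num)
  refine ncard_fixedLines_eq_three L (Zpt (-1/13) 0) (Zpt (13/313) (12 * Real.sqrt 482 / 313))
    (Zpt (13/313) (12 * (-Real.sqrt 482) / 313)) (Zpt_mem (by norm_num))
    (Zpt_mem (by nlinarith [hs])) (Zpt_mem (by nlinarith [hs']))
    ⟨_, (hL _).trans Phi_Z0⟩ ⟨_, (hL _).trans (Phi_Zr hs)⟩ ⟨_, (hL _).trans (Phi_Zr hs')⟩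
    ⟨1, 4, ?_⟩ ⟨1, 4, ?_⟩ ⟨1, 2, ?_⟩ ?_
  · rw [plu_Zpt_14, plu_Zpt_14]; norm_num
  · rw [plu_Zpt_14, plu_Zpt_14]; norm_num
  · rw [plu_Zpt_12, plu_Zpt_12]
    intro h
    nlinarith
  · rintro z hz ⟨c, hc⟩
    rw [hL] at hc
    obtain ⟨h0, h13, h23, h24, h⟩ := hclass z hz c hc
    rcases h with ⟨h14, h12, h34⟩ | ⟨h14, h34, h12⟩
    · left
      exact plu_eq_Zpt h0 h13 h23 h34 h12 (by rw [h14]; norm_num) (by rw [h24, h14]; norm_num)
    · have hfac : (plu z 1 2 - 12 * Real.sqrt 482 / 313) *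
          (plu z 1 2 - 12 * (-Real.sqrt 482) / 313) = 0 := by
        nlinarith [hs]
      rcases mul_eq_zero.mp hfac with h | h
      · right; left
        exact plu_eq_Zpt h0 h13 h23 h34 (by linarith) (by rw [h14]; norm_num)
          (by rw [h24, h14]; norm_num)
      · right; right
        exact plu_eq_Zpt h0 h13 h23 h34 (by linarith) (by rw [h14]; norm_num)
          (by rw [h24, h14]; norm_num)


end Crest.Agent.S0316Aux.H78
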