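import Mathlib
import Crest.Prelude.Def_QuadricHamiltonian
import Crest.Agent.S0316Aux.Defs
import Crest.Agent.S0316Aux.H82_Cayley

/-!
helper82: instance of `H82.cayleyLift` for the canonical projector `zeta` of `Defs.lean`;
its time-one map is `Btw c`.
-/

set_option autoImplicit false

open Crest.GeometryTopology.Quadric

namespace Crest.Agent.S0316Aux.H82

noncomputable section

open Complex

/-- the canonical projector `zeta` as a `ℂ`-linear map. -/
def PE : (Fin 5 → ℂ) →ₗ[ℂ] (Fin 5 → ℂ) where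
  toFun z := Crest.Agent.S0316Aux.zeta z
  map_add' a b := by
    funext j
    fin_cases j <;> simp [Crest.Agent.S0316Aux.zeta] <;> ring
  map_smul' k a := by
    funext j
    fin_cases j <;> simp [Crest.Agent.S0316Aux.zeta] <;> ring

lemma PE_apply (z : Fin 5 → ℂ) : PE z = Crest.Agent.S0316Aux.zeta z := rfl

lemma isRealProj_PE : IsRealProj PE where
  idem a := by
    funext j
    fin_cases j <;> simp [PE_apply, Crest.Agent.S0316Aux.zeta]
  symm a b := by
    simp only [dot, PE_apply, Crest.Agent.S0316Aux.zeta, Fin.sum_univ_five]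
    simp
    ring
  real a := by
    funext j
    have h2 : (starRingEnd ℂ) (2 : ℂ) = 2 := Complex.conj_ofNat 2
    fin_cases j <;> simp [PE_apply, Crest.Agent.S0316Aux.zeta, cj, h2]

lemma QQ_PE (z : Fin 5 → ℂ) : QQ PE z = Crest.Agent.S0316Aux.QQ z := by
  simp only [QQ, dot, PE_apply, Crest.Agent.S0316Aux.zeta, Crest.Agent.S0316Aux.QQ,
    Fin.sum_univ_five]
  simp
  ring

lemma NN_PE (z : Fin 5 → ℂ) : NN PE z = Crest.Agent.S0316Aux.NN z := by
  simp only [NN, dot_cj_self_re, PE_apply, Crest.Agent.S0316Aux.zeta, Crest.Agent.S0316Aux.NN,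
    Fin.sum_univ_five, Complex.normSq_eq_norm_sq]
  simp
  ring

lemma ww_PE (z : Fin 5 → ℂ) : ww PE z = Crest.Agent.S0316Aux.ww z := by
  simp only [ww, Crest.Agent.S0316Aux.ww, NN_PE, QQ_PE]

lemma cay_PE (τ : ℝ) (z : Fin 5 → ℂ) : cay PE τ z = Crest.Agent.S0316Aux.Btw τ z := by
  funext j
  simp only [cay, Crest.Agent.S0316Aux.Btw, NN_PE, QQ_PE, ww_PE, PE_apply, ca, cb, cj,
    Pi.add_apply, Pi.smul_apply, smul_eq_mul]
  push_cast
  ring

/-- the canonical Cayley–Casimir lift. -/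
def liftB (c : ℝ) : HamiltonianConeLift := cayleyLift isRealProj_PE c

lemma liftB_one (c : ℝ) (z : Fin 5 → ℂ) :
    (liftB c).Ψ (1, z) = Crest.Agent.S0316Aux.Btw c z := by
  rw [liftB, cayleyLift_one, cay_PE]

lemma liftB_start (c : ℝ) (z : Fin 5 → ℂ) : (liftB c).Ψ (0, z) = z :=
  cayleyLift_start isRealProj_PE c z

lemma liftB_apply (c t : ℝ) (z : Fin 5 → ℂ) :
    (liftB c).Ψ (t, z) = Crest.Agent.S0316Aux.Btw (c * t) z := by
  rw [liftB, cayleyLift_Ψ, cay_PE]

/-- exactly the hypothesis of `exists_lift_Phi` (helper42's `H42_Glue.lean`). -/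
theorem exists_liftB :
    ∃ LB : HamiltonianConeLift, ∀ z, LB.Ψ (1, z) = Crest.Agent.S0316Aux.Btw (65 / 72) z :=
  ⟨liftB (65 / 72), fun z => liftB_one _ z⟩

end

end Crest.Agent.S0316Aux.H82
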