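import Crest.Agent.S0316Aux.Defs

/-!
# S0316, task OFFQ2 (helper85, backup copy)

`z ∈ unitCone`, `Phi z = l • z`  ⟹  `z 0 = 0`.
-/

set_option autoImplicit false

namespace Crest.Agent.S0316Aux.H85

open Crest.GeometryTopology.Quadric Crest.Agent.S0316Aux

/-- `|Q| ≤ N`, in squared form: the Casimir is nonnegative. -/
lemma ww_nonneg (z : Fin 5 → ℂ) : 0 ≤ ww z := by
  have hN : 0 ≤ NN z := by
    unfold NN
    have h1 := Complex.normSq_nonneg (z 1)
    have h2 := Complex.normSq_nonneg (z 3)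
    have h3 := Complex.normSq_nonneg (z 2 + z 4)
    positivity
  have hQ : ‖QQ z‖ ≤ NN z := by
    unfold QQ NN
    calc ‖z 1 ^ 2 + z 3 ^ 2 + (z 2 + z 4) ^ 2 / 2‖
        ≤ ‖z 1 ^ 2‖ + ‖z 3 ^ 2‖ + ‖(z 2 + z 4) ^ 2 / 2‖ := norm_add₃_le
      _ = Complex.normSq (z 1) + Complex.normSq (z 3) + Complex.normSq (z 2 + z 4) / 2 := by
          simp [Complex.normSq_eq_norm_sq]
  unfold ww
  rw [Complex.normSq_eq_norm_sq]
  have := norm_nonneg (QQ z)
  nlinarith

lemma NN_nonneg (z : Fin 5 → ℂ) : 0 ≤ NN z := by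
  unfold NN
  have h1 := Complex.normSq_nonneg (z 1)
  have h2 := Complex.normSq_nonneg (z 3)
  have h3 := Complex.normSq_nonneg (z 2 + z 4)
  positivity

lemma ww_le (z : Fin 5 → ℂ) : ww z ≤ NN z ^ 2 := by
  unfold ww
  have := Complex.normSq_nonneg (QQ z)
  linarith

/-- `N ≤ |z₁|² + |z₂|² + |z₃|² + |z₄|²`. -/
lemma NN_le (z : Fin 5 → ℂ) :
    NN z ≤ Complex.normSq (z 1) + Complex.normSq (z 2) + Complex.normSq (z 3)
      + Complex.normSq (z 4) := by
  unfold NN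
  have h : Complex.normSq (z 2 + z 4) + Complex.normSq (z 2 - z 4)
      = 2 * (Complex.normSq (z 2) + Complex.normSq (z 4)) := by
    simp only [Complex.normSq_apply, Complex.add_re, Complex.add_im, Complex.sub_re,
      Complex.sub_im]
    ring
  have := Complex.normSq_nonneg (z 2 - z 4)
  linarith

lemma Phi_zero (z : Fin 5 → ℂ) : Phi z 0 = z 0 := by
  simp [Phi, Glin, Btw, zeta]

/-- Abstract form of the key computation: `b = z + α ζ + β ζ̄` on the coordinates `1..4`,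
`G b = z`. -/
lemma key_re (z : Fin 5 → ℂ) (A B : ℂ)
    (e1 : -((119 / 169 : ℂ) * (z 1 + A * z 1 + B * (starRingEnd ℂ) (z 1))
        - (120 / 169 : ℂ) * (z 2 + A * ((z 2 + z 4) / 2) + B * (starRingEnd ℂ) ((z 2 + z 4) / 2)))
        = z 1)
    (e2 : -((120 / 169 : ℂ) * (z 1 + A * z 1 + B * (starRingEnd ℂ) (z 1))
        + (119 / 169 : ℂ) * (z 2 + A * ((z 2 + z 4) / 2) + B * (starRingEnd ℂ) ((z 2 + z 4) / 2)))
        = z 2)
    (e3 : -(z 3 + A * z 3 + B * (starRingEnd ℂ) (z 3)) = z 3)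
    (e4 : -(z 4 + A * ((z 2 + z 4) / 2) + B * (starRingEnd ℂ) ((z 2 + z 4) / 2)) = z 4) :
    (Complex.normSq (z 1) + Complex.normSq (z 2) + Complex.normSq (z 3) + Complex.normSq (z 4))
      + (A * (NN z : ℂ) + B * (starRingEnd ℂ) (QQ z)).re
      = -(119 / 169 : ℝ) * (Complex.normSq (z 1) + Complex.normSq (z 2))
        - Complex.normSq (z 3) - Complex.normSq (z 4) := by
  set b1 : ℂ := z 1 + A * z 1 + B * (starRingEnd ℂ) (z 1) with hb1
  set b2 : ℂ := z 2 + A * ((z 2 + z 4) / 2) + B * (starRingEnd ℂ) ((z 2 + z 4) / 2) with hb2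
  set b3 : ℂ := z 3 + A * z 3 + B * (starRingEnd ℂ) (z 3) with hb3
  set b4 : ℂ := z 4 + A * ((z 2 + z 4) / 2) + B * (starRingEnd ℂ) ((z 2 + z 4) / 2) with hb4
  have f1 : b1 = -((119 / 169 : ℂ) * z 1 + (120 / 169 : ℂ) * z 2) := by
    linear_combination (-(119 / 169 : ℂ)) * e1 - (120 / 169 : ℂ) * e2
  have f2 : b2 = (120 / 169 : ℂ) * z 1 - (119 / 169 : ℂ) * z 2 := by
    linear_combination ((120 / 169 : ℂ)) * e1 - (119 / 169 : ℂ) * e2
  have f3 : b3 = - z 3 := by linear_combination -e3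
  have f4 : b4 = - z 4 := by linear_combination -e4
  -- the hermitian product, computed from the definition
  have h1 : (starRingEnd ℂ) (z 1) * b1 + (starRingEnd ℂ) (z 2) * b2 + (starRingEnd ℂ) (z 3) * b3
      + (starRingEnd ℂ) (z 4) * b4
      = ((Complex.normSq (z 1) + Complex.normSq (z 2) + Complex.normSq (z 3)
          + Complex.normSq (z 4) : ℝ) : ℂ) + (A * (NN z : ℂ) + B * (starRingEnd ℂ) (QQ z)) := by
    simp only [hb1, hb2, hb3, hb4, NN, QQ, Complex.ofReal_add, Complex.ofReal_div,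
      Complex.normSq_eq_conj_mul_self, map_add, map_pow, map_div₀, Complex.ofReal_ofNat, map_ofNat]
    ring
  have h2 : ((starRingEnd ℂ) (z 1) * b1 + (starRingEnd ℂ) (z 2) * b2 + (starRingEnd ℂ) (z 3) * b3
      + (starRingEnd ℂ) (z 4) * b4).re
      = -(119 / 169 : ℝ) * (Complex.normSq (z 1) + Complex.normSq (z 2))
        - Complex.normSq (z 3) - Complex.normSq (z 4) := by
    rw [f1, f2, f3, f4]
    simp only [Complex.normSq_apply, Complex.add_re, Complex.mul_re, Complex.conj_re,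
      Complex.conj_im, Complex.neg_re, Complex.neg_im, Complex.add_im, Complex.mul_im,
      Complex.sub_re, Complex.sub_im]
    norm_num
    ring
  rw [h1, Complex.add_re, Complex.ofReal_re] at h2
  exact h2

/-- The final real inequality. -/
lemma real_final (n0 n1 n2 n3 n4 N w : ℝ) (h0 : 0 ≤ n0) (h1 : 0 ≤ n1) (h2 : 0 ≤ n2)
    (h3 : 0 ≤ n3) (h4 : 0 ≤ n4) (hsum : n0 + (n1 + n2 + n3 + n4) = 1) (hN0 : 0 ≤ N)
    (hNm : N ≤ n1 + n2 + n3 + n4) (hw0 : 0 ≤ w) (hwN : w ≤ N ^ 2)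
    (key : n1 + n2 + n3 + n4 + -2 * (65 / 72 : ℝ) ^ 2 * w * N / (1 + (65 / 72 : ℝ) ^ 2 * w)
      = -(119 / 169 : ℝ) * (n1 + n2) - n3 - n4) : n1 + n2 + n3 + n4 = 0 := by
  obtain ⟨m, hm⟩ : ∃ m, m = n1 + n2 + n3 + n4 := ⟨_, rfl⟩
  obtain ⟨D, hD⟩ : ∃ D, D = 1 + (65 / 72 : ℝ) ^ 2 * w := ⟨_, rfl⟩
  rw [← hm] at hsum hNm key ⊢
  rw [← hD] at key
  have hDpos : 0 < D := by rw [hD]; positivity
  have hm0 : 0 ≤ m := by rw [hm]; positivity
  have hm1 : m ≤ 1 := by linarith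
  have hN1 : N ≤ 1 := le_trans hNm hm1
  have hw1 : w ≤ 1 := by nlinarith
  have key2 : (m + (119 / 169 : ℝ) * (n1 + n2) + n3 + n4) * D = 2 * (65 / 72 : ℝ) ^ 2 * w * N := by
    have : -2 * (65 / 72 : ℝ) ^ 2 * w * N / D = -(m + (119 / 169 : ℝ) * (n1 + n2) + n3 + n4) := by
      linarith
    rw [div_eq_iff hDpos.ne'] at this
    linear_combination this
  have hlow : (1 + 119 / 169 : ℝ) * m ≤ m + (119 / 169 : ℝ) * (n1 + n2) + n3 + n4 := by
    rw [hm]; linarith
  have g1 : (1 + 119 / 169 : ℝ) * m * D ≤ 2 * (65 / 72 : ℝ) ^ 2 * w * N := by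
    rw [← key2]; exact mul_le_mul_of_nonneg_right hlow hDpos.le
  have g2 : 2 * (65 / 72 : ℝ) ^ 2 * w * N ≤ 2 * (65 / 72 : ℝ) ^ 2 * w * m :=
    mul_le_mul_of_nonneg_left hNm (by positivity)
  have g3 : m * ((1 + 119 / 169 : ℝ) * D - 2 * (65 / 72 : ℝ) ^ 2 * w) ≤ 0 := by
    have : m * ((1 + 119 / 169 : ℝ) * D - 2 * (65 / 72 : ℝ) ^ 2 * w)
        = (1 + 119 / 169 : ℝ) * m * D - 2 * (65 / 72 : ℝ) ^ 2 * w * m := by ring
    rw [this]; linarith
  have g4 : 0 < (1 + 119 / 169 : ℝ) * D - 2 * (65 / 72 : ℝ) ^ 2 * w := by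
    rw [hD]; linarith
  apply le_antisymm _ hm0
  by_contra hh
  push Not at hh
  have := mul_pos hh g4
  linarith

/-- **OFFQ2**: a cone point whose line is fixed by `Phi` lies on `z 0 = 0`. -/
theorem offQ2 {z : Fin 5 → ℂ} (hz : z ∈ unitCone) {l : ℂ} (h : Phi z = l • z) : z 0 = 0 := by
  by_contra h0
  -- `l = 1`
  have hl : l = 1 := by
    have := congrFun h 0
    rw [Phi_zero, Pi.smul_apply, smul_eq_mul] at this
    have h' : (l - 1) * z 0 = 0 := by linear_combination -this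
    rcases mul_eq_zero.mp h' with h'' | h''
    · linear_combination h''
    · exact absurd h'' h0
  rw [hl, one_smul] at h
  obtain ⟨hz1, hz2⟩ := hz
  set c : ℝ := 65 / 72 with hc
  set w : ℝ := ww z with hw
  set N : ℝ := NN z with hN
  set D : ℝ := 1 + c ^ 2 * w with hD
  have hw0 : 0 ≤ w := ww_nonneg z
  have hN0 : 0 ≤ N := NN_nonneg z
  have hwN : w ≤ N ^ 2 := ww_le z
  have hDpos : 0 < D := by positivity
  set A : ℂ := (((-2 * c ^ 2 * w : ℝ) : ℂ) + 2 * Complex.I * (c : ℂ) * (N : ℂ)) / ((D : ℝ) : ℂ)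
    with hA
  set B : ℂ := (-2 * Complex.I * (c : ℂ) * QQ z) / ((D : ℝ) : ℂ) with hB
  set m : ℝ := Complex.normSq (z 1) + Complex.normSq (z 2) + Complex.normSq (z 3)
      + Complex.normSq (z 4) with hm
  have hNm : N ≤ m := NN_le z
  have e1 := congrFun h 1
  have e2 := congrFun h 2
  have e3 := congrFun h 3
  have e4 := congrFun h 4
  simp only [Phi, Glin, Btw, zeta, Matrix.cons_val_zero, Matrix.cons_val_one, Matrix.cons_val]
    at e1 e2 e3 e4
  have key := key_re z A B e1 e2 e3 e4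
  clear e1 e2 e3 e4
  have hDC : ((D : ℝ) : ℂ) ≠ 0 := by exact_mod_cast hDpos.ne'
  have hA' : A * (N : ℂ) = ((-2 * c ^ 2 * w * N / D : ℝ) : ℂ)
      + ((2 * c * N * N / D : ℝ) : ℂ) * Complex.I := by
    rw [hA]
    push_cast
    field_simp
  have hB' : B * (starRingEnd ℂ) (QQ z) = ((-2 * c * Complex.normSq (QQ z) / D : ℝ) : ℂ)
      * Complex.I := by
    rw [hB]
    have hq : QQ z * (starRingEnd ℂ) (QQ z) = (Complex.normSq (QQ z) : ℂ) := Complex.mul_conj _
    push_cast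
    rw [← hq]
    field_simp
  have hre : (A * (N : ℂ) + B * (starRingEnd ℂ) (QQ z)).re = -2 * c ^ 2 * w * N / D := by
    rw [hA', hB']
    simp only [Complex.add_re, Complex.ofReal_re, Complex.mul_re, Complex.I_re, Complex.I_im,
      Complex.ofReal_im]
    ring
  rw [hre] at key
  have n1 := Complex.normSq_nonneg (z 1)
  have n2 := Complex.normSq_nonneg (z 2)
  have n3 := Complex.normSq_nonneg (z 3)
  have n4 := Complex.normSq_nonneg (z 4)
  have n0 := Complex.normSq_nonneg (z 0)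
  -- `|z 0|² + m = 1`
  have hsum : Complex.normSq (z 0) + m = 1 := by
    have := congrArg Complex.re hz1
    simp only [herm, Fin.sum_univ_five, Complex.add_re, Complex.one_re] at this
    simp only [← Complex.normSq_eq_conj_mul_self, Complex.ofReal_re] at this
    rw [hm]; linarith
  have hmz : m = 0 := real_final _ _ _ _ _ N w n0 n1 n2 n3 n4 hsum hN0 hNm hw0 hwN key
  have z1 : z 1 = 0 := Complex.normSq_eq_zero.mp (by linarith)
  have z2 : z 2 = 0 := Complex.normSq_eq_zero.mp (by linarith)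
  have z3 : z 3 = 0 := Complex.normSq_eq_zero.mp (by linarith)
  have z4 : z 4 = 0 := Complex.normSq_eq_zero.mp (by linarith)
  rw [Fin.sum_univ_five, z1, z2, z3, z4] at hz2
  apply h0
  simpa using hz2

end Crest.Agent.S0316Aux.H85
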