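import Mathlib

/-!
# S0316 auxiliary (helper88): the bridge in real coordinates

If `b - z = S (b + z)` for the real antisymmetric matrix `S = S(p,q,r)` of the `so(3)` fixing
`e₂ - e₄` (coordinates 1..4), then the (anti)self-dual Plücker triples `U`, `V` of `b` and `z`
satisfy the Cayley relation with Gibbs vector `ω = -(p - r, p + r, q)`.
-/

set_option autoImplicit false

namespace Crest.Agent.S0316Aux.H88

/-- real Plücker coordinate -/
def pl (xi yi xj yj : ℝ) : ℝ := 2 * (xi * yj - yi * xj)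

set_option maxHeartbeats 1000000 in
theorem bridge_real (p q r : ℝ)
    (z1x z1y z2x z2y z3x z3y z4x z4y b1x b1y b2x b2y b3x b3y b4x b4y : ℝ)
    (h1x : b1x - z1x = p * ((b2x + z2x) + (b4x + z4x)) + q * (b3x + z3x))
    (h2x : b2x - z2x = -p * (b1x + z1x) - r * (b3x + z3x))
    (h3x : b3x - z3x = -q * (b1x + z1x) + r * ((b2x + z2x) + (b4x + z4x)))
    (h4x : b4x - z4x = -p * (b1x + z1x) - r * (b3x + z3x))
    (h1y : b1y - z1y = p * ((b2y + z2y) + (b4y + z4y)) + q * (b3y + z3y))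
    (h2y : b2y - z2y = -p * (b1y + z1y) - r * (b3y + z3y))
    (h3y : b3y - z3y = -q * (b1y + z1y) + r * ((b2y + z2y) + (b4y + z4y)))
    (h4y : b4y - z4y = -p * (b1y + z1y) - r * (b3y + z3y))
    (U1 U2 U3 V1 V2 V3 U1' U2' U3' V1' V2' V3' : ℝ)
    (hU1 : U1 = pl z1x z1y z2x z2y - pl z3x z3y z4x z4y)
    (hU2 : U2 = pl z1x z1y z4x z4y - pl z2x z2y z3x z3y)
    (hU3 : U3 = pl z1x z1y z3x z3y + pl z2x z2y z4x z4y)
    (hV1 : V1 = pl z1x z1y z4x z4y + pl z2x z2y z3x z3y)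
    (hV2 : V2 = pl z1x z1y z2x z2y + pl z3x z3y z4x z4y)
    (hV3 : V3 = pl z1x z1y z3x z3y - pl z2x z2y z4x z4y)
    (hU1' : U1' = pl b1x b1y b2x b2y - pl b3x b3y b4x b4y)
    (hU2' : U2' = pl b1x b1y b4x b4y - pl b2x b2y b3x b3y)
    (hU3' : U3' = pl b1x b1y b3x b3y + pl b2x b2y b4x b4y)
    (hV1' : V1' = pl b1x b1y b4x b4y + pl b2x b2y b3x b3y)
    (hV2' : V2' = pl b1x b1y b2x b2y + pl b3x b3y b4x b4y)
    (hV3' : V3' = pl b1x b1y b3x b3y - pl b2x b2y b4x b4y) :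
    (U1' - U1 = (-(p + r)) * (U3' + U3) - (-q) * (U2' + U2)) ∧
    (U2' - U2 = (-q) * (U1' + U1) - (-(p - r)) * (U3' + U3)) ∧
    (U3' - U3 = (-(p - r)) * (U2' + U2) - (-(p + r)) * (U1' + U1)) ∧
    (V1' - V1 = (-(p + r)) * (V3' + V3) - (-q) * (V2' + V2)) ∧
    (V2' - V2 = (-q) * (V1' + V1) - (-(p - r)) * (V3' + V3)) ∧
    (V3' - V3 = (-(p - r)) * (V2' + V2) - (-(p + r)) * (V1' + V1)) := by
  subst hU1 hU2 hU3 hV1 hV2 hV3 hU1' hU2' hU3' hV1' hV2' hV3'
  generalize e1x : b1x + z1x = s1x at *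
  generalize e2x : b2x + z2x = s2x at *
  generalize e3x : b3x + z3x = s3x at *
  generalize e4x : b4x + z4x = s4x at *
  generalize e1y : b1y + z1y = s1y at *
  generalize e2y : b2y + z2y = s2y at *
  generalize e3y : b3y + z3y = s3y at *
  generalize e4y : b4y + z4y = s4y at *
  obtain rfl : b1x = (s1x + (p * (s2x + s4x) + q * s3x)) / 2 := by linarith
  obtain rfl : z1x = (s1x - (p * (s2x + s4x) + q * s3x)) / 2 := by linarith
  obtain rfl : b2x = (s2x + (-p * s1x - r * s3x)) / 2 := by linarith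
  obtain rfl : z2x = (s2x - (-p * s1x - r * s3x)) / 2 := by linarith
  obtain rfl : b3x = (s3x + (-q * s1x + r * (s2x + s4x))) / 2 := by linarith
  obtain rfl : z3x = (s3x - (-q * s1x + r * (s2x + s4x))) / 2 := by linarith
  obtain rfl : b4x = (s4x + (-p * s1x - r * s3x)) / 2 := by linarith
  obtain rfl : z4x = (s4x - (-p * s1x - r * s3x)) / 2 := by linarith
  obtain rfl : b1y = (s1y + (p * (s2y + s4y) + q * s3y)) / 2 := by linarith
  obtain rfl : z1y = (s1y - (p * (s2y + s4y) + q * s3y)) / 2 := by linarith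
  obtain rfl : b2y = (s2y + (-p * s1y - r * s3y)) / 2 := by linarith
  obtain rfl : z2y = (s2y - (-p * s1y - r * s3y)) / 2 := by linarith
  obtain rfl : b3y = (s3y + (-q * s1y + r * (s2y + s4y))) / 2 := by linarith
  obtain rfl : z3y = (s3y - (-q * s1y + r * (s2y + s4y))) / 2 := by linarith
  obtain rfl : b4y = (s4y + (-p * s1y - r * s3y)) / 2 := by linarith
  obtain rfl : z4y = (s4y - (-p * s1y - r * s3y)) / 2 := by linarith
  simp only [pl]
  refine ⟨?_, ?_, ?_, ?_, ?_, ?_⟩ <;> ring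

end Crest.Agent.S0316Aux.H88
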