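import Mathlib

/-!
# S0316 auxiliary (helper88): the pure real-algebra count on `S² × S²`

Cayley-difference form of the fixed point equations of `A ∘ C`, `C` the Cayley–Casimir twist
(rotation of `U` and `V` about `U + V` with Gibbs vector `κ (U + V)`), `A` the pair of rotations
about `e₁` (for `U`) and `e₂` (for `V`) with Gibbs parameter `τ`; tuning `κ = τ σ`, `σ² = 1 + τ²`.
-/

set_option autoImplicit false

namespace Crest.Agent.S0316Aux.H88

theorem three_sq_zero (a b c : ℝ) (h : a ^ 2 + b ^ 2 + c ^ 2 = 0) : a = 0 ∧ b = 0 ∧ c = 0 := by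
  have ha : a ^ 2 = 0 := by nlinarith [sq_nonneg a, sq_nonneg b, sq_nonneg c]
  have hb : b ^ 2 = 0 := by nlinarith [sq_nonneg a, sq_nonneg b, sq_nonneg c]
  have hc : c ^ 2 = 0 := by nlinarith [sq_nonneg a, sq_nonneg b, sq_nonneg c]
  exact ⟨pow_eq_zero_iff (two_ne_zero) |>.mp ha, pow_eq_zero_iff (two_ne_zero) |>.mp hb,
    pow_eq_zero_iff (two_ne_zero) |>.mp hc⟩

/-- **Lemma S.** The fixed point equations force one of three explicit solutions. -/
theorem count_S2S2 (τ σ : ℝ) (hτ : 0 < τ) (hσ0 : σ ≠ 0) (hσ2 : σ ^ 2 = 1 + τ ^ 2)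
    (U1 U2 U3 V1 V2 V3 U1' U2' U3' V1' V2' V3' : ℝ)
    (hU : U1 ^ 2 + U2 ^ 2 + U3 ^ 2 = 1) (hV : V1 ^ 2 + V2 ^ 2 + V3 ^ 2 = 1)
    -- twist: U' - U = κ (U+V) × (U'+U)
    (tU1 : U1' - U1 = τ * σ * ((U2 + V2) * (U3' + U3) - (U3 + V3) * (U2' + U2)))
    (tU2 : U2' - U2 = τ * σ * ((U3 + V3) * (U1' + U1) - (U1 + V1) * (U3' + U3)))
    (tU3 : U3' - U3 = τ * σ * ((U1 + V1) * (U2' + U2) - (U2 + V2) * (U1' + U1)))
    (tV1 : V1' - V1 = τ * σ * ((U2 + V2) * (V3' + V3) - (U3 + V3) * (V2' + V2)))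
    (tV2 : V2' - V2 = τ * σ * ((U3 + V3) * (V1' + V1) - (U1 + V1) * (V3' + V3)))
    (tV3 : V3' - V3 = τ * σ * ((U1 + V1) * (V2' + V2) - (U2 + V2) * (V1' + V1)))
    -- linear: U - U' = τ e₁ × (U + U'),  V - V' = τ e₂ × (V + V')
    (lU1 : U1 - U1' = 0) (lU2 : U2 - U2' = -τ * (U3 + U3')) (lU3 : U3 - U3' = τ * (U2 + U2'))
    (lV1 : V1 - V1' = τ * (V3 + V3')) (lV2 : V2 - V2' = 0) (lV3 : V3 - V3' = -τ * (V1 + V1')) :
    U2 = V1 ∧ U3 = τ * U2 ∧ V3 = -τ * V1 ∧ V2 = U1 ∧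
      ((U1 = 0 ∧ U2 = -1 / σ) ∨
        (U2 = σ / (1 + σ ^ 2) ∧ U1 ^ 2 = 1 - σ ^ 4 / (1 + σ ^ 2) ^ 2)) := by
  have hτ0 : τ ≠ 0 := hτ.ne'
  -- Step 1: U' + V' = U + V
  have hD : ((U1' + V1') - (U1 + V1)) ^ 2 + ((U2' + V2') - (U2 + V2)) ^ 2
      + ((U3' + V3') - (U3 + V3)) ^ 2 = 0 := by
    linear_combination ((U1' + V1') - (U1 + V1)) * (tU1 + tV1)
      + ((U2' + V2') - (U2 + V2)) * (tU2 + tV2) + ((U3' + V3') - (U3 + V3)) * (tU3 + tV3)
  obtain ⟨hD1, hD2, hD3⟩ := three_sq_zero _ _ _ hD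
  -- Step 2
  have hV3s : V3 + V3' = 0 := by
    have : τ * (V3 + V3') = 0 := by linear_combination -hD1 - lU1 - lV1
    exact (mul_eq_zero.mp this).resolve_left hτ0
  have hU3s : U3 + U3' = 0 := by
    have : τ * (U3 + U3') = 0 := by linear_combination hD2 + lU2 + lV2
    exact (mul_eq_zero.mp this).resolve_left hτ0
  have hmid : U2 + U2' = V1 + V1' := by
    have : τ * ((U2 + U2') - (V1 + V1')) = 0 := by linear_combination -hD3 - lU3 - lV3
    have := (mul_eq_zero.mp this).resolve_left hτ0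
    linarith
  have eU1 : U1 = U1' := by linarith
  have eV2 : V2 = V2' := by linarith
  have eU2 : U2 = U2' := by rw [hU3s] at lU2; linarith
  have eV1 : V1 = V1' := by rw [hV3s] at lV1; linarith
  have eU3 : U3' = -U3 := by linarith
  have eV3 : V3' = -V3 := by linarith
  subst eU1 eV2 eU2 eV1 eU3 eV3
  have hy : U2 = V1 := by linarith
  have hU3 : U3 = τ * U2 := by linarith
  have hV3 : V3 = -τ * V1 := by linarith
  subst hy
  subst hU3
  subst hV3
  -- Step 3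
  have hkey : U2 = σ * (U1 * V2 - U2 ^ 2) := by
    have : τ * (U2 - σ * (U1 * V2 - U2 ^ 2)) = 0 := by linear_combination (-1 / 2) * tU3
    have := (mul_eq_zero.mp this).resolve_left hτ0
    linarith
  -- Step 4
  have hn1 : U1 ^ 2 = 1 - σ ^ 2 * U2 ^ 2 := by rw [hσ2]; linear_combination hU
  have hn2 : V2 ^ 2 = 1 - σ ^ 2 * U2 ^ 2 := by rw [hσ2]; linear_combination hV
  have hsq : (V2 - U1) * (V2 + U1) = 0 := by linear_combination hn2 - hn1
  have h1σ : (1 + σ ^ 2) ≠ 0 := by positivity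
  rcases mul_eq_zero.mp hsq with h | h
  · -- V2 = U1
    have hV2 : V2 = U1 := by linarith
    subst hV2
    have hfac : (σ * U2 + 1) * ((1 + σ ^ 2) * U2 - σ) = 0 := by
      linear_combination hkey + σ * hn1
    refine ⟨rfl, rfl, rfl, rfl, ?_⟩
    rcases mul_eq_zero.mp hfac with h' | h'
    · left
      have hy : U2 = -1 / σ := by field_simp; linarith
      refine ⟨?_, hy⟩
      have : V2 ^ 2 = 0 := by
        rw [hn1, hy]; field_simp; ring
      exact pow_eq_zero_iff (two_ne_zero) |>.mp this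
    · right
      have hy : U2 = σ / (1 + σ ^ 2) := by field_simp; linarith
      refine ⟨hy, ?_⟩
      rw [hn1, hy]; field_simp
  · -- V2 = -U1
    have hV2 : V2 = -U1 := by linarith
    subst hV2
    have hfac : (σ * U2 + 1) * ((σ ^ 2 - 1) * U2 - σ) = 0 := by
      linear_combination -hkey + σ * hn1
    rcases mul_eq_zero.mp hfac with h' | h'
    · have hy : U2 = -1 / σ := by field_simp; linarith
      have h0 : U1 ^ 2 = 0 := by
        rw [hn1, hy]; field_simp; ring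
      have h0' : U1 = 0 := pow_eq_zero_iff (two_ne_zero) |>.mp h0
      refine ⟨rfl, rfl, rfl, by rw [h0']; simp, Or.inl ⟨h0', hy⟩⟩
    · exfalso
      -- τ² U2 = σ, so σ² U2² = σ⁴/τ⁴ > 1
      have h1 : τ ^ 2 * U2 = σ := by
        have : σ ^ 2 - 1 = τ ^ 2 := by rw [hσ2]; ring
        rw [this] at h'; linarith
      have h2 : 0 ≤ U1 ^ 2 := sq_nonneg _
      have h3 : σ ^ 2 * U2 ^ 2 ≤ 1 := by linarith
      have h4 : τ ^ 4 * (σ ^ 2 * U2 ^ 2) = σ ^ 4 := by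
        have : τ ^ 4 * (σ ^ 2 * U2 ^ 2) = σ ^ 2 * (τ ^ 2 * U2) ^ 2 := by ring
        rw [this, h1]; ring
      have h5 : τ ^ 4 < σ ^ 4 := by
        have : σ ^ 4 = (1 + τ ^ 2) ^ 2 := by rw [← hσ2]; ring
        rw [this]; nlinarith [sq_nonneg τ, sq_nonneg (τ ^ 2)]
      have h6 : 0 < τ ^ 4 := by positivity
      nlinarith

end Crest.Agent.S0316Aux.H88
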