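import Crest.Agent.S0316Aux.Defs
import Crest.Agent.S0316Aux.H35_Plucker
import Crest.Agent.S0316Aux.H88_Count
import Crest.Agent.S0316Aux.H88_BridgeReal

/-!
# S0316 auxiliary (helper88): the bridge from `ℂ⁵` to `S² × S²` and the classification of the
fixed lines of `Phi` inside `z 0 = 0` on the level of Plücker coordinates.
-/

set_option autoImplicit false

namespace Crest.Agent.S0316Aux.H88

open Crest.GeometryTopology.Quadric Crest.Agent.S0316Aux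

theorem cay_alg (J t Z1 c1 Z3 c3 A cA N Q Qc w D α β p q r : ℂ) (hJ : J ^ 2 = -1)
    (hN : N = Z1 * c1 + Z3 * c3 + A * cA / 2) (hQ : Q = Z1 ^ 2 + Z3 ^ 2 + A ^ 2 / 2)
    (hQc : Qc = c1 ^ 2 + c3 ^ 2 + cA ^ 2 / 2) (hw : w = N ^ 2 - Q * Qc)
    (hD : D = 1 + t ^ 2 * w) (hD0 : D ≠ 0)
    (hα : α * D = -2 * t ^ 2 * w + 2 * J * t * N) (hβ : β * D = -2 * J * t * Q)
    (hp : p = t * (-J * (c1 * A - Z1 * cA)) / 2) (hq : q = t * (-J * (c1 * Z3 - Z1 * c3)))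
    (hr : r = t * (-J * (c3 * A - Z3 * cA)) / 2) :
    (α * Z1 + β * c1 = p * (2 * A + α * A + β * cA) + q * (2 * Z3 + α * Z3 + β * c3)) ∧
    (α * (A / 2) + β * (cA / 2) = -p * (2 * Z1 + α * Z1 + β * c1) - r * (2 * Z3 + α * Z3 + β * c3)) ∧
    (α * Z3 + β * c3 = -q * (2 * Z1 + α * Z1 + β * c1) + r * (2 * A + α * A + β * cA)) := by
  refine ⟨?_, ?_, ?_⟩
  · apply mul_left_cancel₀ hD0
    subst hp hq hr
    rw [hD, hw, hN, hQ, hQc] at *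
    linear_combination (Z1 - (t * (-J * (c1 * A - Z1 * cA)) / 2) * A - (t * (-J * (c1 * Z3 - Z1 * c3))) * Z3) * hα
      + (c1 - (t * (-J * (c1 * A - Z1 * cA)) / 2) * cA - (t * (-J * (c1 * Z3 - Z1 * c3))) * c3) * hβ
      + (t ^ 2 * ((c1 * A - Z1 * cA) * ((Z1 * c1 + Z3 * c3 + A * cA / 2) * A - (Z1 ^ 2 + Z3 ^ 2 + A ^ 2 / 2) * cA)
          + 2 * (c1 * Z3 - Z1 * c3) * ((Z1 * c1 + Z3 * c3 + A * cA / 2) * Z3 - (Z1 ^ 2 + Z3 ^ 2 + A ^ 2 / 2) * c3))) * hJ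
  · apply mul_left_cancel₀ hD0
    subst hp hq hr
    rw [hD, hw, hN, hQ, hQc] at *
    linear_combination (A / 2 + (t * (-J * (c1 * A - Z1 * cA)) / 2) * Z1 + (t * (-J * (c3 * A - Z3 * cA)) / 2) * Z3) * hα
      + (cA / 2 + (t * (-J * (c1 * A - Z1 * cA)) / 2) * c1 + (t * (-J * (c3 * A - Z3 * cA)) / 2) * c3) * hβ
      + (-(t ^ 2) * ((c1 * A - Z1 * cA) * ((Z1 * c1 + Z3 * c3 + A * cA / 2) * Z1 - (Z1 ^ 2 + Z3 ^ 2 + A ^ 2 / 2) * c1) + (c3 * A - Z3 * cA) * ((Z1 * c1 + Z3 * c3 + A * cA / 2) * Z3 - (Z1 ^ 2 + Z3 ^ 2 + A ^ 2 / 2) * c3))) * hJ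
  · apply mul_left_cancel₀ hD0
    subst hp hq hr
    rw [hD, hw, hN, hQ, hQc] at *
    linear_combination (Z3 + (t * (-J * (c1 * Z3 - Z1 * c3))) * Z1 - (t * (-J * (c3 * A - Z3 * cA)) / 2) * A) * hα
      + (c3 + (t * (-J * (c1 * Z3 - Z1 * c3))) * c1 - (t * (-J * (c3 * A - Z3 * cA)) / 2) * cA) * hβ
      + (-2 * t ^ 2 * (c1 * Z3 - Z1 * c3) * ((Z1 * c1 + Z3 * c3 + A * cA / 2) * Z1 - (Z1 ^ 2 + Z3 ^ 2 + A ^ 2 / 2) * c1) + t ^ 2 * (c3 * A - Z3 * cA) * ((Z1 * c1 + Z3 * c3 + A * cA / 2) * A - (Z1 ^ 2 + Z3 ^ 2 + A ^ 2 / 2) * cA)) * hJ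

/-! ### the two Plücker triples -/

noncomputable def UU1 (z : Fin 5 → ℂ) : ℝ := plu z 1 2 - plu z 3 4
noncomputable def UU2 (z : Fin 5 → ℂ) : ℝ := plu z 1 4 - plu z 2 3
noncomputable def UU3 (z : Fin 5 → ℂ) : ℝ := plu z 1 3 + plu z 2 4
noncomputable def VV1 (z : Fin 5 → ℂ) : ℝ := plu z 1 4 + plu z 2 3
noncomputable def VV2 (z : Fin 5 → ℂ) : ℝ := plu z 1 2 + plu z 3 4
noncomputable def VV3 (z : Fin 5 → ℂ) : ℝ := plu z 1 3 - plu z 2 4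

lemma plu_eq_pl (z : Fin 5 → ℂ) (i j : Fin 5) :
    plu z i j = pl (z i).re (z i).im (z j).re (z j).im := by
  simp [plu, pl, Complex.mul_im]
  ring

/-- complex form of the bridge -/
theorem bridge_complex (p q r : ℝ) (z b : Fin 5 → ℂ)
    (h1 : b 1 - z 1 = (p : ℂ) * ((b 2 + z 2) + (b 4 + z 4)) + (q : ℂ) * (b 3 + z 3))
    (h2 : b 2 - z 2 = -(p : ℂ) * (b 1 + z 1) - (r : ℂ) * (b 3 + z 3))
    (h3 : b 3 - z 3 = -(q : ℂ) * (b 1 + z 1) + (r : ℂ) * ((b 2 + z 2) + (b 4 + z 4)))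
    (h4 : b 4 - z 4 = -(p : ℂ) * (b 1 + z 1) - (r : ℂ) * (b 3 + z 3)) :
    (UU1 b - UU1 z = (-(p + r)) * (UU3 b + UU3 z) - (-q) * (UU2 b + UU2 z)) ∧
    (UU2 b - UU2 z = (-q) * (UU1 b + UU1 z) - (-(p - r)) * (UU3 b + UU3 z)) ∧
    (UU3 b - UU3 z = (-(p - r)) * (UU2 b + UU2 z) - (-(p + r)) * (UU1 b + UU1 z)) ∧
    (VV1 b - VV1 z = (-(p + r)) * (VV3 b + VV3 z) - (-q) * (VV2 b + VV2 z)) ∧
    (VV2 b - VV2 z = (-q) * (VV1 b + VV1 z) - (-(p - r)) * (VV3 b + VV3 z)) ∧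
    (VV3 b - VV3 z = (-(p - r)) * (VV2 b + VV2 z) - (-(p + r)) * (VV1 b + VV1 z)) := by
  have r1 := congrArg Complex.re h1
  have r2 := congrArg Complex.re h2
  have r3 := congrArg Complex.re h3
  have r4 := congrArg Complex.re h4
  have i1 := congrArg Complex.im h1
  have i2 := congrArg Complex.im h2
  have i3 := congrArg Complex.im h3
  have i4 := congrArg Complex.im h4
  simp only [Complex.sub_re, Complex.add_re, Complex.neg_re, Complex.mul_re, Complex.ofReal_re,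
    Complex.ofReal_im, Complex.neg_im, zero_mul, sub_zero, neg_zero] at r1 r2 r3 r4
  simp only [Complex.sub_im, Complex.add_im, Complex.neg_im, Complex.mul_im, Complex.ofReal_re,
    Complex.ofReal_im, Complex.neg_re, zero_mul, add_zero, neg_zero] at i1 i2 i3 i4
  exact bridge_real p q r _ _ _ _ _ _ _ _ _ _ _ _ _ _ _ _ r1 r2 r3 r4 i1 i2 i3 i4
    _ _ _ _ _ _ _ _ _ _ _ _
    (by simp only [UU1, plu_eq_pl]) (by simp only [UU2, plu_eq_pl]) (by simp only [UU3, plu_eq_pl])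
    (by simp only [VV1, plu_eq_pl]) (by simp only [VV2, plu_eq_pl]) (by simp only [VV3, plu_eq_pl])
    (by simp only [UU1, plu_eq_pl]) (by simp only [UU2, plu_eq_pl]) (by simp only [UU3, plu_eq_pl])
    (by simp only [VV1, plu_eq_pl]) (by simp only [VV2, plu_eq_pl]) (by simp only [VV3, plu_eq_pl])

end Crest.Agent.S0316Aux.H88
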