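import Crest.Agent.S0316Aux.H88_Bridge

/-!
# S0316 auxiliary (helper88): Cayley relation of `Btw`, action of `Glin` on the Plücker triples,
norms, and the classification `classify_plu` of the fixed lines of `Phi` with `z 0 = 0`.
-/
set_option autoImplicit false
namespace Crest.Agent.S0316Aux.H88
open Crest.GeometryTopology.Quadric Crest.Agent.S0316Aux

local notation "conj" => starRingEnd ℂ

lemma NN_cast (z : Fin 5 → ℂ) : ((NN z : ℝ) : ℂ) =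
    z 1 * conj (z 1) + z 3 * conj (z 3) + (z 2 + z 4) * (conj (z 2) + conj (z 4)) / 2 := by
  simp only [NN, Complex.ofReal_add, Complex.ofReal_div, ← Complex.mul_conj, map_add]
  norm_num

lemma QQ_conj (z : Fin 5 → ℂ) : conj (QQ z) =
    conj (z 1) ^ 2 + conj (z 3) ^ 2 + (conj (z 2) + conj (z 4)) ^ 2 / 2 := by
  simp only [QQ, map_add, map_pow, map_div₀, map_ofNat]

lemma ww_cast (z : Fin 5 → ℂ) : ((ww z : ℝ) : ℂ) = ((NN z : ℝ) : ℂ) ^ 2 - QQ z * conj (QQ z) := by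
  simp [ww, Complex.mul_conj]

lemma ww_eq (z : Fin 5 → ℂ) : ww z =
    (plu z 1 3) ^ 2 + (plu z 1 2 + plu z 1 4) ^ 2 / 2 + (plu z 3 2 + plu z 3 4) ^ 2 / 2 := by
  apply Complex.ofReal_injective
  push_cast
  rw [ww_cast, NN_cast, QQ_conj, QQ]
  simp only [plu_cast]
  linear_combination (-((conj (z 1) * z 3 - z 1 * conj (z 3)) ^ 2
    + ((conj (z 1) * z 2 - z 1 * conj (z 2)) + (conj (z 1) * z 4 - z 1 * conj (z 4))) ^ 2 / 2
    + ((conj (z 3) * z 2 - z 3 * conj (z 2)) + (conj (z 3) * z 4 - z 3 * conj (z 4))) ^ 2 / 2)) * Complex.I_sq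

lemma ww_nonneg (z : Fin 5 → ℂ) : 0 ≤ ww z := by
  rw [ww_eq]; positivity

noncomputable def pp (τ : ℝ) (z : Fin 5 → ℂ) : ℝ := τ * (plu z 1 2 + plu z 1 4) / 2
noncomputable def qq (τ : ℝ) (z : Fin 5 → ℂ) : ℝ := τ * plu z 1 3
noncomputable def rr (τ : ℝ) (z : Fin 5 → ℂ) : ℝ := τ * (plu z 3 2 + plu z 3 4) / 2

theorem Btw_cayley (τ : ℝ) (z : Fin 5 → ℂ) :
    (Btw τ z 1 - z 1 = (pp τ z : ℂ) * ((Btw τ z 2 + z 2) + (Btw τ z 4 + z 4))
        + (qq τ z : ℂ) * (Btw τ z 3 + z 3)) ∧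
    (Btw τ z 2 - z 2 = -(pp τ z : ℂ) * (Btw τ z 1 + z 1) - (rr τ z : ℂ) * (Btw τ z 3 + z 3)) ∧
    (Btw τ z 3 - z 3 = -(qq τ z : ℂ) * (Btw τ z 1 + z 1)
        + (rr τ z : ℂ) * ((Btw τ z 2 + z 2) + (Btw τ z 4 + z 4))) ∧
    (Btw τ z 4 - z 4 = -(pp τ z : ℂ) * (Btw τ z 1 + z 1) - (rr τ z : ℂ) * (Btw τ z 3 + z 3)) ∧
    Btw τ z 0 = z 0 := by
  have hD0 : ((1 + τ ^ 2 * ww z : ℝ) : ℂ) ≠ 0 := by
    have : (0 : ℝ) < 1 + τ ^ 2 * ww z := by have := ww_nonneg z; positivity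
    exact_mod_cast this.ne'
  set D : ℂ := ((1 + τ ^ 2 * ww z : ℝ) : ℂ) with hD
  set α : ℂ := (((-2 * τ ^ 2 * ww z : ℝ) : ℂ) + 2 * Complex.I * (τ : ℂ) * (NN z : ℂ)) / D with hα
  set β : ℂ := (-2 * Complex.I * (τ : ℂ) * QQ z) / D with hβ
  have hb0 : Btw τ z 0 = z 0 := by simp [Btw, zeta]
  have hb1 : Btw τ z 1 = z 1 + α * z 1 + β * conj (z 1) := by simp [Btw, zeta, hα, hβ, hD]
  have hb2 : Btw τ z 2 = z 2 + α * ((z 2 + z 4) / 2) + β * ((conj (z 2) + conj (z 4)) / 2) := by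
    simp [Btw, zeta, hα, hβ, hD, map_div₀, map_ofNat]
  have hb3 : Btw τ z 3 = z 3 + α * z 3 + β * conj (z 3) := by simp [Btw, zeta, hα, hβ, hD]
  have hb4 : Btw τ z 4 = z 4 + α * ((z 2 + z 4) / 2) + β * ((conj (z 2) + conj (z 4)) / 2) := by
    simp [Btw, zeta, hα, hβ, hD, map_div₀, map_ofNat]
  obtain ⟨e1, e2, e3⟩ := cay_alg Complex.I (τ : ℂ) (z 1) (conj (z 1)) (z 3) (conj (z 3)) (z 2 + z 4)
    (conj (z 2) + conj (z 4)) (NN z : ℂ) (QQ z) (conj (QQ z)) (ww z : ℂ) D α β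
    (pp τ z : ℂ) (qq τ z : ℂ) (rr τ z : ℂ) Complex.I_sq (NN_cast z) rfl (QQ_conj z) (ww_cast z)
    (by rw [hD]; push_cast; ring) hD0
    (by rw [hα, div_mul_cancel₀ _ hD0]; push_cast; ring)
    (by rw [hβ, div_mul_cancel₀ _ hD0])
    (by simp only [pp]; push_cast; simp only [plu_cast]; ring)
    (by simp only [qq]; push_cast; simp only [plu_cast])
    (by simp only [rr]; push_cast; simp only [plu_cast]; ring)
  refine ⟨?_, ?_, ?_, ?_, hb0⟩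
  · rw [hb1, hb2, hb3, hb4]; linear_combination e1
  · rw [hb1, hb2, hb3]; linear_combination e2
  · rw [hb1, hb2, hb3, hb4]; linear_combination e3
  · rw [hb1, hb4, hb3]; linear_combination e2

/-! ### the linear part -/

theorem UV_Glin (b : Fin 5 → ℂ) :
    UU1 (Glin b) = UU1 b ∧
    UU2 (Glin b) = 119 / 169 * UU2 b - 120 / 169 * UU3 b ∧
    UU3 (Glin b) = 120 / 169 * UU2 b + 119 / 169 * UU3 b ∧
    VV1 (Glin b) = 119 / 169 * VV1 b + 120 / 169 * VV3 b ∧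
    VV2 (Glin b) = VV2 b ∧
    VV3 (Glin b) = 119 / 169 * VV3 b - 120 / 169 * VV1 b := by
  have g1 : Glin b 1 = -((119 / 169 : ℂ) * b 1 - (120 / 169 : ℂ) * b 2) := by simp [Glin]
  have g2 : Glin b 2 = -((120 / 169 : ℂ) * b 1 + (119 / 169 : ℂ) * b 2) := by simp [Glin]
  have g3 : Glin b 3 = -b 3 := by simp [Glin]
  have g4 : Glin b 4 = -b 4 := by simp [Glin]
  have c1 : ((119 / 169 : ℂ)).re = 119 / 169 := by norm_num
  have c2 : ((119 / 169 : ℂ)).im = 0 := by norm_num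
  have c3 : ((120 / 169 : ℂ)).re = 120 / 169 := by norm_num
  have c4 : ((120 / 169 : ℂ)).im = 0 := by norm_num
  simp only [UU1, UU2, UU3, VV1, VV2, VV3, plu_eq_pl, pl, g1, g2, g3, g4, Complex.neg_re,
    Complex.neg_im, Complex.sub_re, Complex.sub_im, Complex.add_re, Complex.add_im,
    Complex.mul_re, Complex.mul_im, c1, c2, c3, c4]
  refine ⟨?_, ?_, ?_, ?_, ?_, ?_⟩ <;> ring

/-! ### norms -/

theorem UV_norm {z : Fin 5 → ℂ} (hz : z ∈ unitCone) (h0 : z 0 = 0) :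
    UU1 z ^ 2 + UU2 z ^ 2 + UU3 z ^ 2 = 1 ∧ VV1 z ^ 2 + VV2 z ^ 2 + VV3 z ^ 2 = 1 := by
  obtain ⟨h1, h2⟩ := hz
  simp only [herm, Fin.sum_univ_five, h0] at h1 h2
  have a1 := congrArg Complex.re h1
  have a2 := congrArg Complex.re h2
  have a3 := congrArg Complex.im h2
  simp only [Complex.add_re, Complex.add_im, Complex.mul_re, Complex.mul_im, Complex.conj_re,
    Complex.conj_im, Complex.one_re, Complex.zero_re, Complex.zero_im, pow_two, map_zero,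
    mul_zero, zero_add] at a1 a2 a3
  simp only [UU1, UU2, UU3, VV1, VV2, VV3, plu_eq_pl, pl]
  generalize (z 1).re = x1 at *
  generalize (z 1).im = y1 at *
  generalize (z 2).re = x2 at *
  generalize (z 2).im = y2 at *
  generalize (z 3).re = x3 at *
  generalize (z 3).im = y3 at *
  generalize (z 4).re = x4 at *
  generalize (z 4).im = y4 at *
  constructor
  · linear_combination ((x1*x1+y1*y1+x2*x2+y2*y2+x3*x3+y3*y3+x4*x4+y4*y4) + 1) * a1 - (x1*x1-y1*y1+x2*x2-y2*y2+x3*x3-y3*y3+x4*x4-y4*y4) * a2 - (2*(x1*y1+x2*y2+x3*y3+x4*y4)) * a3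
  · linear_combination ((x1*x1+y1*y1+x2*x2+y2*y2+x3*x3+y3*y3+x4*x4+y4*y4) + 1) * a1 - (x1*x1-y1*y1+x2*x2-y2*y2+x3*x3-y3*y3+x4*x4-y4*y4) * a2 - (2*(x1*y1+x2*y2+x3*y3+x4*y4)) * a3

/-! ### classification on the level of Plücker coordinates -/

lemma UV_smul {l : ℂ} (hl : ‖l‖ = 1) (z : Fin 5 → ℂ) :
    UU1 (l • z) = UU1 z ∧ UU2 (l • z) = UU2 z ∧ UU3 (l • z) = UU3 z ∧
    VV1 (l • z) = VV1 z ∧ VV2 (l • z) = VV2 z ∧ VV3 (l • z) = VV3 z := by
  simp only [UU1, UU2, UU3, VV1, VV2, VV3, plu_smul, hl]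
  refine ⟨?_, ?_, ?_, ?_, ?_, ?_⟩ <;> ring

/-- **Classification.**  A fixed line of `Phi` inside `z 0 = 0` has one of three explicit
Plücker vectors. -/
theorem classify_plu {z : Fin 5 → ℂ} (hz : z ∈ unitCone) (h0 : z 0 = 0) {l : ℂ} (hl : ‖l‖ = 1)
    (hfix : Phi z = l • z) :
    ∃ x y : ℝ, plu z 1 2 = x ∧ plu z 1 4 = y ∧ plu z 2 4 = 5 / 12 * y ∧ plu z 1 3 = 0 ∧
      plu z 2 3 = 0 ∧ plu z 3 4 = 0 ∧
      ((x = 0 ∧ y = 12 / 13) ∨ (y = -156 / 313 ∧ x ^ 2 = 69408 / 97969)) := by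
  obtain ⟨nU, nV⟩ := UV_norm hz h0
  obtain ⟨k1, k2, k3, k4, -⟩ := Btw_cayley (65 / 72) z
  obtain ⟨t1, t2, t3, t4, t5, t6⟩ := bridge_complex _ _ _ z (Btw (65 / 72) z) k1 k2 k3 k4
  obtain ⟨g1, g2, g3, g4, g5, g6⟩ := UV_Glin (Btw (65 / 72) z)
  obtain ⟨s1, s2, s3, s4, s5, s6⟩ := UV_smul hl z
  have hP : Glin (Btw (65 / 72) z) = l • z := hfix
  rw [hP] at g1 g2 g3 g4 g5 g6
  rw [s1] at g1; rw [s2] at g2; rw [s3] at g3; rw [s4] at g4; rw [s5] at g5; rw [s6] at g6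
  have w1 : -(pp (65 / 72) z - rr (65 / 72) z) = 5 / 12 * (-13 / 12) * (UU1 z + VV1 z) := by
    simp only [pp, rr, UU1, VV1, plu_antisymm z 2 3]; ring
  have w2 : -(pp (65 / 72) z + rr (65 / 72) z) = 5 / 12 * (-13 / 12) * (UU2 z + VV2 z) := by
    simp only [pp, rr, UU2, VV2, plu_antisymm z 2 3]; ring
  have w3 : -(qq (65 / 72) z) = 5 / 12 * (-13 / 12) * (UU3 z + VV3 z) := by
    simp only [qq, UU3, VV3]; ring
  rw [w2, w3] at t1 t4
  rw [w3, w1] at t2 t5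
  rw [w1, w2] at t3 t6
  obtain ⟨c1, c2, c3, c4, c5⟩ := count_S2S2 (5 / 12) (-13 / 12) (by norm_num) (by norm_num)
    (by norm_num) (UU1 z) (UU2 z) (UU3 z) (VV1 z) (VV2 z) (VV3 z)
    (UU1 (Btw (65 / 72) z)) (UU2 (Btw (65 / 72) z)) (UU3 (Btw (65 / 72) z))
    (VV1 (Btw (65 / 72) z)) (VV2 (Btw (65 / 72) z)) (VV3 (Btw (65 / 72) z)) nU nV
    (by linear_combination t1) (by linear_combination t2) (by linear_combination t3)
    (by linear_combination t4) (by linear_combination t5) (by linear_combination t6)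
    (by linear_combination g1) (by linear_combination g2 + (5 / 12) * g3)
    (by linear_combination g3 - (5 / 12) * g2)
    (by linear_combination g4 - (5 / 12) * g6) (by linear_combination g5)
    (by linear_combination g6 + (5 / 12) * g4)
  refine ⟨UU1 z, UU2 z, ?_, ?_, ?_, ?_, ?_, ?_, ?_⟩
  · simp only [UU1, VV2] at c4 ⊢; linarith
  · simp only [UU2, VV1] at c1 ⊢; linarith
  · simp only [UU2, UU3, VV1, VV3] at c1 c2 c3 ⊢; linarith
  · simp only [UU2, UU3, VV1, VV3] at c1 c2 c3 ⊢; linarith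
  · simp only [UU2, VV1] at c1 ⊢; linarith
  · simp only [UU1, VV2] at c4 ⊢; linarith
  · rcases c5 with ⟨a, b⟩ | ⟨a, b⟩
    · left; exact ⟨a, by rw [b]; norm_num⟩
    · right; exact ⟨by rw [a]; norm_num, by rw [b]; norm_num⟩

/-- Plücker coordinates with index `0` vanish when `z 0 = 0`. -/
lemma plu_zero_left {z : Fin 5 → ℂ} (h0 : z 0 = 0) (j : Fin 5) : plu z 0 j = 0 := by
  simp [plu, h0]

/-- Equality of the ten Plücker coordinates `i < j` gives equality of all. -/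
lemma plu_ext {z z' : Fin 5 → ℂ}
    (h01 : plu z 0 1 = plu z' 0 1) (h02 : plu z 0 2 = plu z' 0 2) (h03 : plu z 0 3 = plu z' 0 3)
    (h04 : plu z 0 4 = plu z' 0 4) (h12 : plu z 1 2 = plu z' 1 2) (h13 : plu z 1 3 = plu z' 1 3)
    (h14 : plu z 1 4 = plu z' 1 4) (h23 : plu z 2 3 = plu z' 2 3) (h24 : plu z 2 4 = plu z' 2 4)
    (h34 : plu z 3 4 = plu z' 3 4) : ∀ i j, plu z i j = plu z' i j := by
  intro i j
  fin_cases i <;> fin_cases j <;> (try simp only [Fin.zero_eta, Fin.mk_one, Fin.reduceFinMk]) <;>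
    first
    | assumption
    | (rw [plu_self, plu_self])
    | (rw [plu_antisymm z, plu_antisymm z']; apply congrArg; assumption)

end Crest.Agent.S0316Aux.H88
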