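import Mathlib
import Crest.Agent.S0316Aux.Defs
import Crest.Agent.S0316Aux.H35_Plucker
import Crest.Agent.S0316Aux.H89_Phi
import Crest.Agent.S0316Aux.H97_PluCount

/-!
# S0316 (helper97): the count `ncard = 3` for every lift with time-one map `Phi`
-/

set_option autoImplicit false

noncomputable section

namespace Crest.Agent.S0316Aux.H97

open Crest.GeometryTopology.Quadric Crest.Agent.S0316Aux

local notation "conj" => starRingEnd ℂ

lemma QQ_re (z : Fin 5 → ℂ) : (QQ z).re = (z 1).re ^ 2 - (z 1).im ^ 2 + (z 3).re ^ 2 - (z 3).im ^ 2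
      + (((z 2).re + (z 4).re) ^ 2 - ((z 2).im + (z 4).im) ^ 2) / 2 := by
  simp [QQ, sq]; ring

lemma QQ_im (z : Fin 5 → ℂ) : (QQ z).im = 2 * (z 1).re * (z 1).im + 2 * (z 3).re * (z 3).im
      + ((z 2).re + (z 4).re) * ((z 2).im + (z 4).im) := by
  simp [QQ, sq]; ring

lemma NN_eq (z : Fin 5 → ℂ) : NN z = (z 1).re ^ 2 + (z 1).im ^ 2 + (z 3).re ^ 2 + (z 3).im ^ 2
      + (((z 2).re + (z 4).re) ^ 2 + ((z 2).im + (z 4).im) ^ 2) / 2 := by
  simp [NN, Complex.normSq_apply]; ring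

/-- (I7) -/
lemma ww_eq_plu (z : Fin 5 → ℂ) :
    ww z = (plu z 3 4 - plu z 2 3) ^ 2 / 2 + (plu z 1 2 + plu z 1 4) ^ 2 / 2 + plu z 1 3 ^ 2 := by
  unfold ww
  rw [Complex.normSq_apply, QQ_re, QQ_im, NN_eq]
  simp only [plu, Complex.mul_im, Complex.conj_re, Complex.conj_im]
  ring

/-- (I5) -/
lemma plu_Btw_12_14' (τ : ℝ) (z : Fin 5 → ℂ) :
    (1 + τ ^ 2 * ww z) * (plu (Btw τ z) 1 2 - plu (Btw τ z) 1 4)
      = (1 - τ ^ 2 * ww z) * (plu z 1 2 - plu z 1 4)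
        - 2 * τ * ((plu z 1 2 + plu z 1 4) * plu z 2 4 + plu z 1 3 * (plu z 2 3 + plu z 3 4)) := by
  have hD := (D_pos τ z).ne'
  have e1 : plu (Btw τ z) 1 2 - plu (Btw τ z) 1 4
      = 2 * (conj (cA τ z * z 1 + cB τ z * conj (z 1)) * (z 2 - z 4)).im := by
    have : Btw τ z 2 - Btw τ z 4 = z 2 - z 4 := by rw [Btw_2, Btw_4]; ring
    rw [← this, ← Btw_1]
    simp [plu]; ring
  rw [e1]
  have hAr : (cA τ z).re = (1 - τ ^ 2 * ww z) / (1 + τ ^ 2 * ww z) := rfl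
  have hAi : (cA τ z).im = 2 * τ * NN z / (1 + τ ^ 2 * ww z) := rfl
  have hBr : (cB τ z).re = 2 * τ * (QQ z).im / (1 + τ ^ 2 * ww z) := rfl
  have hBi : (cB τ z).im = -2 * τ * (QQ z).re / (1 + τ ^ 2 * ww z) := rfl
  simp only [plu, Complex.mul_im, Complex.mul_re, Complex.add_re, Complex.add_im, Complex.sub_re,
    Complex.sub_im, Complex.conj_re, Complex.conj_im, map_add, map_mul, hAr, hAi, hBr, hBi]
  rw [QQ_re, QQ_im, NN_eq]
  generalize ww z = w at *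
  field_simp
  ring

/-- (I6) -/
lemma plu_Btw_23_34' (τ : ℝ) (z : Fin 5 → ℂ) :
    (1 + τ ^ 2 * ww z) * (plu (Btw τ z) 2 3 + plu (Btw τ z) 3 4)
      = (1 - τ ^ 2 * ww z) * (plu z 2 3 + plu z 3 4)
        + 2 * τ * (plu z 1 3 * (plu z 1 2 - plu z 1 4) + (plu z 3 4 - plu z 2 3) * plu z 2 4) := by
  have hD := (D_pos τ z).ne'
  have e1 : plu (Btw τ z) 2 3 + plu (Btw τ z) 3 4
      = -2 * (conj (cA τ z * z 3 + cB τ z * conj (z 3)) * (z 2 - z 4)).im := by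
    have : Btw τ z 2 - Btw τ z 4 = z 2 - z 4 := by rw [Btw_2, Btw_4]; ring
    rw [← this, ← Btw_3]
    simp [plu]; ring
  rw [e1]
  have hAr : (cA τ z).re = (1 - τ ^ 2 * ww z) / (1 + τ ^ 2 * ww z) := rfl
  have hAi : (cA τ z).im = 2 * τ * NN z / (1 + τ ^ 2 * ww z) := rfl
  have hBr : (cB τ z).re = 2 * τ * (QQ z).im / (1 + τ ^ 2 * ww z) := rfl
  have hBi : (cB τ z).im = -2 * τ * (QQ z).re / (1 + τ ^ 2 * ww z) := rfl
  simp only [plu, Complex.mul_im, Complex.mul_re, Complex.add_re, Complex.add_im, Complex.sub_re,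
    Complex.sub_im, Complex.conj_re, Complex.conj_im, map_add, map_mul, hAr, hAi, hBr, hBi]
  rw [QQ_re, QQ_im, NN_eq]
  generalize ww z = w at *
  field_simp
  ring

/-- all Plücker coordinates from the six with indices in `1..4`, when `z 0 = 0`. -/
lemma plu_ext {z z' : Fin 5 → ℂ} (h0 : z 0 = 0) (h0' : z' 0 = 0)
    (h12 : plu z 1 2 = plu z' 1 2) (h13 : plu z 1 3 = plu z' 1 3) (h14 : plu z 1 4 = plu z' 1 4)
    (h23 : plu z 2 3 = plu z' 2 3) (h24 : plu z 2 4 = plu z' 2 4) (h34 : plu z 3 4 = plu z' 3 4) :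
    ∀ i j, plu z i j = plu z' i j := by
  have z0 : ∀ j, plu z 0 j = plu z' 0 j := by intro j; simp [plu, h0, h0']
  have z0' : ∀ j, plu z j 0 = plu z' j 0 := by intro j; simp [plu, h0, h0']
  intro i j
  fin_cases i <;> fin_cases j <;>
    first
      | exact z0 _
      | exact z0' _
      | (simp only [Fin.mk_one, Fin.reduceFinMk]; rw [plu_self, plu_self])
      | (simp only [Fin.mk_one, Fin.reduceFinMk]; assumption)
      | (simp only [Fin.mk_one, Fin.reduceFinMk]; rw [plu_antisymm z, plu_antisymm z']; congr 1)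

lemma plu_Glin_12 (b : Fin 5 → ℂ) : plu (Glin b) 1 2 = plu b 1 2 := by
  have e1 : Glin b 1 = -(((119 / 169 : ℝ) : ℂ) * b 1 - ((120 / 169 : ℝ) : ℂ) * b 2) := by
    simp [Glin]
  have e2 : Glin b 2 = -(((120 / 169 : ℝ) : ℂ) * b 1 + ((119 / 169 : ℝ) : ℂ) * b 2) := by
    simp [Glin]
  unfold plu; rw [e1, e2]; simp [-Complex.ofReal_div]; ring

lemma plu_Glin_13 (b : Fin 5 → ℂ) :
    plu (Glin b) 1 3 = 119 / 169 * plu b 1 3 - 120 / 169 * plu b 2 3 := by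
  have e1 : Glin b 1 = -(((119 / 169 : ℝ) : ℂ) * b 1 - ((120 / 169 : ℝ) : ℂ) * b 2) := by
    simp [Glin]
  have e3 : Glin b 3 = -b 3 := by simp [Glin]
  unfold plu; rw [e1, e3]; simp [-Complex.ofReal_div]; ring

lemma plu_Glin_14 (b : Fin 5 → ℂ) :
    plu (Glin b) 1 4 = 119 / 169 * plu b 1 4 - 120 / 169 * plu b 2 4 := by
  have e1 : Glin b 1 = -(((119 / 169 : ℝ) : ℂ) * b 1 - ((120 / 169 : ℝ) : ℂ) * b 2) := by
    simp [Glin]
  have e3 : Glin b 4 = -b 4 := by simp [Glin]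
  unfold plu; rw [e1, e3]; simp [-Complex.ofReal_div]; ring

lemma plu_Glin_23 (b : Fin 5 → ℂ) :
    plu (Glin b) 2 3 = 120 / 169 * plu b 1 3 + 119 / 169 * plu b 2 3 := by
  have e2 : Glin b 2 = -(((120 / 169 : ℝ) : ℂ) * b 1 + ((119 / 169 : ℝ) : ℂ) * b 2) := by
    simp [Glin]
  have e3 : Glin b 3 = -b 3 := by simp [Glin]
  unfold plu; rw [e2, e3]; simp [-Complex.ofReal_div]; ring

lemma plu_Glin_24 (b : Fin 5 → ℂ) :
    plu (Glin b) 2 4 = 120 / 169 * plu b 1 4 + 119 / 169 * plu b 2 4 := by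
  have e2 : Glin b 2 = -(((120 / 169 : ℝ) : ℂ) * b 1 + ((119 / 169 : ℝ) : ℂ) * b 2) := by
    simp [Glin]
  have e3 : Glin b 4 = -b 4 := by simp [Glin]
  unfold plu; rw [e2, e3]; simp [-Complex.ofReal_div]; ring

lemma plu_Glin_34 (b : Fin 5 → ℂ) : plu (Glin b) 3 4 = plu b 3 4 := by
  have e3 : Glin b 3 = -b 3 := by simp [Glin]
  have e4 : Glin b 4 = -b 4 := by simp [Glin]
  unfold plu; rw [e3, e4]; simp

/-- **Converse**: a cone point in `{z 0 = 0}` whose Plücker coordinates solve the reduced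
equations spans a fixed line. -/
theorem fixed_of_plu {z : Fin 5 → ℂ} (hz : z ∈ unitCone) (h0 : z 0 = 0)
    (hPhi : Phi z ∈ unitCone)
    (h13 : plu z 1 3 = 0) (h23 : plu z 2 3 = 0) (h34 : plu z 3 4 = 0)
    (h24 : plu z 2 4 = 5 / 12 * plu z 1 4)
    (hF : plu z 1 4 = 13 / 12 * (plu z 1 4 ^ 2 - plu z 1 2 ^ 2)) :
    ∃ c : ℂ, Phi z = c • z := by
  refine ⟨herm z (Phi z), plucker_inj hz hPhi ?_⟩
  set b := Btw (65 / 72) z with hb
  have hD := D_pos (65 / 72) z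
  have I1 := plu_Btw_13 (65 / 72) z
  have I2 := plu_Btw_34_23 (65 / 72) z
  have I3 := plu_Btw_12_14 (65 / 72) z
  have I4 := plu_Btw_24 (65 / 72) z
  have I5 := plu_Btw_12_14' (65 / 72) z
  have I6 := plu_Btw_23_34' (65 / 72) z
  have I7 := ww_eq_plu z
  rw [← hb] at I1 I2 I3 I4 I5 I6
  rw [h13, h23, h34] at I7
  rw [h13] at I1
  rw [h23, h34] at I2
  rw [h23, h34, h24] at I4
  rw [h13, h23, h34, h24] at I5
  rw [h13, h23, h34] at I6
  generalize ww z = w at *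
  generalize hp12 : plu z 1 2 = p12 at *
  generalize hp14 : plu z 1 4 = p14 at *
  have J6 : plu b 2 3 + plu b 3 4 = 0 := by
    have : (1 + (65 / 72 : ℝ) ^ 2 * w) * (plu b 2 3 + plu b 3 4) = 0 := by
      rw [I6]; ring
    exact (mul_eq_zero.mp this).resolve_left hD.ne'
  have b23 : plu b 2 3 = 0 := by linarith
  have b34 : plu b 3 4 = 0 := by linarith
  have b24 : plu b 2 4 = -(5 / 12) * p14 := by
    have : (1 + (65 / 72 : ℝ) ^ 2 * w) * (plu b 2 4 - -(5 / 12) * p14) = 0 := by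
      rw [mul_sub, I4]
      linear_combination (5 / 6 : ℝ) * hF
    have := (mul_eq_zero.mp this).resolve_left hD.ne'
    linarith
  have b1214 : plu b 1 2 - plu b 1 4 = p12 - p14 := by
    have : (1 + (65 / 72 : ℝ) ^ 2 * w) * ((plu b 1 2 - plu b 1 4) - (p12 - p14)) = 0 := by
      rw [mul_sub, I5, I7]
      linear_combination (-(65 / 72) * (5 / 6) * (p12 + p14)) * hF
    have := (mul_eq_zero.mp this).resolve_left hD.ne'
    linarith
  have b12 : plu b 1 2 = p12 := by linarith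
  have b14 : plu b 1 4 = p14 := by linarith
  have hP0 : Phi z 0 = 0 := by
    show Glin (Btw (65 / 72) z) 0 = 0
    simp [Glin, Btw_0, h0]
  have hPhi' : Phi z = Glin b := rfl
  apply plu_ext h0 hP0
  · rw [hPhi', plu_Glin_12, b12, hp12]
  · rw [hPhi', plu_Glin_13, I1, b23, h13]; ring
  · rw [hPhi', plu_Glin_14, b14, b24, hp14]; ring
  · rw [hPhi', plu_Glin_23, I1, b23, h23]; ring
  · rw [hPhi', plu_Glin_24, b14, b24, h24]; ring
  · rw [hPhi', plu_Glin_34, b34, h34]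

/-- the two-parameter family of candidate points (`n ^ 2 + m ^ 2 = 1`). -/
def Zg (n m : ℝ) : Fin 5 → ℂ :=
  ![0, ⟨(12 + 5 * n) / 26, (12 - 5 * n) / 26⟩, ⟨(5 - 12 * n) / 26, (5 + 12 * n) / 26⟩, 0,
    ⟨-m / 2, m / 2⟩]

lemma Zg_0 (n m : ℝ) : Zg n m 0 = 0 := rfl
lemma Zg_1 (n m : ℝ) : Zg n m 1 = ⟨(12 + 5 * n) / 26, (12 - 5 * n) / 26⟩ := rfl
lemma Zg_2 (n m : ℝ) : Zg n m 2 = ⟨(5 - 12 * n) / 26, (5 + 12 * n) / 26⟩ := rfl
lemma Zg_3 (n m : ℝ) : Zg n m 3 = 0 := rfl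
lemma Zg_4 (n m : ℝ) : Zg n m 4 = ⟨-m / 2, m / 2⟩ := rfl

lemma Zg_mem {n m : ℝ} (h : n ^ 2 + m ^ 2 = 1) : Zg n m ∈ unitCone := by
  constructor
  · simp only [herm, Fin.sum_univ_five, Zg_0, Zg_1, Zg_2, Zg_3, Zg_4]
    apply Complex.ext
    · simp
      linear_combination (1 / 2 : ℝ) * h
    · simp
      ring
  · simp only [Fin.sum_univ_five, Zg_0, Zg_1, Zg_2, Zg_3, Zg_4]
    apply Complex.ext
    · simp [sq]
      ring
    · simp [sq]
      linear_combination (-1 / 2 : ℝ) * h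

lemma plu_Zg_12 (n m : ℝ) : plu (Zg n m) 1 2 = n := by
  simp only [plu, Zg_1, Zg_2, Complex.mul_im, Complex.conj_re, Complex.conj_im]; ring
lemma plu_Zg_13 (n m : ℝ) : plu (Zg n m) 1 3 = 0 := by
  simp [plu, Zg_3]
lemma plu_Zg_14 (n m : ℝ) : plu (Zg n m) 1 4 = 12 / 13 * m := by
  simp only [plu, Zg_1, Zg_4, Complex.mul_im, Complex.conj_re, Complex.conj_im]; ring
lemma plu_Zg_23 (n m : ℝ) : plu (Zg n m) 2 3 = 0 := by
  simp [plu, Zg_3]
lemma plu_Zg_24 (n m : ℝ) : plu (Zg n m) 2 4 = 5 / 13 * m := by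
  simp only [plu, Zg_2, Zg_4, Complex.mul_im, Complex.conj_re, Complex.conj_im]; ring
lemma plu_Zg_34 (n m : ℝ) : plu (Zg n m) 3 4 = 0 := by
  simp [plu, Zg_3]

/-- `r = 12 √482 / 313`. -/
def rr : ℝ := 12 * Real.sqrt 482 / 313

lemma rr_sq : rr ^ 2 = 69408 / 97969 := by
  unfold rr
  rw [div_pow, mul_pow, Real.sq_sqrt (by norm_num)]
  norm_num

lemma rr_pos : 0 < rr := by
  unfold rr
  have : 0 < Real.sqrt 482 := Real.sqrt_pos.mpr (by norm_num)
  positivity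

/-- **The count.** -/
theorem ncard_eq_three (L : HamiltonianConeLift) (hL : ∀ z, L.Ψ (1, z) = Phi z) :
    (fixedLines L).ncard = 3 := by
  have hr := rr_sq
  have hr0 := rr_pos
  have m1 : Zg 0 1 ∈ unitCone := Zg_mem (by norm_num)
  have m2 : Zg rr (-169 / 313) ∈ unitCone := Zg_mem (by rw [hr]; norm_num)
  have m3 : Zg (-rr) (-169 / 313) ∈ unitCone := Zg_mem (by rw [neg_sq, hr]; norm_num)
  have cone : ∀ z ∈ unitCone, Phi z ∈ unitCone := fun z hz => hL z ▸ L.mapsTo_cone 1 z hz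
  refine ncard_fixedLines_eq_three L _ _ _ m1 m2 m3 ?_ ?_ ?_ ?_ ?_ ?_ ?_
  · rw [hL]
    refine fixed_of_plu m1 rfl (cone _ m1) (plu_Zg_13 _ _) (plu_Zg_23 _ _) (plu_Zg_34 _ _) ?_ ?_
    · rw [plu_Zg_24, plu_Zg_14]; norm_num
    · rw [plu_Zg_12, plu_Zg_14]; norm_num
  · rw [hL]
    refine fixed_of_plu m2 rfl (cone _ m2) (plu_Zg_13 _ _) (plu_Zg_23 _ _) (plu_Zg_34 _ _) ?_ ?_
    · rw [plu_Zg_24, plu_Zg_14]; norm_num
    · rw [plu_Zg_12, plu_Zg_14, hr]; norm_num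
  · rw [hL]
    refine fixed_of_plu m3 rfl (cone _ m3) (plu_Zg_13 _ _) (plu_Zg_23 _ _) (plu_Zg_34 _ _) ?_ ?_
    · rw [plu_Zg_24, plu_Zg_14]; norm_num
    · rw [plu_Zg_12, plu_Zg_14, neg_sq, hr]; norm_num
  · exact ⟨1, 4, by rw [plu_Zg_14, plu_Zg_14]; norm_num⟩
  · exact ⟨1, 4, by rw [plu_Zg_14, plu_Zg_14]; norm_num⟩
  · exact ⟨1, 2, by rw [plu_Zg_12, plu_Zg_12]; intro h; linarith⟩
  · rintro z hz ⟨c, hc⟩
    rw [hL] at hc
    have h0 : z 0 = 0 := H89.z0_eq_zero hz hc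
    have hcz : c • z ∈ unitCone := hc ▸ cone z hz
    have hn : ‖c‖ = 1 := norm_eq_one_of_smul_mem hz hcz
    obtain ⟨h13, h23, h34, h | h⟩ := classify hz h0 hn hc
    · obtain ⟨h14, h24, h12⟩ := h
      left
      apply plu_ext h0 rfl
      · rw [plu_Zg_12, h12]
      · rw [plu_Zg_13, h13]
      · rw [plu_Zg_14, h14]; norm_num
      · rw [plu_Zg_23, h23]
      · rw [plu_Zg_24, h24]; norm_num
      · rw [plu_Zg_34, h34]
    · obtain ⟨h14, h24, h12⟩ := h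
      have : (plu z 1 2 - rr) * (plu z 1 2 + rr) = 0 := by
        linear_combination h12 - hr
      rcases mul_eq_zero.mp this with g | g
      · right; left
        apply plu_ext h0 rfl
        · rw [plu_Zg_12]; linarith
        · rw [plu_Zg_13, h13]
        · rw [plu_Zg_14, h14]; norm_num
        · rw [plu_Zg_23, h23]
        · rw [plu_Zg_24, h24]; norm_num
        · rw [plu_Zg_34, h34]
      · right; right
        apply plu_ext h0 rfl
        · rw [plu_Zg_12]; linarith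
        · rw [plu_Zg_13, h13]
        · rw [plu_Zg_14, h14]; norm_num
        · rw [plu_Zg_23, h23]
        · rw [plu_Zg_24, h24]; norm_num
        · rw [plu_Zg_34, h34]

end Crest.Agent.S0316Aux.H97
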