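import Crest.Agent.S0316Aux.Defs
import Crest.Agent.S0316Aux.H35_Ell
import Crest.Agent.S0316Aux.H96_PlaneTwist

/-!
helper99: the Cayley–Casimir twist `Btw (c t)` of `Defs.lean` as a `HamiltonianConeLift`
(insurance copy of task CAYLIFT, specialised to the canonical coordinates).
-/

set_option autoImplicit false

open Crest.GeometryTopology.Quadric

namespace Crest.Agent.S0316Aux.H99

noncomputable section

open Crest.Agent.S0316Aux Crest.Agent.S0316Aux.H96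

local notation "conj" => starRingEnd ℂ

/-- the real-linear map `z ↦ (z - ζ) + p ζ + b conj ζ`. -/
def lin (p b : ℂ) (z : Fin 5 → ℂ) : Fin 5 → ℂ := fun j =>
  z j - zeta z j + p * zeta z j + b * conj (zeta z j)

lemma zeta_lin (p b : ℂ) (z : Fin 5 → ℂ) (j : Fin 5) :
    zeta (lin p b z) j = p * zeta z j + b * conj (zeta z j) := by
  fin_cases j <;> simp [zeta, lin] <;> ring

lemma lin_zero (p b : ℂ) (z : Fin 5 → ℂ) : lin p b z 0 = z 0 := by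
  simp [zeta, lin]

lemma lin_diff (p b : ℂ) (z : Fin 5 → ℂ) : lin p b z 2 - lin p b z 4 = z 2 - z 4 := by
  simp [zeta, lin]

lemma lin_one' (p b : ℂ) (z : Fin 5 → ℂ) : lin p b z 1 = p * z 1 + b * conj (z 1) := by
  simp [zeta, lin]

lemma lin_three (p b : ℂ) (z : Fin 5 → ℂ) : lin p b z 3 = p * z 3 + b * conj (z 3) := by
  simp [zeta, lin]

lemma lin_sum (p b : ℂ) (z : Fin 5 → ℂ) :
    lin p b z 2 + lin p b z 4 = p * (z 2 + z 4) + b * conj (z 2 + z 4) := by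
  simp [zeta, lin, Complex.conj_ofNat]; ring

lemma NN_cast (z : Fin 5 → ℂ) : (NN z : ℂ) =
    conj (z 1) * z 1 + conj (z 3) * z 3 + conj (z 2 + z 4) * (z 2 + z 4) / 2 := by
  simp only [NN, Complex.ofReal_add, Complex.ofReal_div, Complex.normSq_eq_conj_mul_self]
  norm_num

lemma ww_cast (z : Fin 5 → ℂ) : (ww z : ℂ) = (NN z : ℂ) ^ 2 - conj (QQ z) * QQ z := by
  simp only [ww, Complex.ofReal_sub, Complex.ofReal_pow, Complex.normSq_eq_conj_mul_self]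

lemma conj_QQ (z : Fin 5 → ℂ) :
    conj (QQ z) = conj (z 1) ^ 2 + conj (z 3) ^ 2 + conj (z 2 + z 4) ^ 2 / 2 := by
  simp [QQ, Complex.conj_ofNat]

lemma NN_lin_cast (p b : ℂ) (z : Fin 5 → ℂ) : (NN (lin p b z) : ℂ) =
    (conj p * p + conj b * b) * NN z + (conj p * b * conj (QQ z) + p * conj b * QQ z) := by
  rw [NN_cast, NN_cast, conj_QQ, lin_one', lin_three, lin_sum]
  simp only [QQ, map_add, map_mul, Complex.conj_conj]
  ring

lemma QQ_lin (p b : ℂ) (z : Fin 5 → ℂ) : QQ (lin p b z) =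
    p ^ 2 * QQ z + b ^ 2 * conj (QQ z) + 2 * p * b * NN z := by
  rw [NN_cast, conj_QQ]
  simp only [QQ, lin_one', lin_three, lin_sum]
  simp only [map_add]
  ring

lemma ww_eq_mu (z : Fin 5 → ℂ) : ww z =
    mu 1 3 z ^ 2 + (mu 1 2 z + mu 1 4 z) ^ 2 / 2 + (mu 3 2 z + mu 3 4 z) ^ 2 / 2 := by
  simp only [ww, NN, QQ, mu_eq, Complex.normSq_apply, Complex.add_re, Complex.add_im, pow_two,
    Complex.mul_re, Complex.mul_im, Complex.div_ofNat_re, Complex.div_ofNat_im]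
  ring

lemma ww_nonneg (z : Fin 5 → ℂ) : 0 ≤ ww z := by
  rw [ww_eq_mu]; positivity

lemma DD_pos (τ : ℝ) (z : Fin 5 → ℂ) : 0 < 1 + τ ^ 2 * ww z := by
  have := ww_nonneg z
  positivity

lemma DD_ne (τ : ℝ) (z : Fin 5 → ℂ) : ((1 + τ ^ 2 * ww z : ℝ) : ℂ) ≠ 0 := by
  exact_mod_cast (DD_pos τ z).ne'

/-- the coefficient of `ζ`. -/
def pp (τ : ℝ) (z : Fin 5 → ℂ) : ℂ :=
  (((1 - τ ^ 2 * ww z : ℝ) : ℂ) + 2 * Complex.I * (τ : ℂ) * (NN z : ℂ)) / ((1 + τ ^ 2 * ww z : ℝ) : ℂ)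

/-- the coefficient of `conj ζ`. -/
def bb (τ : ℝ) (z : Fin 5 → ℂ) : ℂ :=
  (-2 * Complex.I * (τ : ℂ) * QQ z) / ((1 + τ ^ 2 * ww z : ℝ) : ℂ)

lemma Btw_eq_lin (τ : ℝ) (z : Fin 5 → ℂ) : Btw τ z = lin (pp τ z) (bb τ z) z := by
  funext j
  have hD := DD_ne τ z
  simp only [Btw, lin, pp, bb]
  field_simp
  push_cast
  ring

lemma conj_pp (τ : ℝ) (z : Fin 5 → ℂ) : conj (pp τ z) =
    (((1 - τ ^ 2 * ww z : ℝ) : ℂ) - 2 * Complex.I * (τ : ℂ) * (NN z : ℂ)) /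
      ((1 + τ ^ 2 * ww z : ℝ) : ℂ) := by
  simp only [pp, map_div₀, map_add, map_mul, Complex.conj_ofReal, Complex.conj_I,
    Complex.conj_ofNat]
  ring

lemma conj_bb (τ : ℝ) (z : Fin 5 → ℂ) : conj (bb τ z) =
    (2 * Complex.I * (τ : ℂ) * conj (QQ z)) / ((1 + τ ^ 2 * ww z : ℝ) : ℂ) := by
  simp only [bb, map_div₀, map_neg, map_mul, Complex.conj_ofReal, Complex.conj_I,
    Complex.conj_ofNat]
  ring

lemma NN_Btw (τ : ℝ) (z : Fin 5 → ℂ) : NN (Btw τ z) = NN z := by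
  apply Complex.ofReal_injective
  rw [Btw_eq_lin, NN_lin_cast, conj_pp, conj_bb]
  have hD := DD_ne τ z
  simp only [pp, bb]
  field_simp
  push_cast
  rw [ww_cast]
  have hI : Complex.I ^ 2 = -1 := Complex.I_sq
  ring_nf
  simp only [hI]
  ring

lemma QQ_Btw (τ : ℝ) (z : Fin 5 → ℂ) : QQ (Btw τ z) = QQ z := by
  rw [Btw_eq_lin, QQ_lin]
  have hD := DD_ne τ z
  simp only [pp, bb]
  field_simp
  push_cast
  rw [ww_cast]
  have hI : Complex.I ^ 2 = -1 := Complex.I_sq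
  ring_nf
  simp only [hI]
  ring

lemma ww_Btw (τ : ℝ) (z : Fin 5 → ℂ) : ww (Btw τ z) = ww z := by
  simp only [ww, NN_Btw, QQ_Btw]

lemma herm_self_eq (z : Fin 5 → ℂ) : herm z z =
    conj (z 0) * z 0 + conj (z 2 - z 4) * (z 2 - z 4) / 2 + NN z := by
  rw [NN_cast]
  simp only [herm, Fin.sum_univ_five, map_add, map_sub]
  ring

lemma sumsq_eq (z : Fin 5 → ℂ) : ∑ j, z j ^ 2 = z 0 ^ 2 + (z 2 - z 4) ^ 2 / 2 + QQ z := by
  simp only [QQ, Fin.sum_univ_five]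
  ring

lemma Btw_zero_coord (τ : ℝ) (z : Fin 5 → ℂ) : Btw τ z 0 = z 0 := by
  rw [Btw_eq_lin, lin_zero]

lemma Btw_diff (τ : ℝ) (z : Fin 5 → ℂ) : Btw τ z 2 - Btw τ z 4 = z 2 - z 4 := by
  rw [Btw_eq_lin, lin_diff]

lemma herm_Btw_self (τ : ℝ) (z : Fin 5 → ℂ) : herm (Btw τ z) (Btw τ z) = herm z z := by
  rw [herm_self_eq, herm_self_eq z, Btw_zero_coord, Btw_diff, NN_Btw]

lemma sumsq_Btw (τ : ℝ) (z : Fin 5 → ℂ) : ∑ j, Btw τ z j ^ 2 = ∑ j, z j ^ 2 := by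
  rw [sumsq_eq, sumsq_eq z, Btw_zero_coord, Btw_diff, QQ_Btw]

lemma Btw_mem_unitCone (τ : ℝ) {z : Fin 5 → ℂ} (hz : z ∈ unitCone) : Btw τ z ∈ unitCone :=
  ⟨by rw [herm_Btw_self, hz.1], by rw [sumsq_Btw, hz.2]⟩

lemma zeta_smul (c : ℂ) (z : Fin 5 → ℂ) (j : Fin 5) : zeta (c • z) j = c * zeta z j := by
  fin_cases j <;> simp [zeta] <;> ring

lemma NN_smul {c : ℂ} (hc : ‖c‖ = 1) (z : Fin 5 → ℂ) : NN (c • z) = NN z := by
  have h : Complex.normSq c = 1 := by rw [Complex.normSq_eq_norm_sq, hc]; norm_num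
  simp only [NN, Pi.smul_apply, smul_eq_mul, ← mul_add, Complex.normSq_mul, h, one_mul]

lemma QQ_smul (c : ℂ) (z : Fin 5 → ℂ) : QQ (c • z) = c ^ 2 * QQ z := by
  simp only [QQ, Pi.smul_apply, smul_eq_mul]
  ring

lemma ww_smul {c : ℂ} (hc : ‖c‖ = 1) (z : Fin 5 → ℂ) : ww (c • z) = ww z := by
  have h : Complex.normSq c = 1 := by rw [Complex.normSq_eq_norm_sq, hc]; norm_num
  simp only [ww, NN_smul hc, QQ_smul, Complex.normSq_mul, map_pow, h, one_pow, one_mul]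

lemma Btw_smul (τ : ℝ) {c : ℂ} (hc : ‖c‖ = 1) (z : Fin 5 → ℂ) :
    Btw τ (c • z) = c • Btw τ z := by
  funext j
  have h : conj c * c = 1 := conj_mul_self_of_norm_one hc
  simp only [Btw, NN_smul hc, ww_smul hc, QQ_smul, zeta_smul, Pi.smul_apply, smul_eq_mul, map_mul]
  have e : -2 * Complex.I * (τ : ℂ) * (c ^ 2 * QQ z) / ((1 + τ ^ 2 * ww z : ℝ) : ℂ)
      * (conj c * conj (zeta z j)) = (conj c * c) * (c * (-2 * Complex.I * (τ : ℂ) * QQ z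
        / ((1 + τ ^ 2 * ww z : ℝ) : ℂ) * conj (zeta z j))) := by ring
  rw [e, h]
  ring

lemma Btw_zero (z : Fin 5 → ℂ) : Btw 0 z = z := by
  funext j
  simp [Btw]

/-! ### smoothness -/

lemma contDiff_coord (j : Fin 5) : ContDiff ℝ (⊤ : ℕ∞) (fun z : Fin 5 → ℂ => z j) :=
  (ContinuousLinearMap.proj (R := ℝ) (φ := fun _ : Fin 5 => ℂ) j).contDiff

lemma contDiff_ww : ContDiff ℝ (⊤ : ℕ∞) ww := by
  have : ww = fun z => mu 1 3 z ^ 2 + (mu 1 2 z + mu 1 4 z) ^ 2 / 2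
      + (mu 3 2 z + mu 3 4 z) ^ 2 / 2 := by
    funext z; exact ww_eq_mu z
  rw [this]
  exact ((contDiff_mu.pow 2).add (((contDiff_mu.add contDiff_mu).pow 2).div_const 2)).add
    (((contDiff_mu.add contDiff_mu).pow 2).div_const 2)

lemma contDiff_NN : ContDiff ℝ (⊤ : ℕ∞) NN := by
  have : NN = fun z => reC 1 z ^ 2 + imC 1 z ^ 2 + (reC 3 z ^ 2 + imC 3 z ^ 2)
      + ((reC 2 z + reC 4 z) ^ 2 + (imC 2 z + imC 4 z) ^ 2) / 2 := by
    funext z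
    simp only [NN, Complex.normSq_apply, reC_apply, imC_apply, Complex.add_re, Complex.add_im]
    ring
  rw [this]
  exact ((((reC 1).contDiff.pow 2).add ((imC 1).contDiff.pow 2)).add
    (((reC 3).contDiff.pow 2).add ((imC 3).contDiff.pow 2))).add
    (((((reC 2).contDiff.add (reC 4).contDiff).pow 2).add
      (((imC 2).contDiff.add (imC 4).contDiff).pow 2)).div_const 2)

lemma contDiff_QQ : ContDiff ℝ (⊤ : ℕ∞) QQ := by
  unfold QQ
  exact (((contDiff_coord 1).pow 2).add ((contDiff_coord 3).pow 2)).add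
    ((((contDiff_coord 2).add (contDiff_coord 4)).pow 2).div_const 2)

lemma contDiff_zeta (j : Fin 5) : ContDiff ℝ (⊤ : ℕ∞) (fun z : Fin 5 → ℂ => zeta z j) := by
  fin_cases j
  · simpa [zeta] using (contDiff_const : ContDiff ℝ (⊤ : ℕ∞) (fun _ : Fin 5 → ℂ => (0 : ℂ)))
  · simpa [zeta] using contDiff_coord 1
  · simpa [zeta] using ((contDiff_coord 2).add (contDiff_coord 4)).div_const 2
  · simpa [zeta] using contDiff_coord 3
  · simpa [zeta] using ((contDiff_coord 2).add (contDiff_coord 4)).div_const 2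

lemma contDiff_ofReal {E : Type*} [NormedAddCommGroup E] [NormedSpace ℝ E] {f : E → ℝ}
    (hf : ContDiff ℝ (⊤ : ℕ∞) f) : ContDiff ℝ (⊤ : ℕ∞) (fun x => ((f x : ℝ) : ℂ)) :=
  Complex.ofRealCLM.contDiff.comp hf

lemma contDiff_Btw (c : ℝ) :
    ContDiff ℝ (⊤ : ℕ∞) (fun p : ℝ × (Fin 5 → ℂ) => Btw (c * p.1) p.2) := by
  rw [contDiff_pi]
  intro j
  have hτ : ContDiff ℝ (⊤ : ℕ∞) (fun p : ℝ × (Fin 5 → ℂ) => c * p.1) :=
    contDiff_const.mul contDiff_fst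
  have hw : ContDiff ℝ (⊤ : ℕ∞) (fun p : ℝ × (Fin 5 → ℂ) => ww p.2) :=
    contDiff_ww.comp contDiff_snd
  have hN : ContDiff ℝ (⊤ : ℕ∞) (fun p : ℝ × (Fin 5 → ℂ) => NN p.2) :=
    contDiff_NN.comp contDiff_snd
  have hQ : ContDiff ℝ (⊤ : ℕ∞) (fun p : ℝ × (Fin 5 → ℂ) => QQ p.2) :=
    contDiff_QQ.comp contDiff_snd
  have hz : ContDiff ℝ (⊤ : ℕ∞) (fun p : ℝ × (Fin 5 → ℂ) => p.2 j) :=
    (contDiff_coord j).comp contDiff_snd
  have hζ : ContDiff ℝ (⊤ : ℕ∞) (fun p : ℝ × (Fin 5 → ℂ) => zeta p.2 j) :=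
    (contDiff_zeta j).comp contDiff_snd
  have hζc : ContDiff ℝ (⊤ : ℕ∞) (fun p : ℝ × (Fin 5 → ℂ) => conj (zeta p.2 j)) :=
    Complex.conjCLE.contDiff.comp hζ
  have hD : ContDiff ℝ (⊤ : ℕ∞)
      (fun p : ℝ × (Fin 5 → ℂ) => (((1 + (c * p.1) ^ 2 * ww p.2 : ℝ) : ℂ))⁻¹) :=
    (contDiff_ofReal (contDiff_const.add ((hτ.pow 2).mul hw))).inv (fun p => DD_ne _ _)
  simp only [Btw, div_eq_mul_inv]
  exact (hz.add ((((contDiff_ofReal ((contDiff_const.mul (hτ.pow 2)).mul hw)).add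
    ((contDiff_const.mul (contDiff_ofReal hτ)).mul (contDiff_ofReal hN))).mul hD).mul hζ)).add
    ((((contDiff_const.mul (contDiff_ofReal hτ)).mul hQ).mul hD).mul hζc)

lemma contDiff_HH (c : ℝ) : ContDiff ℝ (⊤ : ℕ∞)
    (fun p : ℝ × (Fin 5 → ℂ) => -c * (ww p.2 * ell ((c * p.1) ^ 2 * ww p.2))) := by
  have hτ : ContDiff ℝ (⊤ : ℕ∞) (fun p : ℝ × (Fin 5 → ℂ) => c * p.1) :=
    contDiff_const.mul contDiff_fst
  have hw : ContDiff ℝ (⊤ : ℕ∞) (fun p : ℝ × (Fin 5 → ℂ) => ww p.2) :=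
    contDiff_ww.comp contDiff_snd
  exact contDiff_const.mul (hw.mul (contDiff_ell_comp ((hτ.pow 2).mul hw)
    (fun p => mul_nonneg (sq_nonneg _) (ww_nonneg _))))

/-! ### Hamilton's equation -/

/-- the differential of `mu j k` (as in `H96.hasFDerivAt_mu`). -/
def dmu (j k : Fin 5) (y : Fin 5 → ℂ) : (Fin 5 → ℂ) →L[ℝ] ℝ :=
  (2 : ℝ) • (((y j).re • imC k + (y k).im • reC j) - ((y j).im • reC k + (y k).re • imC j))

lemma dmu_apply (j k : Fin 5) (y ω : Fin 5 → ℂ) : dmu j k y ω =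
    2 * (((y j).re * (ω k).im + (y k).im * (ω j).re) - ((y j).im * (ω k).re + (y k).re * (ω j).im)) := by
  simp [dmu]

/-- the differential of `ww`. -/
def dww (y : Fin 5 → ℂ) : (Fin 5 → ℂ) →L[ℝ] ℝ :=
  (mu 1 3 y • dmu 1 3 y + mu 1 3 y • dmu 1 3 y)
  + (1 / 2 : ℝ) • ((mu 1 2 y + mu 1 4 y) • (dmu 1 2 y + dmu 1 4 y)
      + (mu 1 2 y + mu 1 4 y) • (dmu 1 2 y + dmu 1 4 y))
  + (1 / 2 : ℝ) • ((mu 3 2 y + mu 3 4 y) • (dmu 3 2 y + dmu 3 4 y)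
      + (mu 3 2 y + mu 3 4 y) • (dmu 3 2 y + dmu 3 4 y))

lemma hasFDerivAt_ww (y : Fin 5 → ℂ) : HasFDerivAt ww (dww y) y := by
  have : ww = fun z => mu 1 3 z * mu 1 3 z
      + (1 / 2 : ℝ) * ((mu 1 2 z + mu 1 4 z) * (mu 1 2 z + mu 1 4 z))
      + (1 / 2 : ℝ) * ((mu 3 2 z + mu 3 4 z) * (mu 3 2 z + mu 3 4 z)) := by
    funext z; rw [ww_eq_mu]; ring
  rw [this]
  have h13 : HasFDerivAt (mu 1 3) (dmu 1 3 y) y := hasFDerivAt_mu y
  have h12 : HasFDerivAt (mu 1 2) (dmu 1 2 y) y := hasFDerivAt_mu y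
  have h14 : HasFDerivAt (mu 1 4) (dmu 1 4 y) y := hasFDerivAt_mu y
  have h32 : HasFDerivAt (mu 3 2) (dmu 3 2 y) y := hasFDerivAt_mu y
  have h34 : HasFDerivAt (mu 3 4) (dmu 3 4 y) y := hasFDerivAt_mu y
  exact ((h13.mul h13).add (((h12.add h14).mul (h12.add h14)).const_mul (1 / 2 : ℝ))).add
    (((h32.add h34).mul (h32.add h34)).const_mul (1 / 2 : ℝ))

/-- the Hamiltonian vector field of `-ww` (up to the factor). -/
def XX (y : Fin 5 → ℂ) : Fin 5 → ℂ := fun j =>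
  2 * Complex.I * ((NN y : ℂ) * zeta y j - QQ y * conj (zeta y j))

lemma key_identity (y ω : Fin 5 → ℂ) : 2 * (herm (XX y) ω).im = - dww y ω := by
  simp only [dww, _root_.add_apply, _root_.smul_apply, smul_eq_mul,
    dmu_apply, mu_eq]
  simp only [herm, Fin.sum_univ_five, XX, zeta, NN, QQ]
  simp [Complex.normSq_apply, Complex.mul_re, Complex.mul_im, pow_two, Complex.div_ofNat_re,
    Complex.div_ofNat_im, Complex.conj_ofNat]
  ring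

lemma hasDerivAt_ratio (a1 a2 d : ℂ) (t : ℝ) (h : 1 + d * (t : ℂ) ^ 2 ≠ 0) :
    HasDerivAt (fun s : ℝ => (a2 * (s : ℂ) ^ 2 + a1 * (s : ℂ)) / (1 + d * (s : ℂ) ^ 2))
      (((2 * a2 * t + a1) * (1 + d * (t : ℂ) ^ 2) - (a2 * (t : ℂ) ^ 2 + a1 * t) * (2 * d * t))
        / (1 + d * (t : ℂ) ^ 2) ^ 2) t := by
  have hs : HasDerivAt (fun s : ℝ => (s : ℂ)) 1 t := Complex.ofRealCLM.hasDerivAt
  have hn := ((hs.pow 2).const_mul a2).add (hs.const_mul a1)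
  have hd := ((hs.pow 2).const_mul d).const_add 1
  refine (hn.div hd h).congr_deriv ?_
  simp
  ring

lemma hasDerivAt_Btw (c : ℝ) (z : Fin 5 → ℂ) (t : ℝ) :
    HasDerivAt (fun s : ℝ => Btw (c * s) z)
      ((c / (1 + (c * t) ^ 2 * ww z)) • XX (Btw (c * t) z)) t := by
  rw [hasDerivAt_pi]
  intro j
  have hD := DD_ne (c * t) z
  have hD' : 1 + ((c : ℂ) ^ 2 * (ww z : ℂ)) * (t : ℂ) ^ 2 ≠ 0 := by
    have e : 1 + ((c : ℂ) ^ 2 * (ww z : ℂ)) * (t : ℂ) ^ 2 = ((1 + (c * t) ^ 2 * ww z : ℝ) : ℂ) := by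
      push_cast; ring
    rw [e]; exact hD
  have hA := hasDerivAt_ratio (2 * Complex.I * c * NN z) (-2 * (c : ℂ) ^ 2 * ww z)
    ((c : ℂ) ^ 2 * (ww z : ℂ)) t hD'
  have hB := hasDerivAt_ratio (-2 * Complex.I * c * QQ z) 0 ((c : ℂ) ^ 2 * (ww z : ℂ)) t hD'
  have h := ((hA.mul_const (zeta z j)).add (hB.mul_const (conj (zeta z j)))).const_add (z j)
  have e1 : (fun s : ℝ => Btw (c * s) z j) = fun s : ℝ => z j +
      ((-2 * (c : ℂ) ^ 2 * ww z * (s : ℂ) ^ 2 + 2 * Complex.I * c * NN z * (s : ℂ))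
          / (1 + (c : ℂ) ^ 2 * (ww z : ℂ) * (s : ℂ) ^ 2) * zeta z j
        + (0 * (s : ℂ) ^ 2 + -2 * Complex.I * c * QQ z * (s : ℂ))
          / (1 + (c : ℂ) ^ 2 * (ww z : ℂ) * (s : ℂ) ^ 2) * conj (zeta z j)) := by
    funext s
    simp only [Btw]
    push_cast
    ring
  rw [e1]
  refine h.congr_deriv ?_
  simp only [Pi.smul_apply, Complex.real_smul, XX, NN_Btw, QQ_Btw]
  rw [Btw_eq_lin, zeta_lin, map_add, map_mul, map_mul, Complex.conj_conj, conj_pp, conj_bb]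
  simp only [pp, bb]
  have hD2 : (1 : ℂ) + (c : ℂ) ^ 2 * (t : ℂ) ^ 2 * (ww z : ℂ) ≠ 0 := by
    have e : (1 : ℂ) + (c : ℂ) ^ 2 * (t : ℂ) ^ 2 * (ww z : ℂ)
        = 1 + ((c : ℂ) ^ 2 * (ww z : ℂ)) * (t : ℂ) ^ 2 := by ring
    rw [e]; exact hD'
  push_cast
  have hD3 : (1 : ℂ) + ((c : ℂ) * (t : ℂ)) ^ 2 * (ww z : ℂ) ≠ 0 := by
    have e : (1 : ℂ) + ((c : ℂ) * (t : ℂ)) ^ 2 * (ww z : ℂ)
        = 1 + ((c : ℂ) ^ 2 * (ww z : ℂ)) * (t : ℂ) ^ 2 := by ring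
    rw [e]; exact hD'
  field_simp
  rw [ww_cast]
  have hI : Complex.I ^ 2 = -1 := Complex.I_sq
  ring_nf
  simp only [hI]
  ring

/-- The Cayley–Casimir twist as a `HamiltonianConeLift`: `Ψ (t, z) = Btw (c t) z`. -/
def casimirLift (c : ℝ) : HamiltonianConeLift where
  Ψ := fun p => Btw (c * p.1) p.2
  H := fun p => -c * (ww p.2 * ell ((c * p.1) ^ 2 * ww p.2))
  smooth_Ψ := contDiff_Btw c
  smooth_H := contDiff_HH c
  mapsTo_cone := fun t z hz => Btw_mem_unitCone _ hz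
  compatible := fun t z _ a ha => ⟨a, Btw_smul _ ha z⟩
  start := fun z _ => ⟨1, by simp [Btw_zero]⟩
  invariant := fun t z _ a ha => by simp only [ww_smul ha]
  hamilton := by
    intro t _ z _ ω _
    simp only
    rw [(hasDerivAt_Btw c z t).deriv, herm_real_smul_left]
    set y := Btw (c * t) z with hy
    have hw : ww y = ww z := ww_Btw _ _
    have hd : HasFDerivAt (fun x : Fin 5 → ℂ => -c * (ww x * ell ((c * t) ^ 2 * ww x)))
        ((-c) • ((1 / (1 + (c * t) ^ 2 * ww y)) • dww y)) y :=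
      ((hasDerivAt_mul_ell (sq_nonneg (c * t)) (ww_nonneg y)).comp_hasFDerivAt y
        (hasFDerivAt_ww y)).const_mul (-c)
    rw [hd.fderiv, hw]
    have hk := key_identity y ω
    simp only [_root_.smul_apply, smul_eq_mul, Complex.mul_im, Complex.ofReal_re,
      Complex.ofReal_im, zero_mul, add_zero]
    have : dww y ω = -(2 * (herm (XX y) ω).im) := by rw [hk]; ring
    rw [this]
    ring

@[simp] lemma casimirLift_Ψ (c t : ℝ) (z : Fin 5 → ℂ) :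
    (casimirLift c).Ψ (t, z) = Btw (c * t) z := rfl

lemma casimirLift_Ψ_zero (c : ℝ) (z : Fin 5 → ℂ) : (casimirLift c).Ψ (0, z) = z := by
  simp [Btw_zero]

lemma casimirLift_Ψ_one (c : ℝ) (z : Fin 5 → ℂ) : (casimirLift c).Ψ (1, z) = Btw c z := by
  simp

end

end Crest.Agent.S0316Aux.H99
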