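import Crest.Prelude.Def_QuadricHamiltonian

/-!
helper86: real matrices acting on `Fin 5 → ℂ`; orthogonal matrices preserve `herm`, the complex
bilinear form, the unit cone and cone tangent vectors.
-/

set_option autoImplicit false

namespace Crest.Agent.S0316Aux.Orth86

open Crest.GeometryTopology.Quadric

/-- The complex bilinear form. -/
def bil (u w : Fin 5 → ℂ) : ℂ := ∑ j, u j * w j

/-- Action of a real `5 × 5` matrix on complex 5-space. -/
def act (O : Matrix (Fin 5) (Fin 5) ℝ) (z : Fin 5 → ℂ) : Fin 5 → ℂ :=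
  fun i => ∑ j, (O i j : ℂ) * z j

lemma act_apply (O : Matrix (Fin 5) (Fin 5) ℝ) (z : Fin 5 → ℂ) (i : Fin 5) :
    act O z i = ∑ j, (O i j : ℂ) * z j := rfl

lemma act_one (z : Fin 5 → ℂ) : act 1 z = z := by
  funext i
  simp only [act, Matrix.one_apply]
  rw [Finset.sum_eq_single i]
  · simp
  · intro j _ hj
    simp [Ne.symm hj]
  · simp

lemma act_zero (z : Fin 5 → ℂ) : act 0 z = 0 := by
  funext i
  simp [act]

lemma act_add (A B : Matrix (Fin 5) (Fin 5) ℝ) (z : Fin 5 → ℂ) :
    act (A + B) z = act A z + act B z := by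
  funext i
  simp [act, add_mul, Finset.sum_add_distrib]

lemma act_smul_mat (r : ℝ) (A : Matrix (Fin 5) (Fin 5) ℝ) (z : Fin 5 → ℂ) :
    act (r • A) z = (r : ℂ) • act A z := by
  funext i
  simp [act, Finset.mul_sum, mul_assoc]

lemma act_neg (A : Matrix (Fin 5) (Fin 5) ℝ) (z : Fin 5 → ℂ) :
    act (-A) z = - act A z := by
  funext i
  simp [act]

lemma act_vadd (A : Matrix (Fin 5) (Fin 5) ℝ) (z w : Fin 5 → ℂ) :
    act A (z + w) = act A z + act A w := by
  funext i
  simp [act, mul_add, Finset.sum_add_distrib]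

lemma act_smul (A : Matrix (Fin 5) (Fin 5) ℝ) (c : ℂ) (z : Fin 5 → ℂ) :
    act A (c • z) = c • act A z := by
  funext i
  simp only [act, Pi.smul_apply, smul_eq_mul, Finset.mul_sum]
  refine Finset.sum_congr rfl fun j _ => by ring

lemma act_mul (A B : Matrix (Fin 5) (Fin 5) ℝ) (z : Fin 5 → ℂ) :
    act (A * B) z = act A (act B z) := by
  funext i
  simp only [act, Matrix.mul_apply, Complex.ofReal_sum, Complex.ofReal_mul, Finset.sum_mul,
    Finset.mul_sum]
  rw [Finset.sum_comm]
  refine Finset.sum_congr rfl fun j _ => Finset.sum_congr rfl fun k _ => by ring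

/-- adjoint relation for `bil`. -/
lemma bil_act_left (A : Matrix (Fin 5) (Fin 5) ℝ) (u w : Fin 5 → ℂ) :
    bil (act A u) w = bil u (act A.transpose w) := by
  simp only [bil, act, Matrix.transpose_apply, Finset.sum_mul, Finset.mul_sum]
  rw [Finset.sum_comm]
  refine Finset.sum_congr rfl fun j _ => Finset.sum_congr rfl fun k _ => by ring

/-- adjoint relation for `herm`. -/
lemma herm_act_left (A : Matrix (Fin 5) (Fin 5) ℝ) (u w : Fin 5 → ℂ) :
    herm (act A u) w = herm u (act A.transpose w) := by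
  simp only [herm, act, Matrix.transpose_apply, Finset.sum_mul, Finset.mul_sum, map_sum, map_mul,
    Complex.conj_ofReal]
  rw [Finset.sum_comm]
  refine Finset.sum_congr rfl fun j _ => Finset.sum_congr rfl fun k _ => by ring

lemma herm_act_act {O : Matrix (Fin 5) (Fin 5) ℝ} (hO : O.transpose * O = 1) (u w : Fin 5 → ℂ) :
    herm (act O u) (act O w) = herm u w := by
  rw [herm_act_left, ← act_mul, hO, act_one]

lemma bil_act_act {O : Matrix (Fin 5) (Fin 5) ℝ} (hO : O.transpose * O = 1) (u w : Fin 5 → ℂ) :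
    bil (act O u) (act O w) = bil u w := by
  rw [bil_act_left, ← act_mul, hO, act_one]

lemma mem_unitCone_iff (z : Fin 5 → ℂ) : z ∈ unitCone ↔ herm z z = 1 ∧ bil z z = 0 := by
  simp [unitCone, bil, sq]

lemma mem_coneTangent_iff (z w : Fin 5 → ℂ) :
    w ∈ coneTangent z ↔ (herm z w).re = 0 ∧ bil z w = 0 := by
  simp [coneTangent, bil]

lemma act_mem_unitCone {O : Matrix (Fin 5) (Fin 5) ℝ} (hO : O.transpose * O = 1)
    {z : Fin 5 → ℂ} (hz : z ∈ unitCone) : act O z ∈ unitCone := by
  rw [mem_unitCone_iff] at hz ⊢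
  rw [herm_act_act hO, bil_act_act hO]
  exact hz

lemma act_mem_coneTangent {O : Matrix (Fin 5) (Fin 5) ℝ} (hO : O.transpose * O = 1)
    {z w : Fin 5 → ℂ} (hw : w ∈ coneTangent z) : act O w ∈ coneTangent (act O z) := by
  rw [mem_coneTangent_iff] at hw ⊢
  rw [herm_act_act hO, bil_act_act hO]
  exact hw

/-- `herm` is conjugate symmetric. -/
lemma herm_conj (u w : Fin 5 → ℂ) : starRingEnd ℂ (herm u w) = herm w u := by
  simp only [herm, map_sum, map_mul, Complex.conj_conj]
  refine Finset.sum_congr rfl fun j _ => by ring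

lemma herm_add_right (u w w' : Fin 5 → ℂ) : herm u (w + w') = herm u w + herm u w' := by
  simp [herm, mul_add, Finset.sum_add_distrib]

lemma herm_add_left (u u' w : Fin 5 → ℂ) : herm (u + u') w = herm u w + herm u' w := by
  simp [herm, add_mul, Finset.sum_add_distrib]

lemma herm_smul_right (c : ℂ) (u w : Fin 5 → ℂ) : herm u (c • w) = c * herm u w := by
  simp only [herm, Pi.smul_apply, smul_eq_mul, Finset.mul_sum]
  refine Finset.sum_congr rfl fun j _ => by ring

lemma herm_smul_left (c : ℂ) (u w : Fin 5 → ℂ) :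
    herm (c • u) w = starRingEnd ℂ c * herm u w := by
  simp only [herm, Pi.smul_apply, smul_eq_mul, Finset.mul_sum, map_mul]
  refine Finset.sum_congr rfl fun j _ => by ring

/-- For antisymmetric `J`, `herm (act J z) z` is purely imaginary. -/
lemma herm_act_antisymm_re {J : Matrix (Fin 5) (Fin 5) ℝ} (hJ : J.transpose = -J)
    (z : Fin 5 → ℂ) : (herm (act J z) z).re = 0 := by
  have h1 : herm (act J z) z = - herm z (act J z) := by
    rw [herm_act_left, hJ, act_neg]
    simp [herm]
  have h2 : starRingEnd ℂ (herm (act J z) z) = herm z (act J z) := herm_conj _ _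
  have h3 : starRingEnd ℂ (herm (act J z) z) = - herm (act J z) z := by
    rw [h2, h1, neg_neg]
  have := congrArg Complex.re h3
  simp at this
  linarith

/-- For antisymmetric `J`, `bil (act J z) z = 0`. -/
lemma bil_act_antisymm {J : Matrix (Fin 5) (Fin 5) ℝ} (hJ : J.transpose = -J)
    (z : Fin 5 → ℂ) : bil (act J z) z = 0 := by
  have h1 : bil (act J z) z = - bil z (act J z) := by
    rw [bil_act_left, hJ, act_neg]
    simp [bil]
  have h2 : bil z (act J z) = bil (act J z) z := by
    simp only [bil]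
    refine Finset.sum_congr rfl fun j _ => by ring
  rw [h2] at h1
  have : (2 : ℂ) * bil (act J z) z = 0 := by linear_combination h1
  simpa using this

end Crest.Agent.S0316Aux.Orth86
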